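import Crest.Agent.R285.DefsP

/-! # Row 285: depth zero and the refinement step -/

set_option autoImplicit false

open MeasureTheory ProbabilityTheory Set
open scoped ENNReal
open Crest.OracleSampling

noncomputable section

namespace Crest.Agent.R285

namespace BaseRef

variable {d : ℕ} {X : Type}

theorem size_nonneg (V : E d → ℝ) (e : Ex d X) (x : X) : 0 ≤ e.size V x := by
  induction e with
  | pt f => exact le_rfl
  | add rest κ r c ap ih _ => exact ih.trans (le_max_left _ _)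

theorem noise_nonneg (e : Ex d X) : 0 ≤ e.noise := by
  induction e with
  | pt f => exact le_rfl
  | add rest κ r c ap ih _ => exact add_nonneg ih (by positivity)

theorem crude_term (hB : StmtBasic) (hC : StmtCov) {V : E d → ℝ} (hV : Admissible d V) {r : ℝ}
    (h0 : 0 < r) (h1 : r ≤ 1 / 2) (c a : E d) :
    ‖GF V (r ^ 2) c - gradient V a‖ ≤ 4 * r * (‖c‖ + ‖c - a‖ / r + √d) := by
  have h2 := hC.crude d 2 V (hB.adm d V hV).1 (r ^ 2) c a (sq_nonneg r)
  have h3 := hC.adm d V hV r c h0.le h1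
  rw [Real.sqrt_sq h0.le] at h2
  have h4 : r * (‖c - a‖ / r) = ‖c - a‖ := by field_simp
  have h5 := norm_nonneg c
  have h6 := norm_nonneg (c - a)
  have h7 := Real.sqrt_nonneg (d : ℝ)
  have h8 := mul_le_mul_of_nonneg_left h3 (sq_nonneg r)
  have h9 : r ^ 2 * (4 * ‖c‖ + 4 * r * √d) ≤ 2 * (r * ‖c‖) + r * √d := by
    have e1 : r * (r * ‖c‖) ≤ 1 / 2 * (r * ‖c‖) := by gcongr
    have e2 : r * r * (r * √d) ≤ 1 / 2 * (1 / 2) * (r * √d) := by gcongr
    nlinarith
  nlinarith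

theorem base_aux (hB : StmtBasic) (hC : StmtCov) (hR : StmtReal) [MeasurableSpace X] {smax v : ℝ}
    (hs : smax ≤ 1 / 2) (hv : 0 ≤ v) (e : Ex d X) (hm : e.Meas)
    (ht : e.Terms fun r' _ => 0 < r' ∧ r' ≤ smax) :
    Realizes e.width (fun V x => gauss (e.val V x) v)
      fun V x => 2 * e.noise * (e.size V x + √d) := by
  induction e with
  | pt f =>
    exact hR.mono d X _ _ _ _ _ _ (by simp [Ex.width]) (fun _ _ _ => rfl)
      (fun _ _ _ => by simp [Ex.noise]) (hR.pure d X f v hm)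
  | add rest κ r c ap ih _ =>
    have h1 := hR.add d X _ _ v 0 _ _ _ _ hv le_rfl
      (fun V _ x => mul_nonneg (mul_nonneg zero_le_two (noise_nonneg rest))
        (add_nonneg (size_nonneg V rest x) (Real.sqrt_nonneg _)))
      (fun V _ x => by positivity) (ih hm.1 ht.2)
      (hR.query d X ap κ 0 (fun V x => GF V (r ^ 2) (c.val V x)) hm.2.2)
    refine hR.mono d X _ _ _ _ _ _ (by simp [Ex.width]) (fun _ _ _ => by simp [Ex.val])
      (fun V hV x => ?_) h1
    have h2 := crude_term hB hC hV ht.1.1 (ht.1.2.trans hs) (c.val V x) (ap x)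
    have h3 : rest.size V x ≤ (Ex.add rest κ r c ap).size V x := le_max_left _ _
    have h4 : ‖c.val V x‖ + ‖c.val V x - ap x‖ / r ≤ (Ex.add rest κ r c ap).size V x :=
      (le_max_right _ _).trans (le_max_right _ _)
    have h5 := noise_nonneg rest
    have h6 := ht.1.1
    simp only [Ex.noise, abs_of_pos h6]
    have h7 : |κ| * ‖GF V (r ^ 2) (c.val V x) - gradient V (ap x)‖ ≤
        |κ| * (4 * r * ((Ex.add rest κ r c ap).size V x + √d)) :=
      mul_le_mul_of_nonneg_left (h2.trans (by gcongr)) (abs_nonneg κ)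
    have h8 : 2 * rest.noise * (rest.size V x + √d) ≤
        2 * rest.noise * ((Ex.add rest κ r c ap).size V x + √d) := by gcongr
    linarith

theorem good_pt (th : ℕ → ℝ) (hth : ∀ j, 0 ≤ th j) (smax : ℝ) (k W : ℕ) {r : ℝ} (hr : 0 ≤ r)
    (f : X → E d) : (Ex.pt f).Good th smax k W 1 r := by
  cases k with
  | zero => exact ⟨Nat.zero_le _, mul_nonneg (mul_nonneg zero_le_one (hth _)) hr, trivial⟩
  | succ k => exact ⟨Nat.zero_le _, mul_nonneg (mul_nonneg zero_le_one (hth _)) hr, trivial⟩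

end BaseRef

open _root_.Crest.Agent.R285.BaseRef

theorem baseStmt (hB : StmtBasic) (hC : StmtCov) (hR : StmtReal) : StmtBase := by
  intro d th smax ρ W A hs X _ e r v hm hr hv hg
  refine hR.mono d X _ _ _ _ _ _ (Nat.cast_le.2 hg.1) (fun _ _ _ => rfl) (fun V _ x => ?_)
    (base_aux hB hC hR hs ((sq_nonneg _).trans hv) e hm hg.2.2)
  have h1 := hg.2.1
  have h2 := add_nonneg (size_nonneg V e x) (Real.sqrt_nonneg (d : ℝ))
  nlinarith

theorem refOfStmt (hB : StmtBasic) (hC : StmtCov) (hR : StmtReal) (hL : StmtLE) (hT : StmtTr)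
    (hS : StmtSize) (hM : StmtMarg) : StmtRefOf := by
  intro n C b hcore d th smax ρ η Q k hth hth4 hρ hCρ hsmax hsth hth1 hη hCR s hs hss
  have hC1 := hcore.one
  have hρ8 : ρ ≤ 1 / 8 := by nlinarith
  have hs2 : s ≤ 1 / 2 := hss.trans hsmax
  have hδ0 : 0 < 2 * s ^ 2 := by positivity
  have hδ1 : 2 * s ^ 2 ≤ 1 / 2 := by nlinarith
  have hδth : 2 * s ^ 2 ≤ th k := le_trans (by nlinarith) hsth
  have hth0 : 0 < th k := hδ0.trans_le hδth
  obtain ⟨ey, R, hsm, hnd, -, -, -, hφ⟩ := hcore.out ρ 0 (th k * ρ ^ 2) (2 * s ^ 2) hρ hCρ hδ0 hδ1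
    (by positivity) (by rw [abs_zero, zero_mul]; positivity) (by gcongr)
    (mul_le_of_le_one_left (sq_nonneg ρ) hth1)
  obtain ⟨β, hβ⟩ : ∃ β, β = C * (th k * ρ ^ 2) / (ρ * (2 * s ^ 2)) := ⟨_, rfl⟩
  rw [← hβ] at hsm hnd
  have hβ0 : 0 ≤ β := by rw [hβ]; positivity
  have hβδ : β * (2 * s ^ 2) = C * ρ * th k := by rw [hβ]; field_simp
  have hγ0 : 0 ≤ C * ρ := by positivity
  have hβδ' : β * (2 * s ^ 2) ≤ C * ρ := by rw [hβδ]; exact mul_le_of_le_one_right hγ0 hth1
  have hsρ : 0 < s * ρ := by positivity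
  obtain ⟨e, he⟩ : ∃ e, e = (Ex.pt id : Ex d (E d)).tr s ρ ey (s * ρ / 2)
    (.pt fun x : E d × E d × E d => (1 / 2 : ℝ) • (x.1 + x.2.1)) := ⟨_, rfl⟩
  have hmeas : e.Meas := he ▸ (hT.meas d (E d) (Ex.pt id) s ρ measurable_id).1 ey _ _
    (show Measurable fun x : E d × E d × E d => (1 / 2 : ℝ) • (x.1 + x.2.1) by fun_prop)
  have hgood : e.Good th smax k (2 * b) 1 s := he ▸ (hT.good d (E d) th smax k (2 * b) b 1 s ρ β
    (C * ρ) (Ex.pt id) hth hth4 le_rfl le_rfl hs hss hρ hρ8 (by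
      rw [mul_assoc, hβδ]
      have : 3 * ρ * (C * ρ) ≤ 1 := by nlinarith
      nlinarith) (good_pt th hth smax k _ hs.le _)).2 ey _ s _ hsm hnd
      (by rw [abs_of_pos (by positivity)]; linarith) (by linarith)
  have hval : ∀ V, Admissible d V → ∀ x P z : E d, e.val V (x, P, z) = (1 / 2 : ℝ) • (x + P) +
      (s * ρ / 2) • ey.val (fun y => V (x + s • y)) ((s * ρ)⁻¹ • (P - x), z) :=
    fun V hV x P z => he ▸ hT.val d (E d) (Ex.pt id) s ρ b β (C * ρ) V hV hs hρ (by linarith)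
      x P z ey _ _ hnd
  have hpot : ∀ V, Admissible d V → ∀ x : E d, Pot (2 * s ^ 2) fun y => V (x + s • y) :=
    fun V hV x => hB.scale d 2 V x s (hB.adm d V hV).1 hs
  obtain ⟨K, hK⟩ : ∃ K, K = 6 * ρ * (2 * s ^ 2) * ey.abss := ⟨_, rfl⟩
  have hK0 : 0 ≤ K := by
    have := ey.abss_nonneg
    rw [hK]
    positivity
  have hlip : ∀ V, Admissible d V → ∀ (x : E d) ζ ζ', ‖ey.val (fun y => V (x + s • y)) ζ -
      ey.val (fun y => V (x + s • y)) ζ'‖ ≤ K * ‖ζ - ζ'‖ := fun V hV x =>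
    hK ▸ (hL d _ _ (hpot V hV x) hδ1 b β (C * ρ) ρ ey hβ0 hγ0 hρ.le (by linarith)
      (by nlinarith) hnd).1
  have h2 := hCR _ e s ((ρ * s / 2) ^ 2) hmeas hs le_rfl hgood
  have h3 := hR.bind d (E d) 0 Q ((s * ρ) ^ 2) ((ρ * s / 2) ^ 2) (1 / 2 + K / 2) (s * ρ / 2 * K)
    (16 * η) (16 * η * s) (fun _ x => x) (fun V x => e.val V x) (fun _ _ => 0)
    (fun _ x => η * s * (5 * ‖x‖ + 17 * √d)) (fun V x => η * s * (e.size V x + √d))
    (by positivity) (by positivity) (by positivity) (by positivity) (fun _ _ _ => le_rfl)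
    (fun _ _ _ => by positivity) (fun V hV x P z P' z' => by
      rw [hval V hV, hval V hV]
      have e1 : ∀ u u' : E d, (1 / 2 : ℝ) • (x + P) + (s * ρ / 2) • u -
          ((1 / 2 : ℝ) • (x + P') + (s * ρ / 2) • u') =
          (1 / 2 : ℝ) • (P - P') + (s * ρ / 2) • (u - u') := fun u u' => by module
      rw [e1]
      refine (norm_add_le _ _).trans ?_
      rw [norm_smul, norm_smul, Real.norm_of_nonneg (by norm_num),
        Real.norm_of_nonneg (by positivity)]
      have h4 := hlip V hV x ((s * ρ)⁻¹ • (P - x), z) ((s * ρ)⁻¹ • (P' - x), z')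
      have h5 : ‖(((s * ρ)⁻¹ • (P - x), z) - ((s * ρ)⁻¹ • (P' - x), z') : E d × E d)‖ ≤
          (s * ρ)⁻¹ * ‖P - P'‖ + ‖z - z'‖ := by
        rw [Prod.mk_sub_mk, Prod.norm_mk, ← smul_sub, sub_sub_sub_cancel_right, norm_smul,
          Real.norm_of_nonneg (by positivity)]
        exact max_le (le_add_of_nonneg_right (norm_nonneg _))
          (le_add_of_nonneg_left (by positivity))
      have h6 := mul_le_mul_of_nonneg_left (h4.trans (mul_le_mul_of_nonneg_left h5 hK0))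
        (by positivity : 0 ≤ s * ρ / 2)
      have h7 : s * ρ / 2 * (K * ((s * ρ)⁻¹ * ‖P - P'‖ + ‖z - z'‖)) =
          K / 2 * ‖P - P'‖ + s * ρ / 2 * K * ‖z - z'‖ := by field_simp
      linarith)
    (fun V hV x P z => by
      have h4 : e.size V (x, P, z) ≤ Bd V (Ex.pt id) s (x, P, z) := he ▸
        (hS d (E d) (Ex.pt id) s ρ b β (C * ρ) V hV hs hs2 hρ hρ8 hβ0 hγ0 (by linarith)
          (x, P, z)).2.1 ey _ _ hnd
      have h5 : Bd V (Ex.pt id) s (x, P, z) =
          (1 + 8 * s) * ‖x‖ + 16 * (‖P - x‖ / s + ‖z‖ + √d) := by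
        simp [Bd, Ex.size, Ex.val]
      have h6 : (1 + 8 * s) * ‖x‖ ≤ 5 * ‖x‖ :=
        mul_le_mul_of_nonneg_right (by linarith) (norm_nonneg _)
      have h7 : η * s * (e.size V (x, P, z) + √d) ≤
          η * s * (5 * ‖x‖ + 16 * (‖P - x‖ / s + ‖z‖ + √d) + √d) :=
        mul_le_mul_of_nonneg_left (by linarith) (by positivity)
      refine h7.trans (le_of_eq ?_)
      field_simp
      ring)
    (hR.pure d (E d) (fun x => x) _ measurable_id) h2
  have h4 := hR.mono d (E d) _ Q _ _ _ (fun _ x => 64 * η * s * (‖x‖ + √d)) (zero_add Q).le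
    (fun _ _ _ => rfl) (fun V _ x => by
      rw [Real.sqrt_sq hsρ.le]
      have h5 := mul_nonneg (mul_nonneg hη hs.le) (norm_nonneg x)
      have h6 := mul_nonneg (mul_nonneg hη hs.le) (Real.sqrt_nonneg (d : ℝ))
      have h7 := mul_le_mul_of_nonneg_right hρ8 h6
      nlinarith) h3
  refine hR.mono d (E d) _ Q _ _ _ _ le_rfl (fun _ _ _ => rfl) (fun V _ x => le_of_eq ?_)
    (hR.trans d (E d) Q _ _ _ (fun _ x => 2 * C * ρ ^ n * s * (‖x‖ + √d))
      (fun _ _ _ => by positivity) (fun _ _ _ => by positivity) (fun V hV x => ?_) h4)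
  · ring
  obtain ⟨φ, hφm, hφl, hφe, -⟩ := hφ d _ (hpot V hV x)
  have hcont : Continuous (ey.val fun y => V (x + s • y)) :=
    (LipschitzWith.of_dist_le_mul (K := ⟨K, hK0⟩) fun ζ ζ' => by
      rw [dist_eq_norm, dist_eq_norm]; exact hlip V hV x ζ ζ').continuous
  have hf : (fun o : (E d × E d) × E d =>
      e.val V (x, x + √((s * ρ) ^ 2) • o.1.1, o.1.2) + √((ρ * s / 2) ^ 2) • o.2) =
      fun o => x + (s * ρ / 2) • (o.1.1 + ey.val (fun y => V (x + s • y)) o.1 + o.2) := by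
    funext o
    rw [hval V hV, Real.sqrt_sq hsρ.le, Real.sqrt_sq (by positivity), add_sub_cancel_left,
      inv_smul_smul₀ hsρ.ne']
    module
  have hg : post V (s ^ 2 * (1 - ρ ^ 2 / 2)) (s ^ 2 * (ρ ^ 2 / 2)) x =
      (((gam d).prod (gam d)).prod (gam d)).map
        fun o => x + (s * ρ / 2) • ((φ o.1).1 + o.2) := by
    rw [← hB.scalePost d V x s _ _ hs (by nlinarith) (by positivity),
      ← (hM d _ _ (hpot V hV x) ρ hρ (by linarith)).2, ← hφl,
      Measure.map_map measurable_fst hφm]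
    conv_lhs => enter [2, 2, 2]; rw [← Measure.map_id (μ := gam d)]
    rw [Measure.map_prod_map _ _ (measurable_fst.comp hφm) measurable_id,
      Measure.map_map (by fun_prop) (by fun_prop), Measure.map_map (by fun_prop) (by fun_prop)]
    congr 1
    funext o
    simp only [Function.comp_apply, Prod.map_fst, Prod.map_snd, id, smul_smul, mul_div_assoc]
  rw [hf, hg]
  refine hR.couple d _ _ _ _ _ (by fun_prop) (by fun_prop) ?_
  have e1 : ∀ o : (E d × E d) × E d,
      ‖x + (s * ρ / 2) • (o.1.1 + ey.val (fun y => V (x + s • y)) o.1 + o.2) -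
        (x + (s * ρ / 2) • ((φ o.1).1 + o.2))‖ₑ = ENNReal.ofReal (s * ρ / 2) *
        ‖o.1.1 + ey.val (fun y => V (x + s • y)) o.1 - (φ o.1).1‖ₑ := fun o => by
    rw [add_sub_add_left_eq_sub, ← smul_sub, add_sub_add_right_eq_sub, enorm_smul,
      Real.enorm_of_nonneg (by positivity)]
  simp only [e1]
  have hm1 : Measurable fun ζ : E d × E d =>
      ‖ζ.1 + ey.val (fun y => V (x + s • y)) ζ - (φ ζ).1‖ₑ := by fun_prop
  rw [lintegral_const_mul _ (hm1.fun_comp measurable_fst),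
    lintegral_prod _ (hm1.fun_comp measurable_fst).aemeasurable]
  simp only [lintegral_const, measure_univ, mul_one]
  refine (mul_le_mul_right hφe _).trans ?_
  rw [← ENNReal.ofReal_mul (by positivity)]
  refine ENNReal.ofReal_le_ofReal ?_
  have h5 : ‖GF (fun y => V (x + s • y)) 1 0‖ ≤ 2 * ‖x‖ + √d := by
    rw [hB.scaleG d 2 V x s 1 0 (hB.adm d V hV).1 hs zero_le_one, smul_zero, add_zero, mul_one,
      norm_smul, Real.norm_of_nonneg hs.le]
    have h6 := mul_le_mul_of_nonneg_left (hC.adm d V hV s x hs.le hs2) hs.le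
    have e2 : s * ‖x‖ ≤ 1 / 2 * ‖x‖ := by gcongr
    have e3 : s * s * √d ≤ 1 / 2 * (1 / 2) * √d := by gcongr
    nlinarith
  have h6 : √d + ‖GF (fun y => V (x + s • y)) 1 0‖ ≤ 2 * (‖x‖ + √d) := by linarith
  calc s * ρ / 2 * (C * ρ ^ n * (√d + ‖GF (fun y => V (x + s • y)) 1 0‖))
      ≤ s * 2 / 2 * (C * ρ ^ n * (2 * (‖x‖ + √d))) := by gcongr; linarith
    _ = _ := by ring

end Crest.Agent.R285
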