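import Crest.Agent.R285.Defs

/-!
# Row 285: basic facts on potentials and their Gaussian smoothings
-/

set_option autoImplicit false

open MeasureTheory ProbabilityTheory Set
open scoped ENNReal NNReal ContDiff RealInnerProductSpace
open Crest.OracleSampling

noncomputable section

namespace Crest.Agent.R285

namespace Basic

variable {d : ℕ}

lemma line_deriv {V : E d → ℝ} (hV : ContDiff ℝ 2 V) (x h : E d) (s : ℝ) :
    HasDerivAt (fun s : ℝ => V (x + s • h)) (fderiv ℝ V (x + s • h) h) s := by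
  have h1 : HasDerivAt (fun s : ℝ => x + s • h) h s := by
    simpa using ((hasDerivAt_id s).smul_const h).const_add x
  have h2 : HasFDerivAt V (fderiv ℝ V (x + s • h)) (x + s • h) :=
    (hV.differentiable (by norm_num) _).hasFDerivAt
  exact h2.comp_hasDerivAt s h1

lemma fderiv_diff {V : E d → ℝ} (hV : ContDiff ℝ 2 V) : Differentiable ℝ (fderiv ℝ V) := by
  have : ContDiff ℝ 1 (fderiv ℝ V) := hV.fderiv_right (by norm_num)
  exact this.differentiable (by norm_num)

lemma line_deriv2 {V : E d → ℝ} (hV : ContDiff ℝ 2 V) (x h : E d) (s : ℝ) :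
    HasDerivAt (fun s : ℝ => fderiv ℝ V (x + s • h) h)
      (fderiv ℝ (fderiv ℝ V) (x + s • h) h h) s := by
  have h1 : HasDerivAt (fun s : ℝ => x + s • h) h s := by
    simpa using ((hasDerivAt_id s).smul_const h).const_add x
  have h2 : HasFDerivAt (fderiv ℝ V) (fderiv ℝ (fderiv ℝ V) (x + s • h)) (x + s • h) :=
    (fderiv_diff hV _).hasFDerivAt
  have h3 := h2.comp_hasDerivAt s h1
  have h4 := h3.clm_apply (hasDerivAt_const s h)
  simpa using h4

/-- a `C²` function with Hessian at least `β` is `β`-convex -/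
lemma convex_of_hess {V : E d → ℝ} (hV : ContDiff ℝ 2 V) (β : ℝ)
    (hH : ∀ x h, β * ‖h‖ ^ 2 ≤ fderiv ℝ (fderiv ℝ V) x h h) :
    ConvexOn ℝ univ (fun x => V x - β / 2 * ‖x‖ ^ 2) := by
  refine ⟨convex_univ, fun x _ y _ a b ha hb hab => ?_⟩
  set h := y - x with hh
  let g : ℝ → ℝ := fun s => V (x + s • h) - β / 2 * ‖x + s • h‖ ^ 2
  let g' : ℝ → ℝ := fun s => fderiv ℝ V (x + s • h) h - β * (⟪x, h⟫ + s * ‖h‖ ^ 2)
  have hn : ∀ s : ℝ, ‖x + s • h‖ ^ 2 = ‖x‖ ^ 2 + 2 * s * ⟪x, h⟫ + s ^ 2 * ‖h‖ ^ 2 := by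
    intro s
    rw [norm_add_sq_real, inner_smul_right, norm_smul, mul_pow, Real.norm_eq_abs, sq_abs]
    ring
  have hg : ∀ s, HasDerivAt g (g' s) s := by
    intro s
    have h1 : HasDerivAt (fun s : ℝ => β / 2 * (‖x‖ ^ 2 + 2 * s * ⟪x, h⟫ + s ^ 2 * ‖h‖ ^ 2))
        (β * (⟪x, h⟫ + s * ‖h‖ ^ 2)) s := by
      have := ((((hasDerivAt_id s).const_mul 2).mul_const ⟪x, h⟫).const_add (‖x‖ ^ 2)).add
        ((hasDerivAt_pow 2 s).mul_const (‖h‖ ^ 2))
      have := this.const_mul (β / 2)
      refine HasDerivAt.congr_deriv this ?_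
      simp
      ring
    have := (line_deriv hV x h s).sub h1
    simp only [g, hn]
    exact this
  have hg' : ∀ s, HasDerivAt g' (fderiv ℝ (fderiv ℝ V) (x + s • h) h h - β * ‖h‖ ^ 2) s := by
    intro s
    have h1 : HasDerivAt (fun s : ℝ => β * (⟪x, h⟫ + s * ‖h‖ ^ 2)) (β * ‖h‖ ^ 2) s := by
      have := ((((hasDerivAt_id s).mul_const (‖h‖ ^ 2)).const_add ⟪x, h⟫).const_mul β)
      simpa using this
    exact (line_deriv2 hV x h s).sub h1
  have hd : deriv g = g' := funext fun s => (hg s).deriv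
  have hconv : ConvexOn ℝ univ g := by
    refine Monotone.convexOn_univ_of_deriv (fun s => (hg s).differentiableAt) ?_
    rw [hd]
    refine monotone_of_deriv_nonneg (fun s => (hg' s).differentiableAt) fun s => ?_
    rw [(hg' s).deriv]
    linarith [hH (x + s • h) h]
  have := hconv.2 (mem_univ 0) (mem_univ 1) ha hb hab
  have e1 : a • x + b • y = x + b • h := by
    have : a = 1 - b := by linarith
    rw [this, hh]; module
  have e2 : x + h = y := by rw [hh]; abel
  simp only [g, smul_eq_mul, mul_zero, mul_one, zero_add, zero_smul, add_zero, one_smul, e2] at this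
  simpa only [e1, smul_eq_mul] using this

lemma bilin_bound (B : E d →L[ℝ] E d →L[ℝ] ℝ) (hs : ∀ h k, B h k = B k h)
    (h0 : ∀ h, 0 ≤ B h h) (h2 : ∀ h, B h h ≤ 2 * ‖h‖ ^ 2) : ‖B‖ ≤ 2 := by
  have key : ∀ h k, B h k ≤ 2 * ‖h‖ * ‖k‖ := by
    intro h k
    rcases eq_or_ne h 0 with rfl | hh
    · simp
    rcases eq_or_ne k 0 with rfl | hk
    · simp
    have hh' : 0 < ‖h‖ := norm_pos_iff.2 hh
    have hk' : 0 < ‖k‖ := norm_pos_iff.2 hk
    have a1 := h0 (‖k‖ • h - ‖h‖ • k)
    have a2 := h2 (‖k‖ • h + ‖h‖ • k)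
    have a3 : ‖‖k‖ • h + ‖h‖ • k‖ ≤ 2 * ‖h‖ * ‖k‖ := by
      refine (norm_add_le _ _).trans ?_
      rw [norm_smul, norm_smul, norm_norm, norm_norm]
      linarith
    have a4 : ‖‖k‖ • h + ‖h‖ • k‖ ^ 2 ≤ (2 * ‖h‖ * ‖k‖) ^ 2 := by gcongr
    simp only [map_add, map_sub, map_smul, add_apply, sub_apply, smul_apply, smul_eq_mul] at a1 a2
    rw [hs k h] at a1 a2
    have a5 : (‖h‖ * ‖k‖) * B h k ≤ (‖h‖ * ‖k‖) * (2 * ‖h‖ * ‖k‖) := by nlinarith
    exact le_of_mul_le_mul_left a5 (by positivity)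
  refine ContinuousLinearMap.opNorm_le_bound _ (by norm_num) fun h => ?_
  refine ContinuousLinearMap.opNorm_le_bound _ (by positivity) fun k => ?_
  rw [Real.norm_eq_abs, abs_le]
  refine ⟨?_, key h k⟩
  have := key h (-k)
  simp only [map_neg, norm_neg] at this
  linarith

lemma norm_grad_sub (V : E d → ℝ) (x y : E d) :
    ‖gradient V x - gradient V y‖ = ‖fderiv ℝ V x - fderiv ℝ V y‖ := by
  rw [gradient, gradient, ← map_sub, LinearIsometryEquiv.norm_map]

lemma adm (V : E d → ℝ) (hV : Admissible d V) :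
    Pot 2 V ∧ ConvexOn ℝ univ (fun x => V x - 1 / 2 * ‖x‖ ^ 2) := by
  obtain ⟨hs, h0, hg0, hH⟩ := hV
  have hH' : ∀ x h, ‖h‖ ^ 2 ≤ fderiv ℝ (fderiv ℝ V) x h h ∧
      fderiv ℝ (fderiv ℝ V) x h h ≤ 2 * ‖h‖ ^ 2 := by
    intro x h
    have := hH x h
    rwa [iteratedFDeriv_two_apply] at this
  have hc1 := convex_of_hess hs 1 fun x h => by simpa using (hH' x h).1
  have hc0 : ConvexOn ℝ univ V := by
    have := convex_of_hess hs 0 fun x h => by
      simpa using (sq_nonneg _).trans (hH' x h).1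
    simpa using this
  refine ⟨⟨by norm_num, hs, fun x => ?_, hc0, fun x y => ?_⟩, hc1⟩
  · have hl : ConvexOn ℝ univ fun s : ℝ => V (0 + s • x) := by
      refine ⟨convex_univ, fun s _ t _ a b ha hb hab => ?_⟩
      have := hc0.2 (mem_univ (s • x)) (mem_univ (t • x)) ha hb hab
      simpa [add_smul, mul_smul] using this
    have hd := line_deriv hs 0 x 0
    have hf : fderiv ℝ V 0 = 0 := by
      have := hg0
      rw [gradient] at this
      simpa using this
    have := hl.le_slope_of_hasDerivAt (mem_univ 0) (mem_univ 1) one_pos hd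
    simpa [slope, hf, h0] using this
  · rw [norm_grad_sub]
    refine Convex.norm_image_sub_le_of_norm_fderiv_le (𝕜 := ℝ) (s := univ)
      (fun z _ => fderiv_diff hs z) (fun z _ => ?_) convex_univ (mem_univ y) (mem_univ x)
    refine bilin_bound _ (fun h k => ?_) (fun h => (sq_nonneg _).trans (hH' z h).1)
      fun h => (hH' z h).2
    exact (hs.contDiffAt.isSymmSndFDerivAt (by simp)).eq h k

lemma grad_scale {V : E d → ℝ} (hV : Differentiable ℝ V) (c : E d) (s : ℝ) (y : E d) :
    gradient (fun y => V (c + s • y)) y = s • gradient V (c + s • y) := by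
  have h1 : HasFDerivAt (fun y : E d => c + s • y) (s • ContinuousLinearMap.id ℝ (E d)) y :=
    ((hasFDerivAt_id y).const_smul s).const_add c
  have h2 := (hV (c + s • y)).hasFDerivAt.comp y h1
  have h3 : fderiv ℝ (fun y => V (c + s • y)) y = s • fderiv ℝ V (c + s • y) := by
    have := h2.fderiv
    rw [show (fun y => V (c + s • y)) = V ∘ fun y => c + s • y from rfl, this]
    ext v
    simp
  rw [gradient, gradient, h3]
  simp

lemma scale {δ : ℝ} {V : E d → ℝ} (c : E d) {s : ℝ} (hV : Pot δ V) (hs : 0 < s) :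
    Pot (δ * s ^ 2) (fun y => V (c + s • y)) := by
  have hd : Differentiable ℝ V := hV.smooth.differentiable (by norm_num)
  refine ⟨by have := hV.pos; positivity, ?_, fun x => hV.nonneg _, ?_, fun x y => ?_⟩
  · exact hV.smooth.comp (contDiff_const.add (contDiff_id.const_smul s))
  · refine ⟨convex_univ, fun x _ y _ a b ha hb hab => ?_⟩
    have := hV.convex.2 (mem_univ (c + s • x)) (mem_univ (c + s • y)) ha hb hab
    have e : a • (c + s • x) + b • (c + s • y) = c + s • (a • x + b • y) := by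
      have : a = 1 - b := by linarith
      rw [this]; module
    rwa [e] at this
  · rw [grad_scale hd, grad_scale hd, ← smul_sub, norm_smul, Real.norm_of_nonneg hs.le]
    have := hV.lip (c + s • x) (c + s • y)
    rw [add_sub_add_left_eq_sub, ← smul_sub, norm_smul, Real.norm_of_nonneg hs.le] at this
    calc s * ‖gradient V (c + s • x) - gradient V (c + s • y)‖ ≤ s * (δ * (s * ‖x - y‖)) := by
          gcongr
      _ = _ := by ring

lemma pt_scale (c x w : E d) {s : ℝ} (t : ℝ) (hs : 0 < s) :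
    c + s • (x + √t • w) = c + s • x + √(s ^ 2 * t) • w := by
  rw [Real.sqrt_mul (sq_nonneg s), Real.sqrt_sq hs.le]
  module

lemma scaleZ (V : E d → ℝ) (c : E d) {s : ℝ} (t : ℝ) (x : E d) (hs : 0 < s) :
    Zf (fun y => V (c + s • y)) t x = Zf V (s ^ 2 * t) (c + s • x) := by
  simp only [Zf, pt_scale c x _ t hs]

lemma scaleF (V : E d → ℝ) (c : E d) {s : ℝ} (t : ℝ) (x : E d) (hs : 0 < s) :
    Ff (fun y => V (c + s • y)) t x = Ff V (s ^ 2 * t) (c + s • x) := by
  simp only [Ff, scaleZ V c t x hs]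

lemma scaleG {δ : ℝ} {V : E d → ℝ} (c : E d) {s : ℝ} (t : ℝ) (x : E d) (hV : Pot δ V)
    (hs : 0 < s) :
    GF (fun y => V (c + s • y)) t x = s • GF V (s ^ 2 * t) (c + s • x) := by
  have hd : Differentiable ℝ V := hV.smooth.differentiable (by norm_num)
  simp only [GF, scaleZ V c t x hs, grad_scale hd, pt_scale c x _ t hs]
  rw [smul_comm s, ← integral_smul s]
  simp only [smul_smul, mul_comm]

lemma scalePost (V : E d → ℝ) (c : E d) {s : ℝ} (t τ : ℝ) (hs : 0 < s) :
    (post (fun y => V (c + s • y)) t τ 0).map (fun y => c + s • y) =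
      post V (s ^ 2 * t) (s ^ 2 * τ) c := by
  unfold post
  rw [Measure.map_map (by fun_prop) (by fun_prop)]
  have e : ∀ w : E d, c + s • (0 + √τ • w) = c + √(s ^ 2 * τ) • w := by
    intro w
    rw [pt_scale c 0 w τ hs]; simp
  simp only [scaleF V c t _ hs, e, Function.comp_def]

lemma _root_.Crest.Agent.R285.Pot.cont {δ : ℝ} {U : E d → ℝ} (hU : Pot δ U) : Continuous U :=
  hU.smooth.continuous

lemma _root_.Crest.Agent.R285.Pot.diff {δ : ℝ} {U : E d → ℝ} (hU : Pot δ U) :
    Differentiable ℝ U :=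
  hU.smooth.differentiable (by norm_num)

lemma _root_.Crest.Agent.R285.Pot.cont_grad {δ : ℝ} {U : E d → ℝ} (hU : Pot δ U) :
    Continuous (gradient U) := by
  have : LipschitzWith ⟨δ, hU.pos.le⟩ (gradient U) :=
    LipschitzWith.of_dist_le_mul fun x y => by
      rw [dist_eq_norm, dist_eq_norm]; exact hU.lip x y
  exact this.continuous

lemma _root_.Crest.Agent.R285.Pot.grad_le {δ : ℝ} {U : E d → ℝ} (hU : Pot δ U) (x : E d) :
    ‖gradient U x‖ ≤ ‖gradient U 0‖ + δ * ‖x‖ := by
  have h1 := hU.lip x 0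
  have h2 := norm_sub_norm_le (gradient U x) (gradient U 0)
  rw [sub_zero] at h1
  linarith

lemma _root_.Crest.Agent.R285.Pot.exp_le {δ : ℝ} {U : E d → ℝ} (hU : Pot δ U) (x : E d) :
    Real.exp (-U x) ≤ 1 := Real.exp_le_one_iff.2 (by linarith [hU.nonneg x])

lemma intZ {δ : ℝ} {U : E d → ℝ} (hU : Pot δ U) (t : ℝ) (x : E d) :
    Integrable (fun w => Real.exp (-U (x + √t • w))) (gam d) := by
  have := hU.cont
  refine Integrable.of_bound (Continuous.aestronglyMeasurable (by fun_prop)) 1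
    (Filter.Eventually.of_forall fun w => ?_)
  rw [Real.norm_of_nonneg (Real.exp_pos _).le]
  exact hU.exp_le _

lemma Zpos {δ : ℝ} {U : E d → ℝ} (hU : Pot δ U) (t : ℝ) (x : E d) :
    0 < Zf U t x ∧ Zf U t x ≤ 1 := by
  refine ⟨integral_exp_pos (intZ hU t x), ?_⟩
  calc Zf U t x ≤ ∫ _w, (1 : ℝ) ∂(gam d) :=
        integral_mono (intZ hU t x) (integrable_const _) fun w => hU.exp_le _
    _ = 1 := by simp

lemma contZ {δ : ℝ} {U : E d → ℝ} (hU : Pot δ U) : Continuous fun p : ℝ × E d => Zf U p.1 p.2 := by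
  have := hU.cont
  unfold Zf
  refine continuous_of_dominated (bound := fun _ => 1)
    (fun p => Continuous.aestronglyMeasurable (by fun_prop))
    (fun p => Filter.Eventually.of_forall fun w => ?_) (integrable_const _)
    (Filter.Eventually.of_forall fun w => by fun_prop)
  rw [Real.norm_of_nonneg (Real.exp_pos _).le]
  exact hU.exp_le _

lemma contF {δ : ℝ} {U : E d → ℝ} (hU : Pot δ U) : Continuous fun p : ℝ × E d => Ff U p.1 p.2 :=
  ((contZ hU).log fun p => (Zpos hU p.1 p.2).1.ne').neg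

lemma int_norm (hG : StmtGauss) : Integrable (fun w : E d => ‖w‖) (gam d) :=
  hG.pg d _ ⟨continuous_norm, 1, 1, fun x => by simp⟩

lemma bdG {δ : ℝ} {U : E d → ℝ} (hU : Pot δ U) {x : E d} {r R S : ℝ} (hx : ‖x‖ ≤ R)
    (hr0 : 0 ≤ r) (hr : r ≤ S) (w : E d) :
    ‖Real.exp (-U (x + r • w)) • gradient U (x + r • w)‖ ≤
      ‖gradient U 0‖ + δ * R + δ * S * ‖w‖ := by
  have hδ := hU.pos
  rw [norm_smul, Real.norm_of_nonneg (Real.exp_pos _).le]
  have h1 : ‖x + r • w‖ ≤ R + S * ‖w‖ := by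
    refine (norm_add_le _ _).trans ?_
    rw [norm_smul, Real.norm_of_nonneg hr0]
    gcongr
  calc Real.exp (-U (x + r • w)) * ‖gradient U (x + r • w)‖
      ≤ 1 * (‖gradient U 0‖ + δ * (R + S * ‖w‖)) := by
        gcongr
        · exact hU.exp_le _
        · refine (hU.grad_le _).trans ?_
          gcongr
    _ = _ := by ring

lemma int_bd (hG : StmtGauss) (A B : ℝ) : Integrable (fun w : E d => A + B * ‖w‖) (gam d) :=
  (integrable_const _).add ((int_norm hG).const_mul _)

lemma intG (hG : StmtGauss) {δ : ℝ} {U : E d → ℝ} (hU : Pot δ U) (t : ℝ) (x : E d) :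
    Integrable (fun w => Real.exp (-U (x + √t • w)) • gradient U (x + √t • w)) (gam d) := by
  have := hU.cont
  have := hU.cont_grad
  refine Integrable.mono' (int_bd hG (‖gradient U 0‖ + δ * ‖x‖) (δ * √t))
    (Continuous.aestronglyMeasurable (by fun_prop)) (Filter.Eventually.of_forall fun w => ?_)
  exact bdG hU le_rfl (Real.sqrt_nonneg _) le_rfl w

lemma contN (hG : StmtGauss) {δ : ℝ} {U : E d → ℝ} (hU : Pot δ U) :
    Continuous fun p : ℝ × E d =>
      ∫ w, Real.exp (-U (p.2 + √p.1 • w)) • gradient U (p.2 + √p.1 • w) ∂(gam d) := by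
  have := hU.cont
  have := hU.cont_grad
  refine continuous_iff_continuousAt.2 fun p₀ => ?_
  have e1 : ∀ᶠ p : ℝ × E d in nhds p₀, ‖p.2‖ < ‖p₀.2‖ + 1 :=
    (by fun_prop : Continuous fun p : ℝ × E d => ‖p.2‖).continuousAt.eventually_lt
      continuousAt_const (by linarith)
  have e2 : ∀ᶠ p : ℝ × E d in nhds p₀, √p.1 < √p₀.1 + 1 :=
    (by fun_prop : Continuous fun p : ℝ × E d => √p.1).continuousAt.eventually_lt
      continuousAt_const (by linarith)
  refine continuousAt_of_dominated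
    (bound := fun w => (‖gradient U 0‖ + δ * (‖p₀.2‖ + 1)) + (δ * (√p₀.1 + 1)) * ‖w‖)
    (Filter.Eventually.of_forall fun p => Continuous.aestronglyMeasurable (by fun_prop))
    ?_ (int_bd hG _ _) (Filter.Eventually.of_forall fun w => Continuous.continuousAt (by fun_prop))
  filter_upwards [e1, e2] with p h1 h2
  exact Filter.Eventually.of_forall fun w => bdG hU h1.le (Real.sqrt_nonneg _) h2.le w

lemma contG (hG : StmtGauss) {δ : ℝ} {U : E d → ℝ} (hU : Pot δ U) :
    Continuous fun p : ℝ × E d => GF U p.1 p.2 :=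
  ((contZ hU).inv₀ fun p => (Zpos hU p.1 p.2).1.ne').smul (contN hG hU)

lemma fderivZ (hG : StmtGauss) {δ : ℝ} {U : E d → ℝ} (hU : Pot δ U) (t : ℝ) (x : E d) :
    HasFDerivAt (Zf U t)
      (-innerSL ℝ (∫ w, Real.exp (-U (x + √t • w)) • gradient U (x + √t • w) ∂(gam d))) x := by
  have hc := hU.cont
  have hc' := hU.cont_grad
  let F' : E d → E d → E d →L[ℝ] ℝ := fun y w =>
    -innerSL ℝ (Real.exp (-U (y + √t • w)) • gradient U (y + √t • w))
  have hF' : Continuous (F' x) := by
    have : Continuous fun w => Real.exp (-U (x + √t • w)) • gradient U (x + √t • w) := by fun_prop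
    exact ((innerSL ℝ (E := E d)).continuous.comp this).neg
  have key := hasFDerivAt_integral_of_dominated_of_fderiv_le (μ := gam d)
    (F := fun y w => Real.exp (-U (y + √t • w))) (F' := F') (x₀ := x)
    (bound := fun w => (‖gradient U 0‖ + δ * (‖x‖ + 1)) + (δ * √t) * ‖w‖)
    (Metric.ball_mem_nhds x one_pos)
    (Filter.Eventually.of_forall fun y => Continuous.aestronglyMeasurable (by fun_prop))
    (intZ hU t x) hF'.aestronglyMeasurable
    (Filter.Eventually.of_forall fun w y hy => by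
      simp only [F', norm_neg, innerSL_apply_norm]
      refine bdG hU ?_ (Real.sqrt_nonneg _) le_rfl w
      have h1 : ‖y - x‖ < 1 := by simpa [dist_eq_norm] using hy
      have h2 := norm_sub_norm_le y x
      linarith)
    (int_bd hG _ _)
    (Filter.Eventually.of_forall fun w y _ => by
      have h1 : HasFDerivAt (fun y : E d => y + √t • w) (ContinuousLinearMap.id ℝ (E d)) y :=
        (hasFDerivAt_id y).add_const _
      have h2 := (((hU.diff (y + √t • w)).hasGradientAt.hasFDerivAt.comp y h1).neg).exp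
      refine HasFDerivAt.congr_fderiv h2 ?_
      ext v
      simp [F'])
  refine HasFDerivAt.congr_fderiv key ?_
  symm
  ext v
  have hi := intG hG hU t x
  have hi' : Integrable (F' x) (gam d) := ((innerSL ℝ (E := E d)).integrable_comp hi).neg
  rw [ContinuousLinearMap.integral_apply hi']
  simp only [F', neg_apply, innerSL_apply_apply]
  rw [integral_neg, real_inner_comm, ← integral_inner hi]
  simp only [real_inner_comm]

lemma grad (hG : StmtGauss) {δ : ℝ} {U : E d → ℝ} (hU : Pot δ U) (t : ℝ) (x : E d) :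
    HasGradientAt (Ff U t) (GF U t x) x := by
  have h := ((fderivZ hG hU t x).log (Zpos hU t x).1.ne').neg
  rw [hasGradientAt_iff_hasFDerivAt]
  refine HasFDerivAt.congr_fderiv h ?_
  ext v
  simp [GF]

lemma semi (hG : StmtGauss) {δ : ℝ} {U : E d → ℝ} (hU : Pot δ U) {t τ : ℝ} (x : E d)
    (ht : 0 ≤ t) (hτ : 0 ≤ τ) : ∫ w, Zf U t (x + √τ • w) ∂(gam d) = Zf U (t + τ) x := by
  have hc := hU.cont
  have hi : Integrable (fun p : E d × E d => Real.exp (-U (x + (√τ • p.1 + √t • p.2))))
      ((gam d).prod (gam d)) := by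
    refine Integrable.of_bound (Continuous.aestronglyMeasurable (by fun_prop)) 1
      (Filter.Eventually.of_forall fun w => ?_)
    rw [Real.norm_of_nonneg (Real.exp_pos _).le]
    exact hU.exp_le _
  have h1 := integral_prod _ hi
  have h2 := integral_map (μ := (gam d).prod (gam d))
    (φ := fun p : E d × E d => √τ • p.1 + √t • p.2) (f := fun z => Real.exp (-U (x + z)))
    (by fun_prop) (Continuous.aestronglyMeasurable (by fun_prop))
  rw [hG.rot, integral_map (by fun_prop) (Continuous.aestronglyMeasurable (by fun_prop)),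
    Real.sq_sqrt ht, Real.sq_sqrt hτ, add_comm τ t] at h2
  simp only [Zf, add_assoc]
  rw [← h1, ← h2]

end Basic

theorem basicStmt (hG : StmtGauss) : StmtBasic where
  adm _ V hV := Basic.adm V hV
  scale _ _ _ c _ hV hs := Basic.scale c hV hs
  scaleF _ V c _ t x hs _ := Basic.scaleF V c t x hs
  scaleG _ _ _ c _ t x hV hs _ := Basic.scaleG c t x hV hs
  scalePost _ V c _ t τ hs _ _ := Basic.scalePost V c t τ hs
  Zpos _ _ _ hU t x := Basic.Zpos hU t x
  contZ _ _ _ hU := Basic.contZ hU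
  contF _ _ _ hU := Basic.contF hU
  contG _ _ _ hU := Basic.contG hG hU
  grad _ _ _ hU t x := Basic.grad hG hU t x
  semi _ _ _ hU _ _ x ht hτ := Basic.semi hG hU x ht hτ

end Crest.Agent.R285
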