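import Crest.Agent.R285.Defs

/-!
# Row 285: Bayes' rule and moments
-/

set_option autoImplicit false

open MeasureTheory ProbabilityTheory Set
open scoped ENNReal NNReal ContDiff RealInnerProductSpace
open Crest.OracleSampling

noncomputable section

namespace Crest.Agent.R285

namespace Bayes

variable {d : ℕ}

theorem lintegral_neg {f : E d → ℝ≥0∞} (hf : Measurable f) :
    ∫⁻ w, f (-w) ∂(gam d) = ∫⁻ w, f w ∂(gam d) := by
  have h := stdGaussian_map (LinearIsometryEquiv.neg ℝ (E := E d))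
  conv_rhs => rw [gam, ← h]
  rw [lintegral_map hf (LinearIsometryEquiv.neg ℝ (E := E d)).continuous.measurable]
  rfl

/-- the Gaussian convolution is symmetric with respect to Lebesgue measure -/
theorem conv {g f : E d → ℝ≥0∞} (hg : Measurable g) (hf : Measurable f) (s : ℝ) :
    ∫⁻ x, g x * ∫⁻ w, f (x + s • w) ∂(gam d) =
      ∫⁻ X, (∫⁻ w, g (X + s • w) ∂(gam d)) * f X := by
  calc ∫⁻ x, g x * ∫⁻ w, f (x + s • w) ∂(gam d)
      = ∫⁻ x, ∫⁻ w, g x * f (x + s • w) ∂(gam d) := by
        refine lintegral_congr fun x => ?_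
        rw [lintegral_const_mul _ (by fun_prop)]
    _ = ∫⁻ w, (∫⁻ x, g x * f (x + s • w)) ∂(gam d) :=
        lintegral_lintegral_swap (Measurable.aemeasurable (by fun_prop))
    _ = ∫⁻ w, (∫⁻ X, g (X + s • (-w)) * f X) ∂(gam d) := by
        refine lintegral_congr fun w => ?_
        rw [← lintegral_add_right_eq_self (fun X => g (X + s • (-w)) * f X) (s • w)]
        simp
    _ = ∫⁻ X, ∫⁻ w, g (X + s • (-w)) * f X ∂(gam d) :=
        (lintegral_lintegral_swap (Measurable.aemeasurable (by fun_prop))).symm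
    _ = _ := by
        refine lintegral_congr fun X => ?_
        rw [lintegral_mul_const _ (by fun_prop),
          lintegral_neg (f := fun w => g (X + s • w)) (by fun_prop)]

/-- the unnormalised density -/
def rh (V : E d → ℝ) (x : E d) : ℝ≥0∞ := ENNReal.ofReal (Real.exp (-V x))

/-- the normalising constant -/
def Z0 (V : E d → ℝ) : ℝ≥0∞ := ∫⁻ x, rh V x

theorem measurable_rh {V : E d → ℝ} (hV : Continuous V) : Measurable (rh V) := by
  unfold rh; fun_prop

theorem target_eq (V : E d → ℝ) : target d V = (Z0 V)⁻¹ • volume.withDensity (rh V) := by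
  simp only [target, withDensity_apply _ MeasurableSet.univ, Measure.restrict_univ]
  rfl

theorem lintegral_target {V : E d → ℝ} (hV : Continuous V) {f : E d → ℝ≥0∞} (hf : Measurable f) :
    ∫⁻ x, f x ∂(target d V) = (Z0 V)⁻¹ * ∫⁻ x, rh V x * f x := by
  rw [target_eq, lintegral_smul_measure, lintegral_withDensity_eq_lintegral_mul _
    (measurable_rh hV) hf]
  rfl

theorem Z0_ne_zero {V : E d → ℝ} (hV : Continuous V) : Z0 V ≠ 0 := by
  intro h
  have h1 := (lintegral_eq_zero_iff (measurable_rh hV)).1 h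
  obtain ⟨x, hx⟩ := h1.exists
  simp only [rh, Pi.zero_apply, ENNReal.ofReal_eq_zero] at hx
  exact absurd hx (not_le.2 (Real.exp_pos _))

theorem lower {V : E d → ℝ} (h0 : ∀ x, 0 ≤ V x) (hV0 : V 0 = 0)
    (hc : ConvexOn ℝ univ fun x => V x - 1 / 2 * ‖x‖ ^ 2) (x : E d) : ‖x‖ ^ 2 / 2 ≤ V x := by
  refine le_of_forall_pos_le_add fun ε hε => ?_
  set s : ℝ := min 1 (ε / (‖x‖ ^ 2 + 1)) with hs
  have hs0 : 0 < s := by positivity
  have hs1 : s ≤ 1 := min_le_left _ _
  have hs2 : s * (‖x‖ ^ 2 + 1) ≤ ε := (le_div_iff₀ (by positivity)).1 (min_le_right _ _)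
  have h1 := hc.2 (mem_univ x) (mem_univ 0) hs0.le (sub_nonneg.2 hs1) (by ring)
  simp only [smul_zero, add_zero, hV0, norm_zero, smul_eq_mul, norm_smul, Real.norm_eq_abs,
    abs_of_pos hs0] at h1
  have h2 := h0 (s • x)
  have h3 : s * (-(s * ‖x‖ ^ 2 / 2)) ≤ s * (V x - 1 / 2 * ‖x‖ ^ 2) := by nlinarith
  have h4 := le_of_mul_le_mul_left h3 hs0
  nlinarith [sq_nonneg ‖x‖]

theorem Z0_ne_top (hG : StmtGauss) {V : E d → ℝ} (h : ∀ x, ‖x‖ ^ 2 / 2 ≤ V x) : Z0 V ≠ ⊤ := by
  have h1 : (gam d) univ = 1 := measure_univ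
  rw [hG.dens, withDensity_apply _ MeasurableSet.univ, Measure.restrict_univ] at h1
  have hc : 0 < (√(2 * Real.pi))⁻¹ ^ d := by have := Real.pi_pos; positivity
  have h2 : ENNReal.ofReal ((√(2 * Real.pi))⁻¹ ^ d) * Z0 V ≤ 1 := by
    rw [← h1, Z0, ← lintegral_const_mul' _ _ ENNReal.ofReal_ne_top]
    refine lintegral_mono fun x => ?_
    rw [rh, ← ENNReal.ofReal_mul hc.le]
    exact ENNReal.ofReal_le_ofReal
      (mul_le_mul_of_nonneg_left (Real.exp_le_exp.2 (neg_le_neg (h x))) hc.le)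
  intro h3
  rw [h3, ENNReal.mul_top (ENNReal.ofReal_pos.2 hc).ne'] at h2
  simp at h2

theorem lintegral_half {V : E d → ℝ} (hV : Continuous V) :
    ∫⁻ x, rh V ((1 / 2 : ℝ) • x) = ENNReal.ofReal (2 ^ d) * Z0 V := by
  rw [← lintegral_map (measurable_rh hV) (by fun_prop),
    Measure.map_addHaar_smul volume (by norm_num : (1 / 2 : ℝ) ≠ 0), lintegral_smul_measure]
  simp [Z0]

theorem moment {V : E d → ℝ} (hV : Continuous V) (hV0 : V 0 = 0) (hc : ConvexOn ℝ univ V)
    (h : ∀ x, ‖x‖ ^ 2 / 2 ≤ V x) (hZ : Z0 V ≠ ⊤) :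
    ∫⁻ x, ‖x‖ₑ ∂(target d V) ≤ ENNReal.ofReal (2 * √d) := by
  rcases Nat.eq_zero_or_pos d with hd | hd
  · subst hd
    have : ∀ x : E 0, ‖x‖ₑ = 0 := fun x => by rw [Subsingleton.elim x 0, enorm_zero]
    simp [this]
  have hd' : (0 : ℝ) < d := Nat.cast_pos.2 hd
  set b := √(d : ℝ) with hb
  have hb0 : 0 < b := Real.sqrt_pos.2 hd'
  have hbb : b * b = d := Real.mul_self_sqrt hd'.le
  have hpt : ∀ x : E d, rh V x * ‖x‖ₑ + ENNReal.ofReal b⁻¹ * rh V x ≤
      ENNReal.ofReal (2 * b) * rh V x + ENNReal.ofReal (b⁻¹ * (2 ^ d)⁻¹) * rh V ((1 / 2 : ℝ) • x) := by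
    intro x
    have e1 := Real.exp_pos (-V x)
    have e2 := Real.exp_pos (-V ((1 / 2 : ℝ) • x))
    simp only [rh]
    rw [← ofReal_norm, ← ENNReal.ofReal_mul e1.le, ← ENNReal.ofReal_mul (by positivity),
      ← ENNReal.ofReal_mul (by positivity), ← ENNReal.ofReal_mul (by positivity),
      ← ENNReal.ofReal_add (by positivity) (by positivity),
      ← ENNReal.ofReal_add (by positivity) (by positivity)]
    refine ENNReal.ofReal_le_ofReal ?_
    have h1 := hc.2 (mem_univ x) (mem_univ 0) (by norm_num : (0 : ℝ) ≤ 1 / 2)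
      (by norm_num : (0 : ℝ) ≤ 1 / 2) (by norm_num)
    simp only [smul_zero, add_zero, hV0, smul_eq_mul, mul_zero] at h1
    have h2 : ‖x‖ ^ 2 / 4 ≤ V x - V ((1 / 2 : ℝ) • x) := by linarith [h x]
    have h3 := Real.add_one_le_exp (V x - V ((1 / 2 : ℝ) • x) - d * Real.log 2)
    have h4 : Real.exp (V x - V ((1 / 2 : ℝ) • x) - d * Real.log 2) * Real.exp (-V x) =
        (2 ^ d)⁻¹ * Real.exp (-V ((1 / 2 : ℝ) • x)) := by
      have : ((2 : ℝ) ^ d)⁻¹ = Real.exp (-(d * Real.log 2)) := by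
        rw [Real.exp_neg, Real.exp_nat_mul, Real.exp_log two_pos]
      rw [this, ← Real.exp_add, ← Real.exp_add]
      congr 1; ring
    have h5 : (d : ℝ) * Real.log 2 ≤ d :=
      mul_le_of_le_one_right hd'.le (by linarith [Real.log_two_lt_d9])
    have h6 : b * ‖x‖ ≤ ‖x‖ ^ 2 / 4 + b * b := by nlinarith [sq_nonneg (‖x‖ / 2 - b)]
    have h7 : b * ‖x‖ + 1 ≤ 2 * (b * b) +
        Real.exp (V x - V ((1 / 2 : ℝ) • x) - d * Real.log 2) := by linarith
    have h8 := mul_le_mul_of_nonneg_right h7 e1.le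
    rw [add_mul (2 * (b * b)), h4] at h8
    have h9 := mul_le_mul_of_nonneg_left h8 (inv_nonneg.2 hb0.le)
    calc _ = b⁻¹ * ((b * ‖x‖ + 1) * Real.exp (-V x)) := by field_simp
      _ ≤ _ := h9
      _ = _ := by field_simp
  have hm := measurable_rh hV
  have h1 := lintegral_mono (μ := volume) hpt
  rw [lintegral_add_right _ (by fun_prop), lintegral_add_left (by fun_prop),
    lintegral_const_mul _ hm, lintegral_const_mul _ hm, lintegral_const_mul _ (by fun_prop),
    lintegral_half hV, ← mul_assoc, ← ENNReal.ofReal_mul (by positivity),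
    mul_assoc, inv_mul_cancel₀ (by positivity), mul_one] at h1
  have h2 := ENNReal.le_of_add_le_add_right (ENNReal.mul_ne_top ENNReal.ofReal_ne_top hZ) h1
  rw [lintegral_target hV (by fun_prop)]
  calc _ ≤ (Z0 V)⁻¹ * (ENNReal.ofReal (2 * b) * Z0 V) := by gcongr; exact h2
    _ = _ := by
      rw [mul_comm (ENNReal.ofReal _), ← mul_assoc, ENNReal.inv_mul_cancel (Z0_ne_zero hV) hZ,
        one_mul]

theorem ofReal_Zf {V : E d → ℝ} (hV : Continuous V) (h0 : ∀ x, 0 ≤ V x) (t : ℝ) (X : E d) :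
    ENNReal.ofReal (Zf V t X) = ∫⁻ w, rh V (X + √t • w) ∂(gam d) := by
  refine ofReal_integral_eq_lintegral_ofReal ?_ (ae_of_all _ fun _ => (Real.exp_pos _).le)
  refine Integrable.of_bound (C := 1) (Continuous.aestronglyMeasurable (by fun_prop))
    (ae_of_all _ fun w => ?_)
  rw [Real.norm_eq_abs, abs_of_pos (Real.exp_pos _)]
  exact Real.exp_le_one_iff.2 (neg_nonpos.2 (h0 _))

theorem lintegral_piT {V : E d → ℝ} (hV : Continuous V) (h0 : ∀ x, 0 ≤ V x)
    [IsProbabilityMeasure (target d V)] (t : ℝ) {f : E d → ℝ≥0∞} (hf : Measurable f) :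
    ∫⁻ x, f x ∂(piT V t) = (Z0 V)⁻¹ * ∫⁻ X, ENNReal.ofReal (Zf V t X) * f X := by
  rw [piT, lintegral_map hf (by fun_prop), lintegral_prod _ (Measurable.aemeasurable (by fun_prop)),
    lintegral_target hV (Measurable.lintegral_prod_right' (f := fun p : E d × E d => f (p.1 + √t • p.2))
      (by fun_prop)), conv (measurable_rh hV) hf]
  simp only [ofReal_Zf hV h0]

theorem post_apply (hB : StmtBasic) {δ : ℝ} {V : E d → ℝ} (hP : Pot δ V) {t τ : ℝ} (ht : 0 ≤ t)
    (hτ : 0 ≤ τ) (c : E d) {B : Set (E d)} (hBm : MeasurableSet B) :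
    post V t τ c B = (ENNReal.ofReal (Zf V (t + τ) c))⁻¹ *
      ∫⁻ w, B.indicator (fun X => ENNReal.ofReal (Zf V t X)) (c + √τ • w) ∂(gam d) := by
  have hexp : ∀ X, Real.exp (-Ff V t X) = Zf V t X := fun X => by
    rw [Ff, neg_neg, Real.exp_log (hB.Zpos d δ V hP t X).1]
  have hm : Measurable fun w : E d => c + √τ • w := by fun_prop
  have hZ := (hB.Zpos d δ V hP (t + τ) c).1
  rw [post, Measure.map_apply hm hBm, tilted_apply' _ _ (hm hBm), ← lintegral_indicator (hm hBm),
    ← lintegral_const_mul' _ _ (ENNReal.inv_ne_top.2 (by simpa using hZ))]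
  simp only [hexp, hB.semi d δ V hP t τ c ht hτ]
  refine lintegral_congr fun w => ?_
  by_cases hw : c + √τ • w ∈ B
  · rw [indicator_of_mem hw, indicator_of_mem (show w ∈ (fun w => c + √τ • w) ⁻¹' B from hw),
      ENNReal.ofReal_div_of_pos hZ, ENNReal.div_eq_inv_mul]
  · rw [indicator_of_notMem hw,
      indicator_of_notMem (show w ∉ (fun w => c + √τ • w) ⁻¹' B from hw), mul_zero]

end Bayes

open Bayes

theorem bayesStmt (hG : StmtGauss) (hB : StmtBasic) : StmtBayes := by
  intro d V hV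
  obtain ⟨hP, hc⟩ := hB.adm d V hV
  have hVc : Continuous V := hP.smooth.continuous
  have hlow := lower hP.nonneg hV.2.1 hc
  have hZ := Z0_ne_top hG hlow
  have hprob : IsProbabilityMeasure (target d V) := ⟨by
    rw [target_eq, Measure.smul_apply, withDensity_apply _ MeasurableSet.univ,
      Measure.restrict_univ, smul_eq_mul]
    exact ENNReal.inv_mul_cancel (Z0_ne_zero hVc) hZ⟩
  have hZm : ∀ t, Measurable fun X => ENNReal.ofReal (Zf V t X) := fun t =>
    ENNReal.measurable_ofReal.comp ((hB.contZ d 2 V hP).comp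
      (f := fun X : E d => (t, X)) (by fun_prop)).measurable
  refine ⟨hprob, fun t ht => ?_, fun t τ ht hτ => ?_⟩
  · rw [piT, lintegral_map (by fun_prop) (by fun_prop)]
    calc ∫⁻ p, ‖p.1 + √t • p.2‖ₑ ∂((target d V).prod (gam d))
        ≤ ∫⁻ p, (‖p.1‖ₑ + ENNReal.ofReal √t * ‖p.2‖ₑ) ∂((target d V).prod (gam d)) := by
          refine lintegral_mono fun p => (enorm_add_le _ _).trans (le_of_eq ?_)
          rw [enorm_smul, Real.enorm_eq_ofReal (Real.sqrt_nonneg t)]
      _ = ∫⁻ x, ‖x‖ₑ ∂(target d V) + ENNReal.ofReal √t * ∫⁻ w, ‖w‖ₑ ∂(gam d) := by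
          rw [lintegral_add_left (by fun_prop), lintegral_const_mul _ (by fun_prop),
            lintegral_prod _ (by fun_prop), lintegral_prod _ (by fun_prop)]
          simp
      _ ≤ ENNReal.ofReal (2 * √d) + ENNReal.ofReal √t * ENNReal.ofReal √d := by
          gcongr
          · exact moment hVc hV.2.1 hP.convex hlow hZ
          · exact hG.abs d
      _ = _ := by
          rw [← ENNReal.ofReal_mul (Real.sqrt_nonneg t),
            ← ENNReal.ofReal_add (by positivity) (by positivity), add_mul]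
  have hmeas : Measurable (post V t τ) := by
    refine Measure.measurable_of_measurable_coe _ fun B hBm => ?_
    simp only [post_apply hB hP ht hτ.le _ hBm]
    refine (hZm (t + τ)).inv.mul ?_
    exact Measurable.lintegral_prod_right'
      (f := fun p : E d × E d =>
        B.indicator (fun X => ENNReal.ofReal (Zf V t X)) (p.1 + √τ • p.2))
      (((hZm t).indicator hBm).comp (by fun_prop))
  have hZ0 : ∀ s c, ENNReal.ofReal (Zf V s c) ≠ 0 := fun s c => by
    simpa using (hB.Zpos d 2 V hP s c).1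
  refine ⟨hmeas, fun c => ⟨?_⟩, ?_⟩
  · rw [post_apply hB hP ht hτ.le _ MeasurableSet.univ, indicator_univ,
      ← ofReal_integral_eq_lintegral_ofReal, hB.semi d 2 V hP t τ c ht hτ.le]
    · exact ENNReal.inv_mul_cancel (hZ0 _ _) ENNReal.ofReal_ne_top
    · refine Integrable.of_bound (C := 1) (Continuous.aestronglyMeasurable
        ((hB.contZ d 2 V hP).comp (f := fun w : E d => (t, c + √τ • w)) (by fun_prop)))
        (ae_of_all _ fun w => ?_)
      rw [Real.norm_eq_abs, abs_of_pos (hB.Zpos d 2 V hP _ _).1]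
      exact (hB.Zpos d 2 V hP _ _).2
    · exact ae_of_all _ fun w => (hB.Zpos d 2 V hP _ _).1.le
  · ext B hBm
    rw [Measure.bind_apply hBm hmeas.aemeasurable,
      lintegral_piT hVc hP.nonneg _ (f := fun c => post V t τ c B)
        ((Measure.measurable_coe hBm).comp hmeas),
      ← lintegral_indicator_one hBm, lintegral_piT hVc hP.nonneg _ (measurable_one.indicator hBm)]
    congr 1
    have h1 := conv (d := d) (g := fun _ => 1) measurable_const ((hZm t).indicator hBm) √τ
    simp only [one_mul, lintegral_const, measure_univ] at h1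
    calc _ = ∫⁻ x, ∫⁻ w, B.indicator (fun X => ENNReal.ofReal (Zf V t X)) (x + √τ • w) ∂(gam d) := by
          refine lintegral_congr fun c => ?_
          rw [post_apply hB hP ht hτ.le _ hBm, ← mul_assoc,
            ENNReal.mul_inv_cancel (hZ0 _ _) ENNReal.ofReal_ne_top, one_mul]
      _ = _ := by
          rw [h1]
          refine lintegral_congr fun X => ?_
          by_cases hX : X ∈ B <;> simp [hX]

end Crest.Agent.R285
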