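import Crest.Agent.R285.CalcAux

/-!
# Row 285: the commutation relations on the phase space (`StmtCalc`)
-/

set_option autoImplicit false
set_option linter.unusedSimpArgs false

open Set Filter Topology
open scoped ContDiff
open Crest.OracleSampling

noncomputable section

namespace Crest.Agent.R285
namespace CalcAux

variable {d : ℕ}

theorem isOpen_OO : IsOpen OO :=
  isOpen_lt (by fun_prop) continuous_const

theorem isOpen_Om : IsOpen {p : Ph d | p.1 ∈ OO} := isOpen_OO.preimage continuous_fst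

theorem isOpen_Ox : IsOpen {p : ℝ × E d | 0 < p.1} := isOpen_lt continuous_const continuous_fst

/-- the projection of the phase space to `(t, x)` -/
def Pi (p : Ph d) : ℝ × E d := (1 - p.1.1 ^ 2 - p.1.2 ^ 2, p.1.1 • p.2.1 + p.1.2 • p.2.2)

theorem lift_eq (φ : ℝ × E d → ℝ) : lift φ = fun p => φ (Pi p) := rfl

theorem contDiff_Pi : ContDiff ℝ ∞ (Pi : Ph d → ℝ × E d) := by
  unfold Pi; fun_prop

theorem Pi_pos {p : Ph d} (hp : p.1 ∈ OO) : 0 < (Pi p).1 := by
  have : p.1.1 ^ 2 + p.1.2 ^ 2 < 1 / 2 := hp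
  show 0 < 1 - p.1.1 ^ 2 - p.1.2 ^ 2
  linarith

theorem fderiv_Pi (p v : Ph d) : fderiv ℝ Pi p v =
    (-2 * p.1.1 * v.1.1 - 2 * p.1.2 * v.1.2,
      p.1.1 • v.2.1 + v.1.1 • p.2.1 + (p.1.2 • v.2.2 + v.1.2 • p.2.2)) := by
  have h1 : HasFDerivAt (fun q : Ph d => q.1.1) _ p := (hasFDerivAt_fst (𝕜 := ℝ)).fst
  have h2 : HasFDerivAt (fun q : Ph d => q.1.2) _ p := (hasFDerivAt_fst (𝕜 := ℝ)).snd
  have h3 : HasFDerivAt (fun q : Ph d => q.2.1) _ p := (hasFDerivAt_snd (𝕜 := ℝ)).fst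
  have h4 : HasFDerivAt (fun q : Ph d => q.2.2) _ p := (hasFDerivAt_snd (𝕜 := ℝ)).snd
  have h : HasFDerivAt (Pi : Ph d → ℝ × E d) _ p :=
    (((hasFDerivAt_const (1 : ℝ) p).fun_sub (h1.pow 2)).fun_sub (h2.pow 2)).prodMk
      ((h1.fun_smul h3).fun_add (h2.fun_smul h4))
  rw [h.fderiv]
  ext <;> simp

/-- unit vector in the parameter `a_β` -/
def ea (β : Bool) : Ph d := cond β ((0, 1), 0) ((1, 0), 0)

theorem vec_eq (v : Ph d) : v = v.1.1 • ea false + v.1.2 • ea true +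
    (∑ i, v.2.1 i • ew false i + ∑ i, v.2.2 i • ew true i) := by
  refine Prod.ext (Prod.ext ?_ ?_) (Prod.ext ?_ ?_)
  · simp [ea, ew, Prod.fst_sum]
  · simp [ea, ew, Prod.fst_sum, Prod.snd_sum]
  · simp only [ea, ew, Prod.fst_sum, Prod.snd_sum, cond_true, cond_false, Prod.snd_add,
      Prod.fst_add, Prod.smul_snd, Prod.smul_fst, Prod.fst_zero, smul_zero, Finset.sum_const_zero,
      zero_add, add_zero, sum_ee]
  · simp only [ea, ew, Prod.fst_sum, Prod.snd_sum, cond_true, cond_false, Prod.snd_add,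
      Prod.fst_add, Prod.smul_snd, Prod.smul_fst, Prod.snd_zero, smul_zero, Finset.sum_const_zero,
      zero_add, add_zero, sum_ee]

theorem fderiv_eq (f : Ph d → ℝ) (p v : Ph d) : fderiv ℝ f p v =
    v.1.1 * der (ea false) f p + v.1.2 * der (ea true) f p +
      (∑ i, v.2.1 i * pd false i f p + ∑ i, v.2.2 i * pd true i f p) := by
  conv_lhs => rw [vec_eq v]
  simp only [map_add, map_smul, map_sum, smul_eq_mul, der, pd]

theorem lie_VV (U : E d → ℝ) (β : Bool) (f : Ph d → ℝ) (p : Ph d) :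
    Lie (VV U β) f p = der (ea β) f p - ∑ i, Gp U p i * pd β i f p := by
  unfold Lie
  rw [fderiv_eq]
  cases β <;> simp [VV, V1, V2, sub_eq_add_neg]

theorem lie_VB (U : E d → ℝ) (f : Ph d → ℝ) (p : Ph d) :
    Lie (VB U) f p = ∑ i, (VB U p).2.1 i * pd false i f p + ∑ i, (VB U p).2.2 i * pd true i f p := by
  unfold Lie
  rw [fderiv_eq]
  simp [VB]

theorem fderiv_x (φ : ℝ × E d → ℝ) (q : ℝ × E d) (s : ℝ) (x : E d) :
    fderiv ℝ φ q (s, x) = s * dt φ q + ∑ l, x l * nab l φ q := by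
  have : ((s, x) : ℝ × E d) = s • ((1 : ℝ), (0 : E d)) + ∑ l, x l • ((0 : ℝ), (ee l : E d)) := by
    refine Prod.ext ?_ ?_
    · simp [Prod.fst_sum]
    · simp only [Prod.snd_add, Prod.smul_snd, Prod.snd_sum, smul_zero, zero_add, sum_ee]
  rw [this]
  simp only [map_add, map_smul, map_sum, smul_eq_mul, dt, nab]

theorem sm_lift {φ : ℝ × E d → ℝ} (h : Smx φ) : Sm (lift φ) :=
  ContDiffOn.comp h contDiff_Pi.contDiffOn fun _ hp => Pi_pos hp

theorem fderiv_lift {φ : ℝ × E d → ℝ} (h : Smx φ) {p : Ph d} (hp : p.1 ∈ OO) (v : Ph d) :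
    fderiv ℝ (lift φ) p v = fderiv ℝ φ (Pi p) (fderiv ℝ Pi p v) := by
  have h1 : DifferentiableAt ℝ φ (Pi p) := dfa isOpen_Ox h (Pi_pos hp)
  have h2 : DifferentiableAt ℝ (Pi : Ph d → ℝ × E d) p :=
    contDiff_Pi.differentiable (by simp) p
  rw [show lift φ = φ ∘ Pi from rfl, fderiv_comp p h1 h2]
  rfl

theorem pd_lift {φ : ℝ × E d → ℝ} (h : Smx φ) (β : Bool) (i : Fin d) {p : Ph d} (hp : p.1 ∈ OO) :
    pd β i (lift φ) p = aa β p * lift (nab i φ) p := by
  unfold pd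
  rw [fderiv_lift h hp, fderiv_Pi]
  have : ∀ c : ℝ, fderiv ℝ φ (Pi p) (0, c • ee i) = c * lift (nab i φ) p := by
    intro c
    rw [show ((0 : ℝ), c • (ee i : E d)) = c • ((0 : ℝ), (ee i : E d)) by simp, map_smul]
    rfl
  cases β
  · simpa [ew, aa] using this p.1.1
  · simpa [ew, aa] using this p.1.2

theorem da_lift {φ : ℝ × E d → ℝ} (h : Smx φ) (β : Bool) {p : Ph d} (hp : p.1 ∈ OO) :
    der (ea β) (lift φ) p =
      -2 * aa β p * lift (dt φ) p + ∑ l, ww β p l * lift (nab l φ) p := by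
  unfold der
  rw [fderiv_lift h hp, fderiv_Pi, fderiv_x]
  cases β <;> simp [ea, aa, ww, lift_eq]

theorem smx_nab {φ : ℝ × E d → ℝ} (h : Smx φ) (i : Fin d) : Smx (nab i φ) :=
  sm_der isOpen_Ox h _

theorem smx_dt {φ : ℝ × E d → ℝ} (h : Smx φ) : Smx (dt φ) := sm_der isOpen_Ox h _

theorem nab_nab {φ : ℝ × E d → ℝ} (h : Smx φ) (i l : Fin d) {q : ℝ × E d} (hq : 0 < q.1) :
    nab i (nab l φ) q = nab l (nab i φ) q := der_comm isOpen_Ox h hq _ _

theorem sm_aa (β : Bool) : Sm (aa β : Ph d → ℝ) := by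
  cases β
  · exact (contDiff_fst.fst).contDiffOn
  · exact (contDiff_fst.snd).contDiffOn

theorem sm_ww (β : Bool) (i : Fin d) : Sm (fun p : Ph d => ww β p i) := by
  cases β
  · show ContDiffOn ℝ ∞ (fun p : Ph d => p.2.1 i) _
    fun_prop
  · show ContDiffOn ℝ ∞ (fun p : Ph d => p.2.2 i) _
    fun_prop

theorem sm_pd {f : Ph d → ℝ} (h : Sm f) (β : Bool) (i : Fin d) : Sm (pd β i f) :=
  sm_der isOpen_Om h _

theorem der_aa (γ : Bool) (p v : Ph d) : der v (aa γ) p = aa γ v := by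
  cases γ
  · exact der_clm ((ContinuousLinearMap.fst ℝ ℝ ℝ).comp (ContinuousLinearMap.fst ℝ _ _)) p v
  · exact der_clm ((ContinuousLinearMap.snd ℝ ℝ ℝ).comp (ContinuousLinearMap.fst ℝ _ _)) p v

theorem der_ww (γ : Bool) (i : Fin d) (p v : Ph d) :
    der v (fun q => ww γ q i) p = ww γ v i := by
  cases γ
  · exact der_clm ((EuclideanSpace.proj i).comp
      ((ContinuousLinearMap.fst ℝ _ _).comp (ContinuousLinearMap.snd ℝ (ℝ × ℝ) _))) p v
  · exact der_clm ((EuclideanSpace.proj i).comp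
      ((ContinuousLinearMap.snd ℝ _ _).comp (ContinuousLinearMap.snd ℝ (ℝ × ℝ) _))) p v

theorem pd_eq (β : Bool) (i : Fin d) (f : Ph d → ℝ) : pd β i f = der (ew β i) f := rfl

theorem lie_eq (W : Ph d → Ph d) (f : Ph d → ℝ) (p : Ph d) : Lie W f p = der (W p) f p := rfl

theorem lie_apply {g : Ph d → E d} (hg : ContDiffOn ℝ ∞ g {p | p.1 ∈ OO}) (W : Ph d → Ph d)
    {p : Ph d} (hp : p.1 ∈ OO) (i : Fin d) : Lie W g p i = Lie W (fun q => g q i) p := by
  unfold Lie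
  have h := ((EuclideanSpace.proj i : E d →L[ℝ] ℝ).hasFDerivAt.comp p
    (dfa isOpen_Om hg hp).hasFDerivAt).fderiv
  rw [show (fun q => g q i) = (EuclideanSpace.proj i : E d →L[ℝ] ℝ) ∘ g from rfl, h]
  rfl

/-- the facts on `F` that are used -/
structure FF (U : E d → ℝ) : Prop where
  smooth : Smx (Fx U)
  grad : ∀ p : ℝ × E d, 0 < p.1 → ∀ i, nab i (Fx U) p = GF U p.1 p.2 i
  pde : ∀ p : ℝ × E d, 0 < p.1 →
    dt (Fx U) p = 1 / 2 * (∑ i, nab i (nab i (Fx U)) p - ∑ i, nab i (Fx U) p ^ 2)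

namespace FF
variable {U : E d → ℝ} (h : FF U)
include h

theorem G_eq (i : Fin d) {p : Ph d} (hp : p.1 ∈ OO) : Gp U p i = lift (nab i (Fx U)) p :=
  (h.grad (Pi p) (Pi_pos hp) i).symm

theorem smGi (i : Fin d) : Sm fun p => Gp U p i :=
  (sm_lift (smx_nab h.smooth i)).congr fun _ hp => h.G_eq i hp

theorem smG : ContDiffOn ℝ ∞ (Gp U) {p | p.1 ∈ OO} := contDiffOn_euclidean.2 h.smGi

theorem smJ (i l : Fin d) : Smx (Jx U i l) := smx_nab (smx_nab h.smooth l) i

theorem smLJ (i l : Fin d) : Sm (lift (Jx U i l)) := sm_lift (h.smJ i l)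

theorem symJ (i l : Fin d) {q : ℝ × E d} (hq : 0 < q.1) : Jx U i l q = Jx U l i q :=
  nab_nab h.smooth i l hq

theorem symLJ (i l : Fin d) {p : Ph d} (hp : p.1 ∈ OO) :
    lift (Jx U i l) p = lift (Jx U l i) p := h.symJ i l (Pi_pos hp)

theorem smc (β : Bool) (i : Fin d) : Sm fun p => ww β p i + aa β p * Gp U p i :=
  (sm_ww β i).add ((sm_aa β).mul (h.smGi i))

theorem sm_dl {f : Ph d → ℝ} (hf : Sm f) (β : Bool) (i : Fin d) : Sm (dl U β i f) :=
  ((h.smc β i).mul hf).sub (sm_pd hf β i)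

theorem smVV (β : Bool) : ContDiffOn ℝ ∞ (VV U β) {p | p.1 ∈ OO} := by
  cases β
  · exact contDiffOn_const.prodMk (h.smG.neg.prodMk contDiffOn_const)
  · exact contDiffOn_const.prodMk (contDiffOn_const.prodMk h.smG.neg)

theorem smVB : ContDiffOn ℝ ∞ (VB U) {p | p.1 ∈ OO} :=
  contDiffOn_const.prodMk ((sm_lie isOpen_Om h.smG (h.smVV true)).neg.prodMk
    (sm_lie isOpen_Om h.smG (h.smVV false)))

theorem sm_D {f : Ph d → ℝ} (hf : Sm f) (β : Bool) : Sm (Lie (VV U β) f) :=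
  sm_lie isOpen_Om hf (h.smVV β)

theorem sm_B {f : Ph d → ℝ} (hf : Sm f) : Sm (Lie (VB U) f) := sm_lie isOpen_Om hf h.smVB

theorem pd_G (β : Bool) (i l : Fin d) {p : Ph d} (hp : p.1 ∈ OO) :
    pd β i (fun p => Gp U p l) p = aa β p * lift (Jx U i l) p := by
  rw [pd_eq, der_congr isOpen_Om (fun q hq => h.G_eq l hq) hp]
  exact pd_lift (smx_nab h.smooth l) β i hp

theorem D_lift {φ : ℝ × E d → ℝ} (hφ : Smx φ) (β : Bool) {p : Ph d} (hp : p.1 ∈ OO) :
    Lie (VV U β) (lift φ) p = ∑ l, dl U β l (lift (nab l φ)) p + aa β p * lift (qq U φ) p := by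
  rw [lie_VV, da_lift hφ β hp]
  simp only [dl, pd_lift hφ β _ hp, pd_lift (smx_nab hφ _) β _ hp]
  simp only [h.G_eq _ hp, lift_eq, qq,
    Finset.sum_sub_distrib, add_mul, Finset.sum_add_distrib, mul_assoc, ← Finset.mul_sum]
  have : ∑ x, nab x (Fx U) (Pi p) * (aa β p * nab x φ (Pi p)) =
      aa β p * ∑ x, nab x (Fx U) (Pi p) * nab x φ (Pi p) := by
    rw [Finset.mul_sum]; exact Finset.sum_congr rfl fun _ _ => by ring
  rw [this]; ring

theorem qq_nab (i : Fin d) {q : ℝ × E d} (hq : 0 < q.1) : qq U (nab i (Fx U)) q = 0 := by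
  have hs := h.smooth
  have h1 : dt (nab i (Fx U)) q = nab i (dt (Fx U)) q := der_comm isOpen_Ox hs hq _ _
  have h2 : nab i (dt (Fx U)) q = 1 / 2 * (∑ l, nab i (nab l (nab l (Fx U))) q -
      ∑ l, (nab i (nab l (Fx U)) q * nab l (Fx U) q + nab l (Fx U) q * nab i (nab l (Fx U)) q)) := by
    have hA : ∀ l, Smx (nab l (nab l (Fx U))) := fun l => smx_nab (smx_nab hs l) l
    have hB : ∀ l, Smx (fun p => nab l (Fx U) p * nab l (Fx U) p) := fun l =>
      (smx_nab hs l).mul (smx_nab hs l)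
    show der _ (dt (Fx U)) q = _
    rw [der_congr isOpen_Ox (g := fun p => 1 / 2 * (∑ l, nab l (nab l (Fx U)) p -
        ∑ l, nab l (Fx U) p * nab l (Fx U) p)) (fun p hp => by rw [h.pde p hp]; simp only [sq]) hq,
      der_cmul isOpen_Ox ((sm_sum hA).sub (sm_sum hB)) _ hq,
      der_sub isOpen_Ox (sm_sum hA) (sm_sum hB) hq, der_sum isOpen_Ox hA hq,
      der_sum isOpen_Ox hB hq]
    congr 2
    exact Finset.sum_congr rfl fun l _ => der_mul isOpen_Ox (smx_nab hs l) (smx_nab hs l) hq _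
  have h3 : ∀ l, nab i (nab l (nab l (Fx U))) q = nab l (nab l (nab i (Fx U))) q := by
    intro l
    rw [nab_nab (smx_nab hs l) i l hq]
    exact der_congr isOpen_Ox (fun p hp => nab_nab hs i l hp) hq _
  unfold qq
  rw [h1, h2]
  simp only [h3, nab_nab hs i _ hq, Finset.sum_add_distrib]
  have : ∑ l, nab l (nab i (Fx U)) q * nab l (Fx U) q =
      ∑ l, nab l (Fx U) q * nab l (nab i (Fx U)) q := Finset.sum_congr rfl fun _ _ => mul_comm _ _
  rw [this]; ring

theorem D_G (β : Bool) (i : Fin d) {p : Ph d} (hp : p.1 ∈ OO) :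
    Lie (VV U β) (fun p => Gp U p i) p = ∑ l, dl U β l (lift (Jx U l i)) p := by
  rw [lie_eq, der_congr isOpen_Om (fun q hq => h.G_eq i hq) hp, ← lie_eq,
    h.D_lift (smx_nab h.smooth i) β hp]
  rw [show lift (qq U (nab i (Fx U))) p = 0 from h.qq_nab i (Pi_pos hp), mul_zero, add_zero]
  rfl

omit h in
theorem D_aa (β γ : Bool) (p : Ph d) : Lie (VV U β) (aa γ) p = if β = γ then 1 else 0 := by
  rw [lie_eq, der_aa]
  cases β <;> cases γ <;> simp [aa, VV, V1, V2]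

theorem pd_c (β : Bool) (l : Fin d) (γ : Bool) (i : Fin d) {p : Ph d} (hp : p.1 ∈ OO) :
    pd γ i (fun p => ww β p l + aa β p * Gp U p l) p =
      (if β = γ ∧ i = l then 1 else 0) + aa β p * aa γ p * lift (Jx U i l) p := by
  rw [pd_eq, der_add isOpen_Om (sm_ww β l) ((sm_aa β).mul (h.smGi l)) hp,
    der_mul isOpen_Om (sm_aa β) (h.smGi l) hp, der_ww, der_aa, ← pd_eq, h.pd_G γ i l hp]
  have h1 : aa β (ew γ i : Ph d) = 0 := by cases β <;> cases γ <;> simp [aa, ew]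
  have h2 : ww β (ew γ i : Ph d) l = if β = γ ∧ i = l then 1 else 0 := by
    cases β <;> cases γ <;> simp [ww, ew, Pi.single_apply, eq_comm]
  rw [h1, h2]; ring

theorem der_dl {f : Ph d → ℝ} (hf : Sm f) (β : Bool) (l : Fin d) {p : Ph d} (hp : p.1 ∈ OO)
    (v : Ph d) : der v (dl U β l f) p =
      der v (fun p => ww β p l + aa β p * Gp U p l) p * f p +
        (ww β p l + aa β p * Gp U p l) * der v f p - der v (pd β l f) p := by
  rw [show dl U β l f = fun p => (ww β p l + aa β p * Gp U p l) * f p - pd β l f p from rfl,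
    der_sub isOpen_Om ((h.smc β l).mul hf) (sm_pd hf β l) hp, der_mul isOpen_Om (h.smc β l) hf hp]

omit h in
theorem pd_pd {f : Ph d → ℝ} (hf : Sm f) (β : Bool) (i : Fin d) (γ : Bool) (l : Fin d) {p : Ph d}
    (hp : p.1 ∈ OO) : pd β i (pd γ l f) p = pd γ l (pd β i f) p := der_comm isOpen_Om hf hp _ _

theorem pd_dl {f : Ph d → ℝ} (hf : Sm f) (β : Bool) (l : Fin d) (γ : Bool) (i : Fin d) {p : Ph d}
    (hp : p.1 ∈ OO) :
    pd γ i (dl U β l f) p = dl U β l (pd γ i f) p + (if β = γ ∧ i = l then f p else 0) +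
      aa β p * aa γ p * lift (Jx U i l) p * f p := by
  rw [pd_eq, h.der_dl hf β l hp, ← pd_eq, ← pd_eq, ← pd_eq, h.pd_c β l γ i hp, pd_pd hf γ i β l hp]
  unfold dl
  split_ifs <;> ring

omit h in
theorem mul_dl {f g : Ph d → ℝ} (hf : Sm f) (hg : Sm g) (β : Bool) (l : Fin d) {p : Ph d}
    (hp : p.1 ∈ OO) :
    g p * dl U β l f p = dl U β l (fun p => g p * f p) p + pd β l g p * f p := by
  unfold dl
  rw [pd_eq β l (fun p => g p * f p), der_mul isOpen_Om hg hf hp, ← pd_eq, ← pd_eq]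
  ring

omit h in
theorem dl_mul {f g : Ph d → ℝ} (hf : Sm f) (hg : Sm g) (β : Bool) (l : Fin d) {p : Ph d}
    (hp : p.1 ∈ OO) :
    dl U β l (fun p => g p * f p) p = dl U β l g p * f p - g p * pd β l f p := by
  unfold dl
  rw [pd_eq β l (fun p => g p * f p), der_mul isOpen_Om hg hf hp, ← pd_eq, ← pd_eq]
  ring

omit h in
theorem dl_congr {f g : Ph d → ℝ} (hfg : ∀ q : Ph d, q.1 ∈ OO → f q = g q) (β : Bool) (l : Fin d)
    {p : Ph d} (hp : p.1 ∈ OO) : dl U β l f p = dl U β l g p := by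
  unfold dl
  rw [pd_eq, pd_eq, der_congr isOpen_Om hfg hp, hfg p hp]

omit h in
theorem dl_sum {ι : Type} [Fintype ι] {f : ι → Ph d → ℝ} (hf : ∀ i, Sm (f i)) (β : Bool)
    (l : Fin d) {p : Ph d} (hp : p.1 ∈ OO) :
    dl U β l (fun q => ∑ i, f i q) p = ∑ i, dl U β l (f i) p := by
  unfold dl
  rw [pd_eq, der_sum isOpen_Om hf hp, Finset.sum_sub_distrib, Finset.mul_sum]
  rfl

omit h in
theorem dl_neg (f : Ph d → ℝ) (β : Bool) (l : Fin d) (p : Ph d) :
    dl U β l (fun q => -f q) p = -dl U β l f p := by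
  unfold dl
  rw [pd_eq, der_neg, ← pd_eq]
  ring

theorem dl_dl {f : Ph d → ℝ} (hf : Sm f) (β : Bool) (i : Fin d) (γ : Bool) (l : Fin d) {p : Ph d}
    (hp : p.1 ∈ OO) : dl U β i (dl U γ l f) p = dl U γ l (dl U β i f) p := by
  have e1 : dl U β i (dl U γ l f) p =
      (ww β p i + aa β p * Gp U p i) * dl U γ l f p - pd β i (dl U γ l f) p := rfl
  have e2 : dl U γ l (dl U β i f) p =
      (ww γ p l + aa γ p * Gp U p l) * dl U β i f p - pd γ l (dl U β i f) p := rfl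
  rw [e1, e2, h.pd_dl hf γ l β i hp, h.pd_dl hf β i γ l hp, h.symLJ l i hp]
  unfold dl
  rw [pd_pd hf γ l β i hp]
  have : (if γ = β ∧ i = l then f p else 0) = if β = γ ∧ l = i then f p else 0 := by
    simp only [eq_comm]
  rw [this]; ring

theorem D_pd {f : Ph d → ℝ} (hf : Sm f) (β γ : Bool) (i : Fin d) {p : Ph d} (hp : p.1 ∈ OO) :
    Lie (VV U β) (pd γ i f) p =
      pd γ i (Lie (VV U β) f) p + aa γ p * ∑ l, lift (Jx U i l) p * pd β l f p := by
  have hs : ∀ l, Sm fun q => Gp U q l * pd β l f q := fun l => (h.smGi l).mul (sm_pd hf β l)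
  rw [show Lie (VV U β) f = fun q => der (ea β) f q - ∑ l, Gp U q l * pd β l f q from
      funext (lie_VV U β f), lie_VV, pd_eq γ i (fun q => der (ea β) f q - _),
    der_sub isOpen_Om (sm_der isOpen_Om hf _) (sm_sum hs) hp, der_sum isOpen_Om hs hp,
    der_comm isOpen_Om hf hp, Finset.mul_sum]
  have : ∀ l, der (ew γ i) (fun q => Gp U q l * pd β l f q) p =
      aa γ p * (lift (Jx U i l) p * pd β l f p) + Gp U p l * pd β l (pd γ i f) p := by
    intro l
    rw [der_mul isOpen_Om (h.smGi l) (sm_pd hf β l) hp, ← pd_eq, ← pd_eq, h.pd_G γ i l hp,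
      pd_pd hf γ i β l hp, mul_assoc]
  simp only [this, Finset.sum_add_distrib, pd_eq γ i f]
  ring

theorem D_c (β γ : Bool) (i : Fin d) {p : Ph d} (hp : p.1 ∈ OO) :
    Lie (VV U β) (fun p => ww γ p i + aa γ p * Gp U p i) p =
      aa γ p * ∑ l, dl U β l (lift (Jx U l i)) p := by
  rw [← h.D_G β i hp, lie_eq, der_add isOpen_Om (sm_ww γ i) ((sm_aa γ).mul (h.smGi i)) hp,
    der_mul isOpen_Om (sm_aa γ) (h.smGi i) hp, der_ww, der_aa, ← lie_eq]
  cases β <;> cases γ <;> simp [aa, ww, VV, V1, V2]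

theorem D_dl {f : Ph d → ℝ} (hf : Sm f) (β γ : Bool) (i : Fin d) {p : Ph d} (hp : p.1 ∈ OO) :
    Lie (VV U β) (dl U γ i f) p = dl U γ i (Lie (VV U β) f) p +
      aa γ p * ∑ l, dl U β l (fun p => lift (Jx U i l) p * f p) p := by
  rw [lie_eq, h.der_dl hf γ i hp, ← lie_eq, ← lie_eq, ← lie_eq, h.D_c β γ i hp, h.D_pd hf β γ i hp]
  have : ∀ l, dl U β l (fun p => lift (Jx U i l) p * f p) p =
      dl U β l (lift (Jx U l i)) p * f p - lift (Jx U i l) p * pd β l f p := by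
    intro l
    rw [dl_mul hf (h.smLJ i l) β l hp, dl_congr (fun q hq => h.symLJ i l hq) β l hp]
  simp only [this, Finset.sum_sub_distrib, ← Finset.sum_mul]
  unfold dl
  ring

theorem VB1 (i : Fin d) {p : Ph d} (hp : p.1 ∈ OO) :
    (VB U p).2.1 i = -∑ l, dl U true l (lift (Jx U l i)) p := by
  rw [← h.D_G true i hp, ← lie_apply h.smG _ hp]
  rfl

theorem VB2 (i : Fin d) {p : Ph d} (hp : p.1 ∈ OO) :
    (VB U p).2.2 i = ∑ l, dl U false l (lift (Jx U l i)) p := by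
  rw [← h.D_G false i hp, ← lie_apply h.smG _ hp]
  rfl

theorem sum_dl_J {f : Ph d → ℝ} (hf : Sm f) (β γ : Bool) {p : Ph d} (hp : p.1 ∈ OO) :
    ∑ i, dl U β i (fun p => ∑ l, lift (Jx U i l) p * pd γ l f p) p =
      ∑ l, (∑ i, dl U β i (lift (Jx U i l)) p) * pd γ l f p -
        ∑ i, ∑ l, lift (Jx U i l) p * pd β i (pd γ l f) p := by
  have : ∀ i, dl U β i (fun p => ∑ l, lift (Jx U i l) p * pd γ l f p) p =
      ∑ l, (dl U β i (lift (Jx U i l)) p * pd γ l f p - lift (Jx U i l) p * pd β i (pd γ l f) p) := by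
    intro i
    rw [dl_sum (fun l => (h.smLJ i l).mul (sm_pd hf γ l)) β i hp]
    exact Finset.sum_congr rfl fun l _ => dl_mul (sm_pd hf γ l) (h.smLJ i l) β i hp
  simp only [this, Finset.sum_sub_distrib, Finset.sum_mul]
  rw [Finset.sum_comm]

theorem B_eq {f : Ph d → ℝ} (hf : Sm f) {p : Ph d} (hp : p.1 ∈ OO) :
    Lie (VB U) f p =
      ∑ i, dl U false i (fun p => ∑ l, lift (Jx U i l) p * pd true l f p) p -
      ∑ i, dl U true i (fun p => ∑ l, lift (Jx U i l) p * pd false l f p) p := by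
  rw [lie_VB, h.sum_dl_J hf false true hp, h.sum_dl_J hf true false hp]
  simp only [h.VB1 _ hp, h.VB2 _ hp, neg_mul, Finset.sum_neg_distrib]
  have : ∑ i, ∑ l, lift (Jx U i l) p * pd true i (pd false l f) p =
      ∑ i, ∑ l, lift (Jx U i l) p * pd false i (pd true l f) p := by
    rw [Finset.sum_comm]
    exact Finset.sum_congr rfl fun i _ => Finset.sum_congr rfl fun l _ => by
      rw [h.symLJ l i hp, pd_pd hf true l false i hp]
  rw [this]; ring

theorem div_D (β : Bool) {p : Ph d} (hp : p.1 ∈ OO) :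
    fderiv ℝ (lift (Fx U)) p (cond β ((0, 1), 0) ((1, 0), 0)) =
      ∑ i, dl U β i (fun p => Gp U p i) p := by
  have e := da_lift h.smooth β hp
  have e2 := h.pde (Pi p) (Pi_pos hp)
  refine Eq.trans e ?_
  simp only [dl, h.pd_G β _ _ hp]
  simp only [h.G_eq _ hp, lift_eq, Jx, e2, add_mul, Finset.sum_sub_distrib, Finset.sum_add_distrib,
    mul_assoc, ← Finset.mul_sum, sq]
  ring

theorem div_B {p : Ph d} (hp : p.1 ∈ OO) :
    ∑ i, dl U false i (fun p => (VB U p).2.1 i) p +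
      ∑ i, dl U true i (fun p => (VB U p).2.2 i) p = 0 := by
  have h1 : ∀ i, dl U false i (fun p => (VB U p).2.1 i) p =
      -∑ l, dl U false i (dl U true l (lift (Jx U l i))) p := by
    intro i
    rw [dl_congr (fun q hq => h.VB1 i hq) false i hp, dl_neg,
      dl_sum (fun l => h.sm_dl (h.smLJ l i) true l) false i hp]
  have h2 : ∀ i, dl U true i (fun p => (VB U p).2.2 i) p =
      ∑ l, dl U false l (dl U true i (lift (Jx U i l))) p := by
    intro i
    rw [dl_congr (fun q hq => h.VB2 i hq) true i hp,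
      dl_sum (fun l => h.sm_dl (h.smLJ l i) false l) true i hp]
    refine Finset.sum_congr rfl fun l _ => ?_
    rw [h.dl_dl (h.smLJ l i) true i false l hp]
    exact dl_congr (fun q hq => dl_congr (fun r hr => h.symLJ l i hr) true i hq) false l hp
  simp only [h1, h2, Finset.sum_neg_distrib]
  rw [Finset.sum_comm]
  ring

theorem calc_of : Calc U where
  smG := h.smG
  smGi := h.smGi
  smx_nab := fun _ i hφ => smx_nab hφ i
  smJ := h.smJ
  symJ := fun i l _ hp => h.symJ i l hp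
  sm_lift := fun _ hφ => sm_lift hφ
  sm_aa := sm_aa
  sm_pd := fun _ β i hf => sm_pd hf β i
  sm_dl := fun _ β i hf => h.sm_dl hf β i
  sm_D := fun _ β hf => h.sm_D hf β
  sm_B := fun _ hf => h.sm_B hf
  G_eq := fun i _ hp => h.G_eq i hp
  pd_G := fun β i l _ hp => h.pd_G β i l hp
  pd_pd := fun _ β i γ l hf _ hp => pd_pd hf β i γ l hp
  pd_lift := fun _ β i hφ _ hp => pd_lift hφ β i hp
  D_lift := fun _ β hφ _ hp => h.D_lift hφ β hp
  D_G := fun β i _ hp => h.D_G β i hp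
  D_aa := D_aa
  pd_dl := fun _ β l γ i hf _ hp => h.pd_dl hf β l γ i hp
  D_dl := fun _ β γ i hf _ hp => h.D_dl hf β γ i hp
  mul_dl := fun _ _ β l hf hg _ hp => mul_dl hf hg β l hp
  dl_dl := fun _ β i γ l hf _ hp => h.dl_dl hf β i γ l hp
  B_eq := fun _ hf _ hp => h.B_eq hf hp
  div_D := fun β _ hp => h.div_D β hp
  div_B := fun _ hp => h.div_B hp

end FF
end CalcAux

theorem calcStmt (_hB : StmtBasic) (hS : StmtSmooth) : StmtCalc := fun d δ U hU =>
  CalcAux.FF.calc_of ⟨hS.smooth d δ U hU, hS.grad d δ U hU, hS.pde d δ U hU⟩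

end Crest.Agent.R285
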