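import Crest.Agent.R285.DefsT

/-!
# Row 285: directional derivatives on an open set
-/

set_option autoImplicit false

open Set Filter Topology
open scoped ContDiff
open Crest.OracleSampling

noncomputable section

namespace Crest.Agent.R285
namespace CalcAux

variable {H : Type} [NormedAddCommGroup H] [NormedSpace ℝ H] {Ω : Set H}

/-- directional derivative -/
def der (v : H) (f : H → ℝ) (p : H) : ℝ := fderiv ℝ f p v

theorem cda {F : Type} [NormedAddCommGroup F] [NormedSpace ℝ F] (hΩ : IsOpen Ω) {f : H → F}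
    (hf : ContDiffOn ℝ ∞ f Ω) {p : H} (hp : p ∈ Ω) : ContDiffAt ℝ ∞ f p :=
  hf.contDiffAt (hΩ.mem_nhds hp)

theorem dfa {F : Type} [NormedAddCommGroup F] [NormedSpace ℝ F] (hΩ : IsOpen Ω) {f : H → F}
    (hf : ContDiffOn ℝ ∞ f Ω) {p : H} (hp : p ∈ Ω) : DifferentiableAt ℝ f p :=
  (cda hΩ hf hp).differentiableAt (by simp)

theorem sm_fderiv {F : Type} [NormedAddCommGroup F] [NormedSpace ℝ F] (hΩ : IsOpen Ω) {f : H → F}
    (hf : ContDiffOn ℝ ∞ f Ω) : ContDiffOn ℝ ∞ (fderiv ℝ f) Ω :=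
  hf.fderiv_of_isOpen hΩ (by simp)

theorem sm_lie {F : Type} [NormedAddCommGroup F] [NormedSpace ℝ F] (hΩ : IsOpen Ω) {f : H → F}
    (hf : ContDiffOn ℝ ∞ f Ω) {W : H → H} (hW : ContDiffOn ℝ ∞ W Ω) :
    ContDiffOn ℝ ∞ (fun p => fderiv ℝ f p (W p)) Ω :=
  (sm_fderiv hΩ hf).clm_apply hW

theorem sm_der (hΩ : IsOpen Ω) {f : H → ℝ} (hf : ContDiffOn ℝ ∞ f Ω) (v : H) :
    ContDiffOn ℝ ∞ (der v f) Ω :=
  sm_lie hΩ hf contDiffOn_const

theorem fderiv_congr {F : Type} [NormedAddCommGroup F] [NormedSpace ℝ F] (hΩ : IsOpen Ω)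
    {f g : H → F} (h : ∀ q ∈ Ω, f q = g q) {p : H} (hp : p ∈ Ω) :
    fderiv ℝ f p = fderiv ℝ g p :=
  Filter.EventuallyEq.fderiv_eq (Filter.eventually_of_mem (hΩ.mem_nhds hp) h)

theorem der_congr (hΩ : IsOpen Ω) {f g : H → ℝ} (h : ∀ q ∈ Ω, f q = g q) {p : H} (hp : p ∈ Ω)
    (v : H) : der v f p = der v g p := by
  unfold der; rw [fderiv_congr hΩ h hp]

theorem der_add (hΩ : IsOpen Ω) {f g : H → ℝ} (hf : ContDiffOn ℝ ∞ f Ω)
    (hg : ContDiffOn ℝ ∞ g Ω) {p : H} (hp : p ∈ Ω) (v : H) :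
    der v (fun q => f q + g q) p = der v f p + der v g p := by
  unfold der; rw [fderiv_fun_add (dfa hΩ hf hp) (dfa hΩ hg hp)]; rfl

theorem der_sub (hΩ : IsOpen Ω) {f g : H → ℝ} (hf : ContDiffOn ℝ ∞ f Ω)
    (hg : ContDiffOn ℝ ∞ g Ω) {p : H} (hp : p ∈ Ω) (v : H) :
    der v (fun q => f q - g q) p = der v f p - der v g p := by
  unfold der; rw [fderiv_fun_sub (dfa hΩ hf hp) (dfa hΩ hg hp)]; rfl

theorem der_neg {f : H → ℝ} (p v : H) : der v (fun q => -f q) p = -der v f p := by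
  unfold der; rw [fderiv_fun_neg]; rfl

theorem der_mul (hΩ : IsOpen Ω) {f g : H → ℝ} (hf : ContDiffOn ℝ ∞ f Ω)
    (hg : ContDiffOn ℝ ∞ g Ω) {p : H} (hp : p ∈ Ω) (v : H) :
    der v (fun q => f q * g q) p = der v f p * g p + f p * der v g p := by
  unfold der; rw [fderiv_fun_mul (dfa hΩ hf hp) (dfa hΩ hg hp)]
  simp only [add_apply, smul_apply, smul_eq_mul]
  ring

theorem der_const (c : ℝ) (p v : H) : der v (fun _ => c) p = 0 := by
  unfold der; simp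

theorem der_cmul (hΩ : IsOpen Ω) {f : H → ℝ} (hf : ContDiffOn ℝ ∞ f Ω) (c : ℝ) {p : H}
    (hp : p ∈ Ω) (v : H) : der v (fun q => c * f q) p = c * der v f p := by
  rw [der_mul hΩ contDiffOn_const hf hp, der_const]; ring

theorem der_sum (hΩ : IsOpen Ω) {ι : Type} [Fintype ι] {f : ι → H → ℝ}
    (hf : ∀ i, ContDiffOn ℝ ∞ (f i) Ω) {p : H} (hp : p ∈ Ω) (v : H) :
    der v (fun q => ∑ i, f i q) p = ∑ i, der v (f i) p := by
  unfold der; rw [fderiv_fun_sum fun i _ => dfa hΩ (hf i) hp]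
  simp only [sum_apply]

theorem der_comm (hΩ : IsOpen Ω) {f : H → ℝ} (hf : ContDiffOn ℝ ∞ f Ω) {p : H} (hp : p ∈ Ω)
    (v w : H) : der v (der w f) p = der w (der v f) p := by
  have hs : IsSymmSndFDerivAt ℝ f p := (cda hΩ hf hp).isSymmSndFDerivAt (by
    rw [minSmoothness_of_isRCLikeNormedField]
    exact WithTop.coe_le_coe.2 (le_top : (2 : ℕ∞) ≤ ⊤))
  have hd := dfa hΩ (sm_fderiv hΩ hf) hp
  have key : ∀ v w : H, der v (der w f) p = fderiv ℝ (fderiv ℝ f) p v w := by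
    intro v w
    show fderiv ℝ (fun q => fderiv ℝ f q w) p v = _
    rw [fderiv_clm_apply hd (differentiableAt_const w)]
    simp
  rw [key, key, hs.eq]

theorem der_clm (L : H →L[ℝ] ℝ) (p v : H) : der v (fun q => L q) p = L v := by
  unfold der; rw [show (fun q => L q) = L from rfl, L.fderiv]

theorem sm_sum {ι : Type} [Fintype ι] {f : ι → H → ℝ}
    (hf : ∀ i, ContDiffOn ℝ ∞ (f i) Ω) : ContDiffOn ℝ ∞ (fun q => ∑ i, f i q) Ω :=
  ContDiffOn.sum fun i _ => hf i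

/-- expansion of a vector of `E d` in the unit vectors -/
theorem sum_ee {d : ℕ} (x : E d) : ∑ i, x i • (ee i : E d) = x := by
  ext j
  simp [Finset.sum_apply, Pi.single_apply]

end CalcAux
end Crest.Agent.R285
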