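import Crest.Agent.R285.Defs

/-!
# Row 285: contraction of the posterior in its centre (`contrStmt`)
-/

set_option autoImplicit false

open MeasureTheory ProbabilityTheory Set
open scoped ENNReal NNReal ContDiff RealInnerProductSpace
open Crest.OracleSampling

noncomputable section

namespace Crest.Agent.R285

namespace Contr

variable {d : ℕ}

/-! ### polynomial growth -/

theorem pg_mul {f g : E d → ℝ} (hf : PG f) (hg : PG g) : PG fun x => f x * g x := by
  obtain ⟨cf, C, k, h1⟩ := hf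
  obtain ⟨cg, C', k', h2⟩ := hg
  refine ⟨cf.mul cg, C * C', k + k', fun x => ?_⟩
  rw [abs_mul, pow_add, mul_mul_mul_comm]
  exact mul_le_mul (h1 x) (h2 x) (abs_nonneg _) ((abs_nonneg _).trans (h1 x))

theorem pg_abs {f : E d → ℝ} (hf : PG f) : PG fun x => |f x| := by
  obtain ⟨cf, C, k, h1⟩ := hf
  exact ⟨cf.abs, C, k, fun x => by rw [abs_abs]; exact h1 x⟩

theorem lip_cont {f : E d → ℝ} {L : ℝ} (hL : 0 ≤ L) (h : ∀ x y, |f x - f y| ≤ L * ‖x - y‖) :
    Continuous f := by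
  refine (LipschitzWith.of_dist_le_mul (K := ⟨L, hL⟩) fun x y => ?_).continuous
  rw [Real.dist_eq, dist_eq_norm]
  exact h x y

theorem pg_lip {f : E d → ℝ} {L : ℝ} (hL : 0 ≤ L) (h : ∀ x y, |f x - f y| ≤ L * ‖x - y‖) :
    PG f := by
  refine ⟨lip_cont hL h, |f 0| + L, 1, fun x => ?_⟩
  have h1 := h x 0
  rw [sub_zero] at h1
  have h2 : |f x| ≤ |f 0| + |f x - f 0| := by
    have := abs_add_le (f 0) (f x - f 0)
    rwa [add_sub_cancel] at this
  have h3 := norm_nonneg x
  have h4 := abs_nonneg (f 0)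
  rw [pow_one]
  nlinarith [mul_nonneg h3 h4]

theorem pg_shift {f : E d → ℝ} (hf : PG f) (a : E d) : PG fun x => f (x + a) := by
  obtain ⟨cf, C, k, h1⟩ := hf
  have hC : 0 ≤ C := by simpa using (abs_nonneg _).trans (h1 0)
  refine ⟨cf.comp (by fun_prop), C * (1 + ‖a‖) ^ k, k, fun x => (h1 _).trans ?_⟩
  rw [mul_assoc, ← mul_pow]
  gcongr
  have := norm_add_le x a
  nlinarith [mul_nonneg (norm_nonneg x) (norm_nonneg a)]

theorem pg_exp {Φ : E d → ℝ} (hc : Continuous Φ) (h0 : ∀ x, 0 ≤ Φ x) :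
    PG fun x => Real.exp (-Φ x) := by
  refine ⟨by fun_prop, 1, 0, fun x => ?_⟩
  rw [abs_of_pos (Real.exp_pos _), pow_zero, mul_one]
  exact Real.exp_le_one_iff.2 (by linarith [h0 x])

theorem inner_lip (v x y : E d) : |⟪v, x⟫ - ⟪v, y⟫| ≤ ‖v‖ * ‖x - y‖ := by
  rw [← inner_sub_right]
  exact abs_real_inner_le_norm _ _

theorem pg_inner (v : E d) : PG fun x => ⟪v, x⟫ := pg_lip (norm_nonneg v) (inner_lip v)

/-! ### Cameron–Martin -/

theorem cm (hG : StmtGauss) (a : E d) : (gam d).map (fun w => w + a) =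
    (gam d).withDensity fun w => ENNReal.ofReal (Real.exp (⟪a, w⟫ - ‖a‖ ^ 2 / 2)) := by
  refine Measure.ext_of_lintegral _ fun g hg => ?_
  rw [lintegral_map hg (by fun_prop), lintegral_withDensity_eq_lintegral_mul _ (by fun_prop) hg,
    hG.dens d, lintegral_withDensity_eq_lintegral_mul _ (by fun_prop) (by fun_prop),
    lintegral_withDensity_eq_lintegral_mul _ (by fun_prop) (by fun_prop),
    ← lintegral_sub_right_eq_self _ a]
  refine lintegral_congr fun x => ?_
  simp only [Pi.mul_apply, sub_add_cancel]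
  rw [← mul_assoc, ← ENNReal.ofReal_mul (by positivity)]
  congr 2
  rw [mul_assoc, ← Real.exp_add]
  congr 2
  rw [norm_sub_sq_real, real_inner_comm]
  ring

theorem cm_int (hG : StmtGauss) (a : E d) {g : E d → ℝ} (hg : PG g) :
    Integrable (fun w => g w * Real.exp ⟪a, w⟫) (gam d) ∧
      ∫ w, g w * Real.exp ⟪a, w⟫ ∂(gam d) =
        Real.exp (‖a‖ ^ 2 / 2) * ∫ w, g (w + a) ∂(gam d) := by
  have hm : AEStronglyMeasurable g ((gam d).map fun w => w + a) := hg.1.aestronglyMeasurable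
  have h1 : Integrable g ((gam d).map fun w => w + a) :=
    (integrable_map_measure hm (by fun_prop)).2 (hG.pg d _ (pg_shift hg a))
  have h2 : ∫ w, g (w + a) ∂(gam d) = ∫ w, g w ∂((gam d).map fun w => w + a) :=
    (integral_map (by fun_prop) hm).symm
  have e : ∀ w : E d, g w * Real.exp ⟪a, w⟫ = Real.exp (‖a‖ ^ 2 / 2) *
      ((ENNReal.ofReal (Real.exp (⟪a, w⟫ - ‖a‖ ^ 2 / 2))).toReal • g w) := by
    intro w
    rw [ENNReal.toReal_ofReal (Real.exp_pos _).le, smul_eq_mul, ← mul_assoc, ← Real.exp_add,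
      mul_comm]
    congr 2
    ring
  rw [cm hG, integrable_withDensity_iff_integrable_smul' (by fun_prop)
    (ae_of_all _ fun _ => ENNReal.ofReal_lt_top)] at h1
  rw [cm hG, integral_withDensity_eq_integral_toReal_smul (by fun_prop)
    (ae_of_all _ fun _ => ENNReal.ofReal_lt_top)] at h2
  simp_rw [e]
  exact ⟨h1.const_mul _, by rw [integral_const_mul, h2]⟩

/-- exponential moment function -/
def M (g : E d → ℝ) (v : E d) (r : ℝ) : ℝ := ∫ w, g w * Real.exp (r * ⟪v, w⟫) ∂(gam d)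

theorem M_int (hG : StmtGauss) {g : E d → ℝ} (hg : PG g) (v : E d) (r : ℝ) :
    Integrable (fun w => g w * Real.exp (r * ⟪v, w⟫)) (gam d) := by
  simpa only [real_inner_smul_left] using (cm_int hG (r • v) hg).1

theorem M_eq (hG : StmtGauss) {g : E d → ℝ} (hg : PG g) (v : E d) (r : ℝ) :
    M g v r = Real.exp (‖r • v‖ ^ 2 / 2) * ∫ w, g (w + r • v) ∂(gam d) := by
  simpa only [M, real_inner_smul_left] using (cm_int hG (r • v) hg).2

theorem M_deriv (hG : StmtGauss) {g : E d → ℝ} (hg : PG g) (v : E d) (r : ℝ) :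
    HasDerivAt (M g v) (M (fun w => g w * ⟪v, w⟫) v r) r := by
  have hg' := pg_mul hg (pg_inner v)
  have hc := hg.1
  refine (hasDerivAt_integral_of_dominated_loc_of_deriv_le (μ := gam d)
    (F := fun r w => g w * Real.exp (r * ⟪v, w⟫))
    (F' := fun r w => g w * ⟪v, w⟫ * Real.exp (r * ⟪v, w⟫))
    (bound := fun w => |g w * ⟪v, w⟫| * Real.exp ((r + 1) * ⟪v, w⟫) +
      |g w * ⟪v, w⟫| * Real.exp ((r - 1) * ⟪v, w⟫))
    (Ioo_mem_nhds (show r - 1 < r by linarith) (show r < r + 1 by linarith))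
    (Filter.Eventually.of_forall fun r' => (M_int hG hg v r').1) (M_int hG hg v r)
    (M_int hG hg' v r).1 (ae_of_all _ fun w r' hr' => ?_)
    ((M_int hG (pg_abs hg') v _).add (M_int hG (pg_abs hg') v _))
    (ae_of_all _ fun w r' _ => ?_)).2
  · rw [Real.norm_eq_abs, abs_mul, abs_of_pos (Real.exp_pos _), ← mul_add]
    refine mul_le_mul_of_nonneg_left ?_ (abs_nonneg _)
    have p1 := Real.exp_pos ((r + 1) * ⟪v, w⟫)
    have p2 := Real.exp_pos ((r - 1) * ⟪v, w⟫)
    rcases le_total 0 ⟪v, w⟫ with h | h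
    · have := Real.exp_le_exp.2 (mul_le_mul_of_nonneg_right hr'.2.le h)
      linarith
    · have := Real.exp_le_exp.2 (mul_le_mul_of_nonpos_right hr'.1.le h)
      linarith
  · have := (((hasDerivAt_id r').mul_const ⟪v, w⟫).exp).const_mul (g w)
    simp only [id, one_mul] at this
    exact this.congr_deriv (by ring)

/-- expectations under the shifted tilted law -/
theorem tilt_eq (hG : StmtGauss) {Φ : E d → ℝ} (hc : Continuous Φ) (h0 : ∀ x, 0 ≤ Φ x)
    {g : E d → ℝ} (hg : PG g) (v : E d) (r : ℝ) :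
    ∫ w, g (w + r • v) ∂((gam d).tilted fun w => -Φ (w + r • v)) =
      M (fun w => Real.exp (-Φ w) * g w) v r / M (fun w => Real.exp (-Φ w)) v r := by
  rw [M_eq hG (pg_mul (pg_exp hc h0) hg), M_eq hG (pg_exp hc h0),
    mul_div_mul_left _ _ (Real.exp_pos _).ne', integral_tilted, ← integral_div]
  refine integral_congr_ae (ae_of_all _ fun w => ?_)
  simp only [smul_eq_mul]
  ring

theorem M_pos (hG : StmtGauss) {Φ : E d → ℝ} (hc : Continuous Φ) (h0 : ∀ x, 0 ≤ Φ x)
    (v : E d) (r : ℝ) : 0 < M (fun w => Real.exp (-Φ w)) v r := by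
  rw [M_eq hG (pg_exp hc h0)]
  exact mul_pos (Real.exp_pos _) (integral_exp_pos (hG.pg d _ (pg_shift (pg_exp hc h0) _)))

theorem cov_le {μ : Measure (E d)} [IsProbabilityMeasure μ] {κ A B : ℝ} (hA : 0 < A) (hB : 0 < B)
    {f g : E d → ℝ} (hf : MemLp f 2 μ) (hg : MemLp g 2 μ) (h1 : Var[f; μ] ≤ κ * A ^ 2)
    (h2 : Var[g; μ] ≤ κ * B ^ 2) :
    ∫ w, f w * g w ∂μ - (∫ w, f w ∂μ) * ∫ w, g w ∂μ ≤ κ * A * B := by
  have e := covariance_eq_sub hf hg
  have h3 := variance_nonneg (B • f - A • g) μ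
  rw [variance_sub (hf.const_smul B) (hg.const_smul A), variance_smul, variance_smul,
    covariance_smul_left, covariance_smul_right, e] at h3
  have h4 : A * B * (∫ w, f w * g w ∂μ - (∫ w, f w ∂μ) * ∫ w, g w ∂μ) ≤
      A * B * (κ * A * B) := by
    have a1 := mul_le_mul_of_nonneg_left h1 (sq_nonneg B)
    have a2 := mul_le_mul_of_nonneg_left h2 (sq_nonneg A)
    simp only [Pi.mul_apply] at h3
    nlinarith
  exact le_of_mul_le_mul_left h4 (mul_pos hA hB)

/-- the real-valued contraction estimate -/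
theorem real_contr (hG : StmtGauss) (hP : StmtPoinc) {Φ : E d → ℝ} (hc : Continuous Φ)
    (h0 : ∀ x, 0 ≤ Φ x) {β : ℝ} (hβ : 0 ≤ β)
    (hcv : ∀ a : E d, ConvexOn ℝ univ fun w => Φ (w + a) - β / 2 * ‖w‖ ^ 2)
    {φ : E d → ℝ} {A : ℝ} (hA : 0 < A) (hφ : ∀ x y, |φ x - φ y| ≤ A * ‖x - y‖)
    {v : E d} (hv : v ≠ 0) :
    ∫ w, φ (w + v) ∂((gam d).tilted fun w => -Φ (w + v)) ≤
      ∫ w, φ w ∂((gam d).tilted fun w => -Φ w) + (1 + β)⁻¹ * A * ‖v‖ := by
  have pe := pg_exp hc h0
  have pφ := pg_lip hA.le hφ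
  have pl := pg_inner v
  set h : ℝ → ℝ := fun r =>
    M (fun w => Real.exp (-Φ w) * φ w) v r / M (fun w => Real.exp (-Φ w)) v r with hh
  have hd : ∀ r, ∃ h', HasDerivAt h h' r ∧ h' ≤ (1 + β)⁻¹ * A * ‖v‖ := by
    intro r
    have hD := M_pos hG hc h0 v r
    refine ⟨_, (M_deriv hG (pg_mul pe pφ) v r).div (M_deriv hG pe v r) hD.ne', ?_⟩
    obtain ⟨hprob, hint, -, hvar⟩ := hP d (fun w => Φ (w + r • v)) β hβ (by fun_prop)
      (fun x => h0 _) (hcv _)
    have m : ∀ g : E d → ℝ, PG g → MemLp g 2 ((gam d).tilted fun w => -Φ (w + r • v)) := by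
      intro g hg
      rw [memLp_two_iff_integrable_sq hg.1.aestronglyMeasurable]
      simpa only [sq] using hint _ (pg_mul hg hg)
    have := cov_le hA (norm_pos_iff.2 hv) (m _ (pg_shift pφ (r • v))) (m _ (pg_shift pl (r • v)))
      (hvar _ A hA.le fun x y => by simpa using hφ (x + r • v) (y + r • v))
      (hvar _ ‖v‖ (norm_nonneg v) fun x y => by simpa using inner_lip v (x + r • v) (y + r • v))
    rw [tilt_eq hG hc h0 (pg_mul pφ pl), tilt_eq hG hc h0 pφ, tilt_eq hG hc h0 pl] at this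
    refine le_trans (le_of_eq ?_) this
    simp only [mul_assoc]
    field_simp
  choose h' hd1 hd2 using hd
  obtain ⟨r, -, hr⟩ := exists_hasDerivAt_eq_slope h h' zero_lt_one
    (fun x _ => (hd1 x).continuousAt.continuousWithinAt) fun x _ => hd1 x
  have e1 := tilt_eq hG hc h0 pφ v 1
  have e0 := tilt_eq hG hc h0 pφ v 0
  simp only [one_smul, zero_smul, add_zero] at e1 e0
  rw [e1, e0]
  have := hd2 r
  rw [hr, sub_zero, div_one] at this
  simp only [hh] at this
  linarith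

theorem norm_comb (x y : E d) {a b : ℝ} (hab : a + b = 1) :
    ‖a • x + b • y‖ ^ 2 = a * ‖x‖ ^ 2 + b * ‖y‖ ^ 2 - a * b * ‖x - y‖ ^ 2 := by
  rw [norm_add_sq_real, norm_sub_sq_real, norm_smul, norm_smul, real_inner_smul_left,
    real_inner_smul_right, mul_pow, mul_pow, Real.norm_eq_abs, Real.norm_eq_abs, sq_abs, sq_abs]
  obtain rfl : b = 1 - a := by linarith
  ring

theorem convex_comp {F : E d → ℝ} {b β s : ℝ} (hF : ConvexOn ℝ univ fun x => F x - b / 2 * ‖x‖ ^ 2)
    (hβ : β ≤ b * s ^ 2) (c : E d) :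
    ConvexOn ℝ univ fun w => F (c + s • w) - β / 2 * ‖w‖ ^ 2 := by
  refine ⟨convex_univ, fun x _ y _ a a' ha ha' hab => ?_⟩
  have h1 := hF.2 (mem_univ (c + s • x)) (mem_univ (c + s • y)) ha ha' hab
  have e1 : a • (c + s • x) + a' • (c + s • y) = c + s • (a • x + a' • y) := by
    have : c = (a + a') • c := by rw [hab, one_smul]
    conv_rhs => rw [this]
    module
  have e2 : ‖c + s • x - (c + s • y)‖ ^ 2 = s ^ 2 * ‖x - y‖ ^ 2 := by
    rw [add_sub_add_left_eq_sub, ← smul_sub, norm_smul, mul_pow, Real.norm_eq_abs, sq_abs]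
  simp only [smul_eq_mul] at h1 ⊢
  rw [norm_comb _ _ hab, e1, e2] at h1
  rw [norm_comb _ _ hab]
  have := mul_le_mul_of_nonneg_left hβ
    (mul_nonneg (mul_nonneg ha ha') (sq_nonneg ‖x - y‖))
  nlinarith

end Contr

open Contr in
theorem contrStmt (hG : StmtGauss) (hB : StmtBasic) (hP : StmtPoinc) (hC : StmtCov) :
    StmtContr := by
  intro d V hV t τ ht0 ht1 hτ c c' ψ L hψ
  obtain ⟨hpot, hcv⟩ := hB.adm d V hV
  set s := √τ with hs
  have hs0 : 0 < s := Real.sqrt_pos.2 hτ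
  have hs2 : s ^ 2 = τ := Real.sq_sqrt hτ.le
  have hFc : Continuous (Ff V t) := (hB.contF d 2 V hpot).comp (Continuous.prodMk_right t)
  have hF0 : ∀ x, 0 ≤ Ff V t x := fun x => by
    have := hB.Zpos d 2 V hpot t x
    unfold Ff
    linarith [Real.log_nonpos this.1.le this.2]
  have hFcv := hC.convex d 2 1 V hpot zero_le_one hcv t ht0
  have hβ : τ / 2 ≤ 1 / (1 + 1 * t) * s ^ 2 := by
    rw [hs2, div_mul_eq_mul_div, div_le_div_iff₀ (by norm_num) (by linarith)]
    nlinarith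
  have hprob : ∀ c : E d, IsProbabilityMeasure ((gam d).tilted fun w => -Ff V t (c + s • w)) ∧
      ∀ f : E d → ℝ, PG f → Integrable f ((gam d).tilted fun w => -Ff V t (c + s • w)) := by
    intro c
    obtain ⟨h1, h2, -⟩ := hP d (fun w => Ff V t (c + s • w)) (τ / 2) (by linarith) (by fun_prop)
      (fun x => hF0 _) (convex_comp hFcv hβ c)
    exact ⟨h1, h2⟩
  have hpost : ∀ c : E d, IsProbabilityMeasure (post V t τ c) := fun c => by
    have := (hprob c).1
    exact Measure.isProbabilityMeasure_map (by fun_prop)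
  by_cases hcc : c = c'
  · rw [hcc]
    exact le_self_add
  by_cases hL : L = 0
  · have hconst : ψ = fun _ => ψ 0 := funext fun x =>
      le_antisymm (by simpa [hL] using hψ x 0) (by simpa [hL] using hψ 0 x)
    rw [hconst]
    have := hpost c
    have := hpost c'
    simp
  by_cases htop : ∀ x, ψ x = ⊤
  · have := hpost c'
    simp [htop]
  push Not at htop
  obtain ⟨x0, hx0⟩ := htop
  have hfin : ∀ x, ψ x ≠ ⊤ := fun x => ne_top_of_le_ne_top
    (ENNReal.add_ne_top.2 ⟨hx0, ENNReal.mul_ne_top ENNReal.coe_ne_top (edist_ne_top _ _)⟩)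
    (hψ x x0)
  set f : E d → ℝ := fun x => (ψ x).toReal with hf
  have hf1 : ∀ x y, f x ≤ f y + L * ‖x - y‖ := fun x y => by
    have := ENNReal.toReal_mono (ENNReal.add_ne_top.2
      ⟨hfin y, ENNReal.mul_ne_top ENNReal.coe_ne_top (edist_ne_top _ _)⟩) (hψ x y)
    rwa [ENNReal.toReal_add (hfin y) (ENNReal.mul_ne_top ENNReal.coe_ne_top (edist_ne_top _ _)),
      ENNReal.toReal_mul, ENNReal.coe_toReal, edist_dist, ENNReal.toReal_ofReal dist_nonneg,
      dist_eq_norm] at this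
  have hf2 : ∀ x y, |f x - f y| ≤ L * ‖x - y‖ := fun x y => by
    have h1 := hf1 x y
    have h2 := hf1 y x
    rw [norm_sub_rev] at h2
    exact abs_le.2 ⟨by linarith, by linarith⟩
  have hfc : Continuous f := lip_cont L.2 hf2
  have hψf : ψ = fun x => ENNReal.ofReal (f x) := funext fun x =>
    (ENNReal.ofReal_toReal (hfin x)).symm
  have hf3 : ∀ c x y : E d, |f (c + s • x) - f (c + s • y)| ≤ L * s * ‖x - y‖ := fun c x y => by
    have := hf2 (c + s • x) (c + s • y)
    rwa [add_sub_add_left_eq_sub, ← smul_sub, norm_smul, Real.norm_eq_abs, abs_of_pos hs0,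
      ← mul_assoc] at this
  have hLs : 0 < L * s := mul_pos (by exact_mod_cast pos_iff_ne_zero.2 hL) hs0
  have hint : ∀ c : E d, ∫⁻ x, ψ x ∂(post V t τ c) = ENNReal.ofReal
      (∫ w, f (c + s • w) ∂((gam d).tilted fun w => -Ff V t (c + s • w))) := by
    intro c
    rw [hψf, post, lintegral_map (by fun_prop) (by fun_prop),
      ofReal_integral_eq_lintegral_ofReal ((hprob c).2 _ (pg_lip hLs.le (hf3 c)))
        (ae_of_all _ fun w => ENNReal.toReal_nonneg)]
  have hv : s⁻¹ • (c - c') ≠ 0 := smul_ne_zero (inv_ne_zero hs0.ne') (sub_ne_zero.2 hcc)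
  have e : ∀ w : E d, c' + s • (w + s⁻¹ • (c - c')) = c + s • w := fun w => by
    rw [smul_add, smul_smul, mul_inv_cancel₀ hs0.ne', one_smul]
    abel
  have key := real_contr hG hP (Φ := fun w => Ff V t (c' + s • w)) (by fun_prop)
    (fun x => hF0 _) (β := τ / 2) (by linarith) (fun a => by
      have := convex_comp hFcv hβ (c' + s • a)
      simpa only [smul_add, add_assoc, add_comm, add_left_comm] using this)
    (φ := fun w => f (c' + s • w)) hLs (hf3 c') hv
  simp only [e] at key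
  rw [hint, hint]
  refine (ENNReal.ofReal_le_ofReal key).trans (ENNReal.ofReal_add_le.trans ?_)
  gcongr
  rw [← ENNReal.ofReal_coe_nnreal, ← ENNReal.ofReal_mul L.coe_nonneg]
  refine ENNReal.ofReal_le_ofReal (le_of_eq ?_)
  rw [norm_smul, Real.norm_eq_abs, abs_of_pos (inv_pos.2 hs0)]
  field_simp

end Crest.Agent.R285
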