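import Crest.Agent.R285.CoreB

/-!
# Row 285: the core lemma
-/

set_option autoImplicit false

open MeasureTheory ProbabilityTheory Set
open scoped ENNReal NNReal ContDiff RealInnerProductSpace
open Crest.OracleSampling

noncomputable section

namespace Crest.Agent.R285

namespace Core

namespace Ctx

variable {d m : ℕ} {w : Fin (m + 1) → ℝ} {q : Fin (m + 1) → Fin (m + 1) → ℝ} {i : ℕ}
  {c CP CR ρ δ s : ℝ} {U : E d → ℝ} (H : Ctx w q i c CP CR ρ δ s U)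
include H

theorem final (hm : 0 < m) {κ : ℝ} (hκ : |κ| ≤ s * ρ) {φ : ℝ → E d × E d → E d × E d}
    (hφ : IsFlow U 0 (ρ, 0) (ρ * κ) φ) {CT : ℝ} (hCT : CT = CP * (2 + 2 * (c * CR + 12 * c * CP))) :
    IB (nu U 0) (fun ζ => ‖ζ.1 + (pic q (WtG w q i ρ 0 ρ (ρ * κ)) i (Fin.last m)).1.val U ζ -
      (φ 1 ζ).1‖) (CT * ρ ^ i * NN U) ∧
    IB (nu U 0) (fun ζ => ‖ζ.2 + κ • Gp U ((ρ, 0),
        (ζ.1 + (pic q (WtG w q i ρ 0 ρ (ρ * κ)) i (Fin.last m)).1.val U ζ, ζ.2)) +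
        (Rt w q i ρ (s * ρ) κ).val U ζ - ((φ 1 ζ).2 + κ • GF U 1 0)‖)
      ((6 * CT + c * CR + 6 * c ^ 2 * CT + c * (c * CR + 6 * c * CT)) * ρ ^ i * NN U) := by
  have hρ := H.ρ0
  have hρ1 := H.ρ1
  have hc := H.c1
  have hCP := H.CP1
  have hCR := H.CR0
  have hδ := H.δ0
  have hsδ := H.sδ
  have hN := NN_nonneg U
  have hs0 : 0 < s := hρ.trans_le H.hs
  have hCT0 : 0 ≤ CT := by rw [hCT]; positivity
  have hρ4 : ρ ≤ 1 / 4 := hρ1.trans (by norm_num)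
  have hz : (0 : ℝ) ∈ Icc 0 ρ := ⟨le_rfl, hρ.le⟩
  have hr : ρ ∈ Icc 0 ρ := ⟨hρ.le, le_rfl⟩
  have hb0 : Base ρ 0 := ⟨hz, rfl⟩
  have o1 : (0 : ℝ × ℝ) ∈ OO := by
    simpa using (hb0.box (α := (ρ, 0)) hr hz (t := 0) ⟨le_rfl, zero_le_one⟩).oo hρ4
  have bx : Box ρ (ρ, 0) := by
    simpa using hb0.box (α := (ρ, 0)) hr hz (t := 1) ⟨zero_le_one, le_rfl⟩
  have o2 : (0 : ℝ × ℝ) + (ρ, 0) ∈ OO := by simpa using bx.oo hρ4
  have hl : |ρ * κ| ≤ s * ρ := by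
    rw [abs_mul, abs_of_pos hρ]
    calc ρ * |κ| ≤ 1 * (s * ρ) := by gcongr; linarith
      _ = _ := one_mul _
  have hκδ : |κ| * δ ≤ ρ ^ 2 := by
    calc |κ| * δ ≤ s * ρ * δ := by gcongr
      _ = ρ * (s * δ) := by ring
      _ ≤ ρ * ρ := by gcongr
      _ = _ := by ring
  have hκ2 : κ ^ 2 ≤ (s * ρ) ^ 2 := by rw [← sq_abs]; gcongr
  have b3 : |ρ * κ| * δ ≤ ρ := by
    rw [abs_mul, abs_of_pos hρ, mul_assoc]
    exact mul_le_of_le_one_right hρ.le (by nlinarith)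
  set P := pic q (WtG w q i ρ 0 ρ (ρ * κ)) i with hP
  have hPe : IB (nu U 0) (perr U P φ) (CT * ρ ^ i * NN U) := by
    rw [hCT]; exact H.picG_err o1 o2 hφ hr hl (base_tot hρ)
  have ht1 : tau (Fin.last m) = 1 := by
    simp only [tau, Fin.val_last]
    exact div_self (by exact_mod_cast hm.ne')
  have hy : ∀ ζ : E d × E d, ‖ζ.1 + (P (Fin.last m)).1.val U ζ - (φ 1 ζ).1‖ ≤ perr U P φ ζ := by
    intro ζ
    have := le_perr U P φ ζ (Fin.last m)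
    rw [ht1] at this
    exact (norm_fst_le (ζ + valP U (P (Fin.last m)) ζ - φ 1 ζ)).trans this
  refine ⟨hPe.mono hy le_rfl, ?_⟩
  set al : Fin (m + 1) → ℝ × ℝ := fun l => 0 + tau l • ((ρ, 0) : ℝ × ℝ) with hal
  set BG := Lie (VB U) (Gp U) with hBG
  have mBG : Measurable BG := meas_Lie (meas_VB H.meas) _
  have q1 := (H.quad 0 (ρ, 0) (ρ * κ) φ o1 o2 hφ BG (smooth_Lie (smooth_VB H.smooth) H.smooth) mBG _
    (H.reg2 (ρ, 0) (ρ * κ) (abs_of_pos hρ).le (by simpa using hρ.le) b3)).2 (Fin.last m)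
  rw [ht1] at q1
  set X := s⁻¹ * δ * (c * CR + 6 * c * CT) * ρ ^ i * NN U with hX
  have hX0 : 0 ≤ X := by positivity
  have mB : ∀ l, Measurable fun ζ => ‖(Bt w q i ρ (s * ρ) (al l)).val U ζ - BG (al l, ζ)‖ :=
    fun l => ((meas_val H.meas _).sub (mBG.comp (measurable_const.prodMk measurable_id))).norm
  have q2 : ∀ l, IB (nu U 0) (fun ζ => |q (Fin.last m) l| *
      ‖(Bt w q i ρ (s * ρ) (al l)).val U (φ (tau l) ζ) - BG (al l, φ (tau l) ζ)‖)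
      (|q (Fin.last m) l| * X) := by
    intro l
    have := H.Bt_err (base_tot hρ l)
    rw [← hCT] at this
    exact (IB.comp (IsFlow.meas_at hφ _) (hφ.law _ (tau_mem l)) (mB l) this).mul (abs_nonneg _)
  have mq : ∀ l, Measurable fun ζ => |q (Fin.last m) l| *
      ‖(Bt w q i ρ (s * ρ) (al l)).val U (φ (tau l) ζ) - BG (al l, φ (tau l) ζ)‖ :=
    fun l => ((mB l).comp (IsFlow.meas_at hφ _)).const_mul _
  have q3 := IB.sum Finset.univ q2 mq fun l => mul_nonneg (abs_nonneg _) hX0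
  have mP := meas_perr H.meas hφ P
  have q4 := ((q1.add q3 (Finset.measurable_sum _ fun l _ => mq l) (by positivity)
    (Finset.sum_nonneg fun l _ => mul_nonneg (abs_nonneg _) hX0)).add
    (hPe.mul (A := c * (6 * ρ * δ * (c / (s * ρ)))) (by positivity)) (mP.const_mul _)
    (add_nonneg (by positivity) (Finset.sum_nonneg fun l _ => mul_nonneg (abs_nonneg _) hX0))
    (by positivity)).mul (A := κ ^ 2 * ρ) (by positivity)
  refine (q4.add (hPe.mul (A := 6) (by norm_num)) (mP.const_mul _) (mul_nonneg (by positivity)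
    (add_nonneg (add_nonneg (by positivity)
      (Finset.sum_nonneg fun l _ => mul_nonneg (abs_nonneg _) hX0)) (by positivity)))
    (by positivity)).mono (fun ζ => ?_) ?_
  · set I := ∫ τ in (0 : ℝ)..1, BG (0 + τ • ((ρ, 0) : ℝ × ℝ), φ τ ζ) with hI
    set S₁ := ∑ l, q (Fin.last m) l • (Bt w q i ρ (s * ρ) (al l)).val U (ζ + valP U (P l) ζ)
      with hS₁
    set S₂ := ∑ l, q (Fin.last m) l • (Bt w q i ρ (s * ρ) (al l)).val U (φ (tau l) ζ) with hS₂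
    set S₃ := ∑ l, q (Fin.last m) l • BG (al l, φ (tau l) ζ) with hS₃
    have eR : (Rt w q i ρ (s * ρ) κ).val U ζ = -(κ ^ 2 * ρ) • S₁ := by
      simp only [Rt, val_comb, hS₁, Finset.smul_sum, smul_smul, hP, hal]
    have eG : Gp U ((ρ, 0), φ 1 ζ) = Gp U ((ρ, 0), ((φ 1 ζ).1, ζ.2)) := by simp [Gp]
    have e1 : ζ.2 + κ • Gp U ((ρ, 0), (ζ.1 + (P (Fin.last m)).1.val U ζ, ζ.2)) +
        (Rt w q i ρ (s * ρ) κ).val U ζ - ((φ 1 ζ).2 + κ • GF U 1 0) =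
        -(κ ^ 2 * ρ) • ((S₃ - I) + (S₂ - S₃) + (S₁ - S₂)) +
        κ • (Gp U ((ρ, 0), (ζ.1 + (P (Fin.last m)).1.val U ζ, ζ.2)) -
          Gp U ((ρ, 0), ((φ 1 ζ).1, ζ.2))) := by
      rw [H.path hφ ζ, eR, eG]
      module
    have n1 : ‖S₁ - S₂‖ ≤ c * (6 * ρ * δ * (c / (s * ρ))) * perr U P φ ζ :=
      sum_shift (H.hQ.abs_q _) (by positivity) (fun l => H.lip_Bt (base_tot hρ l)) ζ
    have n2 : ‖S₂ - S₃‖ ≤ ∑ l, |q (Fin.last m) l| *
        ‖(Bt w q i ρ (s * ρ) (al l)).val U (φ (tau l) ζ) - BG (al l, φ (tau l) ζ)‖ := by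
      rw [hS₂, hS₃, ← Finset.sum_sub_distrib]
      refine (norm_sum_le _ _).trans (le_of_eq (Finset.sum_congr rfl fun l _ => ?_))
      rw [← smul_sub, norm_smul, Real.norm_eq_abs]
    have n3 : ‖κ • (Gp U ((ρ, 0), (ζ.1 + (P (Fin.last m)).1.val U ζ, ζ.2)) -
          Gp U ((ρ, 0), ((φ 1 ζ).1, ζ.2)))‖ ≤ 6 * perr U P φ ζ := by
      have g1 := H.lip_G bx (ζ.1 + (P (Fin.last m)).1.val U ζ, ζ.2) ((φ 1 ζ).1, ζ.2)
      simp only [Prod.mk_sub_mk, sub_self, Prod.norm_mk, norm_zero,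
        max_eq_left (norm_nonneg _)] at g1
      have g0 : 0 ≤ perr U P φ ζ := (norm_nonneg _).trans (hy ζ)
      rw [norm_smul, Real.norm_eq_abs]
      calc _ ≤ |κ| * (6 * ρ * δ * perr U P φ ζ) :=
            mul_le_mul_of_nonneg_left (g1.trans
              (mul_le_mul_of_nonneg_left (hy ζ) (by positivity))) (abs_nonneg _)
        _ = |κ| * δ * ρ * (6 * perr U P φ ζ) := by ring
        _ ≤ 1 * _ := by
            gcongr
            calc |κ| * δ * ρ ≤ ρ ^ 2 * ρ := by gcongr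
              _ ≤ 1 := by rw [← pow_succ]; exact pow_le_one₀ hρ.le (by linarith)
        _ = _ := one_mul _
    rw [e1]
    refine (norm_add_le _ _).trans (add_le_add ?_ n3)
    rw [norm_smul, norm_neg, Real.norm_eq_abs, abs_of_nonneg (by positivity)]
    refine mul_le_mul_of_nonneg_left ?_ (by positivity)
    exact (norm_add₃_le).trans (add_le_add (add_le_add le_rfl n2) n1)
  · have s1 : ∑ l, |q (Fin.last m) l| * X ≤ c * X := by
      rw [← Finset.sum_mul]; exact mul_le_mul_of_nonneg_right (H.hQ.abs_q _) hX0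
    have e1 : ρ ^ (m + 1) ≤ ρ ^ i := H.pow_le (by have := H.hi; omega)
    have e2 := sqrt_le_NN U
    have k0 : ρ ^ 3 * (s * δ) ≤ 1 := by
      calc ρ ^ 3 * (s * δ) ≤ ρ ^ 3 * ρ := by gcongr
        _ ≤ 1 := by rw [← pow_succ]; exact pow_le_one₀ hρ.le (by linarith)
    have k1 : κ ^ 2 * ρ * δ ^ 2 ≤ 1 := by
      calc κ ^ 2 * ρ * δ ^ 2 ≤ (s * ρ) ^ 2 * ρ * δ ^ 2 := by gcongr
        _ = ρ ^ 3 * (s * δ) * (s * δ) := by ring
        _ ≤ 1 * 1 := by gcongr; linarith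
        _ = 1 := one_mul _
    have k2 : κ ^ 2 * ρ * (s⁻¹ * δ) ≤ 1 := by
      calc κ ^ 2 * ρ * (s⁻¹ * δ) ≤ (s * ρ) ^ 2 * ρ * (s⁻¹ * δ) := by gcongr
        _ = ρ ^ 3 * (s * δ) := by field_simp
        _ ≤ 1 := k0
    calc _ ≤ κ ^ 2 * ρ * (c * (CR * ρ ^ i * δ ^ 2 * NN U) + c * X +
          c * (6 * ρ * δ * (c / (s * ρ))) * (CT * ρ ^ i * NN U)) + 6 * (CT * ρ ^ i * NN U) := by
          gcongr
      _ = (6 * CT + κ ^ 2 * ρ * δ ^ 2 * (c * CR) + κ ^ 2 * ρ * (s⁻¹ * δ) * (6 * c ^ 2 * CT) +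
          κ ^ 2 * ρ * (s⁻¹ * δ) * (c * (c * CR + 6 * c * CT))) * ρ ^ i * NN U := by
          rw [hX]; field_simp; ring
      _ ≤ (6 * CT + 1 * (c * CR) + 1 * (6 * c ^ 2 * CT) +
          1 * (c * (c * CR + 6 * c * CT))) * ρ ^ i * NN U := by gcongr
      _ = _ := by ring

end Ctx

end Core

open _root_.Crest.Agent.R285.Core in
theorem coreStmt (hF : StmtFlow) (hR : StmtReg) (hQ : StmtQuad) (hL : StmtLE) (hP : StmtPic) :
    StmtCore := by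
  intro n
  obtain ⟨m, hm⟩ : ∃ m, m = n + 1 := ⟨_, rfl⟩
  have hm0 : 0 < m := by omega
  obtain ⟨w, q, c, hq⟩ := hQ m hm0
  obtain ⟨CP, hCP, hpic⟩ := hP m w q c hm0 hq
  obtain ⟨C₁, hC₁⟩ := hR m
  obtain ⟨C₂, hC₂⟩ := hR (m + 1)
  obtain ⟨CR, hCR⟩ : ∃ CR, CR = |C₁| + |C₂| := ⟨_, rfl⟩
  have hCR0 : 0 ≤ CR := by rw [hCR]; positivity
  have hCR1 : C₁ ≤ CR := by rw [hCR]; linarith [le_abs_self C₁, abs_nonneg C₂]
  have hCR2 : C₂ ≤ CR := by rw [hCR]; linarith [le_abs_self C₂, abs_nonneg C₁]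
  have hc := hq.one
  obtain ⟨CT, hCT⟩ : ∃ CT, CT = CP * (2 + 2 * (c * CR + 12 * c * CP)) := ⟨_, rfl⟩
  have hCT0 : 0 ≤ CT := by rw [hCT]; positivity
  obtain ⟨K, hK⟩ : ∃ K, K = 6 * CT + c * CR + 6 * c ^ 2 * CT + c * (c * CR + 6 * c * CT) :=
    ⟨_, rfl⟩
  have hK0 : CT ≤ K := by
    have : 0 ≤ c * CR + 6 * c ^ 2 * CT + c * (c * CR + 6 * c * CT) := by positivity
    rw [hK]; linarith
  obtain ⟨C, hC⟩ : ∃ C, C = 4 * (m + 1) * c ^ 2 + K := ⟨_, rfl⟩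
  have hm1 : (1 : ℝ) ≤ m := by exact_mod_cast hm0
  have hc2 : c ≤ c ^ 2 := by nlinarith
  have hC8 : 8 * c ^ 2 ≤ C := by rw [hC]; nlinarith
  have hCK : K ≤ C := by rw [hC]; nlinarith
  refine ⟨C, (m + 1) * (m + 2) + ((m + 1) * (m + 2) + (m + 1)), by nlinarith, ?_⟩
  intro ρ κ μ δ hρ hCρ hδ hδ1 hμ hκ hμ1 hμ2
  obtain ⟨s, hs⟩ : ∃ s, s = μ / (ρ * δ) := ⟨_, rfl⟩
  have hsμ : s * ρ * δ = μ := by rw [hs]; field_simp
  have hρs : ρ ≤ s := by rw [hs, le_div_iff₀ (by positivity)]; nlinarith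
  have hs0 : 0 < s := hρ.trans_le hρs
  have hsδ : s * δ ≤ ρ := by
    have : s * δ * ρ ≤ ρ * ρ := by nlinarith
    exact le_of_mul_le_mul_right this hρ
  have hκs : |κ| ≤ s * ρ := le_of_mul_le_mul_right (hκ.trans_eq hsμ.symm) hδ
  have hsm : 32 * (m + 1) * c ^ 2 * ρ ≤ 1 := by
    have : 0 ≤ K * ρ := mul_nonneg (hCT0.trans hK0) hρ.le
    rw [hC] at hCρ
    nlinarith
  have hρ1 : ρ ≤ 1 / 4 := by nlinarith
  have hl : |ρ * κ| ≤ s * ρ := by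
    rw [abs_mul, abs_of_pos hρ]
    calc ρ * |κ| ≤ 1 * (s * ρ) := by gcongr; linarith
      _ = _ := one_mul _
  have hCs : C * μ / (ρ * δ) = C * s := by rw [hs]; ring
  have hcs : 0 ≤ c * s := by positivity
  have hβ : c * (2 * c * s) + (c * (2 * c * s) + c * s) ≤ C * s := by nlinarith
  have hγ : c * ρ + (c * ρ + c * ρ) ≤ C * ρ := by nlinarith
  have hcc : 0 ≤ c * (2 * c * s) := by positivity
  have hcρ : 0 ≤ c * ρ := by positivity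
  obtain ⟨g1, g2⟩ := syn_picG (i := n) hq hρ hρs (a := 0) ⟨hρ.le, le_rfl⟩ hl (base_tot hρ)
  have g3 := small_Rt (i := n) hq hρ (lam := s * ρ) (κ := κ) (by positivity)
  rw [hCs]
  refine ⟨(pic q (WtG w q n ρ 0 ρ (ρ * κ)) n (Fin.last m)).1, Rt w q n ρ (s * ρ) κ,
    (g1 _).1.mono (by omega) (by linarith) (by linarith),
    LE.Nodes.mono (by omega) (by linarith) (by linarith) (g2 _).1,
    g3.1.trans (by nlinarith), ?_,
    LE.Nodes.mono le_rfl hβ hγ (nodes_Rt hq hρ hρs (abs_of_pos (by positivity)).le hl), ?_⟩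
  · calc _ ≤ κ ^ 2 * ρ * c * (c / (s * ρ)) * δ := mul_le_mul_of_nonneg_right g3.2.1 hδ.le
      _ = c ^ 2 * ρ * (κ * δ) ^ 2 / μ := by rw [← hsμ]; field_simp
      _ ≤ _ := by gcongr; nlinarith
  intro d U hU
  obtain ⟨f1, f2, -, f4, f5⟩ := hF d δ U hU hδ1
  have H : Ctx w q n c CP CR ρ δ s U :=
    { hQ := hq, hi := by omega, ρ0 := hρ, small := hsm, δ0 := hδ, δ1 := hδ1, hs := hρs, sδ := hsδ
      CP1 := hCP, CR0 := hCR0, smooth := f1, meas := f2, flow := f5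
      lip0 := fun b β γ e h1 h2 h3 h4 => (hL d δ U hU hδ1 b β γ ρ e h1 h2 hρ.le hρ1 h3 h4).1
      quad := fun a α lam φ h1 h2 h3 f h4 h5 e h6 => by
        have := (hpic d δ U hU hδ1 a α lam φ h1 h2 h3).1 f h4 h5 e fun a' ha' => ib_norm.1 (h6 a' ha')
        exact ⟨ib_norm.2 this.1, fun k => ib_norm.2 (this.2 k)⟩
      pic0 := fun a α lam φ h1 h2 h3 Wt e₁ Λ h4 h5 h6 h7 h8 h9 h10 h11 =>
        ib_sum_norm.2 ((hpic d δ U hU hδ1 a α lam φ h1 h2 h3).2 Wt ρ e₁ Λ ρ hρ (by linarith) h4 h5 h6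
          h7 h8 (fun l => ib_norm.1 (h9 l)) h10 h11 (by linarith) n)
      reg1 := fun α lam h1 h2 h3 a ha =>
        (ib_norm.2 (hC₁ d δ U hU hδ1 α lam ρ hρ h1 h2 h3 a ha).1).mono (fun _ => le_rfl) (by gcongr)
      reg2 := fun α lam h1 h2 h3 a ha =>
        (ib_norm.2 (hC₂ d δ U hU hδ1 α lam ρ hρ h1 h2 h3 a ha).2.2.2).mono (fun _ => le_rfl)
          (by gcongr) }
  have o1 : (0 : ℝ × ℝ) ∈ OO := by simp [OO]
  have o2 : (0 : ℝ × ℝ) + (ρ, 0) ∈ OO := by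
    show (0 + ρ) ^ 2 + (0 + 0 : ℝ) ^ 2 < 1 / 2
    nlinarith
  obtain ⟨φ, hφ⟩ := f5 0 (ρ, 0) (ρ * κ) o1 o2
  obtain ⟨r1, r2⟩ := H.final hm0 hκs hφ hCT
  have hN := NN_nonneg U
  rw [f4] at r1 r2
  refine ⟨φ 1, IsFlow.meas_at hφ 1, ?_, ?_, ?_⟩
  · have := hφ.law 1 ⟨zero_le_one, le_rfl⟩
    rw [f4] at this
    simpa using this
  · exact ib_norm.1 (r1.mono (fun _ => le_rfl) (by unfold NN; gcongr; exact hK0.trans hCK))
  · exact ib_norm.1 (r2.mono (fun _ => le_rfl) (by rw [← hK]; unfold NN; gcongr))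

end Crest.Agent.R285
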