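import Crest.Agent.R285.DefsL

/-!
# Row 285, core lemma, part A: the expressions, their syntactic bounds, integral bookkeeping
-/

set_option autoImplicit false

open MeasureTheory ProbabilityTheory Set
open scoped ENNReal NNReal ContDiff RealInnerProductSpace
open Crest.OracleSampling

noncomputable section

namespace Crest.Agent.R285.Core

variable {d m : ℕ}

/-! ### integral bounds -/

/-- `∫ g ≤ e` -/
def IB {X : Type} [MeasurableSpace X] (ν : Measure X) (g : X → ℝ) (e : ℝ) : Prop :=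
  ∫⁻ x, ENNReal.ofReal (g x) ∂ν ≤ ENNReal.ofReal e

section IB

variable {X : Type} [MeasurableSpace X] {ν : Measure X} {f g : X → ℝ} {e e' : ℝ}

theorem IB.mono (h : IB ν g e) (hf : ∀ x, f x ≤ g x) (he : e ≤ e') : IB ν f e' :=
  (lintegral_mono fun x => ENNReal.ofReal_le_ofReal (hf x)).trans
    (h.trans (ENNReal.ofReal_le_ofReal he))

theorem IB.add (hf : IB ν f e) (hg : IB ν g e') (hm : Measurable g) (he : 0 ≤ e) (he' : 0 ≤ e') :
    IB ν (fun x => f x + g x) (e + e') := by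
  unfold IB at *
  calc ∫⁻ x, ENNReal.ofReal (f x + g x) ∂ν
      ≤ ∫⁻ x, ENNReal.ofReal (f x) + ENNReal.ofReal (g x) ∂ν :=
        lintegral_mono fun x => ENNReal.ofReal_add_le
    _ = _ := lintegral_add_right _ hm.ennreal_ofReal
    _ ≤ _ := add_le_add hf hg
    _ = _ := (ENNReal.ofReal_add he he').symm

theorem IB.mul (hf : IB ν f e) {A : ℝ} (hA : 0 ≤ A) : IB ν (fun x => A * f x) (A * e) := by
  unfold IB at *
  simp only [ENNReal.ofReal_mul hA]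
  rw [lintegral_const_mul' _ _ ENNReal.ofReal_ne_top]
  exact mul_le_mul_right hf _

theorem IB.sum {ι : Type} (s : Finset ι) {F : ι → X → ℝ} {e : ι → ℝ} (h : ∀ i, IB ν (F i) (e i))
    (hm : ∀ i, Measurable (F i)) (he : ∀ i, 0 ≤ e i) :
    IB ν (fun x => ∑ i ∈ s, F i x) (∑ i ∈ s, e i) := by
  classical
  induction s using Finset.induction_on with
  | empty => simp [IB]
  | insert i s hi ih =>
    simp only [Finset.sum_insert hi]
    exact (h i).add ih (Finset.measurable_sum _ fun j _ => hm j) (he i)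
      (Finset.sum_nonneg fun j _ => he j)

theorem IB.comp {Y : Type} [MeasurableSpace Y] {ν' : Measure Y} {φ : X → Y} (hφ : Measurable φ)
    (hν : ν.map φ = ν') {g : Y → ℝ} (hg : Measurable g) (h : IB ν' g e) :
    IB ν (fun x => g (φ x)) e := by
  unfold IB at *
  rwa [← hν, lintegral_map hg.ennreal_ofReal hφ] at h

theorem ib_norm {Y : Type} [NormedAddCommGroup Y] {F : X → Y} :
    IB ν (fun x => ‖F x‖) e ↔ ∫⁻ x, ‖F x‖ₑ ∂ν ≤ ENNReal.ofReal e := by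
  simp only [IB, ofReal_norm]

theorem ib_sum_norm {Y ι : Type} [Fintype ι] [NormedAddCommGroup Y] {F : ι → X → Y} :
    IB ν (fun x => ∑ i, ‖F i x‖) e ↔ ∫⁻ x, ∑ i, ‖F i x‖ₑ ∂ν ≤ ENNReal.ofReal e := by
  simp only [IB, ENNReal.ofReal_sum_of_nonneg fun i _ => norm_nonneg _, ofReal_norm]

end IB

/-! ### measurability and smoothness -/

theorem meas_val {U : E d → ℝ} (hG : Measurable (Gp U)) (e : LE) : Measurable (e.val U) := by
  induction e with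
  | nil => exact measurable_const
  | cons k a1 a2 ey ez rest ihy ihz ih =>
    have h1 : Measurable fun ζ : E d × E d =>
        (((a1, a2), (ζ.1 + ey.val U ζ, ζ.2 + ez.val U ζ)) : Ph d) :=
      measurable_const.prodMk ((measurable_fst.add ihy).prodMk (measurable_snd.add ihz))
    exact ((hG.comp h1).const_smul k).add ih

theorem meas_valP {U : E d → ℝ} (hG : Measurable (Gp U)) (e : LE × LE) : Measurable (valP U e) :=
  (meas_val hG e.1).prodMk (meas_val hG e.2)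

theorem meas_Lie {W : Ph d → Ph d} (hW : Measurable W) (f : Ph d → E d) : Measurable (Lie W f) := by
  have h1 : Continuous fun q : (Ph d →L[ℝ] E d) × Ph d => q.1 q.2 := by fun_prop
  exact h1.measurable.comp ((measurable_fderiv ℝ f).prodMk hW)

theorem isOpen_OO : IsOpen {p : Ph d | p.1 ∈ OO} :=
  isOpen_lt (f := fun p : Ph d => p.1.1 ^ 2 + p.1.2 ^ 2) (by fun_prop) continuous_const

theorem smooth_Lie {W : Ph d → Ph d} {f : Ph d → E d} (hW : ContDiffOn ℝ ∞ W {p | p.1 ∈ OO})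
    (hf : ContDiffOn ℝ ∞ f {p | p.1 ∈ OO}) : ContDiffOn ℝ ∞ (Lie W f) {p | p.1 ∈ OO} :=
  (hf.fderiv_of_isOpen isOpen_OO (by simp)).clm_apply hW

theorem meas_V1 {U : E d → ℝ} (hG : Measurable (Gp U)) : Measurable (V1 U) :=
  measurable_const.prodMk (hG.neg.prodMk measurable_const)

theorem meas_V2 {U : E d → ℝ} (hG : Measurable (Gp U)) : Measurable (V2 U) :=
  measurable_const.prodMk (measurable_const.prodMk hG.neg)

theorem meas_VB {U : E d → ℝ} (hG : Measurable (Gp U)) : Measurable (VB U) :=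
  measurable_const.prodMk ((meas_Lie (meas_V2 hG) _).neg.prodMk (meas_Lie (meas_V1 hG) _))

theorem smooth_VB {U : E d → ℝ} (hG : ContDiffOn ℝ ∞ (Gp U) {p | p.1 ∈ OO}) :
    ContDiffOn ℝ ∞ (VB U) {p | p.1 ∈ OO} := by
  have h1 : ContDiffOn ℝ ∞ (V1 U) {p | p.1 ∈ OO} :=
    contDiffOn_const.prodMk (hG.neg.prodMk contDiffOn_const)
  have h2 : ContDiffOn ℝ ∞ (V2 U) {p | p.1 ∈ OO} :=
    contDiffOn_const.prodMk (contDiffOn_const.prodMk hG.neg)
  exact contDiffOn_const.prodMk ((smooth_Lie h2 hG).neg.prodMk (smooth_Lie h1 hG))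

theorem Lie_WF (U : E d → ℝ) (α : ℝ × ℝ) (lam : ℝ) (f : Ph d → E d) (p : Ph d) :
    Lie (WF U α lam) f p =
      α.1 • Lie (V1 U) f p + α.2 • Lie (V2 U) f p + lam • Lie (VB U) f p := by
  simp only [Lie, WF, map_add, map_smul]

theorem WF_snd (U : E d → ℝ) (α : ℝ × ℝ) (lam : ℝ) (p : Ph d) :
    (WF U α lam p).2 = ((-α.1) • Gp U p + (-lam) • Lie (V2 U) (Gp U) p,
      (-α.2) • Gp U p + lam • Lie (V1 U) (Gp U) p) := by
  simp [WF, V1, V2, VB]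

/-! ### the expressions -/

/-- the nodes -/
def tau (k : Fin (m + 1)) : ℝ := ((k : ℕ) : ℝ) / (m : ℝ)

theorem tau_mem (k : Fin (m + 1)) : tau k ∈ Icc (0 : ℝ) 1 := by
  refine ⟨by unfold tau; positivity, div_le_one_of_le₀ ?_ (by positivity)⟩
  exact_mod_cast Nat.lt_succ_iff.1 k.2

/-- weighted sums of shifted expressions -/
def comb (v : Fin (m + 1) → ℝ) (P : Fin (m + 1) → LE × LE) (e : Fin (m + 1) → LE) : LE :=
  LE.sumL fun l => (LE.subst (P l).1 (P l).2 (e l)).smul (v l)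

theorem val_comb (U : E d → ℝ) (v : Fin (m + 1) → ℝ) (P : Fin (m + 1) → LE × LE)
    (e : Fin (m + 1) → LE) (ζ : E d × E d) :
    (comb v P e).val U ζ = ∑ l, v l • (e l).val U (ζ + valP U (P l) ζ) := by
  simp only [comb, LE.val_sumL, LE.val_smul, LE.val_subst]
  rfl

theorem small_comb {v : Fin (m + 1) → ℝ} (P : Fin (m + 1) → LE × LE) {e : Fin (m + 1) → LE}
    {b : ℕ} {β γ c : ℝ} (hv : ∑ l, |v l| ≤ c) (hβ : 0 ≤ β) (hγ : 0 ≤ γ)
    (he : ∀ l, (e l).Small b β γ) : (comb v P e).Small ((m + 1) * b) (c * β) (c * γ) := by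
  refine ⟨?_, ?_, ?_⟩
  · simp only [comb, LE.width_sumL, LE.width_smul, LE.width_subst]
    calc ∑ l, (e l).width ≤ ∑ _l : Fin (m + 1), b := Finset.sum_le_sum fun l _ => (he l).1
      _ = _ := by simp
  · simp only [comb, LE.abss_sumL, LE.abss_smul, LE.abss_subst]
    calc ∑ l, |v l| * (e l).abss ≤ ∑ l, |v l| * β :=
          Finset.sum_le_sum fun l _ => mul_le_mul_of_nonneg_left (he l).2.1 (abs_nonneg _)
      _ ≤ _ := by rw [← Finset.sum_mul]; exact mul_le_mul_of_nonneg_right hv hβ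
  · simp only [comb, LE.sum_sumL, LE.sum_smul, LE.sum_subst]
    calc |∑ l, v l * (e l).sum| ≤ ∑ l, |v l * (e l).sum| := Finset.abs_sum_le_sum_abs _ _
      _ ≤ ∑ l, |v l| * γ := Finset.sum_le_sum fun l _ => by
          rw [abs_mul]; exact mul_le_mul_of_nonneg_left (he l).2.2 (abs_nonneg _)
      _ ≤ _ := by rw [← Finset.sum_mul]; exact mul_le_mul_of_nonneg_right hv hγ

/-- both components small -/
def SmallP (b : ℕ) (β γ : ℝ) (e : LE × LE) : Prop := e.1.Small b β γ ∧ e.2.Small b β γ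

/-- both components have good nodes -/
def NodesP (b : ℕ) (β γ ρ : ℝ) (e : LE × LE) : Prop := e.1.Nodes b β γ ρ ∧ e.2.Nodes b β γ ρ

theorem nodes_comb (v : Fin (m + 1) → ℝ) {P : Fin (m + 1) → LE × LE} {e : Fin (m + 1) → LE}
    {b b' : ℕ} {β β' γ γ' ρ : ℝ} (hP : ∀ l, SmallP b' β' γ' (P l))
    (hN : ∀ l, NodesP (b' + b) (β' + β) (γ' + γ) ρ (P l)) (he : ∀ l, (e l).Nodes b β γ ρ) :
    (comb v P e).Nodes (b' + b) (β' + β) (γ' + γ) ρ :=
  LE.Nodes.sumL fun l => LE.Nodes.smul _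
    (LE.Nodes.subst (hP l).1 (hP l).2 (hN l).1 (hN l).2 (he l))

theorem pic_syn {q : Fin (m + 1) → Fin (m + 1) → ℝ} {Wt : Fin (m + 1) → LE × LE} {b₀ b : ℕ}
    {β₀ β γ₀ γ c ρ : ℝ} (hc : 0 ≤ c) (hq : ∀ k, ∑ l, |q k l| ≤ c) (hβ : 0 ≤ β₀) (hγ : 0 ≤ γ₀)
    (hS : ∀ l, SmallP b₀ β₀ γ₀ (Wt l)) (hN : ∀ l, NodesP b β γ ρ (Wt l)) (i : ℕ) :
    (∀ k, SmallP ((m + 1) * b₀) (c * β₀) (c * γ₀) (pic q Wt i k)) ∧
      ∀ k, NodesP ((m + 1) * b₀ + b) (c * β₀ + β) (c * γ₀ + γ) ρ (pic q Wt i k) := by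
  induction i with
  | zero =>
    have : LE.nil.Small ((m + 1) * b₀) (c * β₀) (c * γ₀) :=
      ⟨Nat.zero_le _, mul_nonneg hc hβ, by simpa [LE.sum] using mul_nonneg hc hγ⟩
    exact ⟨fun _ => ⟨this, this⟩, fun _ => ⟨trivial, trivial⟩⟩
  | succ i ih =>
    exact ⟨fun k => ⟨small_comb (e := fun l => (Wt l).1) _ (hq k) hβ hγ fun l => (hS l).1,
        small_comb (e := fun l => (Wt l).2) _ (hq k) hβ hγ fun l => (hS l).2⟩,
      fun k => ⟨nodes_comb (e := fun l => (Wt l).1) _ ih.1 ih.2 fun l => (hN l).1,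
        nodes_comb (e := fun l => (Wt l).2) _ ih.1 ih.2 fun l => (hN l).2⟩⟩

/-- admissible node parameters -/
def Box (ρ : ℝ) (a : ℝ × ℝ) : Prop := a.1 ∈ Icc 0 (2 * ρ) ∧ a.2 ∈ Icc 0 ρ

theorem small_one (k a1 a2 : ℝ) {β γ : ℝ} (hβ : |k| ≤ β) (hγ : |k| ≤ γ) :
    (LE.one k a1 a2).Small 1 β γ :=
  ⟨le_rfl, by simpa [LE.one, LE.abss] using hβ, by simpa [LE.one, LE.sum] using hγ⟩

theorem nodes_one (k : ℝ) {a : ℝ × ℝ} {b : ℕ} {β γ ρ : ℝ} (ha : Box ρ a) (hβ : 0 ≤ β)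
    (hγ : 0 ≤ γ) : (LE.one k a.1 a.2).Nodes b β γ ρ := by
  have : LE.nil.Small b β γ := ⟨Nat.zero_le _, hβ, by simpa [LE.sum] using hγ⟩
  exact ⟨ha.1, ha.2, this, this, trivial, trivial, trivial⟩

variable (w : Fin (m + 1) → ℝ) (q : Fin (m + 1) → Fin (m + 1) → ℝ) (i : ℕ) (ρ : ℝ)

/-- exact field along a leg -/
def WtL (a α : ℝ × ℝ) (l : Fin (m + 1)) : LE × LE :=
  (LE.one (-α.1) (a + tau l • α).1 (a + tau l • α).2,
   LE.one (-α.2) (a + tau l • α).1 (a + tau l • α).2)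

/-- approximate derivative of `G` along a flow -/
def Der (s : ℝ) (P : Fin (m + 1) → LE × LE) (a α : ℝ × ℝ) : LE :=
  comb (fun k => w k / s) P fun k => LE.one 1 (a + tau k • α).1 (a + tau k • α).2

/-- approximation of `D_b G` -/
def Dt (a α : ℝ × ℝ) : LE := Der w ρ (pic q (WtL a α) i) a α

/-- approximate field of a flow with curvature part -/
def WtG (a : ℝ × ℝ) (α₁ lam : ℝ) (l : Fin (m + 1)) : LE × LE :=
  ((LE.one (-α₁) (a + tau l • ((α₁, 0) : ℝ × ℝ)).1 (a + tau l • ((α₁, 0) : ℝ × ℝ)).2).append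
      ((Dt w q i ρ (a + tau l • ((α₁, 0) : ℝ × ℝ)) (0, ρ)).smul (-lam)),
    (Dt w q i ρ (a + tau l • ((α₁, 0) : ℝ × ℝ)) (ρ, 0)).smul lam)

/-- approximation of `ℬ G` -/
def Bt (lam : ℝ) (a : ℝ × ℝ) : LE := Der w lam (pic q (WtG w q i ρ a 0 lam) i) a (0, 0)

/-- the remainder expression -/
def Rt (lam κ : ℝ) : LE :=
  comb (fun l => -(κ ^ 2 * ρ) * q (Fin.last m) l) (pic q (WtG w q i ρ 0 ρ (ρ * κ)) i)
    fun l => Bt w q i ρ lam (0 + tau l • ((ρ, 0) : ℝ × ℝ))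

/-- base points `(x, 0)`, `x ∈ [0, ρ]` -/
def Base (ρ : ℝ) (a : ℝ × ℝ) : Prop := a.1 ∈ Icc 0 ρ ∧ a.2 = 0

variable {w q i ρ}

theorem Base.box {a α : ℝ × ℝ} (ha : Base ρ a) (h1 : α.1 ∈ Icc 0 ρ) (h2 : α.2 ∈ Icc 0 ρ) {t : ℝ}
    (ht : t ∈ Icc (0 : ℝ) 1) : Box ρ (a + t • α) := by
  obtain ⟨⟨a1, a2⟩, a3⟩ := ha
  simp only [Box, Prod.fst_add, Prod.smul_fst, smul_eq_mul, Prod.snd_add, Prod.smul_snd, a3,
    mem_Icc]
  have := ht.1
  have := ht.2
  have := h1.1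
  have := h1.2
  have := h2.1
  have := h2.2
  refine ⟨⟨by positivity, by nlinarith⟩, by positivity, by nlinarith⟩

theorem Box.oo {a : ℝ × ℝ} (ha : Box ρ a) (hρ : ρ ≤ 1 / 4) : a ∈ OO := by
  obtain ⟨⟨a1, a2⟩, a3, a4⟩ := ha
  show a.1 ^ 2 + a.2 ^ 2 < 1 / 2
  nlinarith

section Syn

variable {c s : ℝ} (hQ : Quad m w q c) (hρ : 0 < ρ) (hs : ρ ≤ s)
include hQ hρ hs

theorem syn_picL {a α : ℝ × ℝ} (ha : Base ρ a) (h1 : α.1 ∈ Icc 0 ρ) (h2 : α.2 ∈ Icc 0 ρ) :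
    (∀ l : Fin (m + 1), SmallP 1 ρ ρ (WtL a α l) ∧ NodesP 0 0 0 ρ (WtL a α l)) ∧
    (∀ k, SmallP (m + 1) (c * s) (c * ρ) (pic q (WtL a α) i k)) ∧
      ∀ k, NodesP (m + 1) (c * s) (c * ρ) ρ (pic q (WtL a α) i k) := by
  have e1 : |-α.1| ≤ ρ := by rw [abs_neg, abs_of_nonneg h1.1]; exact h1.2
  have e2 : |-α.2| ≤ ρ := by rw [abs_neg, abs_of_nonneg h2.1]; exact h2.2
  have hN : ∀ l : Fin (m + 1), NodesP 0 0 0 ρ (WtL a α l) := fun l =>
    ⟨nodes_one _ (ha.box h1 h2 (tau_mem l)) le_rfl le_rfl,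
      nodes_one _ (ha.box h1 h2 (tau_mem l)) le_rfl le_rfl⟩
  refine ⟨fun l => ⟨⟨small_one _ _ _ e1 e1, small_one _ _ _ e2 e2⟩, hN l⟩, ?_⟩
  have := pic_syn (Wt := WtL a α) (b₀ := 1) (β₀ := s) (γ₀ := ρ) (zero_le_one.trans hQ.one)
    hQ.abs_q (hρ.le.trans hs) hρ.le
    (fun l => ⟨small_one _ _ _ (e1.trans hs) e1, small_one _ _ _ (e2.trans hs) e2⟩) hN i
  simpa using this

omit hρ hs in
theorem small_Der {t : ℝ} (ht : 0 < t) (P : Fin (m + 1) → LE × LE) (a α : ℝ × ℝ) :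
    (Der w t P a α).Small (m + 1) (c / t) 0 := by
  have hv : ∑ l, |w l / t| ≤ c / t := by
    simp only [abs_div, abs_of_pos ht, ← Finset.sum_div]
    exact div_le_div_of_nonneg_right hQ.abs_w ht.le
  have := small_comb (b := 1) (β := 1) (γ := 1) P hv zero_le_one zero_le_one
    (e := fun k => LE.one 1 (a + tau k • α).1 (a + tau k • α).2)
    fun l => small_one _ _ _ (by simp) (by simp)
  refine ⟨by simpa [Der] using this.1, by simpa [Der] using this.2.1, ?_⟩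
  simp [Der, comb, LE.one, LE.sum, ← Finset.sum_div, hQ.sum_w]

theorem nodes_Dt {a α : ℝ × ℝ} (ha : Base ρ a) (h1 : α.1 ∈ Icc 0 ρ) (h2 : α.2 ∈ Icc 0 ρ) :
    (Dt w q i ρ a α).Nodes (m + 1) (c * s) (c * ρ) ρ := by
  obtain ⟨-, g1, g2⟩ := syn_picL (i := i) hQ hρ hs ha h1 h2
  have := nodes_comb (fun k => w k / ρ) (b := 0) (β := 0) (γ := 0) g1 (by simpa using g2)
    (e := fun k => LE.one 1 (a + tau k • α).1 (a + tau k • α).2)
    fun l => nodes_one _ (ha.box h1 h2 (tau_mem l)) le_rfl le_rfl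
  simpa [Dt, Der] using this

theorem syn_WtG {a : ℝ × ℝ} {α₁ lam : ℝ} (h1 : α₁ ∈ Icc 0 ρ) (hl : |lam| ≤ s * ρ)
    (ha : ∀ l : Fin (m + 1), Base ρ (a + tau l • ((α₁, 0) : ℝ × ℝ))) (l : Fin (m + 1)) :
    SmallP (m + 2) (2 * c * s) ρ (WtG w q i ρ a α₁ lam l) ∧
      NodesP (m + 1) (c * s) (c * ρ) ρ (WtG w q i ρ a α₁ lam l) := by
  have hc := hQ.one
  have hs0 : 0 ≤ s := hρ.le.trans hs
  have e1 : |-α₁| ≤ ρ := by rw [abs_neg, abs_of_nonneg h1.1]; exact h1.2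
  have hz : (0 : ℝ) ∈ Icc 0 ρ := ⟨le_rfl, hρ.le⟩
  have hr : ρ ∈ Icc 0 ρ := ⟨hρ.le, le_rfl⟩
  have hD : ∀ (α : ℝ × ℝ) (k : ℝ), |k| ≤ s * ρ →
      ((Dt w q i ρ (a + tau l • ((α₁, 0) : ℝ × ℝ)) α).smul k).Small (m + 1) (c * s) 0 := by
    intro α k hk
    obtain ⟨g1, g2, g3⟩ := small_Der hQ hρ (pic q (WtL (a + tau l • ((α₁, 0) : ℝ × ℝ)) α) i)
      (a + tau l • ((α₁, 0) : ℝ × ℝ)) α
    refine ⟨by simpa [Dt] using g1, ?_, ?_⟩
    · rw [LE.abss_smul]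
      calc _ ≤ s * ρ * (c / ρ) := mul_le_mul hk g2 (LE.abss_nonneg _) (by positivity)
        _ = c * s := by field_simp
    · rw [LE.sum_smul, abs_mul]
      exact mul_nonpos_of_nonneg_of_nonpos (abs_nonneg _) g3
  have hbox : Box ρ (a + tau l • ((α₁, 0) : ℝ × ℝ)) := by
    simpa using (ha l).box (α := 0) hz hz (t := 0) ⟨le_rfl, zero_le_one⟩
  refine ⟨⟨?_, ?_⟩, ?_, ?_⟩
  · refine ((small_one _ _ _ (e1.trans hs) e1).append (hD _ _ (by rwa [abs_neg]))).mono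
      (by omega) (by nlinarith) (by simp)
  · exact (hD _ _ hl).mono (by omega) (by nlinarith) hρ.le
  · exact LE.Nodes.append (LE.Nodes.smul _ (nodes_Dt hQ hρ hs (ha l) hz hr))
      (nodes_one _ hbox (by positivity) (by positivity))
  · exact LE.Nodes.smul _ (nodes_Dt hQ hρ hs (ha l) hr hz)

theorem syn_picG {a : ℝ × ℝ} {α₁ lam : ℝ} (h1 : α₁ ∈ Icc 0 ρ) (hl : |lam| ≤ s * ρ)
    (ha : ∀ l : Fin (m + 1), Base ρ (a + tau l • ((α₁, 0) : ℝ × ℝ))) :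
    (∀ k, SmallP ((m + 1) * (m + 2)) (c * (2 * c * s)) (c * ρ) (pic q (WtG w q i ρ a α₁ lam) i k)) ∧
      ∀ k, NodesP ((m + 1) * (m + 2) + (m + 1)) (c * (2 * c * s) + c * s) (c * ρ + c * ρ) ρ
        (pic q (WtG w q i ρ a α₁ lam) i k) := by
  have hc := hQ.one
  have hs0 : 0 ≤ s := hρ.le.trans hs
  exact pic_syn (by positivity) hQ.abs_q (by positivity) hρ.le
    (fun l => (syn_WtG hQ hρ hs h1 hl ha l).1) (fun l => (syn_WtG hQ hρ hs h1 hl ha l).2) i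

theorem nodes_Bt {a : ℝ × ℝ} {lam : ℝ} (hl : |lam| ≤ s * ρ) (ha : Base ρ a) :
    (Bt w q i ρ lam a).Nodes ((m + 1) * (m + 2) + (m + 1)) (c * (2 * c * s) + c * s)
      (c * ρ + c * ρ) ρ := by
  have hc := hQ.one
  have hs0 : 0 ≤ s := hρ.le.trans hs
  have hz : (0 : ℝ) ∈ Icc 0 ρ := ⟨le_rfl, hρ.le⟩
  obtain ⟨g1, g2⟩ := syn_picG (i := i) hQ hρ hs (a := a) hz hl fun l => by
    simpa [Base] using ha
  unfold Bt Der
  exact nodes_comb _ g1 g2 fun l => nodes_one 1 (ha.box (α := (0, 0)) hz hz (tau_mem l))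
    (by positivity) (by positivity)

omit hQ hs in
theorem base_tot (l : Fin (m + 1)) : Base ρ (0 + tau l • ((ρ, 0) : ℝ × ℝ)) := by
  have := tau_mem l
  refine ⟨⟨?_, ?_⟩, by simp⟩
  · simpa using mul_nonneg this.1 hρ.le
  · simpa using mul_le_of_le_one_left hρ.le this.2

theorem nodes_Rt {lam κ : ℝ} (hl : |lam| ≤ s * ρ) (hκ : |ρ * κ| ≤ s * ρ) :
    (Rt w q i ρ lam κ).Nodes ((m + 1) * (m + 2) + ((m + 1) * (m + 2) + (m + 1)))
      (c * (2 * c * s) + (c * (2 * c * s) + c * s)) (c * ρ + (c * ρ + c * ρ)) ρ := by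
  have hc := hQ.one
  have hs0 : 0 ≤ s := hρ.le.trans hs
  obtain ⟨g1, g2⟩ := syn_picG (i := i) hQ hρ hs (a := 0) ⟨hρ.le, le_rfl⟩ hκ (base_tot hρ)
  have h1 : 0 ≤ c * (2 * c * s) := by positivity
  have h2 : 0 ≤ c * ρ := by positivity
  exact nodes_comb _ g1 (fun l => ⟨LE.Nodes.mono (by omega) (by linarith) (by linarith) (g2 l).1,
    LE.Nodes.mono (by omega) (by linarith) (by linarith) (g2 l).2⟩)
    fun l => nodes_Bt hQ hρ hs hl (base_tot hρ l)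

omit hs in
theorem small_Rt {lam κ : ℝ} (hl : 0 < lam) :
    (Rt w q i ρ lam κ).Small ((m + 1) * (m + 1)) (κ ^ 2 * ρ * c * (c / lam)) (κ ^ 2 * ρ * c * 0) := by
  have hc := hQ.one
  refine small_comb _ ?_ (by positivity) le_rfl fun l => small_Der hQ hl _ _ _
  simp only [abs_mul, abs_neg, ← Finset.mul_sum]
  rw [abs_of_nonneg (sq_nonneg κ), abs_of_pos hρ]
  exact mul_le_mul_of_nonneg_left (hQ.abs_q _) (by positivity)

end Syn

end Crest.Agent.R285.Core
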