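import Crest.Agent.R285.CoreA

/-!
# Row 285, core lemma, part B: error estimates
-/

set_option autoImplicit false

open MeasureTheory ProbabilityTheory Set
open scoped ENNReal NNReal ContDiff RealInnerProductSpace
open Crest.OracleSampling

noncomputable section

namespace Crest.Agent.R285.Core

variable {d m : ℕ}

/-- the size `√d + |m|` -/
def NN (U : E d → ℝ) : ℝ := √d + ‖GF U 1 0‖

theorem NN_nonneg (U : E d → ℝ) : 0 ≤ NN U := by unfold NN; positivity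

theorem sqrt_le_NN (U : E d → ℝ) : √d ≤ NN U := le_add_of_nonneg_right (norm_nonneg _)

/-- Picard error -/
def perr (U : E d → ℝ) (P : Fin (m + 1) → LE × LE) (φ : ℝ → E d × E d → E d × E d)
    (ζ : E d × E d) : ℝ := ∑ k, ‖ζ + valP U (P k) ζ - φ (tau k) ζ‖

/-- all analytic inputs -/
structure Ctx (w : Fin (m + 1) → ℝ) (q : Fin (m + 1) → Fin (m + 1) → ℝ) (i : ℕ)
    (c CP CR ρ δ s : ℝ) (U : E d → ℝ) : Prop where
  hQ : Quad m w q c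
  hi : i ≤ m
  ρ0 : 0 < ρ
  small : 32 * (m + 1) * c ^ 2 * ρ ≤ 1
  δ0 : 0 < δ
  δ1 : δ ≤ 1 / 2
  hs : ρ ≤ s
  sδ : s * δ ≤ ρ
  CP1 : 1 ≤ CP
  CR0 : 0 ≤ CR
  smooth : ContDiffOn ℝ ∞ (Gp U) {p | p.1 ∈ OO}
  meas : Measurable (Gp U)
  flow : ∀ (a α : ℝ × ℝ) (lam : ℝ), a ∈ OO → a + α ∈ OO → ∃ φ, IsFlow U a α lam φ
  lip0 : ∀ (b : ℕ) (β γ : ℝ) (e : LE), 0 ≤ β → 0 ≤ γ → 3 * ρ * (1 + γ + 5 * β * δ) ≤ 1 →
    e.Nodes b β γ ρ → ∀ ζ ζ', ‖e.val U ζ - e.val U ζ'‖ ≤ 6 * ρ * δ * e.abss * ‖ζ - ζ'‖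
  quad : ∀ (a α : ℝ × ℝ) (lam : ℝ) (φ : ℝ → E d × E d → E d × E d), a ∈ OO → a + α ∈ OO →
    IsFlow U a α lam φ →
    ∀ f : Ph d → E d, ContDiffOn ℝ ∞ f {p | p.1 ∈ OO} → Measurable f → ∀ e : ℝ,
      (∀ a' ∈ OO, IB (nu U a') (fun ζ => ‖(Lie (WF U α lam))^[m + 1] f (a', ζ)‖) e) →
      IB (nu U a) (fun ζ => ‖∑ k, w k • f (a + tau k • α, φ (tau k) ζ) -
        Lie (WF U α lam) f (a, ζ)‖) (c * e) ∧
      ∀ k : Fin (m + 1), IB (nu U a) (fun ζ => ‖∑ l, q k l • f (a + tau l • α, φ (tau l) ζ) -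
          ∫ τ in (0 : ℝ)..(tau k), f (a + τ • α, φ τ ζ)‖) (c * e)
  pic0 : ∀ (a α : ℝ × ℝ) (lam : ℝ) (φ : ℝ → E d × E d → E d × E d), a ∈ OO → a + α ∈ OO →
    IsFlow U a α lam φ → ∀ (Wt : Fin (m + 1) → LE × LE) (e₁ Λ : ℝ), |α.1| ≤ ρ → |α.2| ≤ ρ →
      |lam| * δ ≤ ρ → 0 ≤ e₁ → 0 ≤ Λ →
      (∀ l : Fin (m + 1), IB (nu U (a + tau l • α))
        (fun ζ => ‖valP U (Wt l) ζ - (WF U α lam (a + tau l • α, ζ)).2‖) e₁) →
      (∀ l ζ ζ', ‖valP U (Wt l) ζ - valP U (Wt l) ζ'‖ ≤ Λ * ‖ζ - ζ'‖) →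
      (m + 1) * c * Λ ≤ ρ →
      IB (nu U a) (perr U (pic q Wt i) φ) (CP * ((ρ ^ i * ρ + ρ ^ (m + 2)) * NN U + e₁))
  reg1 : ∀ (α : ℝ × ℝ) (lam : ℝ), |α.1| ≤ ρ → |α.2| ≤ ρ → |lam| * δ ≤ ρ → ∀ a ∈ OO,
    IB (nu U a) (fun ζ => ‖(Lie (WF U α lam))^[m + 1] (Gp U) (a, ζ)‖) (CR * ρ ^ (m + 1) * δ * √d)
  reg2 : ∀ (α : ℝ × ℝ) (lam : ℝ), |α.1| ≤ ρ → |α.2| ≤ ρ → |lam| * δ ≤ ρ → ∀ a ∈ OO,
    IB (nu U a) (fun ζ => ‖(Lie (WF U α lam))^[m + 1] (Lie (VB U) (Gp U)) (a, ζ)‖)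
      (CR * ρ ^ (m + 1) * δ ^ 2 * √d)

theorem IsFlow.meas_at {U : E d → ℝ} {a α : ℝ × ℝ} {lam : ℝ} {φ : ℝ → E d × E d → E d × E d}
    (h : IsFlow U a α lam φ) (t : ℝ) : Measurable (φ t) :=
  h.meas.comp (measurable_const.prodMk measurable_id)

theorem meas_perr {U : E d → ℝ} (hG : Measurable (Gp U)) {a α : ℝ × ℝ} {lam : ℝ}
    {φ : ℝ → E d × E d → E d × E d} (h : IsFlow U a α lam φ) (P : Fin (m + 1) → LE × LE) :
    Measurable (perr U P φ) :=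
  Finset.measurable_sum _ fun k _ =>
    ((measurable_id.add (meas_valP hG (P k))).sub (IsFlow.meas_at h _)).norm

theorem le_perr (U : E d → ℝ) (P : Fin (m + 1) → LE × LE) (φ : ℝ → E d × E d → E d × E d)
    (ζ : E d × E d) (k : Fin (m + 1)) : ‖ζ + valP U (P k) ζ - φ (tau k) ζ‖ ≤ perr U P φ ζ :=
  Finset.single_le_sum (f := fun k => ‖ζ + valP U (P k) ζ - φ (tau k) ζ‖)
    (fun _ _ => norm_nonneg _) (Finset.mem_univ k)

/-- shifting the arguments of a weighted sum of Lipschitz functions -/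
theorem sum_shift {U : E d → ℝ} {P : Fin (m + 1) → LE × LE} {φ : ℝ → E d × E d → E d × E d}
    {v : Fin (m + 1) → ℝ} {c L : ℝ} (hv : ∑ l, |v l| ≤ c) (hL : 0 ≤ L)
    {f : Fin (m + 1) → E d × E d → E d} (hf : ∀ l ζ ζ', ‖f l ζ - f l ζ'‖ ≤ L * ‖ζ - ζ'‖)
    (ζ : E d × E d) :
    ‖∑ l, v l • f l (ζ + valP U (P l) ζ) - ∑ l, v l • f l (φ (tau l) ζ)‖ ≤
      c * L * perr U P φ ζ := by
  have h0 : 0 ≤ perr U P φ ζ := Finset.sum_nonneg fun _ _ => norm_nonneg _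
  rw [← Finset.sum_sub_distrib]
  calc _ ≤ ∑ l, ‖v l • f l (ζ + valP U (P l) ζ) - v l • f l (φ (tau l) ζ)‖ := norm_sum_le _ _
    _ ≤ ∑ l, |v l| * (L * perr U P φ ζ) := Finset.sum_le_sum fun l _ => by
        rw [← smul_sub, norm_smul, Real.norm_eq_abs]
        exact mul_le_mul_of_nonneg_left ((hf l _ _).trans
          (mul_le_mul_of_nonneg_left (le_perr U P φ ζ l) hL)) (abs_nonneg _)
    _ ≤ _ := by
        rw [← Finset.sum_mul, mul_assoc]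
        exact mul_le_mul_of_nonneg_right hv (mul_nonneg hL h0)

namespace Ctx

variable {w : Fin (m + 1) → ℝ} {q : Fin (m + 1) → Fin (m + 1) → ℝ} {i : ℕ}
  {c CP CR ρ δ s : ℝ} {U : E d → ℝ} (H : Ctx w q i c CP CR ρ δ s U)
include H

theorem c1 : 1 ≤ c := H.hQ.one

theorem small' : 32 * c ^ 2 * ρ ≤ 1 := by
  have := H.small
  have h1 : 0 ≤ (m : ℝ) * (c ^ 2 * ρ) := by have := H.ρ0; positivity
  nlinarith

theorem ρ1 : ρ ≤ 1 / 32 := by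
  have := H.small'
  have h1 : 1 ≤ c ^ 2 := one_le_pow₀ H.c1
  have := H.ρ0
  nlinarith

theorem pow_le {k : ℕ} (hk : i ≤ k) : ρ ^ k ≤ ρ ^ i :=
  pow_le_pow_of_le_one H.ρ0.le (H.ρ1.trans (by norm_num)) hk

theorem lip {b : ℕ} {β γ : ℝ} {e : LE} (hβ0 : 0 ≤ β) (hγ0 : 0 ≤ γ) (hβ : β ≤ 4 * c ^ 2 * s)
    (hγ : γ ≤ 4 * c ^ 2 * ρ) (he : e.Nodes b β γ ρ) {A : ℝ} (hA : e.abss ≤ A) (ζ ζ' : E d × E d) :
    ‖e.val U ζ - e.val U ζ'‖ ≤ 6 * ρ * δ * A * ‖ζ - ζ'‖ := by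
  have h1 := H.small'
  have h2 := H.ρ1
  have h3 := H.ρ0
  have h4 := H.δ0
  have h5 : β * δ ≤ 4 * c ^ 2 * ρ := by
    calc β * δ ≤ 4 * c ^ 2 * s * δ := mul_le_mul_of_nonneg_right hβ h4.le
      _ = 4 * c ^ 2 * (s * δ) := by ring
      _ ≤ _ := mul_le_mul_of_nonneg_left H.sδ (by positivity)
  refine (H.lip0 b β γ e hβ0 hγ0 ?_ he ζ ζ').trans ?_
  · have : 1 + γ + 5 * β * δ ≤ 2 := by nlinarith
    nlinarith
  · gcongr

theorem lip_G {a : ℝ × ℝ} (ha : Box ρ a) (ζ ζ' : E d × E d) :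
    ‖Gp U (a, ζ) - Gp U (a, ζ')‖ ≤ 6 * ρ * δ * ‖ζ - ζ'‖ := by
  have hs0 : 0 ≤ s := H.ρ0.le.trans H.hs
  have := H.ρ0
  have := H.lip (b := 0) le_rfl le_rfl (by positivity) (by positivity)
    (nodes_one 1 ha le_rfl le_rfl) (A := 1) (by simp [LE.one, LE.abss]) ζ ζ'
  simpa using this

theorem lipP {b₀ b : ℕ} {β₀ β γ₀ γ : ℝ} {e : LE × LE} (hβ0 : 0 ≤ β) (hγ0 : 0 ≤ γ)
    (hβ : β ≤ 4 * c ^ 2 * s) (hγ : γ ≤ 4 * c ^ 2 * ρ) (he : NodesP b β γ ρ e)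
    (hS : SmallP b₀ β₀ γ₀ e) (hβ₀ : β₀ ≤ 2 * c * s) (ζ ζ' : E d × E d) :
    ‖valP U e ζ - valP U e ζ'‖ ≤ 12 * c * ρ ^ 2 * ‖ζ - ζ'‖ := by
  have h1 : 6 * ρ * δ * (2 * c * s) ≤ 12 * c * ρ ^ 2 := by
    have := H.sδ
    have h2 : 0 ≤ c * ρ := mul_nonneg (zero_le_one.trans H.c1) H.ρ0.le
    nlinarith
  refine norm_prod_le_iff.2 ⟨?_, ?_⟩
  · exact (H.lip hβ0 hγ0 hβ hγ he.1 (hS.1.2.1.trans hβ₀) ζ ζ').trans
      (mul_le_mul_of_nonneg_right h1 (norm_nonneg _))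
  · exact (H.lip hβ0 hγ0 hβ hγ he.2 (hS.2.2.1.trans hβ₀) ζ ζ').trans
      (mul_le_mul_of_nonneg_right h1 (norm_nonneg _))

theorem picard {a α : ℝ × ℝ} {lam : ℝ} {φ : ℝ → E d × E d → E d × E d} (ha : a ∈ OO)
    (ha' : a + α ∈ OO) (hφ : IsFlow U a α lam φ) {Wt : Fin (m + 1) → LE × LE} {e₁ : ℝ}
    (h1 : |α.1| ≤ ρ) (h2 : |α.2| ≤ ρ) (h3 : |lam| * δ ≤ ρ) (he : 0 ≤ e₁)
    (hW : ∀ l : Fin (m + 1), IB (nu U (a + tau l • α))
        (fun ζ => ‖valP U (Wt l) ζ - (WF U α lam (a + tau l • α, ζ)).2‖) (e₁ * ρ ^ i * NN U))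
    (hL : ∀ l ζ ζ', ‖valP U (Wt l) ζ - valP U (Wt l) ζ'‖ ≤ 12 * c * ρ ^ 2 * ‖ζ - ζ'‖) :
    IB (nu U a) (perr U (pic q Wt i) φ) (CP * (2 + e₁) * ρ ^ i * NN U) := by
  have hρ := H.ρ0
  have hc := H.c1
  have hN := NN_nonneg U
  have hCP := H.CP1
  refine (H.pic0 a α lam φ ha ha' hφ Wt _ _ h1 h2 h3 (by positivity) (by positivity) hW hL ?_).mono
    (fun _ => le_rfl) ?_
  · have := H.small
    have h4 : 0 ≤ ((m : ℝ) + 1) * c ^ 2 * ρ := by positivity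
    nlinarith
  · have e1 : ρ ^ i * ρ ≤ ρ ^ i := by rw [← pow_succ]; exact H.pow_le (by omega)
    have e2 : ρ ^ (m + 2) ≤ ρ ^ i := H.pow_le (by have := H.hi; omega)
    calc _ ≤ CP * ((ρ ^ i + ρ ^ i) * NN U + e₁ * ρ ^ i * NN U) := by gcongr
      _ = _ := by ring

theorem der_err {a α : ℝ × ℝ} {lam : ℝ} {φ : ℝ → E d × E d → E d × E d} (ha : a ∈ OO)
    (ha' : a + α ∈ OO) (hφ : IsFlow U a α lam φ) (h1 : |α.1| ≤ ρ) (h2 : |α.2| ≤ ρ)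
    (h3 : |lam| * δ ≤ ρ) (hb : ∀ k : Fin (m + 1), Box ρ (a + tau k • α))
    {P : Fin (m + 1) → LE × LE} {A : ℝ} (hA : 0 ≤ A)
    (hP : IB (nu U a) (perr U P φ) (A * ρ ^ i * NN U)) {t : ℝ} (ht : 0 < t) :
    IB (nu U a) (fun ζ => ‖(Der w t P a α).val U ζ - t⁻¹ • Lie (WF U α lam) (Gp U) (a, ζ)‖)
      (t⁻¹ * ρ * δ * (c * CR + 6 * c * A) * ρ ^ i * NN U) := by
  have hρ := H.ρ0
  have hc := H.c1
  have hN := NN_nonneg U
  have hδ := H.δ0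
  have hCR := H.CR0
  have q1 := (H.quad a α lam φ ha ha' hφ _ H.smooth H.meas _ (H.reg1 α lam h1 h2 h3)).1
  have q2 := hP.mul (A := c * (6 * ρ * δ)) (by positivity)
  refine ((q1.add q2 ((meas_perr H.meas hφ P).const_mul _) (by positivity) (by positivity)).mul
    (A := t⁻¹) (by positivity)).mono (fun ζ => ?_) ?_
  · have e1 : (Der w t P a α).val U ζ =
        t⁻¹ • ∑ k, w k • Gp U (a + tau k • α, ζ + valP U (P k) ζ) := by
      simp only [Der, val_comb, LE.val_one, one_smul, Finset.smul_sum, smul_smul, div_eq_inv_mul]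
    rw [e1, ← smul_sub, norm_smul, Real.norm_eq_abs, abs_of_pos (inv_pos.2 ht)]
    refine mul_le_mul_of_nonneg_left ?_ (by positivity)
    have e2 := sum_shift (U := U) (P := P) (φ := φ) H.hQ.abs_w (L := 6 * ρ * δ) (by positivity)
      (f := fun k ζ => Gp U (a + tau k • α, ζ)) (fun k => H.lip_G (hb k)) ζ
    refine (norm_sub_le_norm_sub_add_norm_sub _
      (∑ k, w k • Gp U (a + tau k • α, φ (tau k) ζ)) _).trans ?_
    linarith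
  · have e1 : ρ ^ (m + 1) ≤ ρ * ρ ^ i := by
      rw [pow_succ']; exact mul_le_mul_of_nonneg_left (H.pow_le H.hi) hρ.le
    have e2 := sqrt_le_NN U
    calc _ ≤ t⁻¹ * (c * (CR * (ρ * ρ ^ i) * δ * NN U) + c * (6 * ρ * δ) * (A * ρ ^ i * NN U)) := by
          gcongr
      _ = _ := by ring

theorem Dt_err {a α : ℝ × ℝ} (ha : Base ρ a) (h1 : α.1 ∈ Icc 0 ρ) (h2 : α.2 ∈ Icc 0 ρ) :
    IB (nu U a) (fun ζ => ‖(Dt w q i ρ a α).val U ζ - ρ⁻¹ • Lie (WF U α 0) (Gp U) (a, ζ)‖)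
      (δ * (c * CR + 12 * c * CP) * ρ ^ i * NN U) := by
  have hρ := H.ρ0
  have hc := H.c1
  have hCP := H.CP1
  have hs0 : 0 ≤ s := hρ.le.trans H.hs
  have hρ4 : ρ ≤ 1 / 4 := H.ρ1.trans (by norm_num)
  have o1 : a ∈ OO := by simpa using (ha.box h1 h2 (t := 0) ⟨le_rfl, zero_le_one⟩).oo hρ4
  have o2 : a + α ∈ OO := by simpa using (ha.box h1 h2 (t := 1) ⟨zero_le_one, le_rfl⟩).oo hρ4
  obtain ⟨φ, hφ⟩ := H.flow a α 0 o1 o2
  have b1 : |α.1| ≤ ρ := by rw [abs_of_nonneg h1.1]; exact h1.2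
  have b2 : |α.2| ≤ ρ := by rw [abs_of_nonneg h2.1]; exact h2.2
  have b3 : |(0 : ℝ)| * δ ≤ ρ := by simpa using hρ.le
  have hsyn := (syn_picL (i := i) H.hQ hρ H.hs ha h1 h2).1
  have hP := H.picard o1 o2 hφ (Wt := WtL a α) b1 b2 b3 le_rfl (fun l => by
      have e : ∀ ζ, valP U (WtL a α l) ζ = (WF U α 0 (a + tau l • α, ζ)).2 := by
        intro ζ
        simp only [WF_snd, valP, WtL, LE.val_one, neg_zero, zero_smul, add_zero, Prod.mk.eta]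
      simp [IB, e]) (fun l => H.lipP le_rfl le_rfl (by positivity) (by positivity)
      (hsyn l).2 (hsyn l).1 (by have := H.hs; nlinarith))
  refine (H.der_err o1 o2 hφ b1 b2 b3 (fun k => ha.box h1 h2 (tau_mem k)) (by positivity) hP
    hρ).mono (fun _ => le_rfl) (le_of_eq ?_)
  field_simp
  ring

theorem picG_err {a : ℝ × ℝ} {α₁ lam : ℝ} {φ : ℝ → E d × E d → E d × E d} (o1 : a ∈ OO)
    (o2 : a + (α₁, 0) ∈ OO) (hφ : IsFlow U a (α₁, 0) lam φ) (h1 : α₁ ∈ Icc 0 ρ)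
    (hl : |lam| ≤ s * ρ) (ha : ∀ l : Fin (m + 1), Base ρ (a + tau l • ((α₁, 0) : ℝ × ℝ))) :
    IB (nu U a) (perr U (pic q (WtG w q i ρ a α₁ lam) i) φ)
      (CP * (2 + 2 * (c * CR + 12 * c * CP)) * ρ ^ i * NN U) := by
  have hρ := H.ρ0
  have hc := H.c1
  have hCP := H.CP1
  have hCR := H.CR0
  have hδ := H.δ0
  have hN := NN_nonneg U
  have hs0 : 0 ≤ s := hρ.le.trans H.hs
  have hz : (0 : ℝ) ∈ Icc 0 ρ := ⟨le_rfl, hρ.le⟩
  have hr : ρ ∈ Icc 0 ρ := ⟨hρ.le, le_rfl⟩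
  have b3 : |lam| * δ ≤ ρ := by
    have := H.sδ
    have := H.ρ1
    calc |lam| * δ ≤ s * ρ * δ := by gcongr
      _ = ρ * (s * δ) := by ring
      _ ≤ ρ * 1 := by gcongr; linarith
      _ = ρ := mul_one _
  refine H.picard o1 o2 hφ (by rw [abs_of_nonneg h1.1]; exact h1.2) (by simpa using hρ.le) b3
    (by positivity) (fun l => ?_) (fun l => ?_)
  · set a' := a + tau l • ((α₁, 0) : ℝ × ℝ) with ha'
    have g2 := H.Dt_err (ha l) (α := (0, ρ)) hz hr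
    have g1 := H.Dt_err (ha l) (α := (ρ, 0)) hr hz
    simp only [Lie_WF, zero_smul, zero_add, add_zero, smul_smul, inv_mul_cancel₀ hρ.ne',
      one_smul] at g1 g2
    have hm : Measurable fun ζ => ‖(Dt w q i ρ a' (ρ, 0)).val U ζ - Lie (V1 U) (Gp U) (a', ζ)‖ :=
      ((meas_val H.meas _).sub ((meas_Lie (meas_V1 H.meas) _).comp
        (measurable_const.prodMk measurable_id))).norm
    refine ((g2.add g1 hm (by positivity) (by positivity)).mul (abs_nonneg lam)).mono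
      (fun ζ => ?_) ?_
    · rw [WF_snd]
      refine norm_prod_le_iff.2 ⟨?_, ?_⟩
      · simp only [valP, WtG, LE.val_append, LE.val_one, LE.val_smul, Prod.fst_sub, Prod.mk.eta,
          add_sub_add_left_eq_sub, ← smul_sub, norm_smul, norm_neg, Real.norm_eq_abs, abs_neg,
          ha']
        exact mul_le_mul_of_nonneg_left (le_add_of_nonneg_right (norm_nonneg _)) (abs_nonneg _)
      · simp only [valP, WtG, LE.val_smul, Prod.snd_sub, neg_zero, zero_smul, zero_add,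
          ← smul_sub, norm_smul, Real.norm_eq_abs]
        exact mul_le_mul_of_nonneg_left (le_add_of_nonneg_left (norm_nonneg _)) (abs_nonneg _)
    · have : |lam| * δ ≤ 1 := b3.trans (H.ρ1.trans (by norm_num))
      calc _ = |lam| * δ * (2 * (c * CR + 12 * c * CP) * ρ ^ i * NN U) := by ring
        _ ≤ 1 * _ := by gcongr
        _ = _ := one_mul _
  · obtain ⟨g1, g2⟩ := syn_WtG (i := i) H.hQ hρ H.hs h1 hl ha l
    exact H.lipP (by positivity) (by positivity) (by nlinarith [mul_nonneg (zero_le_one.trans hc) hs0])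
      (by nlinarith [mul_nonneg (zero_le_one.trans hc) hρ.le]) g2 g1 le_rfl

theorem Bt_err {a : ℝ × ℝ} (ha : Base ρ a) :
    IB (nu U a) (fun ζ => ‖(Bt w q i ρ (s * ρ) a).val U ζ - Lie (VB U) (Gp U) (a, ζ)‖)
      (s⁻¹ * δ * (c * CR + 6 * c * (CP * (2 + 2 * (c * CR + 12 * c * CP)))) * ρ ^ i * NN U) := by
  have hρ := H.ρ0
  have hc := H.c1
  have hCP := H.CP1
  have hCR := H.CR0
  have hs0 : 0 < s := hρ.trans_le H.hs
  have hz : (0 : ℝ) ∈ Icc 0 ρ := ⟨le_rfl, hρ.le⟩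
  have hρ4 : ρ ≤ 1 / 4 := H.ρ1.trans (by norm_num)
  have o1 : a ∈ OO := by
    simpa using (ha.box (α := (0, 0)) hz hz (t := 0) ⟨le_rfl, zero_le_one⟩).oo hρ4
  have o2 : a + (0, 0) ∈ OO := by
    simpa using (ha.box (α := (0, 0)) hz hz (t := 1) ⟨zero_le_one, le_rfl⟩).oo hρ4
  obtain ⟨φ, hφ⟩ := H.flow a (0, 0) (s * ρ) o1 o2
  have hl : |s * ρ| ≤ s * ρ := (abs_of_pos (by positivity)).le
  have hP := H.picG_err o1 o2 hφ hz hl fun l => by simpa [Base] using ha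
  have b3 : |s * ρ| * δ ≤ ρ := by
    have := H.sδ
    have := H.ρ1
    have := H.δ0
    calc |s * ρ| * δ ≤ s * ρ * δ := by gcongr
      _ = ρ * (s * δ) := by ring
      _ ≤ ρ * 1 := by gcongr; linarith
      _ = ρ := mul_one _
  have := H.der_err o1 o2 hφ (by simpa using hρ.le) (by simpa using hρ.le) b3
    (fun k => ha.box (α := (0, 0)) hz hz (tau_mem k)) (by positivity) hP
    (t := s * ρ) (by positivity)
  simp only [Lie_WF, zero_smul, zero_add, smul_smul,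
    inv_mul_cancel₀ (by positivity : s * ρ ≠ 0), one_smul] at this
  refine this.mono (fun _ => le_rfl) (le_of_eq ?_)
  field_simp

theorem lip_Bt {a : ℝ × ℝ} (ha : Base ρ a) (ζ ζ' : E d × E d) :
    ‖(Bt w q i ρ (s * ρ) a).val U ζ - (Bt w q i ρ (s * ρ) a).val U ζ'‖ ≤
      6 * ρ * δ * (c / (s * ρ)) * ‖ζ - ζ'‖ := by
  have hρ := H.ρ0
  have hc := H.c1
  have hs0 : 0 < s := hρ.trans_le H.hs
  have h1 : 0 ≤ c * s := by positivity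
  have h2 : 0 ≤ c * ρ := by positivity
  exact H.lip (by positivity) (by positivity) (by nlinarith) (by nlinarith)
    (nodes_Bt H.hQ hρ H.hs (abs_of_pos (by positivity)).le ha)
    (small_Der H.hQ (by positivity) _ _ _).2.1 ζ ζ'

/-- the pathwise identity along the total flow -/
theorem path {κ : ℝ} {φ : ℝ → E d × E d → E d × E d} (hφ : IsFlow U 0 (ρ, 0) (ρ * κ) φ)
    (ζ : E d × E d) :
    (φ 1 ζ).2 + κ • GF U 1 0 = ζ.2 + κ • Gp U ((ρ, 0), φ 1 ζ) -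
      (κ ^ 2 * ρ) • ∫ τ in (0 : ℝ)..1, Lie (VB U) (Gp U) (0 + τ • ((ρ, 0) : ℝ × ℝ), φ τ ζ) := by
  have hρ := H.ρ0
  have hρ4 : ρ ≤ 1 / 4 := H.ρ1.trans (by norm_num)
  set p : ℝ → Ph d := fun t => (0 + t • ((ρ, 0) : ℝ × ℝ), φ t ζ) with hp
  have hO : ∀ t ∈ Icc (0 : ℝ) 1, p t ∈ {p : Ph d | p.1 ∈ OO} := fun t ht =>
    (Base.box (a := 0) (α := (ρ, 0)) ⟨⟨le_rfl, hρ.le⟩, rfl⟩ ⟨hρ.le, le_rfl⟩ ⟨le_rfl, hρ.le⟩ ht).oo hρ4
  have hd : ∀ t ∈ Icc (0 : ℝ) 1, HasDerivWithinAt p (WF U (ρ, 0) (ρ * κ) (p t)) (Icc 0 1) t :=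
    hφ.ode ζ
  have hpc : ContinuousOn p (Icc 0 1) := fun t ht => (hd t ht).continuousWithinAt
  have hB : ContinuousOn (fun t => Lie (VB U) (Gp U) (p t)) (Icc 0 1) :=
    (smooth_Lie (smooth_VB H.smooth) H.smooth).continuousOn.comp hpc hO
  have hg : ∀ t ∈ Icc (0 : ℝ) 1, HasDerivWithinAt (fun t => κ • Gp U (p t) - (p t).2.2)
      ((κ ^ 2 * ρ) • Lie (VB U) (Gp U) (p t)) (Icc 0 1) t := by
    intro t ht
    have hG : HasFDerivAt (Gp U) (fderiv ℝ (Gp U) (p t)) (p t) :=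
      ((H.smooth.contDiffAt (isOpen_OO.mem_nhds (hO t ht))).differentiableAt (by simp)).hasFDerivAt
    have h1 := (hG.comp_hasDerivWithinAt t (hd t ht)).const_smul κ
    have h2 := ((ContinuousLinearMap.snd ℝ (E d) (E d)).comp
      (ContinuousLinearMap.snd ℝ (ℝ × ℝ) (E d × E d))).hasFDerivAt.comp_hasDerivWithinAt t (hd t ht)
    have h3 : (κ ^ 2 * ρ) • Lie (VB U) (Gp U) (p t) =
        κ • Lie (WF U (ρ, 0) (ρ * κ)) (Gp U) (p t) - (WF U (ρ, 0) (ρ * κ) (p t)).2.2 := by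
      rw [Lie_WF, WF_snd]
      module
    rw [h3]
    exact h1.sub h2
  have hI := intervalIntegral.integral_eq_sub_of_hasDerivAt_of_le zero_le_one
    (fun t ht => (hg t ht).continuousWithinAt)
    (fun t ht => (hg t (Ioo_subset_Icc_self ht)).hasDerivAt (Icc_mem_nhds ht.1 ht.2))
    ((hB.const_smul (κ ^ 2 * ρ)).intervalIntegrable_of_Icc zero_le_one)
  rw [intervalIntegral.integral_smul] at hI
  rw [hI]
  have e0 : Gp U (p 0) = GF U 1 0 := by simp [hp, Gp]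
  have e1 : p 1 = ((ρ, 0), φ 1 ζ) := by simp [hp]
  have e2 : (p 0).2.2 = ζ.2 := by simp [hp, hφ.init]
  rw [e0, e1, e2]
  abel

end Ctx

end Crest.Agent.R285.Core
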