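import Crest.Agent.R285.Defs
import Crest.Agent.Lib.Convex.BrunnMinkowski

/-!
# Row 285: convexity of the smoothing, Lipschitz gradient, crude bounds (`StmtCov`)
-/

set_option autoImplicit false

open MeasureTheory ProbabilityTheory Set
open scoped ENNReal NNReal ContDiff RealInnerProductSpace
open Crest.OracleSampling

noncomputable section

namespace Crest.Agent.R285

namespace Cov

variable {d : ℕ}

/-! ### polynomial growth -/

theorem pg_lin {h : E d → ℝ} (hc : Continuous h) {A B : ℝ} (hb : ∀ x, |h x| ≤ A + B * ‖x‖) :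
    PG h := by
  refine ⟨hc, |A| + |B|, 1, fun x => (hb x).trans ?_⟩
  have h1 := le_abs_self A
  have h2 := mul_le_mul_of_nonneg_right (le_abs_self B) (norm_nonneg x)
  have h3 := mul_nonneg (abs_nonneg A) (norm_nonneg x)
  have h4 := abs_nonneg B
  rw [pow_one]
  linarith

theorem pg_mul {f g : E d → ℝ} (hf : PG f) (hg : PG g) : PG fun x => f x * g x := by
  obtain ⟨hf, C, k, hC⟩ := hf
  obtain ⟨hg, C', k', hC'⟩ := hg
  refine ⟨hf.mul hg, C * C', k + k', fun x => ?_⟩
  rw [abs_mul, pow_add, mul_mul_mul_comm]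
  exact mul_le_mul (hC x) (hC' x) (abs_nonneg _) ((abs_nonneg _).trans (hC x))

/-! ### Prékopa -/

theorem prekopa {Φ : E d → E d → ℝ} (hc : ∀ x, Continuous (Φ x))
    (hconv : ∀ (x y w w' : E d) (a b : ℝ), 0 < a → 0 < b → a + b = 1 →
      Φ (a • x + b • y) (a • w + b • w') ≤ a * Φ x w + b * Φ y w') {G : E d → ℝ}
    (hG : ∀ x, ∫⁻ w, ENNReal.ofReal (Real.exp (-Φ x w)) = ENNReal.ofReal (Real.exp (-G x))) :
    ConvexOn ℝ univ G := by
  refine convexOn_iff_forall_pos.2 ⟨convex_univ, fun x _ y _ a b ha hb hab => ?_⟩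
  have hm : ∀ x, Measurable fun w => ENNReal.ofReal (Real.exp (-Φ x w)) := fun x =>
    ((hc x).neg.rexp).measurable.ennreal_ofReal
  have he : ∀ u v : ℝ, ENNReal.ofReal (Real.exp (-u)) ^ a * ENNReal.ofReal (Real.exp (-v)) ^ b =
      ENNReal.ofReal (Real.exp (-(a * u + b * v))) := fun u v => by
    rw [ENNReal.ofReal_rpow_of_pos (Real.exp_pos _), ENNReal.ofReal_rpow_of_pos (Real.exp_pos _),
      ← ENNReal.ofReal_mul (by positivity), ← Real.exp_mul, ← Real.exp_mul, ← Real.exp_add]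
    congr 2
    ring
  have h1 := Crest.Agent.Lib.BM.prekopa_leindler ha hb hab (hm x) (hm y) (hm (a • x + b • y))
    fun w w' => by
      rw [he]
      exact ENNReal.ofReal_le_ofReal (Real.exp_le_exp.2 (neg_le_neg (hconv x y w w' a b ha hb hab)))
  rw [hG, hG, hG, he, ENNReal.ofReal_le_ofReal_iff (Real.exp_pos _).le, Real.exp_le_exp,
    neg_le_neg_iff] at h1
  exact h1

theorem normSq_convex (u v : E d) {a b : ℝ} (ha : 0 < a) (hb : 0 < b) (hab : a + b = 1) :
    ‖a • u + b • v‖ ^ 2 ≤ a * ‖u‖ ^ 2 + b * ‖v‖ ^ 2 := by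
  have h1 : ‖a • u + b • v‖ ≤ a * ‖u‖ + b * ‖v‖ := by
    refine (norm_add_le _ _).trans (le_of_eq ?_)
    rw [norm_smul, norm_smul, Real.norm_of_nonneg ha.le, Real.norm_of_nonneg hb.le]
  refine (pow_le_pow_left₀ (norm_nonneg _) h1 2).trans ?_
  obtain rfl : b = 1 - a := by linarith
  nlinarith [mul_nonneg (mul_pos ha hb).le (sq_nonneg (‖u‖ - ‖v‖))]

variable {δ : ℝ} {U : E d → ℝ}

theorem cont_exp (hU : Pot δ U) (s : ℝ) (x : E d) :
    Continuous fun w : E d => Real.exp (-U (x + s • w)) := by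
  have := hU.smooth.continuous
  fun_prop

theorem pg_exp (hU : Pot δ U) (s : ℝ) (x : E d) : PG fun w : E d => Real.exp (-U (x + s • w)) :=
  pg_lin (A := 1) (B := 0) (cont_exp hU s x) fun w => by
    rw [abs_of_pos (Real.exp_pos _), zero_mul, add_zero]
    exact Real.exp_le_one_iff.2 (neg_nonpos.2 (hU.nonneg _))

theorem convex (hG : StmtGauss) (hB : StmtBasic) (hU : Pot δ U) {β : ℝ} (hβ : 0 ≤ β)
    (hconv : ConvexOn ℝ univ (fun x => U x - β / 2 * ‖x‖ ^ 2)) {t : ℝ} (ht : 0 ≤ t) :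
    ConvexOn ℝ univ (fun x => Ff U t x - β / (1 + β * t) / 2 * ‖x‖ ^ 2) := by
  set c : ℝ := (√(2 * Real.pi))⁻¹ ^ d with hc
  have hc0 : 0 < c := by have := Real.pi_pos; positivity
  have hq : 0 < 1 + β * t := by positivity
  have hs : √t ^ 2 = t := Real.sq_sqrt ht
  have hUc := hU.smooth.continuous
  have hid : ∀ x w : E d, U (x + √t • w) + ‖w‖ ^ 2 / 2 - β / (1 + β * t) / 2 * ‖x‖ ^ 2 =
      (U (x + √t • w) - β / 2 * ‖x + √t • w‖ ^ 2) +
        (1 + β * t) / 2 * ‖w + (β * √t / (1 + β * t)) • x‖ ^ 2 := fun x w => by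
    rw [norm_add_sq_real, norm_add_sq_real, norm_smul, norm_smul, mul_pow, mul_pow,
      Real.norm_eq_abs, Real.norm_eq_abs, sq_abs, sq_abs, real_inner_smul_right,
      real_inner_smul_right, real_inner_comm x w, div_pow, mul_pow, hs]
    field_simp
    ring
  refine prekopa (Φ := fun x w => U (x + √t • w) + ‖w‖ ^ 2 / 2 -
    β / (1 + β * t) / 2 * ‖x‖ ^ 2 - Real.log c) (fun x => by fun_prop)
    (fun x y w w' a b ha hb hab => ?_) fun x => ?_
  · rw [hid, hid, hid]
    have h1 := hconv.2 (mem_univ (x + √t • w)) (mem_univ (y + √t • w')) ha.le hb.le hab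
    have h2 := normSq_convex (w + (β * √t / (1 + β * t)) • x) (w' + (β * √t / (1 + β * t)) • y)
      ha hb hab
    rw [show a • x + b • y + √t • (a • w + b • w') = a • (x + √t • w) + b • (y + √t • w') by
      module, show a • w + b • w' + (β * √t / (1 + β * t)) • (a • x + b • y) =
      a • (w + (β * √t / (1 + β * t)) • x) + b • (w' + (β * √t / (1 + β * t)) • y) by module]
    have h3 := mul_le_mul_of_nonneg_left h2 (half_pos hq).le
    simp only [smul_eq_mul] at h1
    have h4 : Real.log c = a * Real.log c + b * Real.log c := by rw [← add_mul, hab, one_mul]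
    linarith
  · have hZ := (hB.Zpos d δ U hU t x).1
    have h1 : ENNReal.ofReal (Zf U t x) =
        ∫⁻ w, ENNReal.ofReal (c * Real.exp (-(‖w‖ ^ 2 / 2))) *
          ENNReal.ofReal (Real.exp (-U (x + √t • w))) := by
      rw [Zf, ofReal_integral_eq_lintegral_ofReal (hG.pg d _ (pg_exp hU _ x))
        (Filter.Eventually.of_forall fun w => (Real.exp_pos _).le), hG.dens,
        lintegral_withDensity_eq_lintegral_mul _ (Measurable.ennreal_ofReal (by fun_prop))
          (cont_exp hU _ x).measurable.ennreal_ofReal]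
      rfl
    rw [neg_sub, Ff, sub_neg_eq_add, Real.exp_add, Real.exp_log hZ,
      ENNReal.ofReal_mul (Real.exp_pos _).le, h1, ← lintegral_const_mul' _ _ ENNReal.ofReal_ne_top]
    refine lintegral_congr fun w => ?_
    rw [← ENNReal.ofReal_mul (by positivity), ← ENNReal.ofReal_mul (by positivity)]
    congr 1
    conv_rhs => rw [← Real.exp_log hc0, ← Real.exp_add, ← Real.exp_add, ← Real.exp_add]
    congr 1
    ring

theorem convex0 (hG : StmtGauss) (hB : StmtBasic) (hU : Pot δ U) (t : ℝ) :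
    ConvexOn ℝ univ (Ff U t) := by
  have h1 : ∀ t, 0 ≤ t → ConvexOn ℝ univ (Ff U t) := fun t ht => by
    simpa using convex hG hB hU le_rfl (by simpa using hU.convex) ht
  rcases le_total 0 t with ht | ht
  · exact h1 t ht
  · have : Ff U t = Ff U 0 := by
      funext x
      rw [Ff, Ff, Zf, Zf, Real.sqrt_eq_zero'.2 ht, Real.sqrt_zero]
    rw [this]
    exact h1 0 le_rfl

/-! ### calculus of convex functions -/

theorem hasDerivAt_line {F : E d → ℝ} {g x h : E d} {τ : ℝ}
    (hF : HasGradientAt F g (x + τ • h)) : HasDerivAt (fun τ : ℝ => F (x + τ • h)) ⟪g, h⟫ τ := by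
  have h1 : HasDerivAt (fun τ : ℝ => x + τ • h) h τ := by
    simpa using ((hasDerivAt_id τ).smul_const h).const_add x
  exact (hasGradientAt_iff_hasFDerivAt.1 hF).comp_hasDerivAt τ h1

theorem tangent_le {F : E d → ℝ} (hF : ConvexOn ℝ univ F) {g x : E d} (hg : HasGradientAt F g x)
    (y : E d) : F x + ⟪g, y - x⟫ ≤ F y := by
  have h1 : ConvexOn ℝ univ fun τ : ℝ => F (x + τ • (y - x)) := by
    refine ⟨convex_univ, fun σ _ τ _ a b ha hb hab => ?_⟩
    have h2 := hF.2 (mem_univ (x + σ • (y - x))) (mem_univ (x + τ • (y - x))) ha hb hab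
    refine le_of_eq_of_le (congrArg F ?_) h2
    obtain rfl : b = 1 - a := by linarith
    simp only [smul_eq_mul]
    module
  have h2 := h1.le_slope_of_hasDerivAt (mem_univ 0) (mem_univ 1) one_pos
    (hasDerivAt_line (by simpa using hg))
  rw [slope_def_field] at h2
  simp only [one_smul, add_sub_cancel, zero_smul, add_zero, sub_zero, div_one] at h2
  linarith

theorem descent (hU : Pot δ U) (x h : E d) :
    U (x + h) ≤ U x + ⟪gradient U x, h⟫ + δ / 2 * ‖h‖ ^ 2 := by
  have hd : Differentiable ℝ U := hU.smooth.differentiable (by norm_num)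
  have h1 : ∀ τ : ℝ, HasDerivAt
      (fun τ : ℝ => U (x + τ • h) - τ * ⟪gradient U x, h⟫ - δ / 2 * ‖h‖ ^ 2 * τ ^ 2)
      (⟪gradient U (x + τ • h), h⟫ - ⟪gradient U x, h⟫ - δ * ‖h‖ ^ 2 * τ) τ := fun τ => by
    refine (((hasDerivAt_line (hd _).hasGradientAt).sub
      ((hasDerivAt_id τ).mul_const _)).sub ((hasDerivAt_pow 2 τ).const_mul _)).congr_deriv ?_
    simp only [Nat.cast_ofNat, Nat.add_one_sub_one, pow_one]
    ring
  have h2 := antitoneOn_of_deriv_nonpos (convex_Icc (0 : ℝ) 1)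
    (fun τ _ => (h1 τ).continuousAt.continuousWithinAt)
    (fun τ _ => (h1 τ).differentiableAt.differentiableWithinAt) (fun τ hτ => by
      rw [interior_Icc] at hτ
      rw [(h1 τ).deriv, ← inner_sub_left]
      have h3 := real_inner_le_norm (gradient U (x + τ • h) - gradient U x) h
      have h4 := hU.lip (x + τ • h) x
      rw [add_sub_cancel_left, norm_smul, Real.norm_of_nonneg hτ.1.le] at h4
      have h5 := mul_le_mul_of_nonneg_right h4 (norm_nonneg h)
      nlinarith) (left_mem_Icc.2 zero_le_one) (right_mem_Icc.2 zero_le_one) zero_le_one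
  simp only [one_smul, zero_smul, add_zero] at h2
  linarith

theorem baillon_haddad {F : E d → ℝ} {g : E d → E d} (hδ : 0 < δ)
    (h1 : ∀ x y, F x + ⟪g x, y - x⟫ ≤ F y)
    (h2 : ∀ x h, F (x + h) ≤ F x + ⟪g x, h⟫ + δ / 2 * ‖h‖ ^ 2) (x y : E d) :
    ‖g x - g y‖ ≤ δ * ‖x - y‖ := by
  have key : ∀ x y, F x - F y + ‖g x - g y‖ ^ 2 / (2 * δ) ≤ ⟪g x, x - y⟫ := fun x y => by
    have a1 := h1 x (y + δ⁻¹ • (g x - g y))
    have a2 := h2 y (δ⁻¹ • (g x - g y))
    rw [show y + δ⁻¹ • (g x - g y) - x = δ⁻¹ • (g x - g y) - (x - y) by abel, inner_sub_right]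
      at a1
    have a3 : ⟪g x, δ⁻¹ • (g x - g y)⟫ - ⟪g y, δ⁻¹ • (g x - g y)⟫ = ‖g x - g y‖ ^ 2 / δ := by
      rw [← inner_sub_left, real_inner_smul_right, real_inner_self_eq_norm_sq, inv_mul_eq_div]
    have a4 : δ / 2 * ‖δ⁻¹ • (g x - g y)‖ ^ 2 = ‖g x - g y‖ ^ 2 / (2 * δ) := by
      rw [norm_smul, Real.norm_of_nonneg (inv_pos.2 hδ).le]
      field_simp
    have a5 : ‖g x - g y‖ ^ 2 / δ = 2 * (‖g x - g y‖ ^ 2 / (2 * δ)) := by field_simp
    linarith
  have b1 := key x y
  have b2 := key y x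
  rw [norm_sub_rev (g y), ← neg_sub x y, inner_neg_right] at b2
  have b3 := real_inner_le_norm (g x - g y) (x - y)
  rw [inner_sub_left] at b3
  have b4 : ‖g x - g y‖ ^ 2 / δ ≤ ‖g x - g y‖ * ‖x - y‖ := by
    have : ‖g x - g y‖ ^ 2 / δ = 2 * (‖g x - g y‖ ^ 2 / (2 * δ)) := by field_simp
    linarith
  rw [div_le_iff₀ hδ] at b4
  rcases (norm_nonneg (g x - g y)).eq_or_lt with h | h
  · rw [← h]; positivity
  · nlinarith

/-! ### the posterior in `w`-coordinates -/

/-- the tilted Gaussian -/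
abbrev mu (U : E d → ℝ) (t : ℝ) (x : E d) : Measure (E d) :=
  (gam d).tilted fun w => -U (x + √t • w)

theorem cont_grad (hU : Pot δ U) : Continuous (gradient U) :=
  (LipschitzWith.of_dist_le_mul (K := ⟨δ, hU.pos.le⟩) fun x y => by
    rw [dist_eq_norm, dist_eq_norm]; exact hU.lip x y).continuous

theorem norm_grad_le (hU : Pot δ U) (t : ℝ) (x x' w : E d) :
    ‖gradient U (x + √t • w) - gradient U x'‖ ≤ δ * ‖x - x'‖ + δ * √t * ‖w‖ := by
  refine (hU.lip _ _).trans ?_
  rw [add_sub_right_comm, mul_assoc, ← mul_add]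
  refine mul_le_mul_of_nonneg_left ((norm_add_le _ _).trans (le_of_eq ?_)) hU.pos.le
  rw [norm_smul, Real.norm_of_nonneg (Real.sqrt_nonneg _)]

theorem norm_grad_le' (hU : Pot δ U) (t : ℝ) (x w : E d) :
    ‖gradient U (x + √t • w)‖ ≤ ‖gradient U x‖ + δ * √t * ‖w‖ := by
  have h1 := norm_grad_le hU t x x w
  have h2 := norm_sub_norm_le (gradient U (x + √t • w)) (gradient U x)
  rw [sub_self, norm_zero, mul_zero, zero_add] at h1
  linarith

theorem mu_facts (hP : StmtPoinc) (hU : Pot δ U) (t : ℝ) (x : E d) :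
    IsProbabilityMeasure (mu U t x) ∧ (∀ f : E d → ℝ, PG f → Integrable f (mu U t x)) ∧
      ∀ f : E d → ℝ, (∀ u v, |f u - f v| ≤ 1 * ‖u - v‖) → Var[f; mu U t x] ≤ 1 := by
  have hUc := hU.smooth.continuous
  obtain ⟨h1, h2, -, h4⟩ := hP d (fun w => U (x + √t • w)) 0 le_rfl (by fun_prop)
    (fun w => hU.nonneg _) (by
      refine ⟨convex_univ, fun u _ v _ a b ha hb hab => ?_⟩
      have h2 := hU.convex.2 (mem_univ (x + √t • u)) (mem_univ (x + √t • v)) ha hb hab
      simp only [zero_div, zero_mul, sub_zero]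
      refine le_of_eq_of_le ?_ h2
      congr 1
      obtain rfl : b = 1 - a := by linarith
      module)
  exact ⟨h1, h2, fun f hf => by simpa using h4 f 1 zero_le_one hf⟩

theorem int_grad (hP : StmtPoinc) (hU : Pot δ U) (t : ℝ) (x : E d) :
    Integrable (fun w => gradient U (x + √t • w)) (mu U t x) := by
  have hc : Continuous fun w : E d => gradient U (x + √t • w) :=
    (cont_grad hU).comp (by fun_prop)
  rw [← integrable_norm_iff hc.aestronglyMeasurable]
  exact (mu_facts hP hU t x).2.1 _ (pg_lin hc.norm fun w => by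
    rw [abs_norm]; exact norm_grad_le' hU t x w)

theorem integral_mu {H : Type} [NormedAddCommGroup H] [NormedSpace ℝ H] (U : E d → ℝ) (t : ℝ)
    (x : E d) (g : E d → H) : ∫ w, g w ∂(mu U t x) =
      (Zf U t x)⁻¹ • ∫ w, Real.exp (-U (x + √t • w)) • g w ∂(gam d) := by
  rw [integral_tilted, ← integral_smul]
  refine integral_congr_ae (Filter.Eventually.of_forall fun w => ?_)
  simp only
  rw [smul_smul, div_eq_inv_mul]
  rfl

theorem GF_eq (U : E d → ℝ) (t : ℝ) (x : E d) :
    GF U t x = ∫ w, gradient U (x + √t • w) ∂(mu U t x) := by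
  rw [integral_mu]
  rfl

theorem descentF (hG : StmtGauss) (hB : StmtBasic) (hP : StmtPoinc) (hU : Pot δ U) (t : ℝ)
    (x h : E d) : Ff U t (x + h) ≤ Ff U t x + ⟪GF U t x, h⟫ + δ / 2 * ‖h‖ ^ 2 := by
  obtain ⟨hμ, -, -⟩ := mu_facts hP hU t x
  have hZ := (hB.Zpos d δ U hU t x).1
  have hZ' := (hB.Zpos d δ U hU t (x + h)).1
  have he : (fun w : E d => Real.exp (-U (x + √t • w)) •
      Real.exp (U (x + √t • w) - U (x + h + √t • w))) =
      fun w => Real.exp (-U (x + h + √t • w)) := by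
    funext w
    rw [smul_eq_mul, ← Real.exp_add]
    congr 1
    ring
  have h1 : Integrable (fun w => Real.exp (U (x + √t • w) - U (x + h + √t • w))) (mu U t x) := by
    rw [integrable_tilted_iff (hG.pg d _ (pg_exp hU _ x)), he]
    exact hG.pg d _ (pg_exp hU _ _)
  have h2 : ∫ w, Real.exp (U (x + √t • w) - U (x + h + √t • w)) ∂(mu U t x) =
      (Zf U t x)⁻¹ * Zf U t (x + h) := by
    rw [integral_mu, he]
    rfl
  set K := Real.exp (-(⟪GF U t x, h⟫ + δ / 2 * ‖h‖ ^ 2)) with hK
  have hi := (int_grad hP hU t x).inner_const (𝕜 := ℝ) h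
  have h3 : ∫ w, K * (1 + ⟪GF U t x, h⟫ - ⟪gradient U (x + √t • w), h⟫) ∂(mu U t x) = K := by
    rw [integral_const_mul, integral_sub (integrable_const _) hi, integral_const]
    simp only [real_inner_comm h]
    rw [integral_inner (int_grad hP hU t x), ← GF_eq]
    simp
  have h4 : K ≤ (Zf U t x)⁻¹ * Zf U t (x + h) := by
    rw [← h3, ← h2]
    refine integral_mono (((integrable_const _).sub hi).const_mul _) h1 fun w => ?_
    have a1 := descent hU (x + √t • w) h
    rw [add_right_comm] at a1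
    have a2 := Real.add_one_le_exp (⟪GF U t x, h⟫ - ⟪gradient U (x + √t • w), h⟫)
    simp only
    refine (mul_le_mul_of_nonneg_left (le_of_eq_of_le (by ring) a2) (Real.exp_pos _).le).trans ?_
    rw [← Real.exp_add, Real.exp_le_exp]
    linarith
  have h5 := Real.log_le_log (Real.exp_pos _) h4
  rw [Real.log_exp, Real.log_mul (inv_pos.2 hZ).ne' hZ'.ne', Real.log_inv] at h5
  rw [Ff, Ff]
  linarith

theorem lip (hG : StmtGauss) (hB : StmtBasic) (hP : StmtPoinc) (hU : Pot δ U) (t : ℝ)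
    (x y : E d) : ‖GF U t x - GF U t y‖ ≤ δ * ‖x - y‖ :=
  baillon_haddad hU.pos (fun x y => tangent_le (convex0 hG hB hU t) (hB.grad d δ U hU t x) y)
    (descentF hG hB hP hU t) x y

theorem mean_mu (hG : StmtGauss) (hP : StmtPoinc) (hU : Pot δ U) (t : ℝ) (x : E d) (i : Fin d) :
    ∫ w, w i ∂(mu U t x) = (-√t • GF U t x) i := by
  have hd : Differentiable ℝ U := hU.smooth.differentiable (by norm_num)
  have hc : Continuous fun w : E d => gradient U (x + √t • w) :=
    (cont_grad hU).comp (by fun_prop)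
  have hf : ∀ w : E d, fderiv ℝ (fun w : E d => Real.exp (-U (x + √t • w))) w (ee i) =
      Real.exp (-U (x + √t • w)) * (-√t * ⟪ee i, gradient U (x + √t • w)⟫) := fun w => by
    have h1 : HasFDerivAt (fun w : E d => x + √t • w) (√t • ContinuousLinearMap.id ℝ (E d)) w :=
      ((hasFDerivAt_id w).const_smul √t).const_add x
    have h2 := (((hd (x + √t • w)).hasFDerivAt.comp w h1).neg).exp
    rw [HasFDerivAt.fderiv (f := fun w : E d => Real.exp (-U (x + √t • w))) h2,
      real_inner_comm, inner_gradient_left]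
    simp
  have hC : ContDiff ℝ 1 fun w : E d => Real.exp (-U (x + √t • w)) := by
    have : ContDiff ℝ 1 U := hU.smooth.of_le (by norm_num)
    fun_prop
  have h1 := hG.ibp d _ (ee i) hC (pg_exp hU _ x) (by
    simp only [hf]
    refine pg_mul (pg_exp hU _ x) (pg_lin (A := √t * ‖gradient U x‖) (B := √t * (δ * √t))
      (by fun_prop) fun w => ?_)
    have a1 := abs_real_inner_le_norm (ee i) (gradient U (x + √t • w))
    rw [PiLp.norm_single, norm_one, one_mul] at a1
    rw [abs_mul, abs_neg, abs_of_nonneg (Real.sqrt_nonneg _), mul_assoc, ← mul_add]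
    exact mul_le_mul_of_nonneg_left (a1.trans (norm_grad_le' hU t x w)) (Real.sqrt_nonneg _))
  have h2 : ∫ w, -√t * ⟪ee i, gradient U (x + √t • w)⟫ ∂(mu U t x) = (-√t • GF U t x) i := by
    rw [integral_const_mul, integral_inner (int_grad hP hU t x), ← GF_eq]
    simp [EuclideanSpace.inner_single_left]
  rw [← h2, integral_mu, integral_mu]
  congr 1
  simp only [hf] at h1
  simp only [smul_eq_mul]
  rw [← h1]
  refine integral_congr_ae (Filter.Eventually.of_forall fun w => ?_)
  simp [EuclideanSpace.inner_single_left, mul_comm]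

theorem norm_mu_le (hG : StmtGauss) (hP : StmtPoinc) (hU : Pot δ U) (t : ℝ) (x : E d) :
    ∫ w, ‖w‖ ∂(mu U t x) ≤ √d + √t * ‖GF U t x‖ := by
  obtain ⟨hμ, hint, hvar⟩ := mu_facts hP hU t x
  set m := -√t • GF U t x with hm
  have hcoord : ∀ (v : E d) (i : Fin d), |v i| ≤ ‖v‖ := fun v i => by
    simpa using PiLp.norm_apply_le v i
  have p1 : PG fun w : E d => ‖w - m‖ := pg_lin (A := ‖m‖) (B := 1) (by fun_prop) fun w => by
    rw [abs_norm, one_mul, add_comm]; exact norm_sub_le _ _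
  have p2 : ∀ i, PG fun w : E d => w i - m i := fun i =>
    pg_lin (A := ‖m‖) (B := 1) (by fun_prop) fun w => by
      rw [one_mul, add_comm]
      exact (hcoord (w - m) i).trans (norm_sub_le _ _)
  have i1 := hint _ p1
  have i2 : Integrable (fun w : E d => ‖w - m‖ ^ 2) (mu U t x) := by
    simpa only [pow_two] using hint _ (pg_mul p1 p1)
  have h1 : ∫ w, ‖w - m‖ ^ 2 ∂(mu U t x) ≤ d := by
    have e : ∀ w : E d, ‖w - m‖ ^ 2 = ∑ i, (w i - m i) ^ 2 := fun w => by
      rw [EuclideanSpace.real_norm_sq_eq]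
      rfl
    simp only [e]
    rw [integral_finsetSum _ fun i _ => by simpa only [pow_two] using hint _ (pg_mul (p2 i) (p2 i))]
    calc ∑ i, ∫ w, (w i - m i) ^ 2 ∂(mu U t x) ≤ ∑ _i : Fin d, (1 : ℝ) := by
          refine Finset.sum_le_sum fun i _ => ?_
          have h2 := hvar (fun w => w i) fun u v => by
            rw [one_mul]; exact hcoord (u - v) i
          rwa [variance_eq_integral (by fun_prop), mean_mu hG hP hU] at h2
      _ = d := by simp
  set r := ∫ w, ‖w - m‖ ∂(mu U t x) with hr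
  have h2 : 2 * r * r ≤ d + r ^ 2 := by
    have h3 : ∫ w, 2 * r * ‖w - m‖ ∂(mu U t x) ≤ ∫ w, (‖w - m‖ ^ 2 + r ^ 2) ∂(mu U t x) :=
      integral_mono (i1.const_mul _) (i2.add (integrable_const _)) fun w => by
        simp only
        nlinarith [sq_nonneg (‖w - m‖ - r)]
    rw [integral_const_mul, integral_add i2 (integrable_const _), integral_const] at h3
    simp only [probReal_univ, smul_eq_mul, one_mul] at h3
    linarith
  have h4 : r ≤ √d := Real.le_sqrt_of_sq_le (by linarith)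
  have h5 : ∫ w, ‖w‖ ∂(mu U t x) ≤ ∫ w, (‖w - m‖ + ‖m‖) ∂(mu U t x) :=
    integral_mono_of_nonneg (Filter.Eventually.of_forall fun w => norm_nonneg w)
      (i1.add (integrable_const _)) (Filter.Eventually.of_forall fun w => norm_le_norm_sub_add w m)
  rw [integral_add i1 (integrable_const _), integral_const] at h5
  simp only [probReal_univ, smul_eq_mul, one_mul] at h5
  have h6 : ‖m‖ = √t * ‖GF U t x‖ := by
    rw [hm, norm_smul, norm_neg, Real.norm_of_nonneg (Real.sqrt_nonneg _)]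
  linarith

theorem crude (hG : StmtGauss) (hP : StmtPoinc) (hU : Pot δ U) {t : ℝ} (x x' : E d)
    (ht : 0 ≤ t) :
    ‖GF U t x - gradient U x'‖ ≤ δ * (‖x - x'‖ + √t * √d + t * ‖GF U t x‖) := by
  obtain ⟨hμ, hint, -⟩ := mu_facts hP hU t x
  have i1 : Integrable (fun w : E d => ‖w‖) (mu U t x) :=
    hint _ (pg_lin (A := 0) (B := 1) (by fun_prop) fun w => by simp)
  have h1 : GF U t x - gradient U x' =
      ∫ w, (gradient U (x + √t • w) - gradient U x') ∂(mu U t x) := by
    rw [integral_sub (int_grad hP hU t x) (integrable_const _), ← GF_eq, integral_const]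
    simp
  have h2 : ‖GF U t x - gradient U x'‖ ≤ ∫ w, (δ * ‖x - x'‖ + δ * √t * ‖w‖) ∂(mu U t x) := by
    rw [h1]
    exact norm_integral_le_of_norm_le ((integrable_const _).add (i1.const_mul _))
      (Filter.Eventually.of_forall fun w => norm_grad_le hU t x x' w)
  rw [integral_add (integrable_const _) (i1.const_mul _), integral_const, integral_const_mul] at h2
  simp only [probReal_univ, smul_eq_mul, one_mul] at h2
  have h3 := mul_le_mul_of_nonneg_left (norm_mu_le hG hP hU t x)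
    (mul_nonneg hU.pos.le (Real.sqrt_nonneg t))
  have h4 : δ * √t * (√d + √t * ‖GF U t x‖) = δ * (√t * √d + t * ‖GF U t x‖) := by
    conv_rhs => rw [← Real.mul_self_sqrt ht, Real.sqrt_mul_self (Real.sqrt_nonneg t)]
    conv_lhs => rw [← Real.mul_self_sqrt ht, Real.sqrt_mul_self (Real.sqrt_nonneg t)]
    ring
  linarith

end Cov

open Cov in
theorem covStmt (hG : StmtGauss) (hB : StmtBasic) (hP : StmtPoinc) : StmtCov where
  convex d δ β U hU hβ hconv t ht := Cov.convex hG hB hU hβ hconv ht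
  lip d δ U hU t x y := Cov.lip hG hB hP hU t x y
  crude d δ U hU t x x' ht := Cov.crude hG hP hU x x' ht
  near d δ U hU hδ t x ht ht1 := by
    have hδ0 := hU.pos
    have hd : 0 ≤ √(d : ℝ) := Real.sqrt_nonneg _
    have key : ∀ t, 0 ≤ t → t ≤ 1 → ‖GF U t 0 - gradient U 0‖ ≤ δ * (√d + ‖GF U t 0‖) :=
      fun t ht ht1 => by
        refine (Cov.crude hG hP hU 0 0 ht).trans (mul_le_mul_of_nonneg_left ?_ hδ0.le)
        rw [sub_self, norm_zero, zero_add]
        exact add_le_add (mul_le_of_le_one_left hd (Real.sqrt_le_one.2 ht1))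
          (mul_le_of_le_one_left (norm_nonneg _) ht1)
    have h1 := key t ht ht1
    have h2 := key 1 zero_le_one le_rfl
    have h3 := Cov.lip hG hB hP hU t x 0
    rw [sub_zero] at h3
    have h4 := norm_sub_le_norm_sub_add_norm_sub (GF U t 0) (gradient U 0) (GF U 1 0)
    rw [norm_sub_rev (gradient U 0)] at h4
    have h5 := norm_sub_le_norm_sub_add_norm_sub (GF U t x) (GF U t 0) (GF U 1 0)
    have h6 := norm_sub_norm_le (GF U t 0) (GF U 1 0)
    have n1 := norm_nonneg (GF U t 0)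
    have n2 := norm_nonneg (GF U 1 0)
    have h7 := mul_le_mul_of_nonneg_right hδ (add_nonneg hd n1)
    have h8 := mul_le_mul_of_nonneg_right hδ (add_nonneg hd n2)
    have h9 : ‖GF U t 0‖ ≤ 3 * ‖GF U 1 0‖ + 2 * √d := by linarith
    have h10 := mul_le_mul_of_nonneg_left h9 hδ0.le
    linarith
  adm d V hV r c hr hr1 := by
    have hU := (hB.adm d V hV).1
    have h1 := Cov.crude hG hP hU c c (sq_nonneg r)
    rw [sub_self, norm_zero, zero_add, Real.sqrt_sq hr] at h1
    have h2 := hU.lip c 0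
    rw [hV.2.2.1, sub_zero, sub_zero] at h2
    have h3 := norm_sub_norm_le (GF V (r ^ 2) c) (gradient V c)
    have h4 : r ^ 2 ≤ 1 / 4 := by nlinarith
    have h5 := mul_le_mul_of_nonneg_right h4 (norm_nonneg (GF V (r ^ 2) c))
    linarith

end Crest.Agent.R285
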