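import Crest.Agent.R285.Calc

/-!
# Row 285: closure of `DC` under contraction with `MM` and under `∂` (`StmtD1`)
-/

set_option autoImplicit false
set_option linter.unusedSimpArgs false

open Set Filter Topology
open scoped ContDiff
open Crest.OracleSampling

noncomputable section

namespace Crest.Agent.R285
namespace D1
open CalcAux

/-- move the extra point to the right summand -/
def optR (C B : Type) : Option (C ⊕ B) ≃ C ⊕ Option B where
  toFun o := o.elim (Sum.inr none) (Sum.map id some)
  invFun := Sum.elim (fun c => some (Sum.inl c)) (fun o => o.map Sum.inr)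
  left_inv := by rintro (_ | _ | _) <;> rfl
  right_inv := by rintro (_ | _ | _) <;> rfl

/-- move the extra point to the left summand -/
def optL (C B : Type) : Option (C ⊕ B) ≃ Option C ⊕ B where
  toFun o := o.elim (Sum.inl none) (Sum.map some id)
  invFun := Sum.elim (fun o => o.map Sum.inl) (fun b => some (Sum.inr b))
  left_inv := by rintro (_ | _ | _) <;> rfl
  right_inv := by rintro ((_ | _) | _) <;> rfl

/-- exchange the two extra points -/
def optSw (S : Type) : Option (Option S) ≃ Option (Option S) where
  toFun o := o.elim (some none) fun o' => o'.elim none fun s => some (some s)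
  invFun o := o.elim (some none) fun o' => o'.elim none fun s => some (some s)
  left_inv := by rintro (_ | _ | _) <;> rfl
  right_inv := by rintro (_ | _ | _) <;> rfl

/-- the extra point as a `Unit` summand -/
def optU (S : Type) : Option S ≃ Unit ⊕ S where
  toFun o := o.elim (Sum.inl ()) Sum.inr
  invFun := Sum.elim (fun _ => none) some
  left_inv := by rintro (_ | _) <;> rfl
  right_inv := by rintro (_ | _) <;> rfl

/-- two points -/
def twoU : Fin (0 + 2) ≃ Unit ⊕ Unit where
  toFun := ![Sum.inl (), Sum.inr ()]
  invFun := Sum.elim (fun _ => 0) fun _ => 1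
  left_inv := by intro i; fin_cases i <;> rfl
  right_inv := by rintro (_ | _) <;> rfl

theorem sum_opt {C : Type} [Fintype C] [DecidableEq C] {d : ℕ} (F : (Option C → Fin d) → ℝ) :
    ∑ w, F w = ∑ l : Fin d, ∑ w : C → Fin d, F fun o => o.elim l w := by
  rw [← Fintype.sum_prod_type']
  refine Fintype.sum_equiv (Equiv.piOptionEquivProd (β := fun _ => Fin d)) _ _ fun w => ?_
  congr 1
  funext o
  cases o <;> rfl

theorem DC.congr' {j : ℕ} {S : Type} {T T' : PT S} (h : DC j S T)
    (hT : ∀ I u p, p.1 ∈ OO → T' I u p = T I u p) : DC j S T' :=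
  DC.congr (Equiv.refl S) h hT

section
variable (hC : StmtCalc) (hX : StmtXC)
include hC hX

theorem sm {j : ℕ} {S : Type} {T : PT S} (h : DC j S T) : Finite S ∧ ∀ I u, Sm (T I u) := by
  induction h with
  | ofH h => exact ⟨(hX.hh _ _ h).1, fun I u => sm_lift ((hX.hh _ _ h).2.1 I u)⟩
  | add _ _ ih ih' => exact ⟨ih.1, fun I u => (ih.2 I u).add (ih'.2 I u)⟩
  | smul c C hc _ ih => exact ⟨ih.1, fun I u => contDiffOn_const.mul (ih.2 I u)⟩
  | amul β _ ih => exact ⟨ih.1, fun I u => (sm_aa β).mul (ih.2 I u)⟩
  | delta β _ ih =>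
    have := ih.1
    exact ⟨Finite.of_injective some (Option.some_injective _), fun I u =>
      sm_sum fun l => (hC _ _ _ I.pot).sm_dl _ β l (ih.2 I _)⟩
  | mono _ ih => exact ih
  | congr e _ hT ih =>
    have := ih.1
    exact ⟨Finite.of_equiv _ e, fun I u => (ih.2 I (u ∘ e)).congr fun p hp => hT I u p hp⟩

theorem star_dc {j : ℕ} {S : Type} {T : PT S} (h : DC j S T) :
    ∀ (A C B : Type) [Fintype A] [Fintype C] [DecidableEq C] [Fintype B] [Nonempty A] [Nonempty C]
      (e : S ≃ C ⊕ B) (M : XT (A ⊕ C)), MM (A ⊕ C) M →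
      DC j (A ⊕ B) fun I => star (fun u => lift (M I u)) fun v => T I (v ∘ e) := by
  induction h with
  | ofH h =>
    intro A C B _ _ _ _ _ _ e M hM
    exact DC.congr' (DC.ofH (HH.star hM (HH.congr e h fun _ _ _ _ => rfl))) fun _ _ _ _ => rfl
  | add _ _ ih ih' =>
    intro A C B _ _ _ _ _ _ e M hM
    refine DC.congr' (DC.add (ih A C B e M hM) (ih' A C B e M hM)) fun I u p _ => ?_
    simp only [star, mul_add, Finset.sum_add_distrib]
  | smul c K hc _ ih =>
    intro A C B _ _ _ _ _ _ e M hM
    refine DC.congr' (DC.smul c K hc (ih A C B e M hM)) fun I u p _ => ?_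
    simp only [star, Finset.mul_sum]
    exact Finset.sum_congr rfl fun _ _ => by ring
  | amul β _ ih =>
    intro A C B _ _ _ _ _ _ e M hM
    refine DC.congr' (DC.amul β (ih A C B e M hM)) fun I u p _ => ?_
    simp only [star, Finset.mul_sum]
    exact Finset.sum_congr rfl fun _ _ => by ring
  | @delta j S T β hT ih =>
    intro A C B _ _ _ _ _ _ e M hM
    have hsT := (sm hC hX hT).2
    have hsM := (hX.mm _ _ hM).2.1
    -- first term
    have h1 : DC j (Option (A ⊕ B)) fun I u p => ∑ w : C → Fin I.d,
        lift (M I (Sum.elim (fun a => u (some (Sum.inl a))) w)) p *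
          T I (fun o => o.elim (u none) (Sum.elim w (fun b => u (some (Sum.inr b))) ∘ e)) p := by
      refine DC.congr (optR A B).symm (ih A C (Option B) (e.optionCongr.trans (optR C B)) M hM)
        fun I u p _ => ?_
      unfold star
      refine Finset.sum_congr rfl fun w _ => ?_
      congr 2
      funext o
      cases o with
      | none => rfl
      | some s =>
        show Sum.elim w _ (e s) = Sum.elim w _ (Sum.map id some (e s))
        cases e s <;> rfl
    -- second term
    have hM' : MM (A ⊕ Option C) fun I v => nab (v (Sum.inr none)) (M I (v ∘ Sum.map id some)) :=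
      MM.congr (optR A C) (hX.mm _ _ hM).2.2.1 fun _ _ _ _ => rfl
    have h2 : DC j (A ⊕ B) fun I u p => ∑ l : Fin I.d, ∑ w : C → Fin I.d,
        lift (nab l (M I (Sum.elim (u ∘ Sum.inl) w))) p *
          T I (fun o => o.elim l (Sum.elim w (u ∘ Sum.inr) ∘ e)) p := by
      refine DC.congr' (ih A (Option C) B (e.optionCongr.trans (optL C B)) _ hM') fun I u p _ => ?_
      unfold star
      rw [sum_opt]
      refine Finset.sum_congr rfl fun l _ => Finset.sum_congr rfl fun w _ => ?_
      congr 2
      · congr 2
        funext x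
        cases x <;> rfl
      · funext o
        cases o with
        | none => rfl
        | some s =>
          show Sum.elim w _ (e s) = Sum.elim _ _ (Sum.map some id (e s))
          cases e s <;> rfl
    refine DC.congr' (DC.add (DC.delta β h1) (DC.mono (DC.amul β h2))) fun I u p hp => ?_
    have hc := hC _ _ _ I.pot
    unfold star
    simp only [Finset.mul_sum]
    rw [Finset.sum_comm, ← Finset.sum_add_distrib]
    refine Finset.sum_congr rfl fun l _ => ?_
    rw [FF.dl_sum (fun w => (sm_lift (hsM I _)).mul (hsT I _)) β l hp, ← Finset.sum_add_distrib]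
    refine Finset.sum_congr rfl fun w _ => ?_
    rw [hc.mul_dl _ _ β l (hsT I _) (sm_lift (hsM I _)) p hp, pd_lift (hsM I _) β l hp, mul_assoc]
    rfl
  | mono _ ih =>
    intro A C B _ _ _ _ _ _ e M hM
    exact DC.mono (ih A C B e M hM)
  | congr e0 _ hT ih =>
    intro A C B _ _ _ _ _ _ e M hM
    refine DC.congr' (ih A C B (e0.trans e) M hM) fun I u p hp => ?_
    unfold star
    refine Finset.sum_congr rfl fun w _ => ?_
    beta_reduce
    rw [hT I _ p hp]
    rfl

theorem jmul {j : ℕ} {S : Type} {T : PT (Option S)} (h : DC j (Option S) T) :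
    DC j (Option S) fun I u p => ∑ l, I.δ⁻¹ * lift (Jx I.U (u none) l) p *
      T I (fun o => o.elim l (u ∘ some)) p := by
  have := (sm hC hX h).1
  have : Finite S := Finite.of_injective some (Option.some_injective _)
  have := Fintype.ofFinite S
  have hM : MM (Unit ⊕ Unit) fun I v p => I.δ⁻¹ * Jx I.U (v (Sum.inl ())) (v (Sum.inr ())) p :=
    MM.congr twoU (MM.base 0) fun I u p _ => by
      simp only [List.ofFn_succ, List.ofFn_zero, iterN, List.foldr]
      rfl
  refine DC.congr (optU S).symm (star_dc hC hX h Unit Unit S (optU S) _ hM) fun I u p _ => ?_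
  unfold star
  refine (Fintype.sum_equiv (Equiv.funUnique Unit (Fin I.d)) _ _ fun w => ?_).symm
  beta_reduce
  congr 2
  funext o
  cases o <;> rfl

theorem pd_dc {j : ℕ} {S : Type} {T : PT S} (h : DC j S T) (β : Bool) :
    DC j (Option S) fun I u => pd β (u none) (T I (u ∘ some)) := by
  induction h with
  | ofH h =>
    exact DC.congr' (DC.amul β (DC.ofH (hX.hh _ _ h).2.2.1)) fun I u p hp =>
      pd_lift ((hX.hh _ _ h).2.1 I _) β _ hp
  | add h h' ih ih' =>
    exact DC.congr' (DC.add ih ih') fun I u p hp =>
      der_add isOpen_Om ((sm hC hX h).2 I _) ((sm hC hX h').2 I _) hp _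
  | smul c K hc h ih =>
    exact DC.congr' (DC.smul c K hc ih) fun I u p hp =>
      der_cmul isOpen_Om ((sm hC hX h).2 I _) _ hp _
  | amul γ h ih =>
    refine DC.congr' (DC.amul γ ih) fun I u p hp => ?_
    refine (der_mul isOpen_Om (sm_aa γ) ((sm hC hX h).2 I _) hp _).trans ?_
    rw [der_aa]
    have : aa γ (ew β (u none) : Ph I.d) = 0 := by cases β <;> cases γ <;> simp [aa, ew]
    rw [this, zero_mul, zero_add]
    rfl
  | @delta j S T γ hT ih =>
    have hsT := (sm hC hX hT).2
    have h1 : DC j (Option (Option S)) fun I u =>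
        pd β (u (some none)) (T I fun o => o.elim (u none) fun s => u (some (some s))) := by
      refine DC.congr (optSw S) ih fun I u p _ => ?_
      congr 2
      funext o
      cases o <;> rfl
    have h2 := DC.smul (fun _ => if γ = β then (1 : ℝ) else 0) 1
      (fun _ => by split_ifs <;> simp) hT
    have h3 := DC.amul γ (DC.amul β (DC.smul (fun I => I.δ) (1 / 2)
      (fun I => by rw [abs_of_pos I.pot.pos]; exact I.hδ) (jmul hC hX hT)))
    refine DC.congr' (DC.add (DC.add (DC.delta γ h1) (DC.mono h2)) (DC.mono h3)) fun I u p hp => ?_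
    have hc := hC _ _ _ I.pot
    refine (der_sum isOpen_Om (fun l => hc.sm_dl _ γ l (hsT I _)) hp _).trans ?_
    have : ∀ l, der (ew β (u none)) (dl I.U γ l (T I fun o => o.elim l (u ∘ some))) p = _ :=
      fun l => hc.pd_dl _ γ l β (u none) (hsT I _) p hp
    simp only [this, Finset.sum_add_distrib]
    congr 1
    · congr 1
      by_cases hγ : γ = β
      · simp only [hγ, true_and, Finset.sum_ite_eq, Finset.mem_univ, if_true, one_mul]
        congr 1
        funext o
        cases o <;> rfl
      · simp [hγ]
    · simp only [Finset.mul_sum]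
      refine Finset.sum_congr rfl fun l _ => ?_
      have := I.pot.pos.ne'
      field_simp
  | mono _ ih => exact DC.mono ih
  | congr e h hT ih =>
    refine DC.congr e.optionCongr ih fun I u p hp => ?_
    exact der_congr isOpen_Om (fun q hq => hT I _ q hq) hp _

end
end D1

theorem d1Stmt (hC : StmtCalc) (hX : StmtXC) : StmtD1 where
  sm := fun _ _ _ h => D1.sm hC hX h
  star := fun _ _ _ h => D1.star_dc hC hX h
  jmul := fun _ _ _ h => D1.jmul hC hX h
  pd := fun _ _ _ h β => D1.pd_dc hC hX h β

end Crest.Agent.R285
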