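import Crest.Agent.R285.DefsT

/-!
# Row 285: closure of `DC` under the flow derivations
-/

set_option autoImplicit false

open MeasureTheory ProbabilityTheory Set
open scoped ENNReal NNReal ContDiff RealInnerProductSpace
open Crest.OracleSampling

noncomputable section

namespace Crest.Agent.R285

namespace D2

variable {d : ℕ}

lemma isOpen_O : IsOpen {p : Ph d | p.1 ∈ OO} := by
  have : IsOpen OO := isOpen_lt (by fun_prop) continuous_const
  exact this.preimage continuous_fst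

lemma pos_of_OO {a : ℝ × ℝ} (h : a ∈ OO) : 0 < 1 - a.1 ^ 2 - a.2 ^ 2 := by
  have : a.1 ^ 2 + a.2 ^ 2 < 1 / 2 := h
  linarith

section gen
variable {Y : Type} [NormedAddCommGroup Y] [NormedSpace ℝ Y]

lemma diffAt {f : Ph d → Y} (hf : ContDiffOn ℝ ∞ f {p | p.1 ∈ OO}) {p : Ph d} (hp : p.1 ∈ OO) :
    DifferentiableAt ℝ f p :=
  (hf.contDiffAt (isOpen_O.mem_nhds hp)).differentiableAt (by simp)

lemma fderiv_congr {f g : Ph d → Y} (h : ∀ q : Ph d, q.1 ∈ OO → f q = g q) {p : Ph d}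
    (hp : p.1 ∈ OO) : fderiv ℝ f p = fderiv ℝ g p :=
  Filter.EventuallyEq.fderiv_eq (Filter.eventually_of_mem (isOpen_O.mem_nhds hp) h)

lemma Lie_congr (W : Ph d → Ph d) {f g : Ph d → Y} (h : ∀ q : Ph d, q.1 ∈ OO → f q = g q)
    {p : Ph d} (hp : p.1 ∈ OO) : Lie W f p = Lie W g p := by
  rw [Lie, Lie, fderiv_congr h hp]

end gen

lemma sm_const (c : ℝ) : Sm fun _ : Ph d => c := contDiffOn_const

lemma sm_mul {f g : Ph d → ℝ} (hf : Sm f) (hg : Sm g) : Sm fun p => f p * g p :=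
  ContDiffOn.mul hf hg

lemma sm_add {f g : Ph d → ℝ} (hf : Sm f) (hg : Sm g) : Sm fun p => f p + g p :=
  ContDiffOn.add hf hg

lemma sm_sum {ι : Type} [Fintype ι] {f : ι → Ph d → ℝ} (hf : ∀ i, Sm (f i)) :
    Sm fun p => ∑ i, f i p := ContDiffOn.sum fun i _ => hf i

lemma fd_add {f g : Ph d → ℝ} (hf : Sm f) (hg : Sm g) {p : Ph d} (hp : p.1 ∈ OO) (v : Ph d) :
    fderiv ℝ (fun p => f p + g p) p v = fderiv ℝ f p v + fderiv ℝ g p v := by
  rw [fderiv_fun_add (diffAt hf hp) (diffAt hg hp)]; rfl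

lemma fd_mul {f g : Ph d → ℝ} (hf : Sm f) (hg : Sm g) {p : Ph d} (hp : p.1 ∈ OO) (v : Ph d) :
    fderiv ℝ (fun p => f p * g p) p v = f p * fderiv ℝ g p v + fderiv ℝ f p v * g p := by
  rw [fderiv_fun_mul (diffAt hf hp) (diffAt hg hp)]
  simp [mul_comm]

lemma fd_cmul (c : ℝ) {g : Ph d → ℝ} (hg : Sm g) {p : Ph d} (hp : p.1 ∈ OO) (v : Ph d) :
    fderiv ℝ (fun p => c * g p) p v = c * fderiv ℝ g p v := by
  rw [fd_mul (sm_const c) hg hp]; simp

lemma fd_sum {ι : Type} [Fintype ι] {f : ι → Ph d → ℝ} (hf : ∀ i, Sm (f i)) {p : Ph d}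
    (hp : p.1 ∈ OO) (v : Ph d) :
    fderiv ℝ (fun p => ∑ i, f i p) p v = ∑ i, fderiv ℝ (f i) p v := by
  rw [fderiv_fun_sum fun i _ => diffAt (hf i) hp]; simp

variable {U : E d → ℝ}

lemma dl_congr (β : Bool) (i : Fin d) {f g : Ph d → ℝ} (h : ∀ q : Ph d, q.1 ∈ OO → f q = g q)
    {p : Ph d} (hp : p.1 ∈ OO) : dl U β i f p = dl U β i g p := by
  rw [dl, dl, pd, pd, fderiv_congr h hp, h p hp]

lemma dl_cmul (β : Bool) (i : Fin d) (c : ℝ) {g : Ph d → ℝ} (hg : Sm g) {p : Ph d}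
    (hp : p.1 ∈ OO) : dl U β i (fun p => c * g p) p = c * dl U β i g p := by
  rw [dl, dl, pd, pd, fd_cmul c hg hp]; ring

lemma dl_sum (β : Bool) (i : Fin d) {ι : Type} [Fintype ι] {f : ι → Ph d → ℝ}
    (hf : ∀ i, Sm (f i)) {p : Ph d} (hp : p.1 ∈ OO) :
    dl U β i (fun p => ∑ k, f k p) p = ∑ k, dl U β i (f k) p := by
  simp only [dl, pd, fd_sum hf hp, Finset.sum_sub_distrib, Finset.mul_sum]

/-- `Fin 2` as `Option Unit` -/
def e2 : Fin 2 ≃ Option Unit where
  toFun i := if i = 0 then none else some ()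
  invFun o := o.elim 0 fun _ => 1
  left_inv i := by fin_cases i <;> rfl
  right_inv o := by cases o <;> rfl

lemma DC_J : DC 0 (Option Unit) fun I u p => I.δ⁻¹ * lift (Jx I.U (u none) (u (some ()))) p :=
  DC.congr e2 (DC.ofH (HH.ofM (MM.base 0))) fun _ _ _ _ => rfl

lemma DC_sub {j : ℕ} {S : Type} {T T' : PT S} (h : DC j S T) (h' : DC j S T') :
    DC j S fun I u p => T I u p - T' I u p :=
  DC.congr (Equiv.refl S) (h.add (h'.smul (fun _ => -1) 1 (by simp))) fun I u p _ => by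
    simp [sub_eq_add_neg]

end D2

open D2

theorem d2Stmt (hC : StmtCalc) (hX : StmtXC) (h1 : StmtD1) : StmtD2 := by
  have K : ∀ I : Inst, Calc I.U := fun I => hC _ _ _ I.pot
  refine ⟨fun j S T hT β => ?_, fun j S T hT => ?_, fun β => ?_, ?_⟩
  · induction hT with
    | ofH hH =>
      obtain ⟨-, hs, hn, hq⟩ := hX.hh _ _ hH
      exact DC.congr (Equiv.refl _) (((DC.ofH hn).delta β).add ((DC.ofH hq).amul β))
        fun I u p hp => (K I).D_lift _ β (hs I u) p hp
    | add ha hb iha ihb =>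
      exact DC.congr (Equiv.refl _) (iha.add ihb) fun I u p hp =>
        fd_add ((h1.sm _ _ _ ha).2 I u) ((h1.sm _ _ _ hb).2 I u) hp _
    | smul c C hc ha iha =>
      exact DC.congr (Equiv.refl _) (iha.smul c C hc) fun I u p hp =>
        fd_cmul _ ((h1.sm _ _ _ ha).2 I u) hp _
    | amul γ ha iha =>
      refine DC.congr (Equiv.refl _) ((iha.amul γ).add (ha.smul (fun _ => if β = γ then 1 else 0) 1
        (fun _ => by split_ifs <;> simp)).mono) fun I u p hp => ?_
      have := fd_mul ((K I).sm_aa γ) ((h1.sm _ _ _ ha).2 I u) hp (VV I.U β p)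
      rw [← (K I).D_aa β γ p]
      exact this
    | @delta j S T γ ha iha =>
      refine DC.congr (Equiv.refl _) ((iha.delta γ).add ((((h1.jmul _ _ _ ha).smul (fun I => I.δ)
        1 (fun I => by rw [abs_of_pos I.pot.pos]; linarith [I.hδ])).delta β).amul γ).mono)
        fun I u p hp => ?_
      have hs := (h1.sm _ _ _ ha).2 I
      have hJ : ∀ i l, Sm (lift (Jx I.U i l)) := fun i l => (K I).sm_lift _ ((K I).smJ i l)
      refine (fd_sum (fun l => (K I).sm_dl _ γ l (hs _)) hp _).trans ?_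
      have h2 := fun i => (K I).D_dl (T I fun o => o.elim i u) β γ i (hs _) p hp
      simp only [Lie] at h2
      simp only [h2, Finset.sum_add_distrib, ← Finset.mul_sum]
      congr 2
      rw [Finset.sum_comm]
      refine Finset.sum_congr rfl fun l _ => ?_
      rw [← dl_sum β l (fun i => sm_mul (hJ i l) (hs _)) hp]
      refine dl_congr β l (fun q hq => ?_) hp
      rw [Finset.mul_sum]
      refine Finset.sum_congr rfl fun i _ => ?_
      rw [← mul_assoc, ← mul_assoc, mul_inv_cancel₀ I.pot.pos.ne', one_mul]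
      congr 1
      exact (K I).symJ i l _ (pos_of_OO hq)
    | mono _ iha => exact iha.mono
    | congr e _ he iha =>
      exact DC.congr e iha fun I u p hp => Lie_congr _ (he I u) hp
  · have hs := (h1.sm _ _ _ hT).2
    refine DC.congr (Equiv.refl _) (DC_sub ((h1.jmul _ _ _ (h1.pd _ _ _ hT true)).delta false)
      ((h1.jmul _ _ _ (h1.pd _ _ _ hT false)).delta true)) fun I u p hp => ?_
    have hJ : ∀ i l, Sm (lift (Jx I.U i l)) := fun i l => (K I).sm_lift _ ((K I).smJ i l)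
    rw [(K I).B_eq _ (hs I u) p hp, mul_sub, Finset.mul_sum, Finset.mul_sum]
    congr 1 <;> refine Finset.sum_congr rfl fun i _ => ?_
    all_goals
      rw [← dl_cmul _ _ _ (sm_sum fun l => sm_mul (hJ i l) ((K I).sm_pd _ _ _ (hs I u))) hp]
      refine dl_congr _ _ (fun q _ => ?_) hp
      rw [Finset.mul_sum]
      exact Finset.sum_congr rfl fun l _ => (mul_assoc _ _ _).symm
  · refine DC.congr (Equiv.refl _) (DC_J.delta β) fun I u p hp => ?_
    rw [(K I).D_G β _ p hp, Finset.mul_sum]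
    exact Finset.sum_congr rfl fun l _ =>
      (dl_cmul _ _ _ ((K I).sm_lift _ ((K I).smJ _ _)) hp).symm
  · refine DC.congr (Equiv.refl _) (DC_sub ((h1.jmul _ _ _ (DC_J.amul true)).delta false)
      ((h1.jmul _ _ _ (DC_J.amul false)).delta true)) fun I u p hp => ?_
    have hJ : ∀ i l, Sm (lift (Jx I.U i l)) := fun i l => (K I).sm_lift _ ((K I).smJ i l)
    rw [(K I).B_eq _ ((K I).smGi _) p hp, mul_sub, Finset.mul_sum, Finset.mul_sum]
    congr 1 <;> refine Finset.sum_congr rfl fun i _ => ?_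
    all_goals
      rw [← dl_cmul _ _ _ (sm_sum fun l => sm_mul (hJ i l) ((K I).sm_pd _ _ _ ((K I).smGi _))) hp]
      refine dl_congr _ _ (fun q hq => ?_) hp
      rw [Finset.mul_sum]
      refine Finset.sum_congr rfl fun l _ => ?_
      rw [(K I).pd_G _ _ _ q hq]
      simp only [Option.elim, Equiv.coe_refl, Function.comp, id]
      ring

end Crest.Agent.R285
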