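import Mathlib
import Crest.Prelude.Def_OracleSampling

/-!
# Row 285 (S0430): interface, analytic part

Potentials, Gaussian smoothing, posterior laws, phase space and flows.  Every `Stmt…` is one
sub-task; a sub-task may assume other `Stmt…` as hypotheses.
-/

set_option autoImplicit false

open MeasureTheory ProbabilityTheory Set
open scoped ENNReal NNReal ContDiff RealInnerProductSpace
open Crest.OracleSampling

noncomputable section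

namespace Crest.Agent.R285

/-! ## Gaussians -/

/-- the standard Gaussian on `ℝ^d` -/
abbrev gam (d : ℕ) : Measure (E d) := stdGaussian (E d)

/-- the Gaussian `N(m, v I)` -/
def gauss {d : ℕ} (m : E d) (v : ℝ) : Measure (E d) := (gam d).map fun w => m + √v • w

/-- the `i`-th unit vector -/
abbrev ee {d : ℕ} (i : Fin d) : E d := EuclideanSpace.single i (1 : ℝ)

/-- continuous functions of polynomial growth -/
def PG {H : Type} [NormedAddCommGroup H] (h : H → ℝ) : Prop :=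
  Continuous h ∧ ∃ (C : ℝ) (k : ℕ), ∀ x, |h x| ≤ C * (1 + ‖x‖) ^ k

/-- Gaussian toolkit. -/
structure StmtGauss : Prop where
  /-- density -/
  dens : ∀ d : ℕ, gam d = (volume : Measure (E d)).withDensity
    fun x => ENNReal.ofReal ((√(2 * Real.pi))⁻¹ ^ d * Real.exp (-(‖x‖ ^ 2 / 2)))
  /-- sum of independent Gaussians -/
  rot : ∀ (d : ℕ) (a b : ℝ), ((gam d).prod (gam d)).map (fun p => a • p.1 + b • p.2) =
    (gam d).map fun w => √(a ^ 2 + b ^ 2) • w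
  /-- rotation invariance of the pair -/
  rot2 : ∀ (d : ℕ) (a b : ℝ), a ^ 2 + b ^ 2 = 1 →
    ((gam d).prod (gam d)).map (fun p => (a • p.1 + b • p.2, (-b) • p.1 + a • p.2)) =
      (gam d).prod (gam d)
  sq : ∀ d : ℕ, ∫ w, ‖w‖ ^ 2 ∂(gam d) = d
  abs : ∀ d : ℕ, ∫⁻ w, ‖w‖ₑ ∂(gam d) ≤ ENNReal.ofReal √d
  inner : ∀ (d : ℕ) (u : E d), ∫⁻ w, ‖⟪u, w⟫‖ₑ ∂(gam d) ≤ ‖u‖ₑ
  pg : ∀ (d : ℕ) (h : E d → ℝ), PG h → Integrable h (gam d)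
  pg2 : ∀ (d : ℕ) (h : E d × E d → ℝ), PG h → Integrable h ((gam d).prod (gam d))
  /-- Gaussian integration by parts -/
  ibp : ∀ (d : ℕ) (f : E d → ℝ) (u : E d), ContDiff ℝ 1 f → PG f →
    PG (fun x => fderiv ℝ f x u) → ∫ w, ⟪u, w⟫ * f w ∂(gam d) = ∫ w, fderiv ℝ f w u ∂(gam d)
  /-- Gaussian integration by parts on pairs -/
  ibp2 : ∀ (d : ℕ) (f : E d × E d → ℝ) (u : E d × E d), ContDiff ℝ 1 f → PG f →
    PG (fun x => fderiv ℝ f x u) →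
    ∫ w, (⟪u.1, w.1⟫ + ⟪u.2, w.2⟫) * f w ∂((gam d).prod (gam d)) =
      ∫ w, fderiv ℝ f w u ∂((gam d).prod (gam d))

/-- Poincaré inequality for `γ e^{-W}` with `W - β/2 |x|²` convex. -/
def StmtPoinc : Prop :=
  ∀ (d : ℕ) (W : E d → ℝ) (β : ℝ), 0 ≤ β → Continuous W → (∀ x, 0 ≤ W x) →
    ConvexOn ℝ univ (fun x => W x - β / 2 * ‖x‖ ^ 2) →
    IsProbabilityMeasure ((gam d).tilted fun w => -W w) ∧
    (∀ f : E d → ℝ, PG f → Integrable f ((gam d).tilted fun w => -W w)) ∧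
    (∀ f : E d → ℝ, ContDiff ℝ 1 f → PG f → PG (fun x => ‖gradient f x‖) →
      Var[f; (gam d).tilted fun w => -W w] ≤
        (1 + β)⁻¹ * ∫ x, ‖gradient f x‖ ^ 2 ∂((gam d).tilted fun w => -W w)) ∧
    (∀ (f : E d → ℝ) (L : ℝ), 0 ≤ L → (∀ x y, |f x - f y| ≤ L * ‖x - y‖) →
      Var[f; (gam d).tilted fun w => -W w] ≤ (1 + β)⁻¹ * L ^ 2)

/-! ## Potentials and their Gaussian smoothings -/

/-- nonnegative convex `C²` potentials with `δ`-Lipschitz gradient -/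
structure Pot {d : ℕ} (δ : ℝ) (U : E d → ℝ) : Prop where
  pos : 0 < δ
  smooth : ContDiff ℝ 2 U
  nonneg : ∀ x, 0 ≤ U x
  convex : ConvexOn ℝ univ U
  lip : ∀ x y, ‖gradient U x - gradient U y‖ ≤ δ * ‖x - y‖

variable {d : ℕ}

/-- `Z(t,x) = E exp(-U(x + √t w))` -/
def Zf (U : E d → ℝ) (t : ℝ) (x : E d) : ℝ := ∫ w, Real.exp (-U (x + √t • w)) ∂(gam d)

/-- `F = -log Z` -/
def Ff (U : E d → ℝ) (t : ℝ) (x : E d) : ℝ := -Real.log (Zf U t x)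

/-- `∇F`, as a posterior mean of `∇U` -/
def GF (U : E d → ℝ) (t : ℝ) (x : E d) : E d :=
  (Zf U t x)⁻¹ • ∫ w, Real.exp (-U (x + √t • w)) • gradient U (x + √t • w) ∂(gam d)

/-- the law `N(c, τ) e^{-F(t,·)}`, normalised -/
def post (U : E d → ℝ) (t τ : ℝ) (c : E d) : Measure (E d) :=
  ((gam d).tilted fun w => -Ff U t (c + √τ • w)).map fun w => c + √τ • w

/-- Admissible potentials, scaling, semigroup. -/
structure StmtBasic : Prop where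
  adm : ∀ (d : ℕ) (V : E d → ℝ), Admissible d V →
    Pot 2 V ∧ ConvexOn ℝ univ (fun x => V x - 1 / 2 * ‖x‖ ^ 2)
  scale : ∀ (d : ℕ) (δ : ℝ) (V : E d → ℝ) (c : E d) (s : ℝ), Pot δ V → 0 < s →
    Pot (δ * s ^ 2) (fun y => V (c + s • y))
  scaleF : ∀ (d : ℕ) (V : E d → ℝ) (c : E d) (s t : ℝ) (x : E d), 0 < s → 0 ≤ t →
    Ff (fun y => V (c + s • y)) t x = Ff V (s ^ 2 * t) (c + s • x)
  scaleG : ∀ (d : ℕ) (δ : ℝ) (V : E d → ℝ) (c : E d) (s t : ℝ) (x : E d), Pot δ V → 0 < s → 0 ≤ t →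
    GF (fun y => V (c + s • y)) t x = s • GF V (s ^ 2 * t) (c + s • x)
  scalePost : ∀ (d : ℕ) (V : E d → ℝ) (c : E d) (s t τ : ℝ), 0 < s → 0 ≤ t → 0 ≤ τ →
    (post (fun y => V (c + s • y)) t τ 0).map (fun y => c + s • y) = post V (s ^ 2 * t) (s ^ 2 * τ) c
  Zpos : ∀ (d : ℕ) (δ : ℝ) (U : E d → ℝ), Pot δ U → ∀ t x, 0 < Zf U t x ∧ Zf U t x ≤ 1
  contZ : ∀ (d : ℕ) (δ : ℝ) (U : E d → ℝ), Pot δ U → Continuous fun p : ℝ × E d => Zf U p.1 p.2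
  contF : ∀ (d : ℕ) (δ : ℝ) (U : E d → ℝ), Pot δ U → Continuous fun p : ℝ × E d => Ff U p.1 p.2
  contG : ∀ (d : ℕ) (δ : ℝ) (U : E d → ℝ), Pot δ U → Continuous fun p : ℝ × E d => GF U p.1 p.2
  grad : ∀ (d : ℕ) (δ : ℝ) (U : E d → ℝ), Pot δ U → ∀ t x, HasGradientAt (Ff U t) (GF U t x) x
  semi : ∀ (d : ℕ) (δ : ℝ) (U : E d → ℝ), Pot δ U → ∀ (t τ : ℝ) (x : E d), 0 ≤ t → 0 ≤ τ →
    ∫ w, Zf U t (x + √τ • w) ∂(gam d) = Zf U (t + τ) x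

/-- Convexity of the smoothing, Lipschitz gradient, crude bounds. -/
structure StmtCov : Prop where
  convex : ∀ (d : ℕ) (δ β : ℝ) (U : E d → ℝ), Pot δ U → 0 ≤ β →
    ConvexOn ℝ univ (fun x => U x - β / 2 * ‖x‖ ^ 2) → ∀ t, 0 ≤ t →
    ConvexOn ℝ univ (fun x => Ff U t x - β / (1 + β * t) / 2 * ‖x‖ ^ 2)
  lip : ∀ (d : ℕ) (δ : ℝ) (U : E d → ℝ), Pot δ U → ∀ t x y, ‖GF U t x - GF U t y‖ ≤ δ * ‖x - y‖
  crude : ∀ (d : ℕ) (δ : ℝ) (U : E d → ℝ), Pot δ U → ∀ (t : ℝ) (x x' : E d), 0 ≤ t →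
    ‖GF U t x - gradient U x'‖ ≤ δ * (‖x - x'‖ + √t * √d + t * ‖GF U t x‖)
  /-- consequence of `crude`, `lip` -/
  near : ∀ (d : ℕ) (δ : ℝ) (U : E d → ℝ), Pot δ U → δ ≤ 1 / 2 → ∀ (t : ℝ) (x : E d), 0 ≤ t → t ≤ 1 →
    ‖GF U t x - GF U 1 0‖ ≤ δ * (‖x‖ + 4 * √d + 4 * ‖GF U 1 0‖)
  /-- consequence of `crude` -/
  adm : ∀ (d : ℕ) (V : E d → ℝ), Admissible d V → ∀ (r : ℝ) (c : E d), 0 ≤ r → r ≤ 1 / 2 →
    ‖GF V (r ^ 2) c‖ ≤ 4 * ‖c‖ + 4 * r * √d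

/-! ## Smoothness, the heat equation, derivative tensors -/

/-- space derivative of a function of `(t, x)` -/
def nab (i : Fin d) (φ : ℝ × E d → ℝ) (p : ℝ × E d) : ℝ := fderiv ℝ φ p (0, ee i)

/-- time derivative -/
def dt (φ : ℝ × E d → ℝ) (p : ℝ × E d) : ℝ := fderiv ℝ φ p (1, 0)

/-- smooth for positive times -/
def Smx (φ : ℝ × E d → ℝ) : Prop := ContDiffOn ℝ ∞ φ {p | 0 < p.1}

/-- Gaussian moment function -/
def Mom (h : E d → ℝ) (p : ℝ × E d) : ℝ := ∫ w, h (p.2 + √p.1 • w) ∂(gam d)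

/-- `F` as a function of `(t,x)` -/
def Fx (U : E d → ℝ) (p : ℝ × E d) : ℝ := Ff U p.1 p.2

/-- Smoothness and the heat equation. -/
structure StmtSmooth : Prop where
  mom : ∀ (d : ℕ) (h : E d → ℝ), PG h → Smx (Mom h) ∧ ∀ p : ℝ × E d, 0 < p.1 →
    (∀ i, nab i (Mom h) p = (Mom (fun X => h X * X i) p - p.2 i * Mom h p) / p.1) ∧
    dt (Mom h) p = 1 / 2 * ∑ i, nab i (nab i (Mom h)) p
  smooth : ∀ (d : ℕ) (δ : ℝ) (U : E d → ℝ), Pot δ U → Smx (Fx U)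
  grad : ∀ (d : ℕ) (δ : ℝ) (U : E d → ℝ), Pot δ U → ∀ p : ℝ × E d, 0 < p.1 → ∀ i,
    nab i (Fx U) p = GF U p.1 p.2 i
  pde : ∀ (d : ℕ) (δ : ℝ) (U : E d → ℝ), Pot δ U → ∀ p : ℝ × E d, 0 < p.1 →
    dt (Fx U) p = 1 / 2 * (∑ i, nab i (nab i (Fx U)) p - ∑ i, nab i (Fx U) p ^ 2)

/-- iterated space derivative -/
def iterN (l : List (Fin d)) (φ : ℝ × E d → ℝ) : ℝ × E d → ℝ := l.foldr nab φ

/-- every nontrivial flattening of the tensor `T` has operator norm at most `C` -/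
def FB {S : Type} (T : (S → Fin d) → ℝ) (C : ℝ) : Prop :=
  ∀ (A B : Type) [Fintype A] [DecidableEq A] [Fintype B] [DecidableEq B] [Nonempty A] [Nonempty B]
    (e : S ≃ A ⊕ B) (α : (A → Fin d) → ℝ) (β : (B → Fin d) → ℝ),
    |∑ u, ∑ v, T (Sum.elim u v ∘ e) * α u * β v| ≤ C * √(∑ u, α u ^ 2) * √(∑ v, β v ^ 2)

/-- Dimension-free bounds for all flattenings of the derivative tensors of `F`. -/
def StmtFB : Prop :=
  ∀ k : ℕ, ∃ C : ℝ, ∀ (d : ℕ) (δ : ℝ) (U : E d → ℝ), Pot δ U → δ ≤ 1 / 2 →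
    ∀ p : ℝ × E d, p.1 ∈ Icc (1 / 2 : ℝ) 1 →
      FB (fun u : Fin (k + 2) → Fin d => iterN (List.ofFn u) (Fx U) p) (C * δ)

/-- posterior expectation `E[h(X)]`, `X ~ N(x,t) e^{-U}` -/
def Ept (U : E d → ℝ) (t : ℝ) (x : E d) (h : E d → ℝ) : ℝ :=
  (Zf U t x)⁻¹ * ∫ w, h (x + √t • w) * Real.exp (-U (x + √t • w)) ∂(gam d)

/-- the operator with `∇_j E[ψ(x,X)] = E[dd j ψ]` -/
def dd (U : E d → ℝ) (t : ℝ) (j : Fin d) (ψ : E d → E d → ℝ) (x X : E d) : ℝ :=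
  fderiv ℝ (fun x' => ψ x' X) x (ee j) + ψ x X * ((X j - x j) / t + GF U t x j)

/-- Appell polynomials of the posterior -/
def AP (U : E d → ℝ) (t : ℝ) (l : List (Fin d)) : E d → E d → ℝ :=
  l.foldr (dd U t) fun _ _ => 1

/-- twisted derivatives of the centred gradient -/
def Au (U : E d → ℝ) (t : ℝ) (i : Fin d) (l : List (Fin d)) : E d → E d → ℝ :=
  l.foldr (dd U t) fun x X => gradient U X i - GF U t x i

/-- finite sums of products `k(x) h(X)`, `k` smooth, `h` of polynomial growth -/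
inductive Sep : (E d → E d → ℝ) → Prop
  | base (k h : E d → ℝ) (hk : ContDiff ℝ ∞ k) (hh : PG h) : Sep fun x X => k x * h X
  | add {ψ χ : E d → E d → ℝ} : Sep ψ → Sep χ → Sep fun x X => ψ x X + χ x X

/-- Calculus of separable functions under the posterior expectation. -/
def StmtSep : Prop :=
  ∀ (d : ℕ) (δ : ℝ) (U : E d → ℝ), Pot δ U → ∀ t : ℝ, 0 < t →
    (∀ i, ContDiff ℝ ∞ fun x => GF U t x i) ∧
    (∀ ψ χ : E d → E d → ℝ, Sep ψ → Sep χ → Sep fun x X => ψ x X * χ x X) ∧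
    (∀ l, Sep (AP U t l)) ∧ (∀ i l, Sep (Au U t i l)) ∧
    (∀ x i, Ept U t x (fun X => gradient U X i) = GF U t x i) ∧ (∀ x, Ept U t x (fun _ => 1) = 1) ∧
    ∀ ψ : E d → E d → ℝ, Sep ψ →
      (∀ X, ContDiff ℝ ∞ fun x => ψ x X) ∧ (∀ x, PG (ψ x)) ∧
      (∀ j, Sep fun x X => fderiv ℝ (fun x' => ψ x' X) x (ee j)) ∧ (∀ j, Sep (dd U t j ψ)) ∧
      (∀ x, Integrable (fun w => ψ x (x + √t • w) * Real.exp (-U (x + √t • w))) (gam d)) ∧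
      (ContDiff ℝ ∞ fun x => Ept U t x (ψ x)) ∧
      ∀ x j, fderiv ℝ (fun x' => Ept U t x' (ψ x')) x (ee j) = Ept U t x (dd U t j ψ x)

/-- `L²` bounds for the Appell tensors. -/
def StmtL2 : Prop :=
  ∀ k : ℕ, ∃ C : ℝ, ∀ (d : ℕ) (δ : ℝ) (U : E d → ℝ), Pot δ U → ∀ t ∈ Icc (1 / 2 : ℝ) 1, ∀ x : E d,
    (∀ β : (Fin k → Fin d) → ℝ,
      Ept U t x (fun X => (∑ u, β u * AP U t (List.ofFn u) x X) ^ 2) ≤ C * ∑ u, β u ^ 2) ∧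
    (∀ α : Fin d → (Fin k → Fin d) → ℝ,
      Ept U t x (fun X => (∑ i, ∑ u, α i u * Au U t i (List.ofFn u) x X) ^ 2) ≤
        C * δ ^ 2 * ∑ i, ∑ u, α i u ^ 2)

/-! ## Transport by flows -/

/-- A smooth field of linear growth solving the continuity equation for `e^{-Φ}` has a global
measurable flow transporting the densities. -/
def StmtTransport : Prop :=
  ∀ (H : Type) [NormedAddCommGroup H] [NormedSpace ℝ H] [FiniteDimensional ℝ H]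
    [MeasurableSpace H] [BorelSpace H] (μ : Measure H) [μ.IsAddHaarMeasure]
    (Φ : ℝ × H → ℝ) (W : ℝ × H → H) (η K : ℝ), 0 < η →
    ContDiffOn ℝ ∞ Φ (Ioo (-η) (1 + η) ×ˢ univ) → ContDiffOn ℝ ∞ W (Ioo (-η) (1 + η) ×ˢ univ) →
    (∀ τ ∈ Icc (0 : ℝ) 1, ∀ x, ‖W (τ, x)‖ ≤ K * (1 + ‖x‖)) →
    (∀ τ ∈ Icc (0 : ℝ) 1, ∀ x, fderiv ℝ Φ (τ, x) (1, W (τ, x)) =
      LinearMap.trace ℝ H (fderiv ℝ (fun y => W (τ, y)) x : H →ₗ[ℝ] H)) →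
    ∃ φ : ℝ → H → H, Measurable (Function.uncurry φ) ∧ (∀ x, φ 0 x = x) ∧
      (∀ x, ∀ τ ∈ Icc (0 : ℝ) 1,
        HasDerivWithinAt (fun s => φ s x) (W (τ, φ τ x)) (Icc (0 : ℝ) 1) τ) ∧
      ∀ τ ∈ Icc (0 : ℝ) 1,
        (μ.withDensity fun x => ENNReal.ofReal (Real.exp (-Φ (0, x)))).map (φ τ) =
          μ.withDensity fun x => ENNReal.ofReal (Real.exp (-Φ (τ, x)))

/-- phase space: `(a, (y, z))` -/
abbrev Ph (d : ℕ) : Type := (ℝ × ℝ) × (E d × E d)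

/-- the parameter disc -/
def OO : Set (ℝ × ℝ) := {a | a.1 ^ 2 + a.2 ^ 2 < 1 / 2}

/-- `G(a, y, z) = ∇F(1 - |a|², a₁ y + a₂ z)` -/
def Gp (U : E d → ℝ) (p : Ph d) : E d :=
  GF U (1 - p.1.1 ^ 2 - p.1.2 ^ 2) (p.1.1 • p.2.1 + p.1.2 • p.2.2)

/-- the law `ν_a ∝ γ ⊗ γ · e^{-F(1 - |a|², a₁ y + a₂ z)}` -/
def nu (U : E d → ℝ) (a : ℝ × ℝ) : Measure (E d × E d) :=
  ((gam d).prod (gam d)).tilted fun ζ => -Ff U (1 - a.1 ^ 2 - a.2 ^ 2) (a.1 • ζ.1 + a.2 • ζ.2)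

/-- derivative along a vector field -/
def Lie {Y : Type} [NormedAddCommGroup Y] [NormedSpace ℝ Y] (W : Ph d → Ph d) (f : Ph d → Y)
    (p : Ph d) : Y := fderiv ℝ f p (W p)

/-- the field `D₁` -/
def V1 (U : E d → ℝ) (p : Ph d) : Ph d := ((1, 0), (-Gp U p, 0))

/-- the field `D₂` -/
def V2 (U : E d → ℝ) (p : Ph d) : Ph d := ((0, 1), (0, -Gp U p))

/-- the curvature field `ℬ` -/
def VB (U : E d → ℝ) (p : Ph d) : Ph d := ((0, 0), (-Lie (V2 U) (Gp U) p, Lie (V1 U) (Gp U) p))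

/-- the field `α₁ D₁ + α₂ D₂ + λ ℬ` -/
def WF (U : E d → ℝ) (α : ℝ × ℝ) (lam : ℝ) (p : Ph d) : Ph d :=
  α.1 • V1 U p + α.2 • V2 U p + lam • VB U p

/-- `φ` is a measurable flow of `WF U α lam` started at parameter `a`, transporting the laws `ν` -/
structure IsFlow (U : E d → ℝ) (a α : ℝ × ℝ) (lam : ℝ) (φ : ℝ → E d × E d → E d × E d) : Prop where
  meas : Measurable (Function.uncurry φ)
  init : ∀ ζ, φ 0 ζ = ζ
  ode : ∀ ζ, ∀ τ ∈ Icc (0 : ℝ) 1, HasDerivWithinAt (fun s => ((a + s • α, φ s ζ) : Ph d))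
    (WF U α lam (a + τ • α, φ τ ζ)) (Icc (0 : ℝ) 1) τ
  law : ∀ τ ∈ Icc (0 : ℝ) 1, (nu U a).map (φ τ) = nu U (a + τ • α)

/-- Existence of the measure-transporting flows. -/
def StmtFlow : Prop :=
  ∀ (d : ℕ) (δ : ℝ) (U : E d → ℝ), Pot δ U → δ ≤ 1 / 2 →
    ContDiffOn ℝ ∞ (Gp U) {p | p.1 ∈ OO} ∧ Measurable (Gp U) ∧
    (∀ a, IsProbabilityMeasure (nu U a)) ∧ nu U 0 = (gam d).prod (gam d) ∧
    ∀ (a α : ℝ × ℝ) (lam : ℝ), a ∈ OO → a + α ∈ OO → ∃ φ, IsFlow U a α lam φ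

/-- Dimension-free regularity along the flows. -/
def StmtReg : Prop :=
  ∀ n : ℕ, ∃ C : ℝ, ∀ (d : ℕ) (δ : ℝ) (U : E d → ℝ), Pot δ U → δ ≤ 1 / 2 →
    ∀ (α : ℝ × ℝ) (lam ε : ℝ), 0 < ε → |α.1| ≤ ε → |α.2| ≤ ε → |lam| * δ ≤ ε → ∀ a ∈ OO,
      ∫⁻ ζ, ‖(Lie (WF U α lam))^[n + 1] (Gp U) (a, ζ)‖ₑ ∂(nu U a) ≤
        ENNReal.ofReal (C * ε ^ (n + 1) * δ * √d) ∧
      ∫⁻ ζ, ‖(Lie (WF U α lam))^[n] (Lie (V1 U) (Gp U)) (a, ζ)‖ₑ ∂(nu U a) ≤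
        ENNReal.ofReal (C * ε ^ n * δ * √d) ∧
      ∫⁻ ζ, ‖(Lie (WF U α lam))^[n] (Lie (V2 U) (Gp U)) (a, ζ)‖ₑ ∂(nu U a) ≤
        ENNReal.ofReal (C * ε ^ n * δ * √d) ∧
      ∫⁻ ζ, ‖(Lie (WF U α lam))^[n] (Lie (VB U) (Gp U)) (a, ζ)‖ₑ ∂(nu U a) ≤
        ENNReal.ofReal (C * ε ^ n * δ ^ 2 * √d)

/-- Marginals of `ν_{(ρ,0)}`. -/
def StmtMarg : Prop :=
  ∀ (d : ℕ) (δ : ℝ) (U : E d → ℝ), Pot δ U → ∀ ρ : ℝ, 0 < ρ → ρ < 1 →
    (nu U (ρ, 0)).map Prod.snd = gam d ∧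
    (((nu U (ρ, 0)).map Prod.fst).prod (gam d)).map (fun p => (ρ / 2) • (p.1 + p.2)) =
      post U (1 - ρ ^ 2 / 2) (ρ ^ 2 / 2) 0

/-- Quadrature and one-sided differentiation weights on the nodes `k/m`. -/
structure Quad (m : ℕ) (w : Fin (m + 1) → ℝ) (q : Fin (m + 1) → Fin (m + 1) → ℝ) (c : ℝ) :
    Prop where
  one : 1 ≤ c
  sum_w : ∑ k, w k = 0
  abs_w : ∑ k, |w k| ≤ c
  abs_q : ∀ k, ∑ l, |q k l| ≤ c
  est : ∀ (H : Type) [NormedAddCommGroup H] [NormedSpace ℝ H] [CompleteSpace H] (g : ℕ → ℝ → H),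
    (∀ j, ∀ τ ∈ Icc (0 : ℝ) 1, HasDerivWithinAt (g j) (g (j + 1) τ) (Icc (0 : ℝ) 1) τ) →
    ‖∑ k, w k • g 0 ((k : ℕ) / (m : ℝ)) - g 1 0‖ₑ ≤
      ENNReal.ofReal c * ∫⁻ τ in Icc (0 : ℝ) 1, ‖g (m + 1) τ‖ₑ ∧
    ∀ k : Fin (m + 1), ‖∑ l, q k l • g 0 ((l : ℕ) / (m : ℝ)) -
        ∫ τ in (0 : ℝ)..((k : ℕ) / (m : ℝ)), g 0 τ‖ₑ ≤
      ENNReal.ofReal c * ∫⁻ τ in Icc (0 : ℝ) 1, ‖g (m + 1) τ‖ₑ

def StmtQuad : Prop := ∀ m : ℕ, 0 < m → ∃ w q c, Quad m w q c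

/-! ## One-sided Wasserstein comparison, the outer loop -/

/-- `μ` exceeds `ν` by at most `L η` on every `L`-Lipschitz test function -/
def WLe (μ ν : Measure (E d)) (η : ℝ) : Prop :=
  ∀ (ψ : E d → ℝ≥0∞) (L : ℝ≥0), (∀ x y, ψ x ≤ ψ y + L * edist x y) →
    ∫⁻ x, ψ x ∂μ ≤ ∫⁻ x, ψ x ∂ν + L * ENNReal.ofReal η

/-- the smoothed target `π * N(0, t)` -/
def piT (V : E d → ℝ) (t : ℝ) : Measure (E d) :=
  ((target d V).prod (gam d)).map fun p => p.1 + √t • p.2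

/-- Contraction of the posterior in its centre. -/
def StmtContr : Prop :=
  ∀ (d : ℕ) (V : E d → ℝ), Admissible d V → ∀ t τ : ℝ, 0 ≤ t → t ≤ 1 → 0 < τ → ∀ c c' : E d,
    WLe (post V t τ c) (post V t τ c') (‖c - c'‖ / (1 + τ / 2))

/-- Bayes' rule and moments. -/
def StmtBayes : Prop :=
  ∀ (d : ℕ) (V : E d → ℝ), Admissible d V →
    IsProbabilityMeasure (target d V) ∧
    (∀ t, 0 ≤ t → ∫⁻ x, ‖x‖ₑ ∂(piT V t) ≤ ENNReal.ofReal ((2 + √t) * √d)) ∧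
    ∀ t τ : ℝ, 0 ≤ t → 0 < τ → Measurable (post V t τ) ∧
      (∀ c, IsProbabilityMeasure (post V t τ c)) ∧ (piT V (t + τ)).bind (post V t τ) = piT V t

/-- From Wasserstein to total variation. -/
def StmtEnd : Prop :=
  ∀ (d : ℕ) (V : E d → ℝ), Admissible d V → ∀ (μ : Measure (E d)) [IsProbabilityMeasure μ]
    (t σ η : ℝ), 0 ≤ t → 0 < σ → 0 ≤ η → t + σ ^ 2 ≤ 1 → WLe μ (piT V t) η →
    ∀ B : Set (E d), MeasurableSet B →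
      |(((μ.prod (gam d)).map fun p => p.1 + σ • p.2) B).toReal - (target d V B).toReal| ≤
        2 * η / σ + 5 * d * √(t + σ ^ 2)

end Crest.Agent.R285
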