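import Crest.Agent.R285.Defs

/-!
# Row 285 (S0430): interface, local expressions and the core lemma
-/

set_option autoImplicit false

open MeasureTheory ProbabilityTheory Set
open scoped ENNReal NNReal ContDiff RealInnerProductSpace
open Crest.OracleSampling

noncomputable section

namespace Crest.Agent.R285

variable {d : ℕ}

/-- local expressions: nested finite sums `∑ k • G(a, ζ + (ey ζ, ez ζ))` -/
inductive LE : Type
  | nil : LE
  | cons (k a1 a2 : ℝ) (ey ez rest : LE) : LE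

namespace LE

/-- the value at `ζ = (y, z)` -/
def val (U : E d → ℝ) : LE → E d × E d → E d
  | nil, _ => 0
  | cons k a1 a2 ey ez rest, ζ =>
      k • Gp U ((a1, a2), (ζ.1 + ey.val U ζ, ζ.2 + ez.val U ζ)) + rest.val U ζ

/-- number of top-level terms -/
def width : LE → ℕ
  | nil => 0
  | cons _ _ _ _ _ rest => rest.width + 1

/-- sum of the absolute values of the top-level coefficients -/
def abss : LE → ℝ
  | nil => 0
  | cons k _ _ _ _ rest => |k| + rest.abss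

/-- sum of the top-level coefficients -/
def sum : LE → ℝ
  | nil => 0
  | cons k _ _ _ _ rest => k + rest.sum

def append : LE → LE → LE
  | nil, f => f
  | cons k a1 a2 ey ez rest, f => cons k a1 a2 ey ez (rest.append f)

def smul (c : ℝ) : LE → LE
  | nil => nil
  | cons k a1 a2 ey ez rest => cons (c * k) a1 a2 ey ez (rest.smul c)

/-- the expression read at the point `ζ + (fy ζ, fz ζ)` -/
def subst (fy fz : LE) : LE → LE
  | nil => nil
  | cons k a1 a2 ey ez rest =>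
      cons k a1 a2 (fy.append (subst fy fz ey)) (fz.append (subst fy fz ez)) (subst fy fz rest)

/-- finite sums -/
def sumL : {n : ℕ} → (Fin n → LE) → LE
  | 0, _ => nil
  | _ + 1, f => (f 0).append (sumL fun i => f i.succ)

/-- the single term `k • G(a, ζ)` -/
def one (k a1 a2 : ℝ) : LE := cons k a1 a2 nil nil nil

def Small (b : ℕ) (β γ : ℝ) (e : LE) : Prop := e.width ≤ b ∧ e.abss ≤ β ∧ |e.sum| ≤ γ

/-- all nodes, at every depth, have parameters in `[0,2ρ] × [0,ρ]` and small shifts -/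
def Nodes (b : ℕ) (β γ ρ : ℝ) : LE → Prop
  | nil => True
  | cons _ a1 a2 ey ez rest => a1 ∈ Icc 0 (2 * ρ) ∧ a2 ∈ Icc 0 ρ ∧ ey.Small b β γ ∧ ez.Small b β γ ∧
      ey.Nodes b β γ ρ ∧ ez.Nodes b β γ ρ ∧ rest.Nodes b β γ ρ

@[simp] theorem val_append (U : E d → ℝ) (e f : LE) (ζ : E d × E d) :
    (e.append f).val U ζ = e.val U ζ + f.val U ζ := by
  induction e with
  | nil => simp [append, val]
  | cons k a1 a2 ey ez rest _ _ ih => simp [append, val, ih, add_assoc]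

@[simp] theorem val_smul (U : E d → ℝ) (c : ℝ) (e : LE) (ζ : E d × E d) :
    (e.smul c).val U ζ = c • e.val U ζ := by
  induction e with
  | nil => simp [smul, val]
  | cons k a1 a2 ey ez rest _ _ ih => simp [smul, val, ih, mul_smul]

@[simp] theorem val_subst (U : E d → ℝ) (fy fz e : LE) (ζ : E d × E d) :
    (subst fy fz e).val U ζ = e.val U (ζ.1 + fy.val U ζ, ζ.2 + fz.val U ζ) := by
  induction e with
  | nil => simp [subst, val]
  | cons k a1 a2 ey ez rest ihy ihz ih => simp [subst, val, ih, ihy, ihz, add_assoc]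

@[simp] theorem val_sumL (U : E d → ℝ) {n : ℕ} (f : Fin n → LE) (ζ : E d × E d) :
    (sumL f).val U ζ = ∑ i, (f i).val U ζ := by
  induction n with
  | zero => simp [sumL, val]
  | succ n ih => simp [sumL, ih, Fin.sum_univ_succ]

@[simp] theorem val_one (U : E d → ℝ) (k a1 a2 : ℝ) (ζ : E d × E d) :
    (one k a1 a2).val U ζ = k • Gp U ((a1, a2), ζ) := by
  simp [one, val]

@[simp] theorem width_append (e f : LE) : (e.append f).width = e.width + f.width := by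
  induction e with
  | nil => simp [append, width]
  | cons k a1 a2 ey ez rest _ _ ih => simp [append, width, ih]; omega

@[simp] theorem width_smul (c : ℝ) (e : LE) : (e.smul c).width = e.width := by
  induction e with
  | nil => simp [smul, width]
  | cons k a1 a2 ey ez rest _ _ ih => simp [smul, width, ih]

@[simp] theorem width_subst (fy fz e : LE) : (subst fy fz e).width = e.width := by
  induction e with
  | nil => simp [subst, width]
  | cons k a1 a2 ey ez rest _ _ ih => simp [subst, width, ih]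

@[simp] theorem width_sumL {n : ℕ} (f : Fin n → LE) : (sumL f).width = ∑ i, (f i).width := by
  induction n with
  | zero => simp [sumL, width]
  | succ n ih => simp [sumL, ih, Fin.sum_univ_succ]

@[simp] theorem abss_append (e f : LE) : (e.append f).abss = e.abss + f.abss := by
  induction e with
  | nil => simp [append, abss]
  | cons k a1 a2 ey ez rest _ _ ih => simp [append, abss, ih, add_assoc]

@[simp] theorem abss_smul (c : ℝ) (e : LE) : (e.smul c).abss = |c| * e.abss := by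
  induction e with
  | nil => simp [smul, abss]
  | cons k a1 a2 ey ez rest _ _ ih => simp [smul, abss, ih, mul_add]

@[simp] theorem abss_subst (fy fz e : LE) : (subst fy fz e).abss = e.abss := by
  induction e with
  | nil => simp [subst, abss]
  | cons k a1 a2 ey ez rest _ _ ih => simp [subst, abss, ih]

@[simp] theorem abss_sumL {n : ℕ} (f : Fin n → LE) : (sumL f).abss = ∑ i, (f i).abss := by
  induction n with
  | zero => simp [sumL, abss]
  | succ n ih => simp [sumL, ih, Fin.sum_univ_succ]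

theorem abss_nonneg (e : LE) : 0 ≤ e.abss := by
  induction e with
  | nil => simp [abss]
  | cons k a1 a2 ey ez rest _ _ ih => simp only [abss]; positivity

@[simp] theorem sum_append (e f : LE) : (e.append f).sum = e.sum + f.sum := by
  induction e with
  | nil => simp [append, sum]
  | cons k a1 a2 ey ez rest _ _ ih => simp [append, sum, ih, add_assoc]

@[simp] theorem sum_smul (c : ℝ) (e : LE) : (e.smul c).sum = c * e.sum := by
  induction e with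
  | nil => simp [smul, sum]
  | cons k a1 a2 ey ez rest _ _ ih => simp [smul, sum, ih, mul_add]

@[simp] theorem sum_subst (fy fz e : LE) : (subst fy fz e).sum = e.sum := by
  induction e with
  | nil => simp [subst, sum]
  | cons k a1 a2 ey ez rest _ _ ih => simp [subst, sum, ih]

@[simp] theorem sum_sumL {n : ℕ} (f : Fin n → LE) : (sumL f).sum = ∑ i, (f i).sum := by
  induction n with
  | zero => simp [sumL, sum]
  | succ n ih => simp [sumL, ih, Fin.sum_univ_succ]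

theorem Small.mono {b b' : ℕ} {β β' γ γ' : ℝ} {e : LE} (h : e.Small b β γ) (hb : b ≤ b')
    (hβ : β ≤ β') (hγ : γ ≤ γ') : e.Small b' β' γ' :=
  ⟨h.1.trans hb, h.2.1.trans hβ, h.2.2.trans hγ⟩

theorem Nodes.mono {b b' : ℕ} {β β' γ γ' ρ : ℝ} (hb : b ≤ b') (hβ : β ≤ β') (hγ : γ ≤ γ') :
    ∀ {e : LE}, e.Nodes b β γ ρ → e.Nodes b' β' γ' ρ
  | nil, _ => trivial
  | cons _ _ _ _ _ _, h => ⟨h.1, h.2.1, h.2.2.1.mono hb hβ hγ, h.2.2.2.1.mono hb hβ hγ,
      Nodes.mono hb hβ hγ h.2.2.2.2.1, Nodes.mono hb hβ hγ h.2.2.2.2.2.1,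
      Nodes.mono hb hβ hγ h.2.2.2.2.2.2⟩

theorem Small.append {b b' : ℕ} {β β' γ γ' : ℝ} {e f : LE} (h : e.Small b β γ)
    (h' : f.Small b' β' γ') : (e.append f).Small (b + b') (β + β') (γ + γ') := by
  refine ⟨by simpa using Nat.add_le_add h.1 h'.1, by simpa using add_le_add h.2.1 h'.2.1, ?_⟩
  rw [sum_append]
  exact (abs_add_le _ _).trans (add_le_add h.2.2 h'.2.2)

theorem Nodes.append {b : ℕ} {β γ ρ : ℝ} {f : LE} (hf : f.Nodes b β γ ρ) :
    ∀ {e : LE}, e.Nodes b β γ ρ → (e.append f).Nodes b β γ ρ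
  | nil, _ => hf
  | cons _ _ _ _ _ _, h => ⟨h.1, h.2.1, h.2.2.1, h.2.2.2.1, h.2.2.2.2.1, h.2.2.2.2.2.1,
      Nodes.append hf h.2.2.2.2.2.2⟩

theorem Nodes.smul {b : ℕ} {β γ ρ : ℝ} (c : ℝ) :
    ∀ {e : LE}, e.Nodes b β γ ρ → (e.smul c).Nodes b β γ ρ
  | nil, _ => trivial
  | cons _ _ _ _ _ _, h => ⟨h.1, h.2.1, h.2.2.1, h.2.2.2.1, h.2.2.2.2.1, h.2.2.2.2.2.1,
      Nodes.smul c h.2.2.2.2.2.2⟩

theorem Nodes.sumL {b : ℕ} {β γ ρ : ℝ} {n : ℕ} {f : Fin n → LE} (h : ∀ i, (f i).Nodes b β γ ρ) :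
    (sumL f).Nodes b β γ ρ := by
  induction n with
  | zero => trivial
  | succ n ih => exact Nodes.append (ih fun i => h i.succ) (h 0)

/-- substitution adds the bounds -/
theorem Nodes.subst {b b' : ℕ} {β β' γ γ' ρ : ℝ} {fy fz : LE} (hy : fy.Small b' β' γ')
    (hz : fz.Small b' β' γ') (ny : fy.Nodes (b' + b) (β' + β) (γ' + γ) ρ)
    (nz : fz.Nodes (b' + b) (β' + β) (γ' + γ) ρ) :
    ∀ {e : LE}, e.Nodes b β γ ρ → (subst fy fz e).Nodes (b' + b) (β' + β) (γ' + γ) ρ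
  | nil, _ => trivial
  | cons _ _ _ ey ez _, h => by
    refine ⟨h.1, h.2.1, hy.append ?_, hz.append ?_,
      Nodes.append (Nodes.subst hy hz ny nz h.2.2.2.2.1) ny,
      Nodes.append (Nodes.subst hy hz ny nz h.2.2.2.2.2.1) nz,
      Nodes.subst hy hz ny nz h.2.2.2.2.2.2⟩
    · simpa [Small] using h.2.2.1
    · simpa [Small] using h.2.2.2.1

end LE

/-- value of a pair of local expressions -/
def valP (U : E d → ℝ) (e : LE × LE) (ζ : E d × E d) : E d × E d := (e.1.val U ζ, e.2.val U ζ)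

/-- Picard collocation iterates -/
def pic {m : ℕ} (q : Fin (m + 1) → Fin (m + 1) → ℝ) (Wt : Fin (m + 1) → LE × LE) :
    ℕ → Fin (m + 1) → LE × LE
  | 0, _ => (.nil, .nil)
  | i + 1, k =>
      (LE.sumL fun l => (LE.subst (pic q Wt i l).1 (pic q Wt i l).2 (Wt l).1).smul (q k l),
       LE.sumL fun l => (LE.subst (pic q Wt i l).1 (pic q Wt i l).2 (Wt l).2).smul (q k l))

/-- Lipschitz and magnitude bounds for local expressions. -/
def StmtLE : Prop :=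
  ∀ (d : ℕ) (δ : ℝ) (U : E d → ℝ), Pot δ U → δ ≤ 1 / 2 → ∀ (b : ℕ) (β γ ρ : ℝ) (e : LE),
    0 ≤ β → 0 ≤ γ → 0 ≤ ρ → ρ ≤ 1 / 4 → 3 * ρ * (1 + γ + 5 * β * δ) ≤ 1 → e.Nodes b β γ ρ →
    (∀ ζ ζ', ‖e.val U ζ - e.val U ζ'‖ ≤ 6 * ρ * δ * e.abss * ‖ζ - ζ'‖) ∧
    ∀ ζ, ‖e.val U ζ - e.sum • GF U 1 0‖ ≤ 5 * δ * e.abss * (‖ζ‖ + √d + ‖GF U 1 0‖)

/-- Quadrature along a flow and convergence of the Picard collocation. -/
def StmtPic : Prop :=
  ∀ (m : ℕ) (w : Fin (m + 1) → ℝ) (q : Fin (m + 1) → Fin (m + 1) → ℝ) (c : ℝ), 0 < m →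
    Quad m w q c → ∃ C : ℝ, 1 ≤ C ∧ ∀ (d : ℕ) (δ : ℝ) (U : E d → ℝ), Pot δ U → δ ≤ 1 / 2 →
    ∀ (a α : ℝ × ℝ) (lam : ℝ) (φ : ℝ → E d × E d → E d × E d), a ∈ OO → a + α ∈ OO →
    IsFlow U a α lam φ →
    (∀ f : Ph d → E d, ContDiffOn ℝ ∞ f {p | p.1 ∈ OO} → Measurable f → ∀ e : ℝ,
      (∀ a' ∈ OO, ∫⁻ ζ, ‖(Lie (WF U α lam))^[m + 1] f (a', ζ)‖ₑ ∂(nu U a') ≤ ENNReal.ofReal e) →
      ∫⁻ ζ, ‖∑ k, w k • f (a + ((k : ℕ) / (m : ℝ)) • α, φ ((k : ℕ) / (m : ℝ)) ζ) -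
        Lie (WF U α lam) f (a, ζ)‖ₑ ∂(nu U a) ≤ ENNReal.ofReal (c * e) ∧
      ∀ k : Fin (m + 1),
        ∫⁻ ζ, ‖∑ l, q k l • f (a + ((l : ℕ) / (m : ℝ)) • α, φ ((l : ℕ) / (m : ℝ)) ζ) -
          ∫ τ in (0 : ℝ)..((k : ℕ) / (m : ℝ)), f (a + τ • α, φ τ ζ)‖ₑ ∂(nu U a) ≤
          ENNReal.ofReal (c * e)) ∧
    ∀ (Wt : Fin (m + 1) → LE × LE) (ε e₁ Λ r : ℝ), 0 < ε → ε ≤ 1 → |α.1| ≤ ε → |α.2| ≤ ε →
      |lam| * δ ≤ ε → 0 ≤ e₁ → 0 ≤ Λ →
      (∀ l : Fin (m + 1), ∫⁻ ζ, ‖valP U (Wt l) ζ - (WF U α lam (a + ((l : ℕ) / (m : ℝ)) • α, ζ)).2‖ₑ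
        ∂(nu U (a + ((l : ℕ) / (m : ℝ)) • α)) ≤ ENNReal.ofReal e₁) →
      (∀ l ζ ζ', ‖valP U (Wt l) ζ - valP U (Wt l) ζ'‖ ≤ Λ * ‖ζ - ζ'‖) →
      (m + 1) * c * Λ ≤ r → r ≤ 1 / 2 → ∀ i : ℕ,
      ∫⁻ ζ, ∑ k, ‖ζ + valP U (pic q Wt i k) ζ - φ ((k : ℕ) / (m : ℝ)) ζ‖ₑ ∂(nu U a) ≤
        ENNReal.ofReal (C * ((r ^ i * ε + ε ^ (m + 2)) * (√d + ‖GF U 1 0‖) + e₁))

/-- The core lemma at accuracy `ρ^n`, with constant `C` and width `b`. -/
structure CoreAt (n : ℕ) (C : ℝ) (b : ℕ) : Prop where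
  one : 1 ≤ C
  out : ∀ ρ κ μ δ : ℝ, 0 < ρ → 8 * C * ρ ≤ 1 → 0 < δ → δ ≤ 1 / 2 → 0 < μ → |κ| * δ ≤ μ →
    δ * ρ ^ 2 ≤ μ → μ ≤ ρ ^ 2 → ∃ ey R : LE,
    ey.Small b (C * μ / (ρ * δ)) (C * ρ) ∧ ey.Nodes b (C * μ / (ρ * δ)) (C * ρ) ρ ∧
    R.width ≤ b ∧ R.abss * δ ≤ C * (κ * δ) ^ 2 / μ ∧ R.Nodes b (C * μ / (ρ * δ)) (C * ρ) ρ ∧
    ∀ (d : ℕ) (U : E d → ℝ), Pot δ U → ∃ φ : E d × E d → E d × E d, Measurable φ ∧
      ((gam d).prod (gam d)).map φ = nu U (ρ, 0) ∧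
      ∫⁻ ζ, ‖ζ.1 + ey.val U ζ - (φ ζ).1‖ₑ ∂((gam d).prod (gam d)) ≤
        ENNReal.ofReal (C * ρ ^ n * (√d + ‖GF U 1 0‖)) ∧
      ∫⁻ ζ, ‖ζ.2 + κ • Gp U ((ρ, 0), (ζ.1 + ey.val U ζ, ζ.2)) + R.val U ζ -
          ((φ ζ).2 + κ • GF U 1 0)‖ₑ ∂((gam d).prod (gam d)) ≤
        ENNReal.ofReal (C * ρ ^ n * (√d + ‖GF U 1 0‖))

def StmtCore : Prop := ∀ n : ℕ, ∃ (C : ℝ) (b : ℕ), CoreAt n C b

end Crest.Agent.R285
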