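import Crest.Agent.R285.DefsL

/-!
# Row 285 (S0430): interface, oracle programs, expressions, the recursive realisation
-/

set_option autoImplicit false

open MeasureTheory ProbabilityTheory Set
open scoped ENNReal NNReal ContDiff RealInnerProductSpace
open Crest.OracleSampling

noncomputable section

namespace Crest.Agent.R285

/-! ## Oracle programs with an input -/

/-- a randomized program with input in `X`, output in `Y`, making `q` oracle queries -/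
structure OProg (d q : ℕ) (X Y : Type) [MeasurableSpace X] [MeasurableSpace Y] where
  Ω : Type
  mΩ : MeasurableSpace Ω
  μ : Measure Ω
  prob : IsProbabilityMeasure μ
  query : (i : ℕ) → X × Ω → (Fin i → Answer d) → E d
  output : X × Ω → (Fin q → Answer d) → Y
  query_meas : ∀ i, Measurable (Function.uncurry (query i))
  output_meas : Measurable (Function.uncurry output)

variable {d : ℕ}

section
variable {q : ℕ} {X Y : Type} [MeasurableSpace X] [MeasurableSpace Y]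

/-- the first `i` answers -/
def OProg.transcript (P : OProg d q X Y) (V : E d → ℝ) (o : X × P.Ω) :
    (i : ℕ) → (Fin i → Answer d)
  | 0 => Fin.elim0
  | i + 1 => Fin.snoc (P.transcript V o i) (oracle V (P.query i o (P.transcript V o i)))

/-- the law of the output on input `x` -/
def OProg.law (P : OProg d q X Y) (V : E d → ℝ) (x : X) : Measure Y :=
  @Measure.map _ _ P.mΩ _ (fun o => P.output (x, o) (P.transcript V (x, o) q)) P.μ

/-- the family of kernels `K` is computed by a program with `q` queries -/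
def Prog (q : ℕ) (K : (E d → ℝ) → X → Measure Y) : Prop :=
  ∃ P : OProg d q X Y, ∀ V, Admissible d V → ∀ x, K V x = P.law V x

end

/-- Closure properties of programs. -/
structure StmtProg : Prop where
  meas : ∀ (d q : ℕ) (X Y : Type) [MeasurableSpace X] [MeasurableSpace Y]
    (K : (E d → ℝ) → X → Measure Y), Prog q K → ∀ V, Admissible d V →
    Measurable (K V) ∧ ∀ x, IsProbabilityMeasure (K V x)
  mono : ∀ (d q q' : ℕ) (X Y : Type) [MeasurableSpace X] [MeasurableSpace Y]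
    (K : (E d → ℝ) → X → Measure Y), q ≤ q' → Prog q K → Prog q' K
  seed : ∀ (d : ℕ) (X Y Ω : Type) [MeasurableSpace X] [MeasurableSpace Y] [MeasurableSpace Ω]
    (μ : Measure Ω) [IsProbabilityMeasure μ] (f : X × Ω → Y), Measurable f →
    Prog (d := d) 0 fun _ x => μ.map fun o => f (x, o)
  query : ∀ (d : ℕ) (X : Type) [MeasurableSpace X] (f : X → E d), Measurable f →
    Prog 1 fun (V : E d → ℝ) x => Measure.dirac (gradient V (f x))
  bind : ∀ (d q₁ q₂ : ℕ) (X Y Z : Type) [MeasurableSpace X] [MeasurableSpace Y] [MeasurableSpace Z]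
    (K₁ : (E d → ℝ) → X → Measure Y) (K₂ : (E d → ℝ) → X × Y → Measure Z),
    Prog q₁ K₁ → Prog q₂ K₂ → Prog (q₁ + q₂) fun V x => (K₁ V x).bind fun y => K₂ V (x, y)
  comap : ∀ (d q : ℕ) (X X' Y : Type) [MeasurableSpace X] [MeasurableSpace X'] [MeasurableSpace Y]
    (K : (E d → ℝ) → X → Measure Y) (g : X' → X), Measurable g → Prog q K →
    Prog q fun V x' => K V (g x')
  map : ∀ (d q : ℕ) (X Y Y' : Type) [MeasurableSpace X] [MeasurableSpace Y] [MeasurableSpace Y']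
    (K : (E d → ℝ) → X → Measure Y) (g : X × Y → Y'), Measurable g → Prog q K →
    Prog q fun V x => (K V x).map fun y => g (x, y)
  final : ∀ (d q : ℕ) (K : (E d → ℝ) → Unit → Measure (E d)), Prog q K →
    ∃ A : QueryAlg d q, ∀ V, Admissible d V → outputLaw A V = K V ()

/-- some program with at most `Q` queries samples `ν V x` up to the error `err V x` -/
def Realizes {X : Type} [MeasurableSpace X] (Q : ℝ) (ν : (E d → ℝ) → X → Measure (E d))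
    (err : (E d → ℝ) → X → ℝ) : Prop :=
  ∃ (q : ℕ) (K : (E d → ℝ) → X → Measure (E d)), (q : ℝ) ≤ Q ∧ Prog q K ∧
    ∀ V, Admissible d V → ∀ x, WLe (K V x) (ν V x) (err V x)

/-- Calculus of approximate realisations. -/
structure StmtReal : Prop where
  pure : ∀ (d : ℕ) (X : Type) [MeasurableSpace X] (f : X → E d) (v : ℝ), Measurable f →
    Realizes 0 (fun _ x => gauss (f x) v) fun _ _ => 0
  add : ∀ (d : ℕ) (X : Type) [MeasurableSpace X] (Q₁ Q₂ v₁ v₂ : ℝ)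
    (m₁ m₂ : (E d → ℝ) → X → E d) (e₁ e₂ : (E d → ℝ) → X → ℝ), 0 ≤ v₁ → 0 ≤ v₂ →
    (∀ V, Admissible d V → ∀ x, 0 ≤ e₁ V x) → (∀ V, Admissible d V → ∀ x, 0 ≤ e₂ V x) →
    Realizes Q₁ (fun V x => gauss (m₁ V x) v₁) e₁ → Realizes Q₂ (fun V x => gauss (m₂ V x) v₂) e₂ →
    Realizes (Q₁ + Q₂) (fun V x => gauss (m₁ V x + m₂ V x) (v₁ + v₂)) fun V x => e₁ V x + e₂ V x
  query : ∀ (d : ℕ) (X : Type) [MeasurableSpace X] (ap : X → E d) (κ v : ℝ)
    (m : (E d → ℝ) → X → E d), Measurable ap →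
    Realizes 1 (fun V x => gauss (κ • m V x) v) fun V x => |κ| * ‖m V x - gradient V (ap x)‖
  mono : ∀ (d : ℕ) (X : Type) [MeasurableSpace X] (Q Q' : ℝ)
    (ν ν' : (E d → ℝ) → X → Measure (E d)) (e e' : (E d → ℝ) → X → ℝ), Q ≤ Q' →
    (∀ V, Admissible d V → ∀ x, ν V x = ν' V x) → (∀ V, Admissible d V → ∀ x, e V x ≤ e' V x) →
    Realizes Q ν e → Realizes Q' ν' e'
  trans : ∀ (d : ℕ) (X : Type) [MeasurableSpace X] (Q : ℝ)
    (ν ν' : (E d → ℝ) → X → Measure (E d)) (e e' : (E d → ℝ) → X → ℝ),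
    (∀ V, Admissible d V → ∀ x, 0 ≤ e V x) → (∀ V, Admissible d V → ∀ x, 0 ≤ e' V x) →
    (∀ V, Admissible d V → ∀ x, WLe (ν V x) (ν' V x) (e' V x)) →
    Realizes Q ν e → Realizes Q ν' fun V x => e V x + e' V x
  /-- first realise a point `P ≈ m + √v₁ y`, draw a fresh Gaussian `z`, then continue -/
  bind : ∀ (d : ℕ) (X : Type) [MeasurableSpace X] (Q₁ Q₂ v₁ v₂ L L' b₁ b₂ : ℝ)
    (m : (E d → ℝ) → X → E d) (m' : (E d → ℝ) → X × E d × E d → E d)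
    (e₁ A : (E d → ℝ) → X → ℝ) (e₂ : (E d → ℝ) → X × E d × E d → ℝ),
    0 ≤ L → 0 ≤ L' → 0 ≤ b₁ → 0 ≤ b₂ →
    (∀ V, Admissible d V → ∀ x, 0 ≤ e₁ V x) → (∀ V, Admissible d V → ∀ x, 0 ≤ A V x) →
    (∀ V, Admissible d V → ∀ x P z P' z',
      ‖m' V (x, P, z) - m' V (x, P', z')‖ ≤ L * ‖P - P'‖ + L' * ‖z - z'‖) →
    (∀ V, Admissible d V → ∀ x P z, e₂ V (x, P, z) ≤ A V x + b₁ * ‖P - m V x‖ + b₂ * ‖z‖) →
    Realizes Q₁ (fun V x => gauss (m V x) v₁) e₁ → Realizes Q₂ (fun V x => gauss (m' V x) v₂) e₂ →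
    Realizes (Q₁ + Q₂)
      (fun V x => (((gam d).prod (gam d)).prod (gam d)).map
        fun o => m' V (x, m V x + √v₁ • o.1.1, o.1.2) + √v₂ • o.2)
      fun V x => (L + b₁) * e₁ V x + A V x + (b₁ * √v₁ + b₂) * √d
  couple : ∀ (d : ℕ) (Ω : Type) [MeasurableSpace Ω] (P : Measure Ω) (f g : Ω → E d) (η : ℝ),
    Measurable f → Measurable g → ∫⁻ o, ‖f o - g o‖ₑ ∂P ≤ ENNReal.ofReal η →
    WLe (P.map f) (P.map g) η
  gsum : ∀ (d : ℕ) (Ω : Type) [MeasurableSpace Ω] (P : Measure Ω) [IsProbabilityMeasure P]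
    (h : Ω → E d) (c : E d) (σ v : ℝ), Measurable h → P.map h = gam d → 0 ≤ v →
    (P.prod (gam d)).map (fun o => c + σ • h o.1 + √v • o.2) = gauss c (σ ^ 2 + v)

/-! ## Expressions -/

/-- ideal points: a known point plus multiples of smoothed gradients at ideal points; `ap` is a
known approximation of the centre -/
inductive Ex (d : ℕ) (X : Type) : Type
  | pt (f : X → E d) : Ex d X
  | add (rest : Ex d X) (κ r : ℝ) (c : Ex d X) (ap : X → E d) : Ex d X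

namespace Ex

variable {X X' : Type}

def val (V : E d → ℝ) : Ex d X → X → E d
  | pt f, x => f x
  | add rest κ r c _, x => rest.val V x + κ • GF V (r ^ 2) (c.val V x)

def Meas [MeasurableSpace X] : Ex d X → Prop
  | pt f => Measurable f
  | add rest _ _ c ap => rest.Meas ∧ c.Meas ∧ Measurable ap

def width : Ex d X → ℕ
  | pt _ => 0
  | add rest _ _ _ _ => rest.width + 1

def noise : Ex d X → ℝ
  | pt _ => 0
  | add rest κ r _ _ => rest.noise + 2 * |κ| * |r|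

/-- the largest of `‖c‖ + ‖c - ap‖ / r` over all terms at all depths -/
def size (V : E d → ℝ) : Ex d X → X → ℝ
  | pt _, _ => 0
  | add rest _ r c ap, x =>
      max (rest.size V x) (max (c.size V x) (‖c.val V x‖ + ‖c.val V x - ap x‖ / r))

/-- the size of one term -/
def tsize (V : E d → ℝ) (r : ℝ) (c : Ex d X) (ap : X → E d) (x : X) : ℝ :=
  max (c.size V x) (‖c.val V x‖ + ‖c.val V x - ap x‖ / r)

/-- every top-level term satisfies `P` -/
def Terms (P : ℝ → Ex d X → Prop) : Ex d X → Prop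
  | pt _ => True
  | add rest _ r c _ => P r c ∧ rest.Terms P

/-- width and noise bounds down to depth `k` -/
def Good (th : ℕ → ℝ) (smax : ℝ) : ℕ → ℕ → ℝ → ℝ → Ex d X → Prop
  | 0, W, A, r, e => e.width ≤ W ∧ e.noise ≤ A * th 0 * r ∧
      e.Terms fun r' _ => 0 < r' ∧ r' ≤ smax
  | k + 1, W, A, r, e => e.width ≤ W ∧ e.noise ≤ A * th (k + 1) * r ∧
      e.Terms fun r' c => 0 < r' ∧ r' ≤ smax ∧ Good th smax k (2 * W) A r' c

def comap (π : X' → X) : Ex d X → Ex d X'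
  | pt f => pt (f ∘ π)
  | add rest κ r c ap => add (rest.comap π) κ r (c.comap π) (ap ∘ π)

/-- `lam • e ∘ π + h` -/
def aff (lam : ℝ) (h : X' → E d) (π : X' → X) : Ex d X → Ex d X'
  | pt f => pt fun x => lam • f (π x) + h x
  | add rest κ r c ap => add (rest.aff lam h π) (lam * κ) r (c.comap π) (ap ∘ π)

/-- `(1 - a₁/ρ) c + (a₁/ρ) P + s a₂ z` in the context `(x, P, z)` -/
def ctr (c : Ex d X) (s ρ a1 a2 : ℝ) : Ex d (X × E d × E d) :=
  c.aff (1 - a1 / ρ) (fun x => (a1 / ρ) • x.2.1 + (s * a2) • x.2.2) Prod.fst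

/-- translation of a local expression: `base + lam • e`, for the potential `V (c + s ·)` at the
point `y = (P - c) / (s ρ)`, `z` -/
def tr (c : Ex d X) (s ρ : ℝ) : LE → ℝ → Ex d (X × E d × E d) → Ex d (X × E d × E d)
  | .nil, _, base => base
  | .cons k a1 a2 ey ez rest, lam, base =>
      add (tr c s ρ rest lam base) (lam * k * s) (s * √(1 - a1 ^ 2 - a2 ^ 2))
        (tr c s ρ ey (s * a1) (tr c s ρ ez (s * a2) (ctr c s ρ a1 a2))) fun x => x.2.1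

/-- the centre of a translated node -/
def node (c : Ex d X) (s ρ a1 a2 : ℝ) (ey ez : LE) : Ex d (X × E d × E d) :=
  tr c s ρ ey (s * a1) (tr c s ρ ez (s * a2) (ctr c s ρ a1 a2))

end Ex

/-- bound for the sizes created by a translation -/
def Bd {X : Type} (V : E d → ℝ) (c : Ex d X) (s : ℝ) (x : X × E d × E d) : ℝ :=
  (1 + 8 * s) * max (c.size V x.1) ‖c.val V x.1‖ +
    16 * (‖x.2.1 - c.val V x.1‖ / s + ‖x.2.2‖ + √d)

/-- Translation: measurability, values, `Good`. -/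
structure StmtTr : Prop where
  meas : ∀ (d : ℕ) (X : Type) [MeasurableSpace X] (c : Ex d X) (s ρ : ℝ), c.Meas →
    (∀ (e : LE) (lam : ℝ) (base : Ex d (X × E d × E d)), base.Meas → (c.tr s ρ e lam base).Meas) ∧
    ∀ a1 a2 ey ez, (c.node s ρ a1 a2 ey ez).Meas
  val : ∀ (d : ℕ) (X : Type) (c : Ex d X) (s ρ : ℝ) (b : ℕ) (β γ : ℝ) (V : E d → ℝ),
    Admissible d V → 0 < s → 0 < ρ → ρ ≤ 1 / 4 → ∀ (x : X) (P z : E d),
    (∀ (e : LE) (lam : ℝ) (base : Ex d (X × E d × E d)), e.Nodes b β γ ρ →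
      (c.tr s ρ e lam base).val V (x, P, z) = base.val V (x, P, z) +
        lam • e.val (fun y => V (c.val V x + s • y)) ((s * ρ)⁻¹ • (P - c.val V x), z))
  good_mono : ∀ (d : ℕ) (X : Type) (th : ℕ → ℝ) (smax : ℝ) (k W W' : ℕ) (A A' r : ℝ) (e : Ex d X),
    (∀ j, 0 ≤ th j) → 0 ≤ r → W ≤ W' → A ≤ A' → e.Good th smax k W A r → e.Good th smax k W' A' r
  good : ∀ (d : ℕ) (X : Type) (th : ℕ → ℝ) (smax : ℝ) (k W b : ℕ) (A s ρ β γ : ℝ) (c : Ex d X),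
    (∀ j, 0 ≤ th j) → (∀ j, 4 * th (j + 1) ≤ th j) → 2 * b ≤ W → 1 ≤ A → 0 < s → s ≤ smax →
    0 < ρ → ρ ≤ 1 / 8 → 3 * ρ * β * (2 * s ^ 2) ≤ th k → c.Good th smax k W A s →
    (∀ κ a1 a2 ey ez rest, (LE.cons κ a1 a2 ey ez rest).Nodes b β γ ρ →
      (c.node s ρ a1 a2 ey ez).Good th smax k (2 * W) (3 * A) (s * √(1 - a1 ^ 2 - a2 ^ 2))) ∧
    ∀ (e : LE) (lam r : ℝ) (f : X × E d × E d → E d), e.Small b β γ → e.Nodes b β γ ρ →
      |lam| ≤ s * ρ → s / 2 ≤ r → (c.tr s ρ e lam (.pt f)).Good th smax k W A r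

/-- Translation: sizes. -/
def StmtSize : Prop :=
  ∀ (d : ℕ) (X : Type) (c : Ex d X) (s ρ : ℝ) (b : ℕ) (β γ : ℝ) (V : E d → ℝ),
    Admissible d V → 0 < s → s ≤ 1 / 2 → 0 < ρ → ρ ≤ 1 / 8 → 0 ≤ β → 0 ≤ γ →
    γ + 5 * β * (2 * s ^ 2) ≤ 1 → ∀ x : X × E d × E d,
    (∀ κ a1 a2 ey ez rest, (LE.cons κ a1 a2 ey ez rest).Nodes b β γ ρ →
      Ex.tsize V (s * √(1 - a1 ^ 2 - a2 ^ 2)) (c.node s ρ a1 a2 ey ez) (fun x => x.2.1) x ≤
        Bd V c s x) ∧
    (∀ (e : LE) (lam : ℝ) (f : X × E d × E d → E d), e.Nodes b β γ ρ →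
      (c.tr s ρ e lam (.pt f)).size V x ≤ Bd V c s x) ∧
    ∀ e : LE, e.Small b β γ → e.Nodes b β γ ρ →
      Ex.tsize V (s * √(1 - ρ ^ 2)) (c.tr s ρ e (s * ρ) (.pt fun x => x.2.1)) (fun x => x.2.1) x ≤
        Bd V c s x

/-- good expressions of depth `k` plus Gaussian noise can be realised -/
def CR (d : ℕ) (th : ℕ → ℝ) (smax ρ : ℝ) (k W : ℕ) (A Q η : ℝ) : Prop :=
  ∀ (X : Type) [MeasurableSpace X] (e : Ex d X) (r v : ℝ), e.Meas → 0 < r → (ρ * r / 2) ^ 2 ≤ v →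
    e.Good th smax k W A r →
    Realizes Q (fun V x => gauss (e.val V x) v) fun V x => η * r * (e.size V x + √d)

/-- node count of the two-parameter recursion -/
def Mc (b N L : ℕ) : ℝ := ((N : ℝ) + 1) * (((b : ℝ) + 1) * ((N : ℝ) + 1)) ^ L

/-- Depth zero: crude gradients. -/
def StmtBase : Prop :=
  ∀ (d : ℕ) (th : ℕ → ℝ) (smax ρ : ℝ) (W : ℕ) (A : ℝ), smax ≤ 1 / 2 →
    CR d th smax ρ 0 W A W (2 * A * th 0)

/-- One more depth. -/
def StmtStep : Prop :=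
  ∀ (n : ℕ) (C : ℝ) (b : ℕ), CoreAt n C b → ∀ (d : ℕ) (th : ℕ → ℝ) (smax ρ θ h ξ η Q A : ℝ)
    (k W L N : ℕ), (∀ j, 0 ≤ th j) → (∀ j, 4 * th (j + 1) ≤ th j) → 0 < ρ → 8 * C * ρ ≤ 1 →
    0 < smax → smax ≤ 1 / 2 → 2 * smax ^ 2 ≤ th k → th k ≤ 1 → b ≤ W → 1 ≤ A → 0 ≤ η → 0 ≤ Q →
    0 < θ → C * θ ≤ h * (th k * ρ ^ 2) → h ≤ 1 → 0 ≤ ξ → θ * h ^ L ≤ ξ →
    θ ^ 2 * (1 - ρ ^ 2) ^ N ≤ ξ ^ 2 → 2 * A * th (k + 1) * √((W + 1) * Mc b N L) ≤ θ * ρ →
    (L + 1) * (N + 1) * (8 * smax + 16 * η) ≤ 1 →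
    CR d th smax ρ k (2 ^ (L + 1) * W) (3 ^ L * A) Q η →
    CR d th smax ρ (k + 1) W A (W * Mc b N L * (Q + 1))
      (3 * W * Mc b N L * (1 + 64 * ((L + 1) * (N + 1))) * (2 * ξ + 8 * C * θ * η + 2 * C * ρ ^ n))

/-- The refinement step from the realisation of good expressions. -/
def StmtRefOf : Prop :=
  ∀ (n : ℕ) (C : ℝ) (b : ℕ), CoreAt n C b → ∀ (d : ℕ) (th : ℕ → ℝ) (smax ρ η Q : ℝ) (k : ℕ),
    (∀ j, 0 ≤ th j) → (∀ j, 4 * th (j + 1) ≤ th j) → 0 < ρ → 8 * C * ρ ≤ 1 →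
    smax ≤ 1 / 2 → 2 * smax ^ 2 ≤ th k → th k ≤ 1 → 0 ≤ η → CR d th smax ρ k (2 * b) 1 Q η →
    ∀ s : ℝ, 0 < s → s ≤ smax →
      Realizes Q (fun V (c : E d) => post V (s ^ 2 * (1 - ρ ^ 2 / 2)) (s ^ 2 * (ρ ^ 2 / 2)) c)
        fun _ c => (64 * η + 2 * C * ρ ^ n) * s * (‖c‖ + √d)

/-- The refinement step with `D^ε` queries and error `D^{-B}`. -/
def StmtRef : Prop :=
  ∀ ε : ℝ, 0 < ε → ∀ B : ℕ, ∃ D₀ : ℝ, ∀ D : ℝ, D₀ ≤ D → ∃ ρ smax : ℝ,
    D ^ (-ε) ≤ ρ ∧ ρ ≤ 1 / 8 ∧ D ^ (-ε) ≤ smax ∧ smax ≤ 1 / 2 ∧ ∀ (d : ℕ) (s : ℝ), 0 < s → s ≤ smax →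
      Realizes (D ^ ε)
        (fun V (c : E d) => post V (s ^ 2 * (1 - ρ ^ 2 / 2)) (s ^ 2 * (ρ ^ 2 / 2)) c)
        fun _ c => (D ^ B)⁻¹ * s * (‖c‖ + √d)

/-- The theorem. -/
def StmtMain : Prop :=
  ∀ ε : ℝ, 0 < ε → ∃ C : ℝ, ∀ d : ℕ, 2 ≤ d →
    ∃ (q : ℕ) (A : QueryAlg d q), (q : ℝ) ≤ C * (d : ℝ) ^ ε ∧
      ∀ V : E d → ℝ, Admissible d V → Succeeds A V

end Crest.Agent.R285
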