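import Crest.Agent.R285.Defs

/-!
# Row 285 (S0430): interface, tensor calculus on the phase space
-/

set_option autoImplicit false

open MeasureTheory ProbabilityTheory Set
open scoped ENNReal NNReal ContDiff RealInnerProductSpace
open Crest.OracleSampling

noncomputable section

namespace Crest.Agent.R285

variable {d : ℕ}

/-! ## Scalar calculus -/

/-- the parameter `a_β` (`false` = first, `true` = second) -/
def aa (β : Bool) (p : Ph d) : ℝ := cond β p.1.2 p.1.1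

/-- the Gaussian variable number `β` -/
def ww (β : Bool) (p : Ph d) : E d := cond β p.2.2 p.2.1

/-- unit vector in the `i`-th coordinate of the Gaussian variable `β` -/
def ew (β : Bool) (i : Fin d) : Ph d := cond β ((0, 0), (0, ee i)) ((0, 0), (ee i, 0))

/-- the field `D_β` -/
def VV (U : E d → ℝ) (β : Bool) : Ph d → Ph d := cond β (V2 U) (V1 U)

/-- partial derivative `∂_{β i}` -/
def pd (β : Bool) (i : Fin d) (f : Ph d → ℝ) (p : Ph d) : ℝ := fderiv ℝ f p (ew β i)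

/-- divergence operator `δ_{β i}`, the adjoint of `∂_{β i}` in `L²(ν_a)` -/
def dl (U : E d → ℝ) (β : Bool) (i : Fin d) (f : Ph d → ℝ) (p : Ph d) : ℝ :=
  (ww β p i + aa β p * Gp U p i) * f p - pd β i f p

/-- a function of `(t, x)` read at `(1 - |a|², a₁ y + a₂ z)` -/
def lift (φ : ℝ × E d → ℝ) (p : Ph d) : ℝ :=
  φ (1 - p.1.1 ^ 2 - p.1.2 ^ 2, p.1.1 • p.2.1 + p.1.2 • p.2.2)

/-- the Hessian `J = ∇²F` -/
def Jx (U : E d → ℝ) (i l : Fin d) : ℝ × E d → ℝ := nab i (nab l (Fx U))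

/-- the defect operator `q φ = -2 ∂_t φ + Δ φ - 2 ∇F · ∇φ` -/
def qq (U : E d → ℝ) (φ : ℝ × E d → ℝ) (p : ℝ × E d) : ℝ :=
  -2 * dt φ p + ∑ l, nab l (nab l φ) p - 2 * ∑ l, nab l (Fx U) p * nab l φ p

/-- smooth over the parameter disc -/
def Sm (f : Ph d → ℝ) : Prop := ContDiffOn ℝ ∞ f {p | p.1 ∈ OO}

/-- Commutation relations on the phase space. -/
structure Calc (U : E d → ℝ) : Prop where
  smG : ContDiffOn ℝ ∞ (Gp U) {p | p.1 ∈ OO}
  smGi : ∀ i, Sm fun p => Gp U p i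
  smx_nab : ∀ (φ : ℝ × E d → ℝ) (i : Fin d), Smx φ → Smx (nab i φ)
  smJ : ∀ i l, Smx (Jx U i l)
  symJ : ∀ i l, ∀ p : ℝ × E d, 0 < p.1 → Jx U i l p = Jx U l i p
  sm_lift : ∀ φ : ℝ × E d → ℝ, Smx φ → Sm (lift φ)
  sm_aa : ∀ β, Sm (aa β : Ph d → ℝ)
  sm_pd : ∀ (f : Ph d → ℝ) β i, Sm f → Sm (pd β i f)
  sm_dl : ∀ (f : Ph d → ℝ) β i, Sm f → Sm (dl U β i f)
  sm_D : ∀ (f : Ph d → ℝ) β, Sm f → Sm (Lie (VV U β) f)
  sm_B : ∀ f : Ph d → ℝ, Sm f → Sm (Lie (VB U) f)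
  G_eq : ∀ i, ∀ p : Ph d, p.1 ∈ OO → Gp U p i = lift (nab i (Fx U)) p
  pd_G : ∀ β i l, ∀ p : Ph d, p.1 ∈ OO → pd β i (fun p => Gp U p l) p = aa β p * lift (Jx U i l) p
  pd_pd : ∀ (f : Ph d → ℝ) β i γ l, Sm f → ∀ p : Ph d, p.1 ∈ OO →
    pd β i (pd γ l f) p = pd γ l (pd β i f) p
  pd_lift : ∀ (φ : ℝ × E d → ℝ) β i, Smx φ → ∀ p : Ph d, p.1 ∈ OO →
    pd β i (lift φ) p = aa β p * lift (nab i φ) p
  D_lift : ∀ (φ : ℝ × E d → ℝ) β, Smx φ → ∀ p : Ph d, p.1 ∈ OO →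
    Lie (VV U β) (lift φ) p = ∑ l, dl U β l (lift (nab l φ)) p + aa β p * lift (qq U φ) p
  D_G : ∀ β i, ∀ p : Ph d, p.1 ∈ OO →
    Lie (VV U β) (fun p => Gp U p i) p = ∑ l, dl U β l (lift (Jx U l i)) p
  D_aa : ∀ β γ, ∀ p : Ph d, Lie (VV U β) (aa γ) p = if β = γ then 1 else 0
  pd_dl : ∀ (f : Ph d → ℝ) β l γ i, Sm f → ∀ p : Ph d, p.1 ∈ OO →
    pd γ i (dl U β l f) p = dl U β l (pd γ i f) p + (if β = γ ∧ i = l then f p else 0) +
      aa β p * aa γ p * lift (Jx U i l) p * f p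
  D_dl : ∀ (f : Ph d → ℝ) β γ i, Sm f → ∀ p : Ph d, p.1 ∈ OO →
    Lie (VV U β) (dl U γ i f) p = dl U γ i (Lie (VV U β) f) p +
      aa γ p * ∑ l, dl U β l (fun p => lift (Jx U i l) p * f p) p
  mul_dl : ∀ (f g : Ph d → ℝ) β l, Sm f → Sm g → ∀ p : Ph d, p.1 ∈ OO →
    g p * dl U β l f p = dl U β l (fun p => g p * f p) p + pd β l g p * f p
  dl_dl : ∀ (f : Ph d → ℝ) β i γ l, Sm f → ∀ p : Ph d, p.1 ∈ OO →
    dl U β i (dl U γ l f) p = dl U γ l (dl U β i f) p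
  B_eq : ∀ f : Ph d → ℝ, Sm f → ∀ p : Ph d, p.1 ∈ OO →
    Lie (VB U) f p =
      ∑ i, dl U false i (fun p => ∑ l, lift (Jx U i l) p * pd true l f p) p -
      ∑ i, dl U true i (fun p => ∑ l, lift (Jx U i l) p * pd false l f p) p
  /-- the continuity equation for `D_β`: `∂_{a_β} u = ∑ δ_{β i} G_i`, `u = lift F` -/
  div_D : ∀ β, ∀ p : Ph d, p.1 ∈ OO →
    fderiv ℝ (lift (Fx U)) p (cond β ((0, 1), 0) ((1, 0), 0)) =
      ∑ i, dl U β i (fun p => Gp U p i) p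
  /-- the curvature field is divergence free -/
  div_B : ∀ p : Ph d, p.1 ∈ OO →
    ∑ i, dl U false i (fun p => (VB U p).2.1 i) p + ∑ i, dl U true i (fun p => (VB U p).2.2 i) p = 0

def StmtCalc : Prop := ∀ (d : ℕ) (δ : ℝ) (U : E d → ℝ), Pot δ U → Calc U

/-! ## Tensor families, uniformly in the instance -/

/-- an instance: dimension, potential, and three bounded flow parameters -/
structure Inst where
  d : ℕ
  δ : ℝ
  U : E d → ℝ
  pot : Pot δ U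
  hδ : δ ≤ 1 / 2
  c1 : ℝ
  c2 : ℝ
  c3 : ℝ
  h1 : |c1| ≤ 1
  h2 : |c2| ≤ 1
  h3 : |c3| ≤ 1

/-- tensor families of functions of `(t, x)` with index type `S` -/
abbrev XT (S : Type) : Type := (I : Inst) → (S → Fin I.d) → ℝ × E I.d → ℝ

/-- tensor families of functions on the phase space -/
abbrev PT (S : Type) : Type := (I : Inst) → (S → Fin I.d) → Ph I.d → ℝ

/-- contraction along the index type `C` -/
def star {A C B Y : Type} [Fintype C] [DecidableEq C] (M : (A ⊕ C → Fin d) → Y → ℝ)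
    (N : (C ⊕ B → Fin d) → Y → ℝ) (u : A ⊕ B → Fin d) (y : Y) : ℝ :=
  ∑ w : C → Fin d, M (Sum.elim (u ∘ Sum.inl) w) y * N (Sum.elim w (u ∘ Sum.inr)) y

/-- tensors all of whose flattenings are bounded -/
inductive MM : (S : Type) → XT S → Prop
  | base (k : ℕ) : MM (Fin (k + 2)) fun I u p => I.δ⁻¹ * iterN (List.ofFn u) (Fx I.U) p
  | add {S : Type} {T T' : XT S} : MM S T → MM S T' → MM S fun I u p => T I u p + T' I u p
  | smul {S : Type} {T : XT S} (c : Inst → ℝ) (C : ℝ) (hc : ∀ I, |c I| ≤ C) :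
      MM S T → MM S fun I u p => c I * T I u p
  | star {A C B : Type} [Fintype A] [Fintype C] [DecidableEq C] [Fintype B] [Nonempty A]
      [Nonempty C] [Nonempty B] {M : XT (A ⊕ C)} {N : XT (C ⊕ B)} :
      MM (A ⊕ C) M → MM (C ⊕ B) N → MM (A ⊕ B) fun I => star (M I) (N I)
  | congr {S S' : Type} (e : S ≃ S') {T : XT S} {T' : XT S'} : MM S T →
      (∀ I u p, 0 < p.1 → T' I u p = T I (u ∘ e) p) → MM S' T'

/-- tensors of Hilbert–Schmidt norm `O(√d)` -/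
inductive HH : (S : Type) → XT S → Prop
  | ofM {S : Type} [Nontrivial S] {T : XT S} : MM S T → HH S T
  | add {S : Type} {T T' : XT S} : HH S T → HH S T' → HH S fun I u p => T I u p + T' I u p
  | smul {S : Type} {T : XT S} (c : Inst → ℝ) (C : ℝ) (hc : ∀ I, |c I| ≤ C) :
      HH S T → HH S fun I u p => c I * T I u p
  | star {A C B : Type} [Fintype A] [Fintype C] [DecidableEq C] [Fintype B] [Nonempty A]
      [Nonempty C] {M : XT (A ⊕ C)} {N : XT (C ⊕ B)} :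
      MM (A ⊕ C) M → HH (C ⊕ B) N → HH (A ⊕ B) fun I => star (M I) (N I)
  | congr {S S' : Type} (e : S ≃ S') {T : XT S} {T' : XT S'} : HH S T →
      (∀ I u p, 0 < p.1 → T' I u p = T I (u ∘ e) p) → HH S' T'

/-- phase-space tensors with at most `j` divergences -/
inductive DC : ℕ → (S : Type) → PT S → Prop
  | ofH {j : ℕ} {S : Type} {T : XT S} : HH S T → DC j S fun I u => lift (T I u)
  | add {j : ℕ} {S : Type} {T T' : PT S} : DC j S T → DC j S T' →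
      DC j S fun I u p => T I u p + T' I u p
  | smul {j : ℕ} {S : Type} {T : PT S} (c : Inst → ℝ) (C : ℝ) (hc : ∀ I, |c I| ≤ C) :
      DC j S T → DC j S fun I u p => c I * T I u p
  | amul {j : ℕ} {S : Type} {T : PT S} (β : Bool) : DC j S T →
      DC j S fun I u p => aa β p * T I u p
  | delta {j : ℕ} {S : Type} {T : PT (Option S)} (β : Bool) : DC j (Option S) T →
      DC (j + 1) S fun I u p => ∑ l, dl I.U β l (T I fun o => o.elim l u) p
  | mono {j : ℕ} {S : Type} {T : PT S} : DC j S T → DC (j + 1) S T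
  | congr {j : ℕ} {S S' : Type} (e : S ≃ S') {T : PT S} {T' : PT S'} : DC j S T →
      (∀ I u p, p.1 ∈ OO → T' I u p = T I (u ∘ e) p) → DC j S' T'

/-- Closure of `MM`, `HH` under `∇` and `q`. -/
structure StmtXC : Prop where
  mm : ∀ (S : Type) (T : XT S), MM S T → Finite S ∧ (∀ I u, Smx (T I u)) ∧
    (MM (Option S) fun I u => nab (u none) (T I (u ∘ some))) ∧ MM S fun I u => qq I.U (T I u)
  hh : ∀ (S : Type) (T : XT S), HH S T → Finite S ∧ (∀ I u, Smx (T I u)) ∧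
    (HH (Option S) fun I u => nab (u none) (T I (u ∘ some))) ∧ HH S fun I u => qq I.U (T I u)

/-- Norm bounds on `MM`, `HH`. -/
structure StmtXB : Prop where
  mm : ∀ (S : Type) (T : XT S), MM S T → ∃ C : ℝ, 0 ≤ C ∧ ∀ (I : Inst) (p : ℝ × E I.d),
    p.1 ∈ Icc (1 / 2 : ℝ) 1 → FB (fun u => T I u p) C
  hh : ∀ (S : Type) (T : XT S), HH S T → ∀ [Fintype S] [DecidableEq S], ∃ C : ℝ, 0 ≤ C ∧
    ∀ (I : Inst) (p : ℝ × E I.d), p.1 ∈ Icc (1 / 2 : ℝ) 1 → ∑ u, T I u p ^ 2 ≤ C * I.d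

/-- Closure of `DC` under contraction with `MM` and under `∂`. -/
structure StmtD1 : Prop where
  sm : ∀ (j : ℕ) (S : Type) (T : PT S), DC j S T → Finite S ∧ ∀ I u, Sm (T I u)
  star : ∀ (j : ℕ) (S : Type) (T : PT S), DC j S T →
    ∀ (A C B : Type) [Fintype A] [Fintype C] [DecidableEq C] [Fintype B] [Nonempty A] [Nonempty C]
      (e : S ≃ C ⊕ B) (M : XT (A ⊕ C)), MM (A ⊕ C) M →
      DC j (A ⊕ B) fun I => star (fun u => lift (M I u)) fun v => T I (v ∘ e)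
  /-- the special case `M = J / δ` -/
  jmul : ∀ (j : ℕ) (S : Type) (T : PT (Option S)), DC j (Option S) T →
    DC j (Option S) fun I u p => ∑ l, I.δ⁻¹ * lift (Jx I.U (u none) l) p *
      T I (fun o => o.elim l (u ∘ some)) p
  pd : ∀ (j : ℕ) (S : Type) (T : PT S), DC j S T → ∀ β,
    DC j (Option S) fun I u => pd β (u none) (T I (u ∘ some))

/-- Closure of `DC` under the flow derivations; the initial tensors. -/
structure StmtD2 : Prop where
  D : ∀ (j : ℕ) (S : Type) (T : PT S), DC j S T → ∀ β,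
    DC (j + 1) S fun I u => Lie (VV I.U β) (T I u)
  B : ∀ (j : ℕ) (S : Type) (T : PT S), DC j S T →
    DC (j + 1) S fun I u p => I.δ⁻¹ * Lie (VB I.U) (T I u) p
  initD : ∀ β, DC 1 Unit fun I u p => I.δ⁻¹ * Lie (VV I.U β) (fun p => Gp I.U p (u ())) p
  initB : DC 1 Unit fun I u p => I.δ⁻¹ ^ 2 * Lie (VB I.U) (fun p => Gp I.U p (u ())) p

/-- The `L²` bound on `DC`. -/
def StmtL4 : Prop :=
  ∀ (j : ℕ) (S : Type) (T : PT S), DC j S T → ∀ [Fintype S] [DecidableEq S], ∃ C : ℝ, 0 ≤ C ∧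
    ∀ (I : Inst), ∀ a ∈ OO,
      ∫⁻ ζ, ENNReal.ofReal (∑ u, T I u (a, ζ) ^ 2) ∂(nu I.U a) ≤ ENNReal.ofReal (C * I.d)

end Crest.Agent.R285
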