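import Crest.Agent.R285.Defs

/-! # Row 285: from Wasserstein to total variation -/

set_option autoImplicit false

open MeasureTheory ProbabilityTheory Set
open scoped ENNReal NNReal RealInnerProductSpace
open Crest.OracleSampling

noncomputable section

namespace Crest.Agent.R285

namespace EndP

variable {d : ℕ}

/-- shifting a measure with density `a e^{-V}` -/
theorem shift {V : E d → ℝ} (hV : Continuous V) {a : ℝ} (ha : 0 ≤ a) (u : E d) {B : Set (E d)}
    (hB : MeasurableSet B) :
    ((volume : Measure (E d)).withDensity fun x => ENNReal.ofReal (a * Real.exp (-V x)))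
        {x | x + u ∈ B} ≤
      ((volume : Measure (E d)).withDensity fun x => ENNReal.ofReal (a * Real.exp (-V x))) B +
      ∫⁻ x, ENNReal.ofReal (V (x + u) - V x)
        ∂((volume : Measure (E d)).withDensity fun x => ENNReal.ofReal (a * Real.exp (-V x))) := by
  set ρ : E d → ℝ≥0∞ := fun x => ENNReal.ofReal (a * Real.exp (-V x)) with hρ
  have hρm : Measurable ρ := ENNReal.measurable_ofReal.comp (by fun_prop)
  have hB' : MeasurableSet {x : E d | x + u ∈ B} := (measurable_add_const u) hB
  have hΔ : Measurable fun x => ENNReal.ofReal (V (x + u) - V x) :=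
    ENNReal.measurable_ofReal.comp (by fun_prop)
  rw [withDensity_apply _ hB, withDensity_apply _ hB',
    lintegral_withDensity_eq_lintegral_mul _ hρm hΔ, ← lintegral_indicator hB,
    ← lintegral_indicator hB', ← lintegral_add_right_eq_self (B.indicator ρ) u,
    ← lintegral_add_right _ (hρm.mul hΔ)]
  refine lintegral_mono fun x => ?_
  by_cases hx : x + u ∈ B
  · rw [indicator_of_mem (show x ∈ {x : E d | x + u ∈ B} from hx), indicator_of_mem hx]
    simp only [hρ, Pi.mul_apply]
    have h0 : 0 ≤ a * Real.exp (-V x) := by positivity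
    rw [← ENNReal.ofReal_mul h0]
    refine le_trans (ENNReal.ofReal_le_ofReal ?_) ENNReal.ofReal_add_le
    have h1 := Real.add_one_le_exp (-(V (x + u) - V x))
    have h2 : Real.exp (-V (x + u)) = Real.exp (-V x) * Real.exp (-(V (x + u) - V x)) := by
      rw [← Real.exp_add]; congr 1; ring
    rw [h2]
    nlinarith [mul_le_mul_of_nonneg_left h1 h0]
  · rw [indicator_of_notMem (show x ∉ {x : E d | x + u ∈ B} from hx)]
    exact zero_le

theorem shift_gam (hG : StmtGauss) (u : E d) {B : Set (E d)} (hB : MeasurableSet B) :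
    gam d {x | x + u ∈ B} ≤ gam d B + ENNReal.ofReal (2 * ‖u‖) := by
  rcases le_total ‖u‖ 1 with hu | hu
  · have h := shift (V := fun x : E d => ‖x‖ ^ 2 / 2) (by fun_prop)
      (a := (√(2 * Real.pi))⁻¹ ^ d) (by positivity) u hB
    rw [← hG.dens d] at h
    refine h.trans (add_le_add le_rfl ?_)
    calc ∫⁻ x, ENNReal.ofReal (‖x + u‖ ^ 2 / 2 - ‖x‖ ^ 2 / 2) ∂gam d
        ≤ ∫⁻ x, (‖⟪u, x⟫‖ₑ + ENNReal.ofReal ‖u‖) ∂gam d := by
          refine lintegral_mono fun x => ?_
          rw [← ofReal_norm]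
          refine le_trans (ENNReal.ofReal_le_ofReal ?_) ENNReal.ofReal_add_le
          rw [norm_add_sq_real, real_inner_comm]
          have := le_abs_self ⟪u, x⟫
          have := norm_nonneg u
          rw [Real.norm_eq_abs]
          nlinarith
      _ = ∫⁻ x, ‖⟪u, x⟫‖ₑ ∂gam d + ENNReal.ofReal ‖u‖ := by
          rw [lintegral_add_right _ measurable_const]; simp
      _ ≤ ENNReal.ofReal ‖u‖ + ENNReal.ofReal ‖u‖ := by
          refine add_le_add ?_ le_rfl
          rw [ofReal_norm]
          exact hG.inner d u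
      _ = _ := by rw [← ENNReal.ofReal_add (norm_nonneg _) (norm_nonneg _), two_mul]
  · refine prob_le_one.trans (le_add_left ?_)
    rw [ENNReal.one_le_ofReal]
    linarith

/-- the smoothed indicator -/
def psi (s : ℝ) (B : Set (E d)) (c : E d) : ℝ≥0∞ := gam d {w | c + s • w ∈ B}

theorem meas_add (s : ℝ) : Measurable fun p : E d × E d => p.1 + s • p.2 := by fun_prop

theorem measurable_psi (s : ℝ) {B : Set (E d)} (hB : MeasurableSet B) : Measurable (psi s B) :=
  measurable_measure_prodMk_left (meas_add s hB)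

theorem conv_apply (μ : Measure (E d)) (s : ℝ) {B : Set (E d)} (hB : MeasurableSet B) :
    ((μ.prod (gam d)).map fun p => p.1 + s • p.2) B = ∫⁻ c, psi s B c ∂μ := by
  rw [Measure.map_apply (meas_add s) hB, Measure.prod_apply (meas_add s hB)]
  rfl

theorem psi_lip (hG : StmtGauss) {σ : ℝ} (hσ : 0 < σ) {B : Set (E d)} (hB : MeasurableSet B)
    (c c' : E d) : psi σ B c ≤ psi σ B c' + (2 / σ).toNNReal * edist c c' := by
  have hB' : MeasurableSet {w : E d | c' + σ • w ∈ B} :=
    (by fun_prop : Measurable fun w : E d => c' + σ • w) hB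
  have h := shift_gam hG (σ⁻¹ • (c - c')) hB'
  have e : {x : E d | x + σ⁻¹ • (c - c') ∈ {w : E d | c' + σ • w ∈ B}} = {w | c + σ • w ∈ B} := by
    ext w
    simp only [mem_ofPred_eq, smul_add, smul_smul, mul_inv_cancel₀ hσ.ne', one_smul]
    rw [show c' + (σ • w + (c - c')) = c + σ • w by abel]
  rw [e] at h
  refine h.trans (add_le_add le_rfl (le_of_eq ?_))
  rw [edist_dist, dist_eq_norm, norm_smul, Real.norm_eq_abs, abs_of_pos (inv_pos.2 hσ),
    ← mul_assoc, ENNReal.ofReal_mul (by positivity)]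
  rfl

theorem psi_semi (hG : StmtGauss) {t : ℝ} (ht : 0 ≤ t) (σ : ℝ) {B : Set (E d)}
    (hB : MeasurableSet B) (x : E d) :
    ∫⁻ w, psi σ B (x + √t • w) ∂gam d = psi (√(t + σ ^ 2)) B x := by
  have hB' : MeasurableSet {y : E d | x + y ∈ B} := (measurable_const_add x) hB
  have hm : Measurable fun p : E d × E d => √t • p.1 + σ • p.2 := by fun_prop
  have h := congrArg (fun ν : Measure (E d) => ν {y | x + y ∈ B}) (hG.rot d (√t) σ)
  rw [Measure.map_apply hm hB', Measure.map_apply (by fun_prop) hB', Measure.prod_apply (hm hB'),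
    Real.sq_sqrt ht] at h
  refine Eq.trans ?_ h
  refine lintegral_congr fun w => ?_
  simp only [psi, add_assoc]
  rfl

theorem delta_le {V : E d → ℝ} (hV : Pot 2 V) (h0 : gradient V 0 = 0) (x u : E d) :
    V (x + u) - V x ≤ 2 * ‖x‖ * ‖u‖ + ‖u‖ ^ 2 := by
  have hd : Differentiable ℝ V := hV.smooth.differentiable (by norm_num)
  have h1 : ∀ s : ℝ, HasDerivAt (fun s : ℝ => V (x + s • u)) ⟪gradient V (x + s • u), u⟫ s := by
    intro s
    have := (hd (x + s • u)).hasGradientAt.hasFDerivAt.comp_hasDerivAt s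
      (((hasDerivAt_id s).smul_const u).const_add x)
    rw [one_smul] at this
    exact this
  have h2 : ∀ s : ℝ, HasDerivAt (fun s : ℝ => V (x + s • u) - (2 * ‖x‖ * ‖u‖ * s + ‖u‖ ^ 2 * s ^ 2))
      (⟪gradient V (x + s • u), u⟫ - (2 * ‖x‖ * ‖u‖ + ‖u‖ ^ 2 * (2 * s))) s := by
    intro s
    refine (h1 s).sub (HasDerivAt.add ?_ ?_)
    · simpa using (hasDerivAt_id s).const_mul (2 * ‖x‖ * ‖u‖)
    · simpa using (hasDerivAt_pow 2 s).const_mul (‖u‖ ^ 2)
  have h3 := antitoneOn_of_deriv_nonpos (convex_Icc (0 : ℝ) 1)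
    (fun s _ => (h2 s).continuousAt.continuousWithinAt)
    (fun s _ => (h2 s).differentiableAt.differentiableWithinAt) (fun s hs => by
      rw [(h2 s).deriv]
      have hs0 : 0 ≤ s := (interior_subset hs).1
      have e1 := real_inner_le_norm (gradient V (x + s • u)) u
      have e2 := hV.lip (x + s • u) 0
      rw [h0, sub_zero, sub_zero] at e2
      have e3 : ‖x + s • u‖ ≤ ‖x‖ + s * ‖u‖ := by
        refine (norm_add_le _ _).trans ?_
        rw [norm_smul, Real.norm_eq_abs, abs_of_nonneg hs0]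
      have e4 : ‖gradient V (x + s • u)‖ * ‖u‖ ≤ 2 * (‖x‖ + s * ‖u‖) * ‖u‖ :=
        mul_le_mul_of_nonneg_right (by linarith) (norm_nonneg u)
      nlinarith)
    (left_mem_Icc.2 zero_le_one) (right_mem_Icc.2 zero_le_one) zero_le_one
  simp only [one_smul, zero_smul, add_zero] at h3
  nlinarith

theorem shift_target (hB : StmtBasic) (hBa : StmtBayes) {V : E d → ℝ} (hV : Admissible d V)
    (u : E d) {B : Set (E d)} (hBm : MeasurableSet B) :
    target d V {x | x + u ∈ B} ≤ target d V B + (ENNReal.ofReal (4 * √d) * ‖u‖ₑ +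
      ENNReal.ofReal (‖u‖ ^ 2)) := by
  obtain ⟨hp, hm, -⟩ := hBa d V hV
  have hP := (hB.adm d V hV).1
  have h := shift (V := V) hP.smooth.continuous zero_le_one u hBm
  simp only [one_mul] at h
  have h1 : target d V {x | x + u ∈ B} ≤
      target d V B + ∫⁻ x, ENNReal.ofReal (V (x + u) - V x) ∂target d V := by
    simp only [target, Measure.smul_apply, lintegral_smul_measure, smul_eq_mul, ← mul_add]
    exact mul_le_mul_right h _
  have h2 : ∫⁻ x, ‖x‖ₑ ∂target d V ≤ ENNReal.ofReal (2 * √d) := by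
    have := hm 0 le_rfl
    simp only [piT, Real.sqrt_zero, zero_smul, add_zero] at this
    rwa [Measure.map_fst_prod, measure_univ, one_smul] at this
  refine h1.trans (add_le_add le_rfl ?_)
  calc ∫⁻ x, ENNReal.ofReal (V (x + u) - V x) ∂target d V
      ≤ ∫⁻ x, (2 * ‖u‖ₑ * ‖x‖ₑ + ENNReal.ofReal (‖u‖ ^ 2)) ∂target d V := by
        refine lintegral_mono fun x => ?_
        refine le_trans (ENNReal.ofReal_le_ofReal (delta_le hP hV.2.2.1 x u)) ?_
        refine ENNReal.ofReal_add_le.trans (add_le_add (le_of_eq ?_) le_rfl)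
        rw [ENNReal.ofReal_mul (by positivity), ENNReal.ofReal_mul (by positivity), ofReal_norm,
          ofReal_norm, ENNReal.ofReal_ofNat]
        ring
    _ = 2 * ‖u‖ₑ * ∫⁻ x, ‖x‖ₑ ∂target d V + ENNReal.ofReal (‖u‖ ^ 2) := by
        rw [lintegral_add_right _ measurable_const, lintegral_const_mul _ measurable_enorm]
        simp
    _ ≤ 2 * ‖u‖ₑ * ENNReal.ofReal (2 * √d) + ENNReal.ofReal (‖u‖ ^ 2) := by gcongr
    _ = _ := by
        rw [show 4 * √(d : ℝ) = 2 * (2 * √d) by ring,
          ENNReal.ofReal_mul (p := 2) (q := 2 * √d) (by norm_num), ENNReal.ofReal_ofNat]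
        ring

theorem piT_le (hG : StmtGauss) (hB : StmtBasic) (hBa : StmtBayes) {V : E d → ℝ}
    (hV : Admissible d V) {t : ℝ} (ht : 0 ≤ t) (ht1 : t ≤ 1) {B : Set (E d)}
    (hBm : MeasurableSet B) : piT V t B ≤ target d V B + ENNReal.ofReal (5 * d * √t) := by
  have hp := (hBa d V hV).1
  have hs0 : 0 ≤ √t := Real.sqrt_nonneg t
  rw [piT, Measure.map_apply (meas_add _) hBm, Measure.prod_apply_symm (meas_add _ hBm)]
  have i2 : Integrable (fun w : E d => ‖w‖ ^ 2) (gam d) :=
    hG.pg d _ ⟨by fun_prop, 1, 2, fun x => by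
      rw [abs_of_nonneg (sq_nonneg _)]
      nlinarith [norm_nonneg x]⟩
  have h2 : ∫⁻ w, ENNReal.ofReal (‖w‖ ^ 2) ∂gam d = ENNReal.ofReal d := by
    rw [← ofReal_integral_eq_lintegral_ofReal i2 (Filter.Eventually.of_forall fun w => sq_nonneg _),
      hG.sq]
  have hm2 : Measurable fun w : E d => ENNReal.ofReal (‖w‖ ^ 2) :=
    ENNReal.measurable_ofReal.comp (by fun_prop)
  calc _ ≤ ∫⁻ w, (target d V B + (ENNReal.ofReal (4 * √d * √t) * ‖w‖ₑ +
        ENNReal.ofReal t * ENNReal.ofReal (‖w‖ ^ 2))) ∂gam d := by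
        refine lintegral_mono fun w => ?_
        refine (shift_target hB hBa hV (√t • w) hBm).trans (le_of_eq ?_)
        rw [enorm_smul, norm_smul, mul_pow, Real.norm_eq_abs, sq_abs, Real.sq_sqrt ht,
          ENNReal.ofReal_mul ht, ENNReal.ofReal_mul (p := 4 * √d) (by positivity),
          Real.enorm_eq_ofReal hs0, mul_assoc]
    _ = target d V B + (ENNReal.ofReal (4 * √d * √t) * ∫⁻ w, ‖w‖ₑ ∂gam d +
        ENNReal.ofReal t * ENNReal.ofReal d) := by
        rw [lintegral_add_left measurable_const,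
          lintegral_add_right _ (hm2.const_mul _), lintegral_const_mul _ measurable_enorm,
          lintegral_const_mul _ hm2, h2]
        simp
    _ ≤ target d V B + (ENNReal.ofReal (4 * √d * √t) * ENNReal.ofReal √d +
        ENNReal.ofReal t * ENNReal.ofReal d) := by
        gcongr
        exact hG.abs d
    _ ≤ _ := by
        refine add_le_add le_rfl ?_
        rw [← ENNReal.ofReal_mul (by positivity), ← ENNReal.ofReal_mul ht,
          ← ENNReal.ofReal_add (by positivity) (by positivity)]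
        refine ENNReal.ofReal_le_ofReal ?_
        have e1 : √(d : ℝ) * √d = d := Real.mul_self_sqrt (by positivity)
        have e2 : t ≤ √t := by
          rw [Real.le_sqrt ht ht]
          nlinarith
        have e3 : t * d ≤ √t * d := mul_le_mul_of_nonneg_right e2 (by positivity)
        have e4 : 4 * √(d : ℝ) * √t * √d = 4 * d * √t := by
          calc _ = 4 * (√(d : ℝ) * √d) * √t := by ring
            _ = _ := by rw [e1]
        linarith

theorem one_sided (hG : StmtGauss) (hB : StmtBasic) (hBa : StmtBayes) {V : E d → ℝ}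
    (hV : Admissible d V) (μ : Measure (E d)) {t σ η : ℝ} (ht : 0 ≤ t) (hσ : 0 < σ) (hη : 0 ≤ η)
    (h1 : t + σ ^ 2 ≤ 1) (hW : WLe μ (piT V t) η) {B : Set (E d)} (hBm : MeasurableSet B) :
    (((μ.prod (gam d)).map fun p => p.1 + σ • p.2) B).toReal ≤
      (target d V B).toReal + (2 * η / σ + 5 * d * √(t + σ ^ 2)) := by
  have hp := (hBa d V hV).1
  have h2 := hW (psi σ B) (2 / σ).toNNReal (psi_lip hG hσ hBm)
  have h3 : ∫⁻ c, psi σ B c ∂piT V t = piT V (t + σ ^ 2) B := by
    rw [piT, lintegral_map (measurable_psi σ hBm) (meas_add _),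
      lintegral_prod (fun p : E d × E d => psi σ B (p.1 + √t • p.2))
        ((measurable_psi σ hBm).comp (meas_add _)).aemeasurable, piT,
      conv_apply _ _ hBm]
    exact lintegral_congr fun x => psi_semi hG ht σ hBm x
  have h4 := piT_le hG hB hBa hV (by positivity) h1 hBm
  rw [h3, ← conv_apply _ _ hBm] at h2
  have h5 : ((2 / σ).toNNReal : ℝ≥0∞) * ENNReal.ofReal η = ENNReal.ofReal (2 * η / σ) := by
    rw [show 2 * η / σ = 2 / σ * η by ring, ENNReal.ofReal_mul (by positivity)]
    rfl
  refine ENNReal.toReal_le_of_le_ofReal (by positivity) ?_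
  rw [ENNReal.ofReal_add ENNReal.toReal_nonneg (by positivity),
    ENNReal.ofReal_toReal (measure_ne_top _ _), ENNReal.ofReal_add (by positivity) (by positivity)]
  calc _ ≤ _ := h2
    _ ≤ target d V B + ENNReal.ofReal (5 * d * √(t + σ ^ 2)) + ENNReal.ofReal (2 * η / σ) := by
        rw [h5]; gcongr
    _ = _ := by ring

end EndP

open EndP in
theorem endStmt (hG : StmtGauss) (hB : StmtBasic) (hBa : StmtBayes) : StmtEnd := by
  intro d V hV μ _ t σ η ht hσ hη h1 hW B hBm
  have hp := (hBa d V hV).1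
  have h2 := one_sided hG hB hBa hV μ ht hσ hη h1 hW hBm
  have h3 := one_sided hG hB hBa hV μ ht hσ hη h1 hW hBm.compl
  have : IsProbabilityMeasure ((μ.prod (gam d)).map fun p => p.1 + σ • p.2) :=
    Measure.isProbabilityMeasure_map (meas_add σ).aemeasurable
  have e1 := measureReal_compl (μ := (μ.prod (gam d)).map fun p => p.1 + σ • p.2) hBm
  have e2 := measureReal_compl (μ := target d V) hBm
  simp only [measureReal_def, measure_univ, ENNReal.toReal_one] at e1 e2
  rw [e1, e2] at h3
  rw [abs_le]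
  constructor <;> linarith

end Crest.Agent.R285
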