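import Crest.Agent.R285.FBKB

/-!
# Row 285: dimension-free flattening bounds for the derivative tensors of `F`
-/

set_option autoImplicit false

open MeasureTheory ProbabilityTheory Set
open scoped ENNReal NNReal ContDiff RealInnerProductSpace
open Crest.OracleSampling

noncomputable section

namespace Crest.Agent.R285

namespace FBK

variable {d : ℕ}

/-- the pairing tensor -/
def Pr (U : E d → ℝ) (t : ℝ) (φ : E d → E d → ℝ) (J L : List (Fin d)) (x : E d) : ℝ :=
  Ept U t x fun X => J.foldr (dd U t) φ x X * AP U t L x X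

/-- `L²` bounds for a left family -/
def L2b (U : E d → ℝ) (t : ℝ) {I : Type} [Fintype I] (φ : I → E d → E d → ℝ) (cc : ℕ → ℝ)
    (w : ℝ) : Prop :=
  ∀ (k : ℕ) (x : E d) (α : I × List.Vector (Fin d) k → ℝ),
    Ept U t x (fun X => (∑ a, α a * a.2.toList.foldr (dd U t) (φ a.1) x X) ^ 2) ≤
      (cc k * w) ^ 2 * ∑ a, α a ^ 2

variable {U : E d → ℝ} {t : ℝ}

theorem L2b_of {I : Type} [Fintype I] (φ : I → E d → E d → ℝ) (cc : ℕ → ℝ) (w : ℝ)
    (h : ∀ (k : ℕ) (x : E d) (α : I → (Fin k → Fin d) → ℝ),
      Ept U t x (fun X => (∑ i, ∑ u, α i u * (List.ofFn u).foldr (dd U t) (φ i) x X) ^ 2) ≤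
        (cc k * w) ^ 2 * ∑ i, ∑ u, α i u ^ 2) : L2b U t φ cc w := by
  intro k x α
  have h1 := h k x fun i u => α (i, List.Vector.ofFn u)
  have key : ∀ F : List.Vector (Fin d) k → ℝ,
      ∑ v, F v = ∑ u : Fin k → Fin d, F (List.Vector.ofFn u) := fun F =>
    ((Equiv.vectorEquivFin (Fin d) k).symm.sum_comp F).symm
  simp only [Fintype.sum_prod_type, key, List.Vector.toList_ofFn]
  exact h1

theorem Ctx.base (c : Ctx U t) {cc : ℕ → ℝ} (hcc : ∀ k, 0 ≤ cc k)
    (h1 : L2b U t (fun (_ : Unit) _ _ => (1 : ℝ)) cc 1) {I : Type} [Fintype I]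
    {φ : I → E d → E d → ℝ} {w : ℝ} (hw : 0 ≤ w) (hφ : ∀ i, Sep (φ i)) (h2 : L2b U t φ cc w)
    (k l : ℕ) :
    (∀ (a : I × List.Vector (Fin d) k) (L : List.Vector (Fin d) l),
      ContDiff ℝ ∞ fun x => Pr U t (φ a.1) a.2.toList L.toList x) ∧
    ∀ x, OpBd (fun (a : I × List.Vector (Fin d) k) (L : List.Vector (Fin d) l) =>
      Pr U t (φ a.1) a.2.toList L.toList x) (cc k * cc l * w) := by
  refine ⟨fun a L => c.esm _ (c.mul _ _ (c.foldS (hφ _) _) (c.ap _)), fun x => ?_⟩
  refine OpBd.of_bil (mul_nonneg (mul_nonneg (hcc _) (hcc _)) hw) fun α β => ?_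
  have sψ : Sep fun x X => ∑ a : I × List.Vector (Fin d) k,
      α a * a.2.toList.foldr (dd U t) (φ a.1) x X :=
    Sep_sum _ (fun a x X => α a * a.2.toList.foldr (dd U t) (φ a.1) x X)
      fun a => c.smul contDiff_const (c.foldS (hφ _) _)
  have sχ : Sep fun x X => ∑ L : List.Vector (Fin d) l, β L * AP U t L.toList x X :=
    Sep_sum _ (fun L x X => β L * AP U t L.toList x X)
      fun L => c.smul contDiff_const (c.ap _)
  have hcs := c.cs sψ sχ x
  have e : ∑ a : I × List.Vector (Fin d) k, ∑ L : List.Vector (Fin d) l,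
      Pr U t (φ a.1) a.2.toList L.toList x * α a * β L =
      Ept U t x fun X => (∑ a : I × List.Vector (Fin d) k,
        α a * a.2.toList.foldr (dd U t) (φ a.1) x X) *
        ∑ L : List.Vector (Fin d) l, β L * AP U t L.toList x X := by
    have s1 : ∀ (a : I × List.Vector (Fin d) k) (L : List.Vector (Fin d) l), Sep fun x X =>
        (α a * β L) * (a.2.toList.foldr (dd U t) (φ a.1) x X * AP U t L.toList x X) :=
      fun a L => c.smul contDiff_const (c.mul _ _ (c.foldS (hφ _) _) (c.ap _))
    have e1 : (fun X => (∑ a : I × List.Vector (Fin d) k,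
        α a * a.2.toList.foldr (dd U t) (φ a.1) x X) *
        ∑ L : List.Vector (Fin d) l, β L * AP U t L.toList x X) = fun X =>
        ∑ a : I × List.Vector (Fin d) k, ∑ L : List.Vector (Fin d) l,
          (α a * β L) * (a.2.toList.foldr (dd U t) (φ a.1) x X * AP U t L.toList x X) := by
      funext X
      rw [Finset.sum_mul_sum]
      exact Finset.sum_congr rfl fun a _ => Finset.sum_congr rfl fun L _ => by ring
    rw [e1, c.Esum _ (fun a x X => ∑ L : List.Vector (Fin d) l,
      (α a * β L) * (a.2.toList.foldr (dd U t) (φ a.1) x X * AP U t L.toList x X))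
      (fun a => Sep_sum _ _ (s1 a)) x]
    refine Finset.sum_congr rfl fun a _ => ?_
    rw [c.Esum _ _ (s1 a) x]
    refine Finset.sum_congr rfl fun L _ => ?_
    rw [Ept_cmul]
    unfold Pr
    ring
  rw [e]
  refine hcs.trans ?_
  have b1 := h2 k x α
  have b2 := h1 l x fun a => β a.2
  simp only [Fintype.sum_prod_type, Finset.univ_unique, Finset.sum_singleton, mul_one] at b2
  have n2 := c.Enonneg x (h := fun X =>
    (∑ L : List.Vector (Fin d) l, β L * AP U t L.toList x X) ^ 2) fun X => sq_nonneg _
  have hα : 0 ≤ ∑ a, α a ^ 2 := Finset.sum_nonneg fun _ _ => sq_nonneg _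
  calc _ ≤ ((cc k * w) ^ 2 * ∑ a, α a ^ 2) * (cc l ^ 2 * ∑ b, β b ^ 2) :=
        mul_le_mul b1 b2 n2 (by positivity)
    _ = _ := by ring

theorem Ctx.D_Pr (c : Ctx U t) {φ : E d → E d → ℝ} (hφ : Sep φ) (j : Fin d)
    (J L : List (Fin d)) (x : E d) :
    D j (Pr U t φ J L) x = Pr U t φ (j :: J) L x + -((nm L.length).map fun m =>
      Pr U t (fun _ _ => 1) [j] (sel m L) x * Pr U t φ J (rej m L) x).sum := by
  have sJ := c.foldS hφ J
  have h := c.ed _ (c.mul _ _ sJ (c.ap L)) x j
  have hK := fun m => iterD_smooth (c.ksm j) (sel m L)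
  have s1 : ∀ m, Sep fun x X => iterD (sel m L) (kap U t j) x *
      (J.foldr (dd U t) φ x X * AP U t (rej m L) x X) :=
    fun m => c.smul (hK m) (c.mul _ _ sJ (c.ap _))
  have e : dd U t j (fun x X => J.foldr (dd U t) φ x X * AP U t L x X) x = fun X =>
      (j :: J).foldr (dd U t) φ x X * AP U t L x X + (-1) * ((nm L.length).map fun m =>
        iterD (sel m L) (kap U t j) x *
          (J.foldr (dd U t) φ x X * AP U t (rej m L) x X)).sum := by
    funext X
    rw [List.foldr_cons, dd_eq, dd_eq, D_mul (c.sm _ sJ X) (c.sm _ (c.ap L) X), c.D_AP]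
    have : ∀ m, iterD (sel m L) (kap U t j) x *
        (J.foldr (dd U t) φ x X * AP U t (rej m L) x X) =
        J.foldr (dd U t) φ x X * (iterD (sel m L) (kap U t j) x * AP U t (rej m L) x X) :=
      fun m => by ring
    simp only [this, List.sum_map_mul_left]
    ring
  rw [e, c.Eadd (c.mul _ _ (c.foldS hφ (j :: J)) (c.ap L))
    (c.smul (k := fun _ => -1) contDiff_const (Sep_lsum _ _ s1)) x, Ept_cmul,
    c.Elsum _ _ s1 x] at h
  refine h.trans ?_
  rw [neg_one_mul]
  congr 3
  refine List.map_congr_left fun m hm => ?_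
  rw [Ept_cmul]
  have hs := nm_spec _ m hm
  have hne : sel m L ≠ [] := by
    intro h0
    have := sel_length m L hs.1
    rw [h0] at this
    simp at this
    omega
  rw [c.kapE j hne]
  rfl

theorem main (cc : ℕ → ℝ) (hcc : ∀ k, 0 ≤ cc k) (n : ℕ) : ∃ C : ℕ → ℕ → ℝ,
    (∀ k l, 0 ≤ C k l) ∧ ∀ (k l d : ℕ) (U : E d → ℝ) (t : ℝ), Ctx U t →
      L2b U t (fun (_ : Unit) _ _ => (1 : ℝ)) cc 1 → ∀ (I : Type) [Fintype I]
      (φ : I → E d → E d → ℝ) (w : ℝ), 0 ≤ w → (∀ i, Sep (φ i)) → L2b U t φ cc w →
      Good d n (fun x (a : I × List.Vector (Fin d) k) (L : List.Vector (Fin d) l) =>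
        Pr U t (φ a.1) a.2.toList L.toList x) (C k l * w) := by
  induction n with
  | zero =>
    exact ⟨fun k l => cc k * cc l, fun k l => mul_nonneg (hcc k) (hcc l),
      fun k l d U t c h1 I _ φ w hw hφ h2 => c.base hcc h1 hw hφ h2 k l⟩
  | succ n ih =>
    obtain ⟨C, hC, ih⟩ := ih
    have hsum : ∀ k l, 0 ≤ ((nm l).map fun m =>
        2 ^ n * (C 1 (m.count true) * C k (l - m.count true))).sum := fun k l =>
      List.sum_nonneg fun y hy => by
        obtain ⟨m, _, rfl⟩ := List.mem_map.1 hy
        have := hC 1 (m.count true)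
        have := hC k (l - m.count true)
        positivity
    refine ⟨fun k l => cc k * cc l + (C (k + 1) l + ((nm l).map fun m =>
        2 ^ n * (C 1 (m.count true) * C k (l - m.count true))).sum), fun k l =>
      add_nonneg (mul_nonneg (hcc k) (hcc l)) (add_nonneg (hC _ _) (hsum k l)), ?_⟩
    intro k l d U t c h1 I _ φ w hw hφ h2
    have hb := c.base hcc h1 hw hφ h2 k l
    refine ⟨⟨hb.1, fun x => (hb.2 x).mono ?_⟩, ?_⟩
    · exact mul_le_mul_of_nonneg_right (le_add_of_nonneg_right
        (add_nonneg (hC _ _) (hsum k l))) hw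
    · have g1 := (ih (k + 1) l d U t c h1 I φ w hw hφ h2).reidx
        (fun ja : Fin d × (I × List.Vector (Fin d) k) => (ja.2.1, ja.1 ::ᵥ ja.2.2)) id
        (by
          rintro ⟨j, a, J⟩ ⟨j', a', J'⟩ hh
          simp only [Prod.mk.injEq] at hh ⊢
          have h3 := congrArg List.Vector.toList hh.2
          simp only [List.Vector.toList_cons, List.cons.injEq] at h3
          exact ⟨h3.1, hh.1, List.Vector.toList_injective h3.2⟩) Function.injective_id
      have g2 : ∀ m ∈ nm l, Good d n (fun x (ja : Fin d × (I × List.Vector (Fin d) k))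
          (L : List.Vector (Fin d) l) => Pr U t (fun _ _ => 1) [ja.1] (sel m L.toList) x *
            Pr U t (φ ja.2.1) ja.2.2.toList (rej m L.toList) x)
          (2 ^ n * (C 1 (m.count true) * C k (l - m.count true)) * w) := by
        intro m hm
        have hs := nm_spec _ m hm
        have l1 : ∀ L : List.Vector (Fin d) l, (sel m L.toList).length = m.count true :=
          fun L => sel_length m _ (by rw [L.toList_length]; exact hs.1)
        have l2 : ∀ L : List.Vector (Fin d) l, (rej m L.toList).length = l - m.count true := by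
          intro L
          have := sel_rej_length m L.toList
          rw [l1, L.toList_length] at this
          omega
        have p := ((ih 1 (m.count true) d U t c h1 Unit _ 1 zero_le_one
          (fun _ => Sep_x contDiff_const) h1).prod
          (ih k (l - m.count true) d U t c h1 I φ w hw hφ h2)).reidx
          (fun ja : Fin d × (I × List.Vector (Fin d) k) =>
            (((), ja.1 ::ᵥ List.Vector.nil), ja.2))
          (fun L : List.Vector (Fin d) l => (⟨sel m L.toList, l1 L⟩, ⟨rej m L.toList, l2 L⟩))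
          (by
            rintro ⟨j, a⟩ ⟨j', a'⟩ hh
            simp only [Prod.mk.injEq, true_and] at hh ⊢
            have h3 := congrArg List.Vector.toList hh.1
            simp only [List.Vector.toList_cons, List.cons.injEq] at h3
            exact ⟨h3.1, hh.2⟩)
          (by
            intro L L' hh
            simp only [Prod.mk.injEq] at hh
            exact List.Vector.toList_injective (sel_rej_inj m _ _
              (by rw [L.toList_length, L'.toList_length])
              (congrArg Subtype.val hh.1) (congrArg Subtype.val hh.2)))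
        refine Good.mono p (le_of_eq ?_)
        ring
      have g3 := (g1.add (Good.lsum _ _ _ g2).neg).mono (C' := (cc k * cc l + (C (k + 1) l +
        ((nm l).map fun m => 2 ^ n * (C 1 (m.count true) * C k (l - m.count true))).sum)) * w)
        (by
          rw [List.sum_map_mul_right]
          have := mul_nonneg (mul_nonneg (hcc k) (hcc l)) hw
          nlinarith)
      convert g3 using 4 with x ja L
      have := c.D_Pr (hφ ja.2.1) ja.1 ja.2.2.toList L.toList x
      rw [L.toList_length] at this
      exact this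

theorem nab_smx {φ : ℝ × E d → ℝ} (h : Smx φ) (i : Fin d) : Smx (nab i φ) := by
  have ho : IsOpen {p : ℝ × E d | 0 < p.1} := isOpen_lt continuous_const continuous_fst
  have h1 : ContDiffOn ℝ ∞ (fderiv ℝ φ) {p : ℝ × E d | 0 < p.1} :=
    h.fderiv_of_isOpen ho (by simp)
  exact h1.clm_apply contDiffOn_const

theorem smx_slice {φ : ℝ × E d → ℝ} (h : Smx φ) {t : ℝ} (ht : 0 < t) :
    ContDiff ℝ ∞ fun x => φ (t, x) := by
  rw [← contDiffOn_univ]
  exact h.comp (contDiff_const.prodMk contDiff_id).contDiffOn fun x _ => ht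

theorem nab_slice {φ : ℝ × E d → ℝ} (h : Smx φ) {t : ℝ} (ht : 0 < t) (i : Fin d) (x : E d) :
    nab i φ (t, x) = D i (fun x => φ (t, x)) x := by
  have ho : IsOpen {p : ℝ × E d | 0 < p.1} := isOpen_lt continuous_const continuous_fst
  have hd : DifferentiableAt ℝ φ (t, x) :=
    (h.contDiffAt (ho.mem_nhds ht)).differentiableAt (by simp)
  have h2 : HasFDerivAt (fun x : E d => ((t, x) : ℝ × E d)) (ContinuousLinearMap.inr ℝ ℝ (E d)) x :=
    hasFDerivAt_prodMk_right t x
  have h3 := hd.hasFDerivAt.comp x h2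
  unfold nab D
  have e : (fun x => φ (t, x)) = φ ∘ fun x : E d => ((t, x) : ℝ × E d) := rfl
  rw [e, h3.fderiv]
  rfl

theorem iterN_slice {φ : ℝ × E d → ℝ} (h : Smx φ) {t : ℝ} (ht : 0 < t) (l : List (Fin d)) :
    Smx (iterN l φ) ∧ (fun x => iterN l φ (t, x)) = iterD l fun x => φ (t, x) := by
  induction l with
  | nil => exact ⟨h, rfl⟩
  | cons i l ih =>
    refine ⟨nab_smx ih.1 i, ?_⟩
    funext x
    show nab i (iterN l φ) (t, x) = D i (iterD l _) x
    rw [nab_slice ih.1 ht, ih.2]

end FBK

open FBK in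
theorem fbStmt (hB : StmtBasic) (hSm : StmtSmooth) (hS : StmtSep) (hL : StmtL2) : StmtFB := by
  classical
  choose c0 hc0 using hL
  have hcc : ∀ k, 0 ≤ |c0 k| + 1 := fun k => by positivity
  have hcc2 : ∀ k, c0 k ≤ (|c0 k| + 1) ^ 2 := fun k => by
    have := le_abs_self (c0 k)
    have := abs_nonneg (c0 k)
    nlinarith
  choose C hC0 hC using main (fun k => |c0 k| + 1) hcc
  intro k
  refine ⟨∑ n ∈ Finset.range (k + 3), ∑ l ∈ Finset.range (k + 3), C n 0 l, ?_⟩
  rintro d δ U hU - ⟨t, x⟩ ht A B _ _ _ _ _ _ e α β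
  have tpos : 0 < t := lt_of_lt_of_le (by norm_num) ht.1
  obtain ⟨-, s2, s3, s4, s5, s6, s7⟩ := hS d δ U hU t tpos
  have hF := hSm.smooth d δ U hU
  have c : Ctx U t :=
    { tpos := tpos
      Zpos := fun x => (hB.Zpos d δ U hU t x).1
      Fsm := smx_slice hF tpos
      DF := fun i => funext fun x =>
        (nab_slice hF tpos i x).symm.trans (hSm.grad d δ U hU (t, x) tpos i)
      mul := s2, ap := s3, au := s4, mean := s5, one := s6
      sm := fun ψ h => (s7 ψ h).1
      pd := fun ψ h => (s7 ψ h).2.2.1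
      ddS := fun ψ h => (s7 ψ h).2.2.2.1
      int := fun ψ h => (s7 ψ h).2.2.2.2.1
      esm := fun ψ h => (s7 ψ h).2.2.2.2.2.1
      ed := fun ψ h => (s7 ψ h).2.2.2.2.2.2 }
  have h1 : L2b U t (fun (_ : Unit) _ _ => (1 : ℝ)) (fun k => |c0 k| + 1) 1 := by
    refine L2b_of _ _ _ fun k x α => ?_
    simp only [Finset.univ_unique, Finset.sum_singleton, mul_one]
    exact ((hc0 k d δ U hU t ht x).1 _).trans (mul_le_mul_of_nonneg_right (hcc2 k)
      (Finset.sum_nonneg fun _ _ => sq_nonneg _))
  have h2 : L2b U t (fun i => Au U t i []) (fun k => |c0 k| + 1) δ := by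
    refine L2b_of _ _ _ fun k x α => ?_
    refine ((hc0 k d δ U hU t ht x).2 α).trans (mul_le_mul_of_nonneg_right ?_
      (Finset.sum_nonneg fun _ _ => Finset.sum_nonneg fun _ _ => sq_nonneg _))
    rw [mul_pow]
    exact mul_le_mul_of_nonneg_right (hcc2 k) (sq_nonneg _)
  obtain ⟨a0⟩ := ‹Nonempty A›
  obtain ⟨b0⟩ := ‹Nonempty B›
  set la : List A := (Finset.univ.erase a0).toList with hla
  set lb : List B := (Finset.univ : Finset B).toList with hlb
  have hlbne : lb ≠ [] := List.ne_nil_of_mem (a := b0) (by simp [hlb])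
  have hperm : ((List.finRange (k + 2)).map e).Perm
      (la.map Sum.inl ++ (lb.map Sum.inr ++ [Sum.inl a0])) := by
    refine (List.perm_ext_iff_of_nodup ((List.nodup_finRange _).map e.injective) ?_).2 ?_
    · refine List.Nodup.append ((Finset.nodup_toList _).map Sum.inl_injective)
        (List.Nodup.append ((Finset.nodup_toList _).map Sum.inr_injective)
          (List.nodup_singleton _) ?_) ?_
      · simp
      · rw [List.disjoint_left]
        intro s hs hs'
        obtain ⟨a, ha, rfl⟩ := List.mem_map.1 hs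
        simp only [hla, Finset.mem_toList, Finset.mem_erase] at ha
        simp [ha.1] at hs'
    · intro s
      constructor
      · intro _
        rcases s with a | b
        · by_cases h : a = a0 <;> simp [hla, h]
        · simp [hlb]
      · intro _
        exact List.mem_map.2 ⟨e.symm s, List.mem_finRange _, e.apply_symm_apply s⟩
  have hlen := hperm.length_eq
  simp only [List.length_map, List.length_finRange, List.length_append, List.length_singleton]
    at hlen
  have g := (hC la.length 0 lb.length d U t c h1 (Fin d) _ δ hU.pos.le (fun i => c.au i []) h2).iter x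
  have g2 := g.reidx (fun u : A → Fin d =>
      ((⟨la.map u, by simp⟩ : List.Vector (Fin d) la.length), (u a0, List.Vector.nil)))
    (fun v : B → Fin d => (⟨lb.map v, by simp⟩ : List.Vector (Fin d) lb.length))
    (by
      intro u u' hh
      simp only [Prod.mk.injEq, and_true] at hh
      have h3 := List.map_inj_left.1 (congrArg Subtype.val hh.1)
      funext a
      by_cases h : a = a0
      · rw [h]; exact hh.2
      · exact h3 a (by simp [hla, h]))
    (by
      intro v v' hh
      have h3 := List.map_inj_left.1 (congrArg Subtype.val hh)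
      funext b
      exact h3 b (by simp [hlb]))
  have hle : C la.length 0 lb.length * δ ≤
      (∑ n ∈ Finset.range (k + 3), ∑ l ∈ Finset.range (k + 3), C n 0 l) * δ := by
    refine mul_le_mul_of_nonneg_right ?_ hU.pos.le
    refine le_trans ?_ (Finset.single_le_sum (f := fun n => ∑ l ∈ Finset.range (k + 3), C n 0 l)
      (fun n _ => Finset.sum_nonneg fun l _ => hC0 _ _ _) (a := la.length)
      (Finset.mem_range.2 (by omega)))
    exact Finset.single_le_sum (f := fun l => C la.length 0 l) (fun l _ => hC0 _ _ _)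
      (Finset.mem_range.2 (by omega))
  have g3 := (g2.mono hle).bil α β
  convert g3 using 6 with u _ v _
  have e1 := congrFun (iterN_slice hF tpos (List.ofFn (Sum.elim u v ∘ e))).2 x
  have p1 : (List.ofFn (Sum.elim u v ∘ e)).Perm
      ((la.map u).reverse ++ (lb.map v ++ [u a0])) := by
    have := hperm.map (Sum.elim u v)
    rw [List.ofFn_eq_map, ← List.map_map]
    refine this.trans ?_
    simp only [List.map_append, List.map_map, List.map_cons, List.map_nil, Sum.elim_comp_inl,
      Sum.elim_comp_inr, Sum.elim_inl]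
    exact (List.reverse_perm _).symm.append_right _
  refine e1.trans ?_
  have e2 : (fun x => Fx U (t, x)) = Ff U t := rfl
  rw [e2, iterD_perm c.Fsm p1, iterD_append, iterD_append]
  have e3 : iterD [u a0] (Ff U t) = fun x => GF U t x (u a0) := c.DF _
  rw [e3]
  show iterD _ _ x = iterD (la.map u).reverse _ x
  congr 1
  funext y
  exact c.GE (u a0) (by simpa using hlbne) y

end Crest.Agent.R285
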