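import Crest.Agent.R285.Defs

/-!
# Row 285: bi-tensors with bounded flattening, closed under left derivatives
-/

set_option autoImplicit false

open MeasureTheory ProbabilityTheory Set
open scoped ENNReal NNReal ContDiff RealInnerProductSpace
open Crest.OracleSampling

noncomputable section

namespace Crest.Agent.R285

namespace FBK

/-- operator bound, in squared form -/
def OpBd {A B : Type} [Fintype A] [Fintype B] (T : A → B → ℝ) (C : ℝ) : Prop :=
  0 ≤ C ∧ ∀ β : B → ℝ, ∑ a, (∑ b, T a b * β b) ^ 2 ≤ C ^ 2 * ∑ b, β b ^ 2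

section op
variable {A B A' B' : Type} [Fintype A] [Fintype B] [Fintype A'] [Fintype B']

theorem OpBd.bil {T : A → B → ℝ} {C : ℝ} (h : OpBd T C) (α : A → ℝ) (β : B → ℝ) :
    |∑ a, ∑ b, T a b * α a * β b| ≤ C * √(∑ a, α a ^ 2) * √(∑ b, β b ^ 2) := by
  have e : ∑ a, ∑ b, T a b * α a * β b = ∑ a, α a * ∑ b, T a b * β b := by
    refine Finset.sum_congr rfl fun a _ => ?_
    rw [Finset.mul_sum]
    exact Finset.sum_congr rfl fun b _ => by ring
  rw [e]
  have h1 := Finset.sum_mul_sq_le_sq_mul_sq Finset.univ α (fun a => ∑ b, T a b * β b)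
  have h2 := h.2 β
  have hα : 0 ≤ ∑ a, α a ^ 2 := Finset.sum_nonneg fun _ _ => sq_nonneg _
  have hβ : 0 ≤ ∑ b, β b ^ 2 := Finset.sum_nonneg fun _ _ => sq_nonneg _
  apply abs_le_of_sq_le_sq' _ (by have := h.1; positivity) |> abs_le.2
  rw [mul_pow, mul_pow, Real.sq_sqrt hα, Real.sq_sqrt hβ]
  calc _ ≤ _ := h1
    _ ≤ (∑ a, α a ^ 2) * (C ^ 2 * ∑ b, β b ^ 2) := mul_le_mul_of_nonneg_left h2 hα
    _ = _ := by ring

theorem OpBd.of_bil {T : A → B → ℝ} {C : ℝ} (hC : 0 ≤ C)
    (h : ∀ (α : A → ℝ) (β : B → ℝ), (∑ a, ∑ b, T a b * α a * β b) ^ 2 ≤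
      C ^ 2 * (∑ a, α a ^ 2) * ∑ b, β b ^ 2) : OpBd T C := by
  refine ⟨hC, fun β => ?_⟩
  have h1 := h (fun a => ∑ b, T a b * β b) β
  have e : ∑ a, ∑ b, T a b * (∑ b, T a b * β b) * β b = ∑ a, (∑ b, T a b * β b) ^ 2 := by
    refine Finset.sum_congr rfl fun a _ => ?_
    rw [sq, Finset.mul_sum (f := fun b => T a b * β b)]
    exact Finset.sum_congr rfl fun b _ => by ring
  rw [e] at h1
  set S := ∑ a, (∑ b, T a b * β b) ^ 2
  have hS : 0 ≤ S := Finset.sum_nonneg fun _ _ => sq_nonneg _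
  have hβ : 0 ≤ ∑ b, β b ^ 2 := Finset.sum_nonneg fun _ _ => sq_nonneg _
  rcases hS.eq_or_lt with h0 | h0
  · rw [← h0]; positivity
  · have : S * S ≤ S * (C ^ 2 * ∑ b, β b ^ 2) := by nlinarith
    exact le_of_mul_le_mul_left this h0

theorem OpBd.mono {T : A → B → ℝ} {C C' : ℝ} (h : OpBd T C) (hC : C ≤ C') : OpBd T C' := by
  refine ⟨h.1.trans hC, fun β => (h.2 β).trans ?_⟩
  have hβ : 0 ≤ ∑ b, β b ^ 2 := Finset.sum_nonneg fun _ _ => sq_nonneg _
  exact mul_le_mul_of_nonneg_right (pow_le_pow_left₀ h.1 hC 2) hβ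

theorem OpBd.add {T T' : A → B → ℝ} {C C' : ℝ} (h : OpBd T C) (h' : OpBd T' C') :
    OpBd (fun a b => T a b + T' a b) (C + C') := by
  refine OpBd.of_bil (add_nonneg h.1 h'.1) fun α β => ?_
  have h1 := h.bil α β
  have h2 := h'.bil α β
  have e : ∑ a, ∑ b, (T a b + T' a b) * α a * β b =
      ∑ a, ∑ b, T a b * α a * β b + ∑ a, ∑ b, T' a b * α a * β b := by
    rw [← Finset.sum_add_distrib]
    refine Finset.sum_congr rfl fun a _ => ?_
    rw [← Finset.sum_add_distrib]
    exact Finset.sum_congr rfl fun b _ => by ring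
  have hα : 0 ≤ ∑ a, α a ^ 2 := Finset.sum_nonneg fun _ _ => sq_nonneg _
  have hβ : 0 ≤ ∑ b, β b ^ 2 := Finset.sum_nonneg fun _ _ => sq_nonneg _
  have h3 : |∑ a, ∑ b, (T a b + T' a b) * α a * β b| ≤
      (C + C') * √(∑ a, α a ^ 2) * √(∑ b, β b ^ 2) := by
    rw [e]
    refine (abs_add_le _ _).trans ?_
    linarith
  have h4 := pow_le_pow_left₀ (abs_nonneg _) h3 2
  rwa [sq_abs, mul_pow, mul_pow, Real.sq_sqrt hα, Real.sq_sqrt hβ] at h4

theorem OpBd.neg {T : A → B → ℝ} {C : ℝ} (h : OpBd T C) : OpBd (fun a b => -T a b) C := by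
  refine ⟨h.1, fun β => ?_⟩
  have := h.2 β
  simpa [Finset.sum_neg_distrib] using this

theorem OpBd.zero : OpBd (fun (_ : A) (_ : B) => (0 : ℝ)) 0 := ⟨le_rfl, fun β => by simp⟩

theorem OpBd.reidx {T : A → B → ℝ} {C : ℝ} (h : OpBd T C) (f : A' → A) (g : B' → B)
    (hf : Function.Injective f) (hg : Function.Injective g) :
    OpBd (fun a b => T (f a) (g b)) C := by
  classical
  refine ⟨h.1, fun β => ?_⟩
  have h1 := h.2 (Function.extend g β 0)
  have key : ∀ F : B → ℝ → ℝ, (∀ b, F b 0 = 0) →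
      ∑ b, F b (Function.extend g β 0 b) = ∑ b, F (g b) (β b) := by
    intro F hF
    rw [← Finset.sum_subset (Finset.subset_univ (Finset.univ.image g))]
    · rw [Finset.sum_image (fun a _ b _ hab => hg hab)]
      exact Finset.sum_congr rfl fun b _ => by rw [hg.extend_apply]
    · intro b _ hb
      rw [Function.extend_apply' _ _ _ (by simpa using hb)]
      exact hF b
  rw [key (fun _ r => r ^ 2) (by simp)] at h1
  refine le_trans ?_ h1
  calc ∑ a, (∑ b, T (f a) (g b) * β b) ^ 2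
      = ∑ a ∈ Finset.univ.image f, (∑ b, T a b * Function.extend g β 0 b) ^ 2 := by
        rw [Finset.sum_image (fun a _ b _ hab => hf hab)]
        exact Finset.sum_congr rfl fun a _ => by
          rw [key (fun b r => T (f a) b * r) (by simp)]
    _ ≤ _ := Finset.sum_le_sum_of_subset_of_nonneg (Finset.subset_univ _)
        fun _ _ _ => sq_nonneg _

theorem OpBd.prod {T : A → B → ℝ} {T' : A' → B' → ℝ} {C C' : ℝ} (h : OpBd T C)
    (h' : OpBd T' C') :
    OpBd (fun (a : A × A') (b : B × B') => T a.1 b.1 * T' a.2 b.2) (C * C') := by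
  refine ⟨mul_nonneg h.1 h'.1, fun β => ?_⟩
  simp only [Fintype.sum_prod_type]
  rw [Finset.sum_comm]
  calc ∑ a', ∑ a, (∑ b, ∑ b', T a b * T' a' b' * β (b, b')) ^ 2
      = ∑ a', ∑ a, (∑ b, T a b * ∑ b', T' a' b' * β (b, b')) ^ 2 := by
        refine Finset.sum_congr rfl fun a' _ => Finset.sum_congr rfl fun a _ => ?_
        congr 1
        refine Finset.sum_congr rfl fun b _ => ?_
        rw [Finset.mul_sum]
        exact Finset.sum_congr rfl fun b' _ => by ring
    _ ≤ ∑ a', C ^ 2 * ∑ b, (∑ b', T' a' b' * β (b, b')) ^ 2 :=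
        Finset.sum_le_sum fun a' _ => h.2 _
    _ = C ^ 2 * ∑ b, ∑ a', (∑ b', T' a' b' * β (b, b')) ^ 2 := by
        rw [← Finset.mul_sum, Finset.sum_comm]
    _ ≤ C ^ 2 * ∑ b, C' ^ 2 * ∑ b', β (b, b') ^ 2 :=
        mul_le_mul_of_nonneg_left (Finset.sum_le_sum fun b _ => h'.2 _) (sq_nonneg _)
    _ = _ := by rw [← Finset.mul_sum]; ring

end op

variable {d : ℕ}

/-- partial derivative -/
def D (j : Fin d) (f : E d → ℝ) (x : E d) : ℝ := fderiv ℝ f x (ee j)

theorem D_smooth {f : E d → ℝ} (hf : ContDiff ℝ ∞ f) (j : Fin d) : ContDiff ℝ ∞ (D j f) := by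
  have h : ContDiff ℝ ∞ (fderiv ℝ f) := hf.fderiv_right (m := ∞) (by simp)
  exact h.clm_apply contDiff_const

theorem D_add {f g : E d → ℝ} (hf : ContDiff ℝ ∞ f) (hg : ContDiff ℝ ∞ g) (j : Fin d) (x : E d) :
    D j (fun x => f x + g x) x = D j f x + D j g x := by
  unfold D
  rw [fderiv_fun_add (hf.differentiable (by simp) x) (hg.differentiable (by simp) x)]
  rfl

theorem D_neg (f : E d → ℝ) (j : Fin d) (x : E d) : D j (fun x => -f x) x = -D j f x := by
  unfold D
  rw [fderiv_fun_neg]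
  rfl

theorem D_const (c : ℝ) (j : Fin d) (x : E d) : D j (fun _ => c) x = 0 := by
  unfold D
  simp

theorem D_mul {f g : E d → ℝ} (hf : ContDiff ℝ ∞ f) (hg : ContDiff ℝ ∞ g) (j : Fin d) (x : E d) :
    D j (fun x => f x * g x) x = D j f x * g x + f x * D j g x := by
  unfold D
  rw [fderiv_fun_mul (hf.differentiable (by simp) x) (hg.differentiable (by simp) x)]
  simp only [add_apply, smul_apply, smul_eq_mul]
  ring

theorem D_comm {f : E d → ℝ} (hf : ContDiff ℝ ∞ f) (i j : Fin d) : D i (D j f) = D j (D i f) := by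
  funext x
  have h : ContDiff ℝ ∞ (fderiv ℝ f) := hf.fderiv_right (m := ∞) (by simp)
  have hd : DifferentiableAt ℝ (fderiv ℝ f) x := h.differentiable (by simp) x
  have key : ∀ u v : E d, fderiv ℝ (fun y => fderiv ℝ f y v) x u =
      fderiv ℝ (fderiv ℝ f) x u v := by
    intro u v
    rw [fderiv_clm_apply hd (differentiableAt_const _)]
    simp
  have hs : IsSymmSndFDerivAt ℝ f x :=
    hf.contDiffAt.isSymmSndFDerivAt (by
      rw [minSmoothness_of_isRCLikeNormedField]
      exact WithTop.coe_le_coe.2 (le_top : (2 : ℕ∞) ≤ ⊤))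
  show fderiv ℝ (fun y => fderiv ℝ f y (ee j)) x (ee i) =
    fderiv ℝ (fun y => fderiv ℝ f y (ee i)) x (ee j)
  rw [key, key, hs.eq]

/-- iterated partial derivative -/
def iterD (l : List (Fin d)) (f : E d → ℝ) : E d → ℝ := l.foldr D f

theorem iterD_smooth {f : E d → ℝ} (hf : ContDiff ℝ ∞ f) (l : List (Fin d)) :
    ContDiff ℝ ∞ (iterD l f) := by
  induction l with
  | nil => exact hf
  | cons j l ih => exact D_smooth ih j

theorem iterD_perm {f : E d → ℝ} (hf : ContDiff ℝ ∞ f) {l l' : List (Fin d)} (h : l.Perm l') :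
    iterD l f = iterD l' f := by
  induction h with
  | nil => rfl
  | cons j _ ih => show D j _ = D j _; unfold iterD at ih; rw [ih]
  | swap i j l => exact D_comm (iterD_smooth hf l) _ _
  | trans _ _ ih1 ih2 => exact ih1.trans ih2

theorem iterD_append (f : E d → ℝ) (l l' : List (Fin d)) :
    iterD (l ++ l') f = iterD l (iterD l' f) := List.foldr_append

/-- smooth bi-tensor fields all of whose left derivatives up to order `n` are bounded by `C` -/
def Good (d : ℕ) : ℕ → ∀ {A B : Type} [Fintype A] [Fintype B], (E d → A → B → ℝ) → ℝ → Prop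
  | 0, _, _, _, _, T, C => (∀ a b, ContDiff ℝ ∞ fun x => T x a b) ∧ ∀ x, OpBd (T x) C
  | n + 1, A, _, _, _, T, C => ((∀ a b, ContDiff ℝ ∞ fun x => T x a b) ∧ ∀ x, OpBd (T x) C) ∧
      Good d n (fun x (ja : Fin d × A) b => D ja.1 (fun y => T y ja.2 b) x) C

theorem Good.base {n : ℕ} {A B : Type} [Fintype A] [Fintype B] {T : E d → A → B → ℝ} {C : ℝ}
    (h : Good d n T C) : (∀ a b, ContDiff ℝ ∞ fun x => T x a b) ∧ ∀ x, OpBd (T x) C := by
  cases n with
  | zero => exact h
  | succ n => exact h.1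

theorem Good.pred {n : ℕ} : ∀ {A B : Type} [Fintype A] [Fintype B] {T : E d → A → B → ℝ} {C : ℝ},
    Good d (n + 1) T C → Good d n T C := by
  induction n with
  | zero => intro A B _ _ T C h; exact h.1
  | succ n ih => intro A B _ _ T C h; exact ⟨h.1, ih h.2⟩

theorem Good.mono {n : ℕ} : ∀ {A B : Type} [Fintype A] [Fintype B] {T : E d → A → B → ℝ}
    {C C' : ℝ}, Good d n T C → C ≤ C' → Good d n T C' := by
  induction n with
  | zero => intro A B _ _ T C C' h hC; exact ⟨h.1, fun x => (h.2 x).mono hC⟩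
  | succ n ih =>
    intro A B _ _ T C C' h hC
    exact ⟨⟨h.1.1, fun x => (h.1.2 x).mono hC⟩, ih h.2 hC⟩

theorem Good.add {n : ℕ} : ∀ {A B : Type} [Fintype A] [Fintype B] {T T' : E d → A → B → ℝ}
    {C C' : ℝ}, Good d n T C → Good d n T' C' →
      Good d n (fun x a b => T x a b + T' x a b) (C + C') := by
  induction n with
  | zero =>
    intro A B _ _ T T' C C' h h'
    exact ⟨fun a b => (h.1 a b).add (h'.1 a b), fun x => (h.2 x).add (h'.2 x)⟩
  | succ n ih =>
    intro A B _ _ T T' C C' h h'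
    refine ⟨⟨fun a b => (h.1.1 a b).add (h'.1.1 a b), fun x => (h.1.2 x).add (h'.1.2 x)⟩, ?_⟩
    have := ih h.2 h'.2
    convert this using 4 with x ja b
    exact D_add (h.1.1 _ _) (h'.1.1 _ _) _ _

theorem Good.neg {n : ℕ} : ∀ {A B : Type} [Fintype A] [Fintype B] {T : E d → A → B → ℝ}
    {C : ℝ}, Good d n T C → Good d n (fun x a b => -T x a b) C := by
  induction n with
  | zero =>
    intro A B _ _ T C h
    exact ⟨fun a b => (h.1 a b).neg, fun x => (h.2 x).neg⟩
  | succ n ih =>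
    intro A B _ _ T C h
    refine ⟨⟨fun a b => (h.1.1 a b).neg, fun x => (h.1.2 x).neg⟩, ?_⟩
    have := ih h.2
    convert this using 4 with x ja b
    exact D_neg _ _ _

theorem Good.zero {n : ℕ} : ∀ {A B : Type} [Fintype A] [Fintype B],
    Good d n (fun _ (_ : A) (_ : B) => (0 : ℝ)) 0 := by
  induction n with
  | zero => intro A B _ _; exact ⟨fun a b => contDiff_const, fun x => OpBd.zero⟩
  | succ n ih =>
    intro A B _ _
    refine ⟨⟨fun a b => contDiff_const, fun x => OpBd.zero⟩, ?_⟩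
    have := @ih (Fin d × A) B _ _
    convert this using 4 with x ja b
    exact D_const _ _ _

theorem Good.reidx {n : ℕ} : ∀ {A B A' B' : Type} [Fintype A] [Fintype B] [Fintype A'] [Fintype B']
    {T : E d → A → B → ℝ} {C : ℝ}, Good d n T C → ∀ (f : A' → A) (g : B' → B),
    Function.Injective f → Function.Injective g →
    Good d n (fun x a b => T x (f a) (g b)) C := by
  induction n with
  | zero =>
    intro A B A' B' _ _ _ _ T C h f g hf hg
    exact ⟨fun a b => h.1 _ _, fun x => (h.2 x).reidx f g hf hg⟩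
  | succ n ih =>
    intro A B A' B' _ _ _ _ T C h f g hf hg
    refine ⟨⟨fun a b => h.1.1 _ _, fun x => (h.1.2 x).reidx f g hf hg⟩, ?_⟩
    exact ih h.2 (Prod.map id f) g (Function.injective_id.prodMap hf) hg

theorem Good.prod {n : ℕ} : ∀ {A B A' B' : Type} [Fintype A] [Fintype B] [Fintype A'] [Fintype B']
    {T : E d → A → B → ℝ} {T' : E d → A' → B' → ℝ} {C C' : ℝ}, Good d n T C → Good d n T' C' →
    Good d n (fun x (a : A × A') (b : B × B') => T x a.1 b.1 * T' x a.2 b.2)
      (2 ^ n * (C * C')) := by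
  induction n with
  | zero =>
    intro A B A' B' _ _ _ _ T T' C C' h h'
    exact ⟨fun a b => (h.1 _ _).mul (h'.1 _ _), fun x => by
      simpa using (h.2 x).prod (h'.2 x)⟩
  | succ n ih =>
    intro A B A' B' _ _ _ _ T T' C C' h h'
    have hC : 0 ≤ C * C' := mul_nonneg (h.1.2 0).1 (h'.1.2 0).1
    refine ⟨⟨fun a b => (h.1.1 _ _).mul (h'.1.1 _ _), fun x =>
      ((h.1.2 x).prod (h'.1.2 x)).mono ?_⟩, ?_⟩
    · have : (1 : ℝ) ≤ 2 ^ (n + 1) := one_le_pow₀ (by norm_num)
      nlinarith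
    · have h1 := (ih h.2 h'.pred).reidx
        (fun ja : Fin d × (A × A') => ((ja.1, ja.2.1), ja.2.2)) id
        (by rintro ⟨j, a, a'⟩ ⟨j', b, b'⟩ hh; simp_all) Function.injective_id
      have h2 := (ih h.pred h'.2).reidx
        (fun ja : Fin d × (A × A') => (ja.2.1, (ja.1, ja.2.2))) id
        (by rintro ⟨j, a, a'⟩ ⟨j', b, b'⟩ hh; simp_all) Function.injective_id
      have h3 := h1.add h2
      convert h3 using 4 with x ja b
      · exact D_mul (h.1.1 _ _) (h'.1.1 _ _) _ _
      · ring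

theorem Good.lsum {n : ℕ} {A B M : Type} [Fintype A] [Fintype B] (T : M → E d → A → B → ℝ)
    (C : M → ℝ) (ms : List M) (h : ∀ m ∈ ms, Good d n (T m) (C m)) :
    Good d n (fun x a b => (ms.map fun m => T m x a b).sum) (ms.map C).sum := by
  induction ms with
  | nil => simpa using Good.zero
  | cons m ms ih =>
    simp only [List.map_cons, List.sum_cons]
    exact (h m (by simp)).add (ih fun m' hm' => h m' (by simp [hm']))

theorem Good.iter {n : ℕ} : ∀ {A B : Type} [Fintype A] [Fintype B] {T : E d → A → B → ℝ} {C : ℝ},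
    Good d n T C → ∀ x, OpBd (fun (ja : List.Vector (Fin d) n × A) b =>
      iterD ja.1.toList.reverse (fun y => T y ja.2 b) x) C := by
  induction n with
  | zero =>
    intro A B _ _ T C h x
    have := (h.2 x).reidx (fun ja : List.Vector (Fin d) 0 × A => ja.2) id
      (by rintro ⟨j, a⟩ ⟨j', b⟩ hh; simp_all [Subsingleton.elim j j']) Function.injective_id
    convert this using 3 with ja b
    rw [ja.1.eq_nil]
    rfl
  | succ n ih =>
    intro A B _ _ T C h x
    have := (ih h.2 x).reidx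
      (fun ja : List.Vector (Fin d) (n + 1) × A => (ja.1.tail, (ja.1.head, ja.2))) id
      (by
        rintro ⟨j, a⟩ ⟨j', b⟩ hh
        simp only [Prod.mk.injEq] at hh ⊢
        refine ⟨?_, hh.2.2⟩
        rw [← j.cons_head_tail, ← j'.cons_head_tail, hh.1, hh.2.1]) Function.injective_id
    convert this using 3 with ja b
    conv_lhs => rw [← ja.1.cons_head_tail]
    rw [List.Vector.toList_cons, List.reverse_cons, iterD_append]
    rfl

end FBK

end Crest.Agent.R285
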