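import Crest.Agent.R285.FBKA

/-!
# Row 285: calculus of Appell polynomials under the posterior expectation
-/

set_option autoImplicit false

open MeasureTheory ProbabilityTheory Set
open scoped ENNReal NNReal ContDiff RealInnerProductSpace
open Crest.OracleSampling

noncomputable section

namespace Crest.Agent.R285

namespace FBK

variable {d : ℕ}

/-- the facts used, for a fixed potential and time -/
structure Ctx (U : E d → ℝ) (t : ℝ) : Prop where
  tpos : 0 < t
  Zpos : ∀ x, 0 < Zf U t x
  Fsm : ContDiff ℝ ∞ (Ff U t)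
  DF : ∀ i, D i (Ff U t) = fun x => GF U t x i
  mul : ∀ ψ χ : E d → E d → ℝ, Sep ψ → Sep χ → Sep fun x X => ψ x X * χ x X
  ap : ∀ l, Sep (AP U t l)
  au : ∀ i l, Sep (Au U t i l)
  mean : ∀ x i, Ept U t x (fun X => gradient U X i) = GF U t x i
  one : ∀ x, Ept U t x (fun _ => 1) = 1
  sm : ∀ ψ : E d → E d → ℝ, Sep ψ → ∀ X, ContDiff ℝ ∞ fun x => ψ x X
  pd : ∀ ψ : E d → E d → ℝ, Sep ψ → ∀ j, Sep fun x X => fderiv ℝ (fun x' => ψ x' X) x (ee j)
  ddS : ∀ ψ : E d → E d → ℝ, Sep ψ → ∀ j, Sep (dd U t j ψ)
  int : ∀ ψ : E d → E d → ℝ, Sep ψ → ∀ x,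
    Integrable (fun w => ψ x (x + √t • w) * Real.exp (-U (x + √t • w))) (gam d)
  esm : ∀ ψ : E d → E d → ℝ, Sep ψ → ContDiff ℝ ∞ fun x => Ept U t x (ψ x)
  ed : ∀ ψ : E d → E d → ℝ, Sep ψ → ∀ x j,
    D j (fun x' => Ept U t x' (ψ x')) x = Ept U t x (dd U t j ψ x)

theorem PG_one : PG (fun _ : E d => (1 : ℝ)) := ⟨continuous_const, 1, 0, fun x => by simp⟩

theorem Sep_x {k : E d → ℝ} (hk : ContDiff ℝ ∞ k) : Sep fun x (_ : E d) => k x := by
  simpa using Sep.base k (fun _ => 1) hk PG_one

variable {U : E d → ℝ} {t : ℝ}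

theorem Ctx.smul (c : Ctx U t) {k : E d → ℝ} (hk : ContDiff ℝ ∞ k) {ψ : E d → E d → ℝ}
    (h : Sep ψ) : Sep fun x X => k x * ψ x X := c.mul _ _ (Sep_x hk) h

theorem Sep_sum {M : Type} (s : Finset M) (ψ : M → E d → E d → ℝ) (h : ∀ m, Sep (ψ m)) :
    Sep fun x X => ∑ m ∈ s, ψ m x X := by
  classical
  induction s using Finset.induction_on with
  | empty => simpa using Sep_x (k := fun _ : E d => (0 : ℝ)) contDiff_const
  | insert a s ha ih =>
    simp only [Finset.sum_insert ha]
    exact (h a).add ih

theorem Sep_lsum {M : Type} (ms : List M) (ψ : M → E d → E d → ℝ) (h : ∀ m, Sep (ψ m)) :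
    Sep fun x X => (ms.map fun m => ψ m x X).sum := by
  induction ms with
  | nil => simpa using Sep_x (k := fun _ : E d => (0 : ℝ)) contDiff_const
  | cons a s ih =>
    simp only [List.map_cons, List.sum_cons]
    exact (h a).add ih

theorem Ept_cmul (x : E d) (a : ℝ) (h : E d → ℝ) :
    Ept U t x (fun X => a * h X) = a * Ept U t x h := by
  unfold Ept
  simp only [mul_assoc]
  rw [integral_const_mul]
  ring

theorem Ctx.Eadd (c : Ctx U t) {ψ χ : E d → E d → ℝ} (h : Sep ψ) (h' : Sep χ) (x : E d) :
    Ept U t x (fun X => ψ x X + χ x X) = Ept U t x (ψ x) + Ept U t x (χ x) := by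
  unfold Ept
  simp only [add_mul]
  rw [integral_add (c.int _ h x) (c.int _ h' x)]
  ring

theorem Ept_zero (x : E d) : Ept U t x (fun _ => 0) = 0 := by
  unfold Ept
  simp

theorem Ctx.Esum (c : Ctx U t) {M : Type} (s : Finset M) (ψ : M → E d → E d → ℝ)
    (h : ∀ m, Sep (ψ m)) (x : E d) :
    Ept U t x (fun X => ∑ m ∈ s, ψ m x X) = ∑ m ∈ s, Ept U t x (ψ m x) := by
  classical
  induction s using Finset.induction_on with
  | empty => simpa using Ept_zero x
  | insert a s ha ih =>
    simp only [Finset.sum_insert ha]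
    rw [← ih]
    exact c.Eadd (h a) (Sep_sum s ψ h) x

theorem Ctx.Elsum (c : Ctx U t) {M : Type} (ms : List M) (ψ : M → E d → E d → ℝ)
    (h : ∀ m, Sep (ψ m)) (x : E d) :
    Ept U t x (fun X => (ms.map fun m => ψ m x X).sum) =
      (ms.map fun m => Ept U t x (ψ m x)).sum := by
  induction ms with
  | nil => simpa using Ept_zero x
  | cons a s ih =>
    simp only [List.map_cons, List.sum_cons]
    rw [← ih]
    exact c.Eadd (h a) (Sep_lsum s ψ h) x

theorem Ctx.Enonneg (c : Ctx U t) (x : E d) {h : E d → ℝ} (hh : ∀ X, 0 ≤ h X) :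
    0 ≤ Ept U t x h :=
  mul_nonneg (inv_nonneg.2 (c.Zpos x).le)
    (integral_nonneg fun _ => mul_nonneg (hh _) (Real.exp_pos _).le)

theorem Ctx.cs (c : Ctx U t) {ψ χ : E d → E d → ℝ} (h : Sep ψ) (h' : Sep χ) (x : E d) :
    (Ept U t x fun X => ψ x X * χ x X) ^ 2 ≤
      (Ept U t x fun X => ψ x X ^ 2) * Ept U t x fun X => χ x X ^ 2 := by
  have key : ∀ s : ℝ, 0 ≤ (Ept U t x fun X => ψ x X ^ 2) * (s * s) +
      (2 * Ept U t x fun X => ψ x X * χ x X) * s + Ept U t x fun X => χ x X ^ 2 := by
    intro s
    have h0 := c.Enonneg x (h := fun X => (s * ψ x X + χ x X) ^ 2) fun X => sq_nonneg _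
    have e : (fun X => (s * ψ x X + χ x X) ^ 2) = fun X =>
        ((s * s) * (ψ x X * ψ x X) + (2 * s) * (ψ x X * χ x X)) + χ x X * χ x X := by
      funext X; ring
    have s1 := c.smul (k := fun _ => s * s) contDiff_const (c.mul _ _ h h)
    have s2 := c.smul (k := fun _ => 2 * s) contDiff_const (c.mul _ _ h h')
    rw [e, c.Eadd (s1.add s2) (c.mul _ _ h' h') x, c.Eadd s1 s2 x, Ept_cmul, Ept_cmul] at h0
    simp only [sq]
    linarith
  have := discrim_le_zero key
  unfold discrim at this
  nlinarith

/-- the score -/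
def sc (U : E d → ℝ) (t : ℝ) (j : Fin d) (x X : E d) : ℝ := (X j - x j) / t + GF U t x j

theorem dd_eq (j : Fin d) (ψ : E d → E d → ℝ) (x X : E d) :
    dd U t j ψ x X = D j (fun x' => ψ x' X) x + ψ x X * sc U t j x X := rfl

theorem AP_cons (j : Fin d) (l : List (Fin d)) : AP U t (j :: l) = dd U t j (AP U t l) := rfl

theorem AP_one (j : Fin d) (x X : E d) : AP U t [j] x X = sc U t j x X := by
  rw [AP_cons, dd_eq]
  show D j (fun _ => (1 : ℝ)) x + 1 * _ = _
  rw [D_const]; ring

theorem Ctx.foldS (c : Ctx U t) {ψ : E d → E d → ℝ} (h : Sep ψ) (l : List (Fin d)) :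
    Sep (l.foldr (dd U t) ψ) := by
  induction l with
  | nil => exact h
  | cons j l ih => exact c.ddS _ ih j

theorem Ctx.iterE (c : Ctx U t) {ψ : E d → E d → ℝ} (h : Sep ψ) (l : List (Fin d)) :
    iterD l (fun x => Ept U t x (ψ x)) = fun x => Ept U t x (l.foldr (dd U t) ψ x) := by
  induction l with
  | nil => rfl
  | cons j l ih =>
    show D j (iterD l _) = _
    rw [ih]
    funext x
    exact c.ed _ (c.foldS h l) x j

theorem Ctx.fold_h (c : Ctx U t) (h : E d → ℝ) (l : List (Fin d)) :
    l.foldr (dd U t) (fun _ X => h X) = fun x X => h X * AP U t l x X := by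
  induction l with
  | nil => funext x X; show h X = h X * 1; ring
  | cons j l ih =>
    funext x X
    rw [List.foldr_cons, ih, AP_cons, dd_eq, dd_eq,
      D_mul contDiff_const (c.sm _ (c.ap l) X), D_const]
    ring

theorem iterD_const (a : ℝ) {l : List (Fin d)} (hl : l ≠ []) :
    iterD l (fun _ : E d => a) = fun _ => 0 := by
  induction l with
  | nil => exact absurd rfl hl
  | cons j l ih =>
    show D j (iterD l _) = _
    funext x
    rcases eq_or_ne l [] with rfl | h
    · exact D_const _ _ _
    · rw [ih h]; exact D_const _ _ _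

theorem Ctx.EAP (c : Ctx U t) {l : List (Fin d)} (hl : l ≠ []) (x : E d) :
    Ept U t x (AP U t l x) = 0 := by
  have h := c.iterE (Sep_x (k := fun _ => (1 : ℝ)) contDiff_const) l
  have e : (fun x => Ept U t x fun _ => 1) = fun _ : E d => (1 : ℝ) := funext c.one
  rw [e, iterD_const _ hl] at h
  exact (congrFun h x).symm

theorem Ctx.cent (c : Ctx U t) (h k : E d → ℝ) (hk : ContDiff ℝ ∞ k) {ψ : E d → E d → ℝ}
    (hψ : Sep ψ) (e : ∀ x X, ψ x X = h X - k x) (h0 : ∀ x, Ept U t x (ψ x) = 0)
    {l : List (Fin d)} (hl : l ≠ []) (x : E d) :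
    iterD l k x = Ept U t x fun X => ψ x X * AP U t l x X := by
  have e1 : (fun (_ : E d) X => h X) = fun x X => ψ x X + k x := by
    funext x X; rw [e]; ring
  have hS : Sep fun (_ : E d) X => h X := by rw [e1]; exact hψ.add (Sep_x hk)
  have e2 : (fun x => Ept U t x h) = k := by
    funext x
    have := c.Eadd hψ (Sep_x hk) x
    rw [h0, zero_add] at this
    have h3 := Ept_cmul (U := U) (t := t) x (k x) (fun _ => 1)
    simp only [c.one, mul_one] at h3
    rw [← h3, ← this]
    congr 1
    funext X
    rw [e]; ring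
  have h1 := c.iterE hS l
  rw [e2, c.fold_h] at h1
  rw [h1]
  have e3 : (fun X => h X * AP U t l x X) =
      fun X => ψ x X * AP U t l x X + k x * AP U t l x X := by
    funext X; rw [e]; ring
  show Ept U t x (fun X => h X * AP U t l x X) = _
  rw [e3, c.Eadd (c.mul _ _ hψ (c.ap l)) (c.smul hk (c.ap l)) x, Ept_cmul, c.EAP hl]
  ring

/-- `κ_j = E X_j / t` -/
def kap (U : E d → ℝ) (t : ℝ) (j : Fin d) (x : E d) : ℝ := x j / t - GF U t x j

theorem Ctx.Gsm (c : Ctx U t) (j : Fin d) : ContDiff ℝ ∞ fun x => GF U t x j := by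
  rw [← c.DF]; exact D_smooth c.Fsm j

theorem coord_sm (j : Fin d) : ContDiff ℝ ∞ fun x : E d => x j :=
  (EuclideanSpace.proj j : E d →L[ℝ] ℝ).contDiff

theorem Ctx.ksm (c : Ctx U t) (j : Fin d) : ContDiff ℝ ∞ (kap U t j) :=
  ((coord_sm j).div_const t).sub (c.Gsm j)

theorem D_coord (i j : Fin d) (x : E d) : D i (fun x : E d => x j) x = if i = j then 1 else 0 := by
  unfold D
  have : (fun x : E d => x j) = (EuclideanSpace.proj j : E d →L[ℝ] ℝ) := rfl
  rw [this, ContinuousLinearMap.fderiv]
  simp [ee, eq_comm]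

theorem Ctx.D_kap (c : Ctx U t) (i j : Fin d) (x : E d) :
    D i (kap U t j) x = t⁻¹ * (if i = j then 1 else 0) - D i (D j (Ff U t)) x := by
  have e : kap U t j = fun x => t⁻¹ * x j + -GF U t x j := by
    funext x; unfold kap; ring
  rw [e, D_add (contDiff_const.mul (coord_sm j)) (c.Gsm j).neg, D_neg,
    D_mul contDiff_const (coord_sm j), D_const, D_coord, c.DF]
  ring

theorem Ctx.D_sc (c : Ctx U t) (i j : Fin d) (x X : E d) :
    D j (fun x => sc U t i x X) x = -D i (kap U t j) x := by
  have e : (fun x => sc U t i x X) = fun x => X i / t + -kap U t i x := by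
    funext x; unfold sc kap; ring
  rw [e, D_add contDiff_const (c.ksm i).neg, D_neg, D_const, c.D_kap, c.D_kap, D_comm c.Fsm i j]
  by_cases h : i = j
  · simp [h]
  · simp [h, Ne.symm h]

theorem Ctx.kapE (c : Ctx U t) (j : Fin d) {l : List (Fin d)} (hl : l ≠ []) (x : E d) :
    iterD l (kap U t j) x = Ept U t x fun X => AP U t [j] x X * AP U t l x X :=
  c.cent (fun X => X j / t) _ (c.ksm j) (c.ap [j])
    (fun x X => by rw [AP_one]; unfold sc kap; ring) (c.EAP (by simp)) hl x

theorem Ctx.GE (c : Ctx U t) (i : Fin d) {l : List (Fin d)} (hl : l ≠ []) (x : E d) :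
    iterD l (fun x => GF U t x i) x = Ept U t x fun X => Au U t i [] x X * AP U t l x X := by
  refine c.cent (fun X => gradient U X i) _ (c.Gsm i) (c.au i []) (fun x X => rfl) ?_ hl x
  intro x
  have h1 := c.Eadd (c.au i []) (Sep_x (c.Gsm i)) x
  have h3 := Ept_cmul (U := U) (t := t) x (GF U t x i) (fun _ => 1)
  simp only [c.one, mul_one] at h3
  have e : (fun X => Au U t i [] x X + GF U t x i) = fun X => gradient U X i := by
    funext X
    show gradient U X i - GF U t x i + GF U t x i = _
    ring
  rw [e, c.mean, h3] at h1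
  linarith

/-! ## masks -/

/-- selected entries -/
def sel {α : Type} : List Bool → List α → List α
  | b :: m, a :: l => if b then a :: sel m l else sel m l
  | _, _ => []

/-- rejected entries -/
def rej {α : Type} : List Bool → List α → List α
  | b :: m, a :: l => if b then rej m l else a :: rej m l
  | _, l => l

/-- the nonzero masks -/
def nm : ℕ → List (List Bool)
  | 0 => []
  | n + 1 => [true] :: ((nm n).map (true :: ·) ++ (nm n).map (false :: ·))

theorem nm_spec : ∀ (n : ℕ), ∀ m ∈ nm n, m.length ≤ n ∧ 0 < m.count true := by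
  intro n
  induction n with
  | zero => simp [nm]
  | succ n ih =>
    intro m hm
    simp only [nm, List.mem_cons, List.mem_append, List.mem_map] at hm
    rcases hm with rfl | ⟨m', h, rfl⟩ | ⟨m', h, rfl⟩
    · simp
    · simp [(ih m' h).1]
    · simpa using ih m' h

theorem sel_length {α : Type} : ∀ (m : List Bool) (l : List α), m.length ≤ l.length →
    (sel m l).length = m.count true
  | [], l, _ => by cases l <;> simp [sel]
  | b :: m, [], h => by simp at h
  | b :: m, a :: l, h => by
    have := sel_length m l (by simpa using h)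
    cases b <;> simp [sel, this]

theorem sel_rej_length {α : Type} : ∀ (m : List Bool) (l : List α),
    (sel m l).length + (rej m l).length = l.length
  | [], l => by cases l <;> simp [sel, rej]
  | b :: m, [] => by simp [sel, rej]
  | b :: m, a :: l => by
    have := sel_rej_length m l
    cases b <;> simp [sel, rej] <;> omega

theorem sel_rej_inj {α : Type} : ∀ (m : List Bool) (l l' : List α), l.length = l'.length →
    sel m l = sel m l' → rej m l = rej m l' → l = l'
  | [], l, l', _, _, h => by simpa [rej] using h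
  | b :: m, [], l', h, _, _ => by cases l' <;> simp_all
  | b :: m, a :: l, [], h, _, _ => by simp at h
  | b :: m, a :: l, a' :: l', h, h1, h2 => by
    have ih := sel_rej_inj m l l' (by simpa using h)
    cases b
    · simp only [sel, rej, Bool.false_eq_true, if_false, List.cons.injEq] at h1 h2 ⊢
      exact ⟨h2.1, ih h1 h2.2⟩
    · simp only [sel, rej, if_true, List.cons.injEq] at h1 h2 ⊢
      exact ⟨h1.1, ih h1.2 h2⟩

theorem D_lsum {M : Type} (ms : List M) (f : M → E d → ℝ) (h : ∀ m, ContDiff ℝ ∞ (f m)) :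
    (ContDiff ℝ ∞ fun x => (ms.map fun m => f m x).sum) ∧ ∀ j x,
      D j (fun x => (ms.map fun m => f m x).sum) x = (ms.map fun m => D j (f m) x).sum := by
  induction ms with
  | nil => exact ⟨by simpa using contDiff_const, fun j x => by simpa using D_const _ _ _⟩
  | cons a s ih =>
    simp only [List.map_cons, List.sum_cons]
    exact ⟨(h a).add ih.1, fun j x => by rw [D_add (h a) ih.1, ih.2]⟩

/-- expansion of the `x`-derivative of an Appell polynomial -/
theorem Ctx.D_AP (c : Ctx U t) (j : Fin d) (X : E d) (l : List (Fin d)) :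
    D j (fun x => AP U t l x X) = fun x => -((nm l.length).map fun m =>
      iterD (sel m l) (kap U t j) x * AP U t (rej m l) x X).sum := by
  induction l with
  | nil =>
    funext x
    simp only [List.length_nil, nm, List.map_nil, List.sum_nil, neg_zero]
    exact D_const (d := d) 1 j x
  | cons i l ih =>
    funext x
    have sA := fun l => c.sm _ (c.ap l) X
    have ssc : ContDiff ℝ ∞ fun x => sc U t i x X := by
      have := sA [i]
      simpa only [AP_one] using this
    have e : (fun x => AP U t (i :: l) x X) =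
        fun x => D i (fun x => AP U t l x X) x + AP U t l x X * sc U t i x X := rfl
    have hK := fun m => iterD_smooth (c.ksm j) (sel m l)
    have hs := D_lsum (nm l.length)
      (fun m x => iterD (sel m l) (kap U t j) x * AP U t (rej m l) x X)
      (fun m => (hK m).mul (sA _))
    rw [e, D_add (D_smooth (sA l) i) ((sA l).mul ssc), D_mul (sA l) ssc, c.D_sc,
      D_comm (sA l) j i, ih, D_neg, hs.2]
    simp only [List.length_cons, nm, List.map_cons, List.map_append, List.map_map, List.sum_cons,
      List.sum_append, Function.comp_def, sel, rej, if_true, Bool.false_eq_true, if_false]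
    have e1 : ∀ m, D i (fun x => iterD (sel m l) (kap U t j) x * AP U t (rej m l) x X) x =
        iterD (i :: sel m l) (kap U t j) x * AP U t (rej m l) x X +
          (iterD (sel m l) (kap U t j) x * AP U t (i :: rej m l) x X +
            iterD (sel m l) (kap U t j) x * AP U t (rej m l) x X * (-sc U t i x X)) := by
      intro m
      rw [D_mul (hK m) (sA _), AP_cons, dd_eq]
      show _ = D i (iterD (sel m l) (kap U t j)) x * _ + _
      ring
    simp only [e1, List.sum_map_add, List.sum_map_mul_right]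
    have e2 : iterD [i] (kap U t j) x = D i (kap U t j) x := rfl
    rw [e2]
    ring

end FBK

end Crest.Agent.R285
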