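import Crest.Agent.R285.DefsT

/-!
# Row 285: existence of the measure-transporting flows (`StmtFlow`)
-/

set_option autoImplicit false

open MeasureTheory ProbabilityTheory Set
open scoped ENNReal NNReal ContDiff RealInnerProductSpace
open Crest.OracleSampling

noncomputable section

namespace Crest.Agent.R285

namespace FlowAux

variable {d : ℕ}

lemma isOpen_OO : IsOpen OO := by
  unfold OO
  exact isOpen_lt (by fun_prop) continuous_const

lemma isOpen_P : IsOpen {p : Ph d | p.1 ∈ OO} := isOpen_OO.preimage continuous_fst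

lemma seg_mem {a α : ℝ × ℝ} (ha : a ∈ OO) (hb : a + α ∈ OO) {τ : ℝ} (hτ : τ ∈ Icc (0 : ℝ) 1) :
    a + τ • α ∈ OO := by
  obtain ⟨h0, h1⟩ := hτ
  simp only [OO, mem_ofPred_eq, Prod.fst_add, Prod.snd_add, Prod.smul_fst, Prod.smul_snd,
    smul_eq_mul] at ha hb ⊢
  have e : (a.1 + τ * α.1) ^ 2 + (a.2 + τ * α.2) ^ 2 =
      (1 - τ) * (a.1 ^ 2 + a.2 ^ 2) + τ * ((a.1 + α.1) ^ 2 + (a.2 + α.2) ^ 2) -
        τ * (1 - τ) * (α.1 ^ 2 + α.2 ^ 2) := by ring
  rw [e]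
  have h2 : 0 ≤ τ * (1 - τ) * (α.1 ^ 2 + α.2 ^ 2) :=
    mul_nonneg (mul_nonneg h0 (by linarith)) (by positivity)
  rcases eq_or_lt_of_le h0 with h | h
  · subst h; simpa using ha
  · have h3 : τ * ((a.1 + α.1) ^ 2 + (a.2 + α.2) ^ 2) < τ * (1 / 2) := mul_lt_mul_of_pos_left hb h
    have h4 : (1 - τ) * (a.1 ^ 2 + a.2 ^ 2) ≤ (1 - τ) * (1 / 2) :=
      mul_le_mul_of_nonneg_left ha.le (by linarith)
    linarith

lemma exists_eta {a α : ℝ × ℝ} (ha : a ∈ OO) (hb : a + α ∈ OO) :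
    ∃ η : ℝ, 0 < η ∧ ∀ τ ∈ Ioo (-η) (1 + η), a + τ • α ∈ OO := by
  have hc : Continuous fun τ : ℝ => a + τ • α := by fun_prop
  have ho : IsOpen {τ : ℝ | a + τ • α ∈ OO} := isOpen_OO.preimage hc
  obtain ⟨η1, h1, h1'⟩ := Metric.isOpen_iff.1 ho 0 (by simpa using ha)
  obtain ⟨η2, h2, h2'⟩ := Metric.isOpen_iff.1 ho 1 (by simpa using hb)
  refine ⟨min η1 η2, lt_min h1 h2, fun τ hτ => ?_⟩
  have m1 := min_le_left η1 η2
  have m2 := min_le_right η1 η2
  by_cases c0 : τ < 0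
  · apply h1'
    rw [Metric.mem_ball, Real.dist_eq, abs_lt]
    constructor <;> linarith [hτ.1]
  by_cases c1 : 1 < τ
  · apply h2'
    rw [Metric.mem_ball, Real.dist_eq, abs_lt]
    constructor <;> linarith [hτ.2]
  exact seg_mem ha hb ⟨not_lt.1 c0, not_lt.1 c1⟩

lemma t_mem {a : ℝ × ℝ} (ha : a ∈ OO) : 1 - a.1 ^ 2 - a.2 ^ 2 ∈ Icc (1 / 2 : ℝ) 1 := by
  simp only [OO, mem_ofPred_eq] at ha
  constructor
  · linarith
  · nlinarith [sq_nonneg a.1, sq_nonneg a.2]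

lemma abs_aa_le {p : Ph d} (hp : p.1 ∈ OO) (β : Bool) : |aa β p| ≤ 1 := by
  simp only [OO, mem_ofPred_eq] at hp
  rw [← sq_le_one_iff_abs_le_one]
  cases β
  · simp only [aa, cond_false]; nlinarith [sq_nonneg p.1.2]
  · simp only [aa, cond_true]; nlinarith [sq_nonneg p.1.1]

/-! ### entries of bounded tensors -/

lemma FB_entry {k : ℕ} {T : (Fin (k + 2) → Fin d) → ℝ} {C : ℝ} (h : FB T C)
    (u : Fin (k + 2) → Fin d) : |T u| ≤ C := by
  classical
  let e : Fin (k + 2) ≃ Fin (k + 1) ⊕ Fin 1 := (finSumFinEquiv (m := k + 1) (n := 1)).symm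
  let u1 : Fin (k + 1) → Fin d := fun x => u (e.symm (Sum.inl x))
  let u2 : Fin 1 → Fin d := fun x => u (e.symm (Sum.inr x))
  have := h (Fin (k + 1)) (Fin 1) e (fun v => if v = u1 then 1 else 0)
    (fun v => if v = u2 then 1 else 0)
  have hu : Sum.elim u1 u2 ∘ e = u := by
    funext s
    have : ∀ z : Fin (k + 1) ⊕ Fin 1, Sum.elim u1 u2 z = u (e.symm z) := by
      rintro (z | z) <;> rfl
    simp [this]
  simpa [hu] using this

lemma J_bound (hF : StmtFB) {δ : ℝ} {U : E d → ℝ} (hU : Pot δ U) (hδ : δ ≤ 1 / 2) :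
    ∃ C : ℝ, ∀ p : Ph d, p.1 ∈ OO → ∀ l i m,
      |lift (Jx U l i) p| ≤ C ∧ |lift (nab m (Jx U l i)) p| ≤ C := by
  obtain ⟨C0, h0⟩ := hF 0
  obtain ⟨C1, h1⟩ := hF 1
  refine ⟨max (C0 * δ) (C1 * δ), fun p hp l i m => ⟨?_, ?_⟩⟩
  · have := FB_entry (h0 d δ U hU hδ
      (1 - p.1.1 ^ 2 - p.1.2 ^ 2, p.1.1 • p.2.1 + p.1.2 • p.2.2) (t_mem hp)) ![l, i]
    refine le_trans ?_ (le_max_left _ _)
    simpa [iterN, lift, Jx, List.ofFn_succ] using this
  · have := FB_entry (h1 d δ U hU hδ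
      (1 - p.1.1 ^ 2 - p.1.2 ^ 2, p.1.1 • p.2.1 + p.1.2 • p.2.2) (t_mem hp)) ![m, l, i]
    refine le_trans ?_ (le_max_right _ _)
    simpa [iterN, lift, Jx, List.ofFn_succ] using this

/-! ### linear growth -/

/-- linear growth in the Gaussian variables over the parameter disc -/
def LG {Y : Type} [NormedAddCommGroup Y] (f : Ph d → Y) : Prop :=
  ∃ K : ℝ, 0 ≤ K ∧ ∀ p : Ph d, p.1 ∈ OO → ‖f p‖ ≤ K * (1 + ‖p.2‖)

lemma LG.add {Y : Type} [NormedAddCommGroup Y] {f g : Ph d → Y} (hf : LG f) (hg : LG g) :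
    LG fun p => f p + g p := by
  obtain ⟨K, hK, h⟩ := hf
  obtain ⟨K', hK', h'⟩ := hg
  refine ⟨K + K', by positivity, fun p hp => ?_⟩
  have := norm_add_le (f p) (g p)
  have := h p hp
  have := h' p hp
  nlinarith

lemma LG.of_le {Y Z : Type} [NormedAddCommGroup Y] [NormedAddCommGroup Z] {f : Ph d → Y}
    {g : Ph d → Z} (hf : LG f) (C : ℝ) (h : ∀ p : Ph d, p.1 ∈ OO → ‖g p‖ ≤ C * ‖f p‖) : LG g := by
  obtain ⟨K, hK, h'⟩ := hf
  refine ⟨|C| * K, by positivity, fun p hp => ?_⟩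
  calc ‖g p‖ ≤ C * ‖f p‖ := h p hp
    _ ≤ |C| * ‖f p‖ := mul_le_mul_of_nonneg_right (le_abs_self C) (norm_nonneg _)
    _ ≤ |C| * (K * (1 + ‖p.2‖)) := mul_le_mul_of_nonneg_left (h' p hp) (abs_nonneg _)
    _ = _ := by ring

lemma LG.of_bdd {Y : Type} [NormedAddCommGroup Y] {f : Ph d → Y} (C : ℝ)
    (h : ∀ p : Ph d, p.1 ∈ OO → ‖f p‖ ≤ C) : LG f := by
  refine ⟨|C|, abs_nonneg _, fun p hp => ?_⟩
  have := h p hp
  have := le_abs_self C
  have := mul_nonneg (abs_nonneg C) (norm_nonneg p.2)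
  nlinarith

lemma LG.sum {Y ι : Type} [NormedAddCommGroup Y] (s : Finset ι) {f : ι → Ph d → Y}
    (hf : ∀ i ∈ s, LG (f i)) : LG fun p => ∑ i ∈ s, f i p := by
  classical
  induction s using Finset.induction_on with
  | empty => exact LG.of_bdd 0 (by simp)
  | insert i s hi ih =>
    simp only [Finset.sum_insert hi]
    exact (hf i (Finset.mem_insert_self _ _)).add
      (ih fun j hj => hf j (Finset.mem_insert_of_mem hj))

lemma LG.congr {Y : Type} [NormedAddCommGroup Y] {f g : Ph d → Y} (hf : LG f)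
    (h : ∀ p : Ph d, p.1 ∈ OO → g p = f p) : LG g :=
  hf.of_le 1 fun p hp => by rw [h p hp, one_mul]

lemma eq_sum_ee (v : E d) : v = ∑ i, v i • ee i := by
  ext j
  simp [Finset.sum_apply, Pi.single_apply]

lemma LG.of_coord {f : Ph d → E d} (hf : ∀ i, LG fun p => f p i) : LG f := by
  have h : LG fun p => ∑ i, f p i • ee i :=
    LG.sum _ fun i _ => (hf i).of_le 1 fun p _ => by simp [norm_smul]
  exact h.congr fun p _ => eq_sum_ee _

lemma LG.coord {f : Ph d → E d} (hf : LG f) (i : Fin d) : LG fun p => f p i :=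
  hf.of_le 1 fun p _ => by simpa using PiLp.norm_apply_le (f p) i

lemma LG_ww (β : Bool) : LG (ww β : Ph d → E d) := by
  refine ⟨1, zero_le_one, fun p _ => ?_⟩
  have h1 := norm_fst_le p.2
  have h2 := norm_snd_le p.2
  cases β
  · simp only [ww, cond_false]; linarith
  · simp only [ww, cond_true]; linarith

lemma LG_G (hCo : StmtCov) {δ : ℝ} {U : E d → ℝ} (hU : Pot δ U) (hδ : δ ≤ 1 / 2) :
    LG (Gp U) := by
  refine ⟨‖GF U 1 0‖ + 4 * √d + 4 * ‖GF U 1 0‖ + 2, by positivity, fun p hp => ?_⟩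
  have ht := t_mem hp
  have h := hCo.near d δ U hU hδ _ (p.1.1 • p.2.1 + p.1.2 • p.2.2) (by linarith [ht.1]) ht.2
  have a1 : |p.1.1| ≤ 1 := abs_aa_le hp false
  have a2 : |p.1.2| ≤ 1 := abs_aa_le hp true
  have h1 := norm_fst_le p.2
  have h2 := norm_snd_le p.2
  have hx : ‖p.1.1 • p.2.1 + p.1.2 • p.2.2‖ ≤ 2 * ‖p.2‖ := by
    refine (norm_add_le _ _).trans ?_
    rw [norm_smul, norm_smul, Real.norm_eq_abs, Real.norm_eq_abs]
    have := mul_le_mul_of_nonneg_right a1 (norm_nonneg p.2.1)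
    have := mul_le_mul_of_nonneg_right a2 (norm_nonneg p.2.2)
    linarith
  have h3 : ‖Gp U p‖ ≤ ‖Gp U p - GF U 1 0‖ + ‖GF U 1 0‖ := by
    simpa using norm_add_le (Gp U p - GF U 1 0) (GF U 1 0)
  have h4 : δ * (‖p.1.1 • p.2.1 + p.1.2 • p.2.2‖ + 4 * √d + 4 * ‖GF U 1 0‖) ≤
      1 * (2 * ‖p.2‖ + 4 * √d + 4 * ‖GF U 1 0‖) :=
    mul_le_mul (by linarith) (by linarith) (by positivity) zero_le_one
  have h5 : ‖Gp U p - GF U 1 0‖ ≤ _ := h
  have h6 : 0 ≤ (‖GF U 1 0‖ + 4 * √d + 4 * ‖GF U 1 0‖) * ‖p.2‖ := by positivity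
  nlinarith

lemma diffAt {Y : Type} [NormedAddCommGroup Y] [NormedSpace ℝ Y] {f : Ph d → Y}
    (hf : ContDiffOn ℝ ∞ f {p | p.1 ∈ OO}) {p : Ph d} (hp : p.1 ∈ OO) : DifferentiableAt ℝ f p :=
  (hf.contDiffAt (isOpen_P.mem_nhds hp)).differentiableAt (by simp)

lemma fderiv_coord {f : Ph d → E d} {p : Ph d} (hf : DifferentiableAt ℝ f p) (v : Ph d)
    (i : Fin d) : fderiv ℝ (fun p => f p i) p v = fderiv ℝ f p v i := by
  have h : HasFDerivAt (fun p => f p i)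
      ((EuclideanSpace.proj i : E d →L[ℝ] ℝ).comp (fderiv ℝ f p)) p :=
    (EuclideanSpace.proj i : E d →L[ℝ] ℝ).hasFDerivAt.comp p hf.hasFDerivAt
  rw [h.fderiv]
  rfl

lemma LG_DG (hCo : StmtCov) (hF : StmtFB) {δ : ℝ} {U : E d → ℝ} (hU : Pot δ U) (hδ : δ ≤ 1 / 2)
    (C : Calc U) (β : Bool) : LG (Lie (VV U β) (Gp U)) := by
  obtain ⟨B, hB⟩ := J_bound hF hU hδ
  refine LG.of_coord fun i => ?_
  have hw : ∀ l, LG fun p : Ph d => ww β p l + aa β p * Gp U p l := fun l =>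
    ((LG_ww β).coord l).add (((LG_G hCo hU hδ).coord l).of_le 1 fun p hp => by
      rw [norm_mul]
      exact mul_le_mul_of_nonneg_right (abs_aa_le hp β) (norm_nonneg _))
  have h : LG fun p : Ph d => ∑ l, ((ww β p l + aa β p * Gp U p l) * lift (Jx U l i) p +
      -(aa β p * lift (nab l (Jx U l i)) p)) := by
    refine LG.sum _ fun l _ => LG.add ((hw l).of_le B fun p hp => ?_) (LG.of_bdd B fun p hp => ?_)
    · rw [norm_mul, mul_comm]
      exact mul_le_mul_of_nonneg_right (hB p hp l i l).1 (norm_nonneg _)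
    · rw [norm_neg, norm_mul]
      have := mul_le_mul (abs_aa_le hp β) (hB p hp l i l).2 (abs_nonneg _) zero_le_one
      simpa using this
  refine h.congr fun p hp => ?_
  have e1 : Lie (VV U β) (Gp U) p i = Lie (VV U β) (fun p => Gp U p i) p :=
    (fderiv_coord (diffAt C.smG hp) _ i).symm
  rw [e1, C.D_G β i p hp]
  refine Finset.sum_congr rfl fun l _ => ?_
  rw [dl, C.pd_lift _ β l (C.smJ l i) p hp]
  ring

lemma LG.smul {Y : Type} [NormedAddCommGroup Y] [NormedSpace ℝ Y] {f : Ph d → Y} (hf : LG f)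
    (c : ℝ) : LG fun p => c • f p :=
  hf.of_le |c| fun p _ => by rw [norm_smul, Real.norm_eq_abs]

lemma LG_W (hCo : StmtCov) (hF : StmtFB) {δ : ℝ} {U : E d → ℝ} (hU : Pot δ U) (hδ : δ ≤ 1 / 2)
    (C : Calc U) (α : ℝ × ℝ) (lam : ℝ) : LG fun p => (WF U α lam p).2 := by
  have hG := LG_G hCo hU hδ
  have h1 : LG fun p => (V1 U p).2 := hG.of_le 1 fun p _ => by simp [V1, Prod.norm_def]
  have h2 : LG fun p => (V2 U p).2 := hG.of_le 1 fun p _ => by simp [V2, Prod.norm_def]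
  have h3 : LG fun p => ((-Lie (V2 U) (Gp U) p, 0) : E d × E d) :=
    (LG_DG hCo hF hU hδ C true).of_le 1 fun p _ => by simp [VV, Prod.norm_def]
  have h4 : LG fun p => ((0, Lie (V1 U) (Gp U) p) : E d × E d) :=
    (LG_DG hCo hF hU hδ C false).of_le 1 fun p _ => by simp [VV, Prod.norm_def]
  have h5 : LG fun p => (VB U p).2 := (h3.add h4).congr fun p _ => by simp [VB]
  exact (((h1.smul α.1).add (h2.smul α.2)).add (h5.smul lam)).congr fun p _ => by simp [WF]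

/-! ### smoothness -/

lemma sm_V1 {U : E d → ℝ} (C : Calc U) : ContDiffOn ℝ ∞ (V1 U) {p | p.1 ∈ OO} :=
  contDiffOn_const.prodMk (C.smG.neg.prodMk contDiffOn_const)

lemma sm_V2 {U : E d → ℝ} (C : Calc U) : ContDiffOn ℝ ∞ (V2 U) {p | p.1 ∈ OO} :=
  contDiffOn_const.prodMk (contDiffOn_const.prodMk C.smG.neg)

lemma sm_Lie {U : E d → ℝ} (C : Calc U) {W : Ph d → Ph d}
    (hW : ContDiffOn ℝ ∞ W {p | p.1 ∈ OO}) : ContDiffOn ℝ ∞ (Lie W (Gp U)) {p | p.1 ∈ OO} :=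
  (C.smG.fderiv_of_isOpen isOpen_P (m := ∞) (by simp)).clm_apply hW

lemma sm_VB {U : E d → ℝ} (C : Calc U) : ContDiffOn ℝ ∞ (VB U) {p | p.1 ∈ OO} :=
  contDiffOn_const.prodMk ((sm_Lie C (sm_V2 C)).neg.prodMk (sm_Lie C (sm_V1 C)))

lemma sm_WF {U : E d → ℝ} (C : Calc U) (α : ℝ × ℝ) (lam : ℝ) :
    ContDiffOn ℝ ∞ (WF U α lam) {p | p.1 ∈ OO} :=
  (((sm_V1 C).const_smul α.1).add ((sm_V2 C).const_smul α.2)).add ((sm_VB C).const_smul lam)

lemma WF_fst (U : E d → ℝ) (α : ℝ × ℝ) (lam : ℝ) (p : Ph d) : (WF U α lam p).1 = α := by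
  ext <;> simp [WF, V1, V2, VB]

/-! ### the trace -/

lemma trace_eq (A : E d × E d →ₗ[ℝ] E d × E d) :
    LinearMap.trace ℝ (E d × E d) A =
      ∑ i, (A (ee i, 0)).1 i + ∑ i, (A (0, ee i)).2 i := by
  classical
  let b := (EuclideanSpace.basisFun (Fin d) ℝ).toBasis
  rw [LinearMap.trace_eq_matrix_trace ℝ (b.prod b), Matrix.trace, Fintype.sum_sum_type]
  congr 1
  · refine Finset.sum_congr rfl fun i _ => ?_
    simp [LinearMap.toMatrix_apply, b, Module.Basis.prod_apply]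
  · refine Finset.sum_congr rfl fun i _ => ?_
    simp [LinearMap.toMatrix_apply, b, Module.Basis.prod_apply]

lemma decomp (α : ℝ × ℝ) (v : E d × E d) :
    ((α, v) : Ph d) = α.1 • (((1, 0), 0) : Ph d) + α.2 • (((0, 1), 0) : Ph d) +
      ∑ i, v.1 i • ew false i + ∑ i, v.2 i • ew true i := by
  refine Prod.ext ?_ (Prod.ext ?_ ?_)
  · ext <;> simp [Prod.fst_sum, ew]
  · simp only [Prod.fst_sum, Prod.snd_sum, ew, cond_false, cond_true, Prod.snd_add, Prod.fst_add,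
      Prod.smul_snd, Prod.smul_fst, smul_zero, Prod.fst_zero, Finset.sum_const_zero, add_zero,
      zero_add]
    exact eq_sum_ee _
  · simp only [Prod.fst_sum, Prod.snd_sum, ew, cond_false, cond_true, Prod.snd_add, Prod.fst_add,
      Prod.smul_snd, Prod.smul_fst, smul_zero, Prod.snd_zero, Finset.sum_const_zero, add_zero,
      zero_add]
    exact eq_sum_ee _

lemma dl_lin {U : E d → ℝ} {f g h : Ph d → ℝ} {p : Ph d} (hf : DifferentiableAt ℝ f p)
    (hg : DifferentiableAt ℝ g p) (c c' : ℝ) (e : ∀ p, h p = c * f p + c' * g p) (β : Bool)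
    (i : Fin d) : dl U β i h p = c * dl U β i f p + c' * dl U β i g p := by
  have e' : h = fun p => c * f p + c' * g p := funext e
  have hd : HasFDerivAt h (c • fderiv ℝ f p + c' • fderiv ℝ g p) p := by
    rw [e']
    exact (hf.hasFDerivAt.const_mul c).add (hg.hasFDerivAt.const_mul c')
  simp only [dl, pd, hd.fderiv, e p, add_apply, smul_apply, smul_eq_mul]
  ring

/-- the continuity equation on the phase space -/
lemma cont_eq (hS : StmtSmooth) {δ : ℝ} {U : E d → ℝ} (hU : Pot δ U) (C : Calc U) (α : ℝ × ℝ)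
    (lam : ℝ) {p : Ph d} (hp : p.1 ∈ OO) :
    ⟪p.2.1, (WF U α lam p).2.1⟫ + ⟪p.2.2, (WF U α lam p).2.2⟫ +
      fderiv ℝ (lift (Fx U)) p (α, (WF U α lam p).2) =
    ∑ i, pd false i (fun p => (WF U α lam p).2.1 i) p +
      ∑ i, pd true i (fun p => (WF U α lam p).2.2 i) p := by
  have hFx := hS.smooth d δ U hU
  have hG : ∀ i, DifferentiableAt ℝ (fun p => Gp U p i) p := fun i => diffAt (C.smGi i) hp
  have hB : DifferentiableAt ℝ (VB U) p := diffAt (sm_VB C) hp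
  have hB1 : ∀ i, DifferentiableAt ℝ (fun p => (VB U p).2.1 i) p := fun i =>
    (EuclideanSpace.proj i : E d →L[ℝ] ℝ).differentiableAt.comp p hB.snd.fst
  have hB2 : ∀ i, DifferentiableAt ℝ (fun p => (VB U p).2.2 i) p := fun i =>
    (EuclideanSpace.proj i : E d →L[ℝ] ℝ).differentiableAt.comp p hB.snd.snd
  have d1 : ∀ i, dl U false i (fun p => (WF U α lam p).2.1 i) p =
      -α.1 * dl U false i (fun p => Gp U p i) p + lam * dl U false i (fun p => (VB U p).2.1 i) p :=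
    fun i => dl_lin (hG i) (hB1 i) _ _ (fun p => by simp [WF, V1, V2]) _ _
  have d2 : ∀ i, dl U true i (fun p => (WF U α lam p).2.2 i) p =
      -α.2 * dl U true i (fun p => Gp U p i) p + lam * dl U true i (fun p => (VB U p).2.2 i) p :=
    fun i => dl_lin (hG i) (hB2 i) _ _ (fun p => by simp [WF, V1, V2]) _ _
  have D1 := C.div_D false p hp
  have D2 := C.div_D true p hp
  have D3 := C.div_B p hp
  simp only [cond_false, cond_true] at D1 D2
  have s1 := Finset.sum_congr (s₁ := Finset.univ) rfl fun i _ => d1 i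
  have s2 := Finset.sum_congr (s₁ := Finset.univ) rfl fun i _ => d2 i
  rw [Finset.sum_add_distrib, ← Finset.mul_sum, ← Finset.mul_sum, ← D1] at s1
  rw [Finset.sum_add_distrib, ← Finset.mul_sum, ← Finset.mul_sum, ← D2] at s2
  have hpd : ∀ β i, fderiv ℝ (lift (Fx U)) p (ew β i) = aa β p * Gp U p i := fun β i => by
    rw [C.G_eq i p hp]
    exact C.pd_lift _ β i hFx p hp
  rw [decomp α]
  simp only [map_add, map_smul, map_sum, hpd, smul_eq_mul]
  have i1 : ⟪p.2.1, (WF U α lam p).2.1⟫ = ∑ i, ww false p i * (WF U α lam p).2.1 i := by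
    simp [PiLp.inner_apply, ww, mul_comm]
  have i2 : ⟪p.2.2, (WF U α lam p).2.2⟫ = ∑ i, ww true p i * (WF U α lam p).2.2 i := by
    simp [PiLp.inner_apply, ww, mul_comm]
  have t1 : ∑ i, dl U false i (fun p => (WF U α lam p).2.1 i) p =
      ∑ i, ww false p i * (WF U α lam p).2.1 i +
      ∑ i, (WF U α lam p).2.1 i * (aa false p * Gp U p i) -
      ∑ i, pd false i (fun p => (WF U α lam p).2.1 i) p := by
    rw [← Finset.sum_add_distrib, ← Finset.sum_sub_distrib]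
    exact Finset.sum_congr rfl fun i _ => by rw [dl]; ring
  have t2 : ∑ i, dl U true i (fun p => (WF U α lam p).2.2 i) p =
      ∑ i, ww true p i * (WF U α lam p).2.2 i +
      ∑ i, (WF U α lam p).2.2 i * (aa true p * Gp U p i) -
      ∑ i, pd true i (fun p => (WF U α lam p).2.2 i) p := by
    rw [← Finset.sum_add_distrib, ← Finset.sum_sub_distrib]
    exact Finset.sum_congr rfl fun i _ => by rw [dl]; ring
  rw [i1, i2]
  linear_combination s1 + s2 - t1 - t2 + lam * D3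

/-! ### the laws `ν_a` -/

lemma exp_neg_F (hB : StmtBasic) {δ : ℝ} {U : E d → ℝ} (hU : Pot δ U) (t : ℝ) (x : E d) :
    Real.exp (-Ff U t x) = Zf U t x := by
  rw [Ff, neg_neg, Real.exp_log (hB.Zpos d δ U hU t x).1]

lemma cont_Z (hB : StmtBasic) {δ : ℝ} {U : E d → ℝ} (hU : Pot δ U) (t : ℝ) (a : ℝ × ℝ) :
    Continuous fun ζ : E d × E d => Zf U t (a.1 • ζ.1 + a.2 • ζ.2) :=
  (hB.contZ d δ U hU).comp (f := fun ζ : E d × E d => (t, a.1 • ζ.1 + a.2 • ζ.2)) (by fun_prop)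

lemma prob_nu (hB : StmtBasic) {δ : ℝ} {U : E d → ℝ} (hU : Pot δ U) (a : ℝ × ℝ) :
    IsProbabilityMeasure (nu U a) := by
  refine isProbabilityMeasure_tilted ?_
  simp only [exp_neg_F hB hU]
  refine Integrable.of_bound (cont_Z hB hU _ a).aestronglyMeasurable 1
    (Filter.Eventually.of_forall fun ζ => ?_)
  rw [Real.norm_eq_abs, abs_of_pos (hB.Zpos d δ U hU _ _).1]
  exact (hB.Zpos d δ U hU _ _).2

lemma nu_zero (U : E d → ℝ) : nu U 0 = (gam d).prod (gam d) := by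
  have : (fun ζ : E d × E d => -Ff U (1 - (0 : ℝ × ℝ).1 ^ 2 - (0 : ℝ × ℝ).2 ^ 2)
      ((0 : ℝ × ℝ).1 • ζ.1 + (0 : ℝ × ℝ).2 • ζ.2)) = fun _ => -Ff U 1 0 := by
    funext ζ; simp
  rw [nu, this, tilted_const]

lemma norm_const (hG : StmtGauss) (hB : StmtBasic) {δ : ℝ} {U : E d → ℝ} (hU : Pot δ U)
    {a : ℝ × ℝ} (ha : a ∈ OO) :
    ∫ ζ, Real.exp (-Ff U (1 - a.1 ^ 2 - a.2 ^ 2) (a.1 • ζ.1 + a.2 • ζ.2)) ∂((gam d).prod (gam d)) =
      Zf U 1 0 := by
  simp only [exp_neg_F hB hU]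
  have hc : Continuous fun x : E d => Zf U (1 - a.1 ^ 2 - a.2 ^ 2) x :=
    (hB.contZ d δ U hU).comp (f := fun x : E d => (1 - a.1 ^ 2 - a.2 ^ 2, x)) (by fun_prop)
  have h1 := integral_map (μ := (gam d).prod (gam d))
    (φ := fun p : E d × E d => a.1 • p.1 + a.2 • p.2) (by fun_prop) hc.aestronglyMeasurable
  rw [← h1, hG.rot, integral_map (by fun_prop) hc.aestronglyMeasurable]
  have h2 := hB.semi d δ U hU (1 - a.1 ^ 2 - a.2 ^ 2) (a.1 ^ 2 + a.2 ^ 2) 0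
    (by linarith [(t_mem ha).1]) (by positivity)
  simp only [zero_add] at h2
  rw [h2]
  congr 1
  ring

/-- the potential of `ν_a` with respect to Lebesgue measure -/
def Psi (U : E d → ℝ) (p : Ph d) : ℝ :=
  ‖p.2.1‖ ^ 2 / 2 + ‖p.2.2‖ ^ 2 / 2 + lift (Fx U) p -
    Real.log (((√(2 * Real.pi))⁻¹ ^ d) ^ 2 / Zf U 1 0)

lemma nu_eq (hG : StmtGauss) (hB : StmtBasic) {δ : ℝ} {U : E d → ℝ} (hU : Pot δ U)
    {a : ℝ × ℝ} (ha : a ∈ OO) :
    nu U a = ((volume : Measure (E d)).prod volume).withDensity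
      fun ζ => ENNReal.ofReal (Real.exp (-Psi U (a, ζ))) := by
  have hm : Measurable fun x : E d =>
      ENNReal.ofReal ((√(2 * Real.pi))⁻¹ ^ d * Real.exp (-(‖x‖ ^ 2 / 2))) := by fun_prop
  have hZ := (hB.Zpos d δ U hU 1 0).1
  rw [nu, Measure.tilted, norm_const hG hB hU ha, hG.dens, prod_withDensity hm hm,
    ← withDensity_mul]
  · congr 1
    funext ζ
    simp only [Pi.mul_apply]
    rw [← ENNReal.ofReal_mul (by positivity), ← ENNReal.ofReal_mul (by positivity)]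
    congr 1
    have e : -Psi U (a, ζ) = -(‖ζ.1‖ ^ 2 / 2) + -(‖ζ.2‖ ^ 2 / 2) +
        -Ff U (1 - a.1 ^ 2 - a.2 ^ 2) (a.1 • ζ.1 + a.2 • ζ.2) +
        Real.log (((√(2 * Real.pi))⁻¹ ^ d) ^ 2 / Zf U 1 0) := by
      simp only [Psi, lift, Fx]
      ring
    rw [e, Real.exp_add, Real.exp_add, Real.exp_add, Real.exp_log (by positivity)]
    ring
  · fun_prop
  · simp only [exp_neg_F hB hU]
    exact ((cont_Z hB hU _ a).div_const _).measurable.ennreal_ofReal

lemma sm_Psi (hS : StmtSmooth) {δ : ℝ} {U : E d → ℝ} (hU : Pot δ U) (C : Calc U) :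
    ContDiffOn ℝ ∞ (Psi U) {p | p.1 ∈ OO} := by
  have h1 : ContDiff ℝ ∞ fun p : Ph d => ‖p.2.1‖ ^ 2 :=
    (contDiff_norm_sq ℝ).comp (contDiff_fst.comp contDiff_snd)
  have h2 : ContDiff ℝ ∞ fun p : Ph d => ‖p.2.2‖ ^ 2 :=
    (contDiff_norm_sq ℝ).comp (contDiff_snd.comp contDiff_snd)
  exact (((h1.div_const 2).contDiffOn.add (h2.div_const 2).contDiffOn).add
    (C.sm_lift _ (hS.smooth d δ U hU))).sub contDiffOn_const

lemma fderiv_Psi (hS : StmtSmooth) {δ : ℝ} {U : E d → ℝ} (hU : Pot δ U) (C : Calc U)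
    {p : Ph d} (hp : p.1 ∈ OO) (v : Ph d) :
    fderiv ℝ (Psi U) p v = ⟪p.2.1, v.2.1⟫ + ⟪p.2.2, v.2.2⟫ + fderiv ℝ (lift (Fx U)) p v := by
  have hu := (diffAt (C.sm_lift _ (hS.smooth d δ U hU)) hp).hasFDerivAt
  have h0 : HasFDerivAt (fun p : Ph d => p.2)
      (ContinuousLinearMap.snd ℝ (ℝ × ℝ) (E d × E d)) p := hasFDerivAt_snd
  have h1 : HasFDerivAt (fun p : Ph d => p.2.1) _ p := h0.fst
  have h2 : HasFDerivAt (fun p : Ph d => p.2.2) _ p := h0.snd
  have h := (((h1.norm_sq.mul_const 2⁻¹).add (h2.norm_sq.mul_const 2⁻¹)).add hu).sub_const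
    (Real.log (((√(2 * Real.pi))⁻¹ ^ d) ^ 2 / Zf U 1 0))
  have h' : HasFDerivAt (Psi U) _ p := h
  rw [h'.fderiv]
  simp

end FlowAux

open FlowAux in
theorem flowStmt (hG : StmtGauss) (hB : StmtBasic) (hCo : StmtCov) (hS : StmtSmooth)
    (hF : StmtFB) (hC : StmtCalc) (hT : StmtTransport) : StmtFlow := by
  intro d δ U hU hδ
  have C := hC d δ U hU
  refine ⟨C.smG, ?_, prob_nu hB hU, nu_zero U, fun a α lam ha hb => ?_⟩
  · exact ((hB.contG d δ U hU).comp (f := fun p : Ph d =>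
      (1 - p.1.1 ^ 2 - p.1.2 ^ 2, p.1.1 • p.2.1 + p.1.2 • p.2.2)) (by fun_prop)).measurable
  obtain ⟨η, hη, hseg⟩ := exists_eta ha hb
  obtain ⟨K, -, hK⟩ := LG_W hCo hF hU hδ C α lam
  let L : ℝ × (E d × E d) → Ph d := fun q => (a + q.1 • α, q.2)
  have hL : ContDiff ℝ ∞ L := by fun_prop
  have hmap : MapsTo L (Ioo (-η) (1 + η) ×ˢ univ) {p | p.1 ∈ OO} := fun q hq => hseg q.1 hq.1
  have hcont : ∀ τ ∈ Icc (0 : ℝ) 1, ∀ x : E d × E d,
      fderiv ℝ (fun q => Psi U (L q)) (τ, x) (1, (WF U α lam (L (τ, x))).2) =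
      LinearMap.trace ℝ (E d × E d)
        (fderiv ℝ (fun y => (WF U α lam (L (τ, y))).2) x : E d × E d →ₗ[ℝ] E d × E d) := by
    intro τ hτ x
    have hp : (L (τ, x)).1 ∈ OO := seg_mem ha hb hτ
    have hLd : HasFDerivAt L (((ContinuousLinearMap.fst ℝ ℝ (E d × E d)).smulRight α).prod
        (ContinuousLinearMap.snd ℝ ℝ (E d × E d))) (τ, x) :=
      ((hasFDerivAt_fst.smul_const α).const_add a).prodMk hasFDerivAt_snd
    have h1 : HasFDerivAt (fun q => Psi U (L q)) _ (τ, x) :=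
      (diffAt (sm_Psi hS hU C) hp).hasFDerivAt.comp (τ, x) hLd
    have hW := diffAt (sm_WF C α lam) hp
    have h2 : HasFDerivAt (fun y : E d × E d => (WF U α lam (L (τ, y))).2) _ x :=
      (hW.hasFDerivAt.comp x (hasFDerivAt_prodMk_right (a + τ • α) x)).snd
    have hW1 : ∀ i, pd false i (fun p => (WF U α lam p).2.1 i) (L (τ, x)) =
        (fderiv ℝ (WF U α lam) (L (τ, x)) (ew false i)).2.1 i := fun i => by
      rw [pd, fderiv_coord hW.snd.fst, hW.hasFDerivAt.snd.fst.fderiv]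
      rfl
    have hW2 : ∀ i, pd true i (fun p => (WF U α lam p).2.2 i) (L (τ, x)) =
        (fderiv ℝ (WF U α lam) (L (τ, x)) (ew true i)).2.2 i := fun i => by
      rw [pd, fderiv_coord hW.snd.snd, hW.hasFDerivAt.snd.snd.fderiv]
      rfl
    have key := cont_eq hS hU C α lam hp
    simp only [hW1, hW2] at key
    rw [h1.fderiv, h2.fderiv, trace_eq]
    simp only [ContinuousLinearMap.comp_apply, ContinuousLinearMap.prod_apply,
      ContinuousLinearMap.smulRight_apply, ContinuousLinearMap.coe_fst',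
      ContinuousLinearMap.coe_snd', one_smul, fderiv_Psi hS hU C hp]
    exact key
  obtain ⟨φ, hm, h0, hode, hlaw⟩ := hT (E d × E d) ((volume : Measure (E d)).prod volume)
    (fun q => Psi U (L q)) (fun q => (WF U α lam (L q)).2) η K hη
    ((sm_Psi hS hU C).comp hL.contDiffOn hmap) ((sm_WF C α lam).comp hL.contDiffOn hmap).snd
    (fun τ hτ x => hK (L (τ, x)) (seg_mem ha hb hτ)) hcont
  refine ⟨φ, hm, h0, fun ζ τ hτ => ?_, fun τ hτ => ?_⟩
  · have h1 : HasDerivWithinAt (fun s : ℝ => a + s • α) α (Icc (0 : ℝ) 1) τ := by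
      simpa using (((hasDerivAt_id τ).smul_const α).const_add a).hasDerivWithinAt
    have h2 := h1.prodMk (hode ζ τ hτ)
    have e : WF U α lam (a + τ • α, φ τ ζ) = (α, (WF U α lam (L (τ, φ τ ζ))).2) :=
      Prod.ext (WF_fst U α lam _) rfl
    rw [e]
    exact h2
  · rw [nu_eq hG hB hU ha, nu_eq hG hB hU (seg_mem ha hb hτ), ← hlaw τ hτ]
    simp [L]

end Crest.Agent.R285
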