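import Crest.Agent.R285.Defs

/-!
# Row 285: the Gaussian toolkit (`StmtGauss`)
-/

set_option autoImplicit false

open MeasureTheory ProbabilityTheory Set
open scoped ENNReal NNReal ContDiff RealInnerProductSpace
open Crest.OracleSampling

noncomputable section

namespace Crest.Agent.R285

namespace Gauss

/-! ### functions of polynomial growth -/

section PG

variable {H : Type} [NormedAddCommGroup H]

theorem PG_mul {f g : H → ℝ} (hf : PG f) (hg : PG g) : PG fun x => f x * g x := by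
  obtain ⟨hfc, C, k, hC⟩ := hf
  obtain ⟨hgc, C', k', hC'⟩ := hg
  refine ⟨hfc.mul hgc, C * C', k + k', fun x => ?_⟩
  rw [abs_mul, pow_add, mul_mul_mul_comm]
  exact mul_le_mul (hC x) (hC' x) (abs_nonneg _) ((abs_nonneg _).trans (hC x))

theorem PG_clm [NormedSpace ℝ H] (L : H →L[ℝ] ℝ) : PG L := by
  refine ⟨L.continuous, ‖L‖, 1, fun x => ?_⟩
  rw [pow_one]
  exact (L.le_opNorm x).trans (mul_le_mul_of_nonneg_left (by linarith) (norm_nonneg _))

theorem PG_integrable [NormedSpace ℝ H] [CompleteSpace H] [SecondCountableTopology H]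
    [MeasurableSpace H] [BorelSpace H] (μ : Measure H) [IsGaussian μ] {h : H → ℝ} (hh : PG h) :
    Integrable h μ := by
  obtain ⟨hc, C, k, hC⟩ := hh
  have h0 : MemLp (fun x : H => ‖x‖) k μ := (IsGaussian.memLp_id μ k (by simp)).norm
  have h1 : MemLp (fun x : H => 1 + ‖x‖) k μ := (memLp_const (1 : ℝ)).add h0
  have h2 : Integrable (fun x : H => ‖1 + ‖x‖‖ ^ k) μ := h1.integrable_norm_pow'
  refine (h2.const_mul C).mono' hc.aestronglyMeasurable
    (Filter.Eventually.of_forall fun x => ?_)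
  rw [Real.norm_eq_abs, Real.norm_of_nonneg (by positivity)]
  exact hC x

end PG

/-- the Gaussian density -/
def rho (d : ℕ) (x : E d) : ℝ := (√(2 * Real.pi))⁻¹ ^ d * Real.exp (-(‖x‖ ^ 2 / 2))

theorem rho_pos (d : ℕ) (x : E d) : 0 < rho d x := by
  unfold rho
  have := Real.pi_pos
  positivity

theorem continuous_rho (d : ℕ) : Continuous (rho d) := by unfold rho; fun_prop

theorem hasFDerivAt_rho (d : ℕ) (x : E d) :
    HasFDerivAt (rho d) (-(rho d x) • innerSL ℝ x) x := by
  have h1 := ((((hasStrictFDerivAt_norm_sq x).hasFDerivAt.const_mul (1 / 2 : ℝ)).neg).exp).const_mul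
    ((√(2 * Real.pi))⁻¹ ^ d)
  have e : (fun y : E d => (√(2 * Real.pi))⁻¹ ^ d * Real.exp ((-fun y : E d => 1 / 2 * ‖y‖ ^ 2) y)) =
      rho d := by
    ext y; simp only [rho, Pi.neg_apply]; ring_nf
  rw [e] at h1
  refine h1.congr_fderiv ?_
  ext v
  simp only [rho, Pi.neg_apply, smul_apply, neg_apply,
    smul_eq_mul, nsmul_eq_mul]
  ring_nf

theorem dens (d : ℕ) : gam d = (volume : Measure (E d)).withDensity
    fun x => ENNReal.ofReal (rho d x) := by
  have hb : 0 < ((1 / 2 : ℂ)).re := by norm_num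
  have hint : Integrable (rho d) := by
    have := (GaussianFourier.integrable_cexp_neg_mul_sq_norm_add hb 0 (0 : E d)).norm
    refine (this.const_mul ((√(2 * Real.pi))⁻¹ ^ d)).congr (Filter.Eventually.of_forall fun x => ?_)
    simp only [rho, Complex.norm_exp]
    congr 2
    simp [← Complex.ofReal_pow]
    ring
  have : IsFiniteMeasure ((volume : Measure (E d)).withDensity fun x => ENNReal.ofReal (rho d x)) :=
    isFiniteMeasure_withDensity_ofReal hint.2
  refine Measure.ext_of_charFun (funext fun t => ?_)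
  rw [charFun_stdGaussian, charFun_apply, integral_withDensity_eq_integral_toReal_smul
    (continuous_rho d).measurable.ennreal_ofReal (by simp)]
  have h1 := GaussianFourier.integral_cexp_neg_mul_sq_norm_add hb Complex.I t
  have h2 : ∀ x : E d, (ENNReal.ofReal (rho d x)).toReal • Complex.exp (⟪x, t⟫ * Complex.I) =
      (((√(2 * Real.pi))⁻¹ ^ d : ℝ) : ℂ) *
        Complex.exp (-(1 / 2 : ℂ) * ‖x‖ ^ 2 + Complex.I * ⟪t, x⟫) := fun x => by
    rw [ENNReal.toReal_ofReal (rho_pos d x).le, rho, Complex.real_smul, Complex.ofReal_mul,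
      Complex.ofReal_exp, mul_assoc, ← Complex.exp_add, real_inner_comm]
    congr 2
    push_cast
    ring
  simp_rw [h2]
  rw [integral_const_mul, h1, ← mul_assoc]
  have h3 : (((√(2 * Real.pi))⁻¹ ^ d : ℝ) : ℂ) *
      ((Real.pi : ℂ) / (1 / 2)) ^ ((Module.finrank ℝ (E d) : ℂ) / 2) = 1 := by
    have h4 : ((Real.pi : ℂ) / (1 / 2)) ^ ((Module.finrank ℝ (E d) : ℂ) / 2) =
        ((√(2 * Real.pi) ^ d : ℝ) : ℂ) := by
      rw [Real.sqrt_eq_rpow, ← Real.rpow_natCast, ← Real.rpow_mul (by positivity),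
        Complex.ofReal_cpow (by positivity), finrank_euclideanSpace_fin]
      congr 1 <;> push_cast <;> ring
    rw [h4, ← Complex.ofReal_mul, ← mul_pow, inv_mul_cancel₀ (by positivity), one_pow,
      Complex.ofReal_one]
  rw [h3, one_mul, Complex.I_sq]
  congr 1
  ring

theorem rot (d : ℕ) (a b : ℝ) : ((gam d).prod (gam d)).map (fun p => a • p.1 + b • p.2) =
    (gam d).map fun w => √(a ^ 2 + b ^ 2) • w := by
  refine Measure.ext_of_charFun (funext fun t => ?_)
  rw [charFun_map_smul, charFun_apply, integral_map (by fun_prop) (by fun_prop)]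
  have h : ∀ p : E d × E d, Complex.exp (⟪a • p.1 + b • p.2, t⟫ * Complex.I) =
      Complex.exp (⟪p.1, a • t⟫ * Complex.I) * Complex.exp (⟪p.2, b • t⟫ * Complex.I) := fun p => by
    rw [← Complex.exp_add, inner_add_left, real_inner_smul_left, real_inner_smul_left,
      real_inner_smul_right, real_inner_smul_right]
    congr 1
    push_cast
    ring
  simp_rw [h]
  rw [integral_prod_mul (fun x : E d => Complex.exp (⟪x, a • t⟫ * Complex.I))
    (fun x : E d => Complex.exp (⟪x, b • t⟫ * Complex.I)), ← charFun_apply, ← charFun_apply,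
    charFun_stdGaussian, charFun_stdGaussian, charFun_stdGaussian, ← Complex.exp_add]
  congr 1
  have h1 : ‖√(a ^ 2 + b ^ 2) • t‖ ^ 2 = ‖a • t‖ ^ 2 + ‖b • t‖ ^ 2 := by
    simp only [norm_smul, mul_pow, Real.norm_eq_abs, sq_abs]
    rw [Real.sq_sqrt (by positivity)]
    ring
  rw [← Complex.ofReal_pow, ← Complex.ofReal_pow, ← Complex.ofReal_pow, h1]
  push_cast
  ring

theorem rot2 (d : ℕ) (a b : ℝ) (h : a ^ 2 + b ^ 2 = 1) :
    ((gam d).prod (gam d)).map (fun p => (a • p.1 + b • p.2, (-b) • p.1 + a • p.2)) =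
      (gam d).prod (gam d) := by
  have hn : ‖(⟨a, b⟩ : ℂ)‖ = 1 := by
    rw [Complex.norm_def, Complex.normSq_mk, ← sq, ← sq, h, Real.sqrt_one]
  have h0 : (⟨a, b⟩ : ℂ) ≠ 0 := by
    intro h0; rw [h0] at hn; simp at hn
  have h1 := IsGaussian.map_rotation_eq_self (μ := gam d) (by simp) (Complex.arg ⟨a, b⟩)
  convert h1 using 2
  ext1 p
  rw [ContinuousLinearMap.rotation_apply, Complex.cos_arg h0, Complex.sin_arg, hn]
  simp

theorem inner_sq (d : ℕ) (u : E d) : ∫ w, ⟪u, w⟫ ^ 2 ∂(gam d) = ‖u‖ ^ 2 := by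
  have h1 := variance_dual_stdGaussian (innerSL ℝ u)
  rw [variance_of_integral_eq_zero (innerSL ℝ u).continuous.aemeasurable
    (integral_strongDual_stdGaussian _), innerSL_apply_norm] at h1
  exact h1

theorem memLp_inner (d : ℕ) (u : E d) : MemLp (fun w => ⟪u, w⟫) 2 (gam d) :=
  IsGaussian.memLp_dual (gam d) (innerSL ℝ u) 2 (by simp)

theorem sq (d : ℕ) : ∫ w, ‖w‖ ^ 2 ∂(gam d) = d := by
  have h : ∀ w : E d, ‖w‖ ^ 2 = ∑ i, ⟪(ee i : E d), w⟫ ^ 2 := fun w => by
    rw [EuclideanSpace.real_norm_sq_eq]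
    simp [EuclideanSpace.inner_single_left]
  simp_rw [h]
  rw [integral_finsetSum _ fun i _ => (memLp_inner d (ee i)).integrable_sq]
  simp [inner_sq]

theorem lintegral_le_sqrt {X Y : Type} [MeasurableSpace X] (μ : Measure X) [IsProbabilityMeasure μ]
    [NormedAddCommGroup Y] {f : X → Y} (hf : MemLp f 2 μ) :
    ∫⁻ x, ‖f x‖ₑ ∂μ ≤ ENNReal.ofReal √(∫ x, ‖f x‖ ^ 2 ∂μ) := by
  rw [← ofReal_integral_norm_eq_lintegral_enorm (hf.integrable (by simp))]
  refine ENNReal.ofReal_le_ofReal (Real.le_sqrt_of_sq_le ?_)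
  have h1 := variance_nonneg (fun x => ‖f x‖) μ
  rw [variance_eq_sub hf.norm] at h1
  simpa using h1

/-- integration by parts for a density with logarithmic derivative `-l` -/
theorem ibp_gen {H : Type} [NormedAddCommGroup H] [NormedSpace ℝ H] [FiniteDimensional ℝ H]
    [MeasurableSpace H] [BorelSpace H] (μ : Measure H) [μ.IsAddHaarMeasure] {ρ l f : H → ℝ}
    {u : H} (hρ : Differentiable ℝ ρ) (hρ0 : ∀ x, 0 ≤ ρ x)
    (hρ' : ∀ x, fderiv ℝ ρ x u = -(l x * ρ x)) (hf : Differentiable ℝ f)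
    (h1 : Integrable f (μ.withDensity fun x => ENNReal.ofReal (ρ x)))
    (h2 : Integrable (fun x => fderiv ℝ f x u) (μ.withDensity fun x => ENNReal.ofReal (ρ x)))
    (h3 : Integrable (fun x => l x * f x) (μ.withDensity fun x => ENNReal.ofReal (ρ x))) :
    ∫ x, l x * f x ∂(μ.withDensity fun x => ENNReal.ofReal (ρ x)) =
      ∫ x, fderiv ℝ f x u ∂(μ.withDensity fun x => ENNReal.ofReal (ρ x)) := by
  have hm : Measurable fun x => ENNReal.ofReal (ρ x) := hρ.continuous.measurable.ennreal_ofReal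
  rw [integrable_withDensity_iff hm (by simp)] at h1 h2 h3
  rw [integral_withDensity_eq_integral_toReal_smul hm (by simp),
    integral_withDensity_eq_integral_toReal_smul hm (by simp)]
  simp only [ENNReal.toReal_ofReal (hρ0 _), smul_eq_mul] at h1 h2 h3 ⊢
  have e : ∀ x, f x * fderiv ℝ ρ x u = -(l x * f x * ρ x) := fun x => by rw [hρ']; ring
  have := integral_mul_fderiv_eq_neg_fderiv_mul_of_integrable (μ := μ) (f := f) (g := ρ) (v := u)
    h2 (by simp only [e]; exact h3.neg) h1 (fun x _ => hf x) (fun x _ => hρ x)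
  simp only [e, integral_neg, neg_inj] at this
  simpa only [mul_comm (ρ _)] using this

theorem ibp (d : ℕ) (f : E d → ℝ) (u : E d) (hf : ContDiff ℝ 1 f) (h1 : PG f)
    (h2 : PG (fun x => fderiv ℝ f x u)) :
    ∫ w, ⟪u, w⟫ * f w ∂(gam d) = ∫ w, fderiv ℝ f w u ∂(gam d) := by
  have i1 := PG_integrable (gam d) h1
  have i2 := PG_integrable (gam d) h2
  have i3 := PG_integrable (gam d) (PG_mul (PG_clm (innerSL ℝ u)) h1)
  rw [dens] at i1 i2 i3 ⊢
  refine ibp_gen volume (fun x => (hasFDerivAt_rho d x).differentiableAt)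
    (fun x => (rho_pos d x).le) (fun x => ?_) (hf.differentiable one_ne_zero) i1 i2 i3
  rw [(hasFDerivAt_rho d x).fderiv]
  simp [real_inner_comm, mul_comm]

theorem dens2 (d : ℕ) : (gam d).prod (gam d) =
    ((volume : Measure (E d)).prod volume).withDensity
      fun p => ENNReal.ofReal (rho d p.1 * rho d p.2) := by
  rw [dens, prod_withDensity (continuous_rho d).measurable.ennreal_ofReal
    (continuous_rho d).measurable.ennreal_ofReal]
  congr 1
  ext p
  rw [ENNReal.ofReal_mul (rho_pos d _).le]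

theorem ibp2 (d : ℕ) (f : E d × E d → ℝ) (u : E d × E d) (hf : ContDiff ℝ 1 f) (h1 : PG f)
    (h2 : PG (fun x => fderiv ℝ f x u)) :
    ∫ w, (⟪u.1, w.1⟫ + ⟪u.2, w.2⟫) * f w ∂((gam d).prod (gam d)) =
      ∫ w, fderiv ℝ f w u ∂((gam d).prod (gam d)) := by
  have i1 := PG_integrable ((gam d).prod (gam d)) h1
  have i2 := PG_integrable ((gam d).prod (gam d)) h2
  have i3 := PG_integrable ((gam d).prod (gam d)) (PG_mul (PG_clm
    ((innerSL ℝ u.1).comp (ContinuousLinearMap.fst ℝ _ _) +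
      (innerSL ℝ u.2).comp (ContinuousLinearMap.snd ℝ _ _))) h1)
  have hd : ∀ p : E d × E d, HasFDerivAt (fun p : E d × E d => rho d p.1 * rho d p.2) _ p :=
    fun p => ((hasFDerivAt_rho d p.1).comp p hasFDerivAt_fst).mul
      ((hasFDerivAt_rho d p.2).comp p hasFDerivAt_snd)
  rw [dens2] at i1 i2 i3 ⊢
  refine ibp_gen (volume.prod volume) (fun p => (hd p).differentiableAt)
    (fun p => (mul_pos (rho_pos d _) (rho_pos d _)).le) (fun p => ?_)
    (hf.differentiable one_ne_zero) i1 i2 i3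
  rw [(hd p).fderiv]
  simp [real_inner_comm]
  ring

end Gauss

theorem gaussStmt : StmtGauss where
  dens := Gauss.dens
  rot := Gauss.rot
  rot2 := Gauss.rot2
  sq := Gauss.sq
  abs d := by
    rw [← Gauss.sq d]
    exact Gauss.lintegral_le_sqrt (gam d) IsGaussian.memLp_two_fun_id
  inner d u := by
    have := Gauss.lintegral_le_sqrt (gam d) (Gauss.memLp_inner d u)
    simp only [Real.norm_eq_abs, sq_abs, Gauss.inner_sq] at this
    rwa [Real.sqrt_sq (norm_nonneg _), ofReal_norm] at this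
  pg d _ hh := Gauss.PG_integrable (gam d) hh
  pg2 d _ hh := Gauss.PG_integrable ((gam d).prod (gam d)) hh
  ibp := Gauss.ibp
  ibp2 := Gauss.ibp2

end Crest.Agent.R285
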