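import Crest.Agent.R285.L2A

/-! Row 285, subtask L2: `L²` bounds for the Appell tensors. -/

set_option autoImplicit false

open MeasureTheory ProbabilityTheory Set
open scoped ENNReal NNReal ContDiff RealInnerProductSpace
open Crest.OracleSampling

noncomputable section

namespace Crest.Agent.R285

namespace L2P

variable {d : ℕ}

theorem pg_norm {h : E d → ℝ} (hh : PG h) :
    ∃ (C : ℝ) (k : ℕ), 0 ≤ C ∧ ∀ x, |h x| ≤ C * (1 + ‖x‖) ^ k := by
  obtain ⟨C, k, hC⟩ := hh.2
  refine ⟨|C|, k, abs_nonneg _, fun x => (hC x).trans ?_⟩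
  exact mul_le_mul_of_nonneg_right (le_abs_self C) (by positivity)

theorem pg_bdd {h : E d → ℝ} (hc : Continuous h) (C : ℝ) (hb : ∀ x, |h x| ≤ C) : PG h :=
  ⟨hc, C, 0, fun x => by simpa using hb x⟩

theorem pg_const (c : ℝ) : PG fun _ : E d => c := pg_bdd continuous_const |c| fun _ => le_rfl

theorem pg_mul {f g : E d → ℝ} (hf : PG f) (hg : PG g) : PG fun x => f x * g x := by
  obtain ⟨C, k, hC, h1⟩ := pg_norm hf
  obtain ⟨C', k', hC', h2⟩ := pg_norm hg
  refine ⟨hf.1.mul hg.1, C * C', k + k', fun x => ?_⟩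
  rw [abs_mul, pow_add]
  calc _ ≤ (C * (1 + ‖x‖) ^ k) * (C' * (1 + ‖x‖) ^ k') :=
        mul_le_mul (h1 x) (h2 x) (abs_nonneg _) (by positivity)
    _ = _ := by ring

theorem pg_add {f g : E d → ℝ} (hf : PG f) (hg : PG g) : PG fun x => f x + g x := by
  obtain ⟨C, k, hC, h1⟩ := pg_norm hf
  obtain ⟨C', k', hC', h2⟩ := pg_norm hg
  refine ⟨hf.1.add hg.1, C + C', k + k', fun x => (abs_add_le _ _).trans ?_⟩
  have hx : 1 ≤ 1 + ‖x‖ := by linarith [norm_nonneg x]
  rw [add_mul]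
  exact add_le_add
    ((h1 x).trans (mul_le_mul_of_nonneg_left (pow_le_pow_right₀ hx (by omega)) hC))
    ((h2 x).trans (mul_le_mul_of_nonneg_left (pow_le_pow_right₀ hx (by omega)) hC'))

theorem pg_sum {ι : Type} (s : Finset ι) (f : ι → E d → ℝ) (hf : ∀ i, PG (f i)) :
    PG fun x => ∑ i ∈ s, f i x := by
  classical
  induction s using Finset.induction_on with
  | empty => simpa using pg_const (d := d) 0
  | insert a s ha ih => simp only [Finset.sum_insert ha]; exact pg_add (hf a) ih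

theorem pg_sq {f : E d → ℝ} (hf : PG f) : PG fun x => f x ^ 2 := by
  simp only [sq]; exact pg_mul hf hf

theorem pg_cmul (c : ℝ) {f : E d → ℝ} (hf : PG f) : PG fun x => c * f x :=
  pg_mul (pg_const c) hf

theorem pg_aff {h : E d → ℝ} (hh : PG h) (x : E d) (s : ℝ) : PG fun w => h (x + s • w) := by
  obtain ⟨C, k, hC, h1⟩ := pg_norm hh
  refine ⟨hh.1.comp (by fun_prop), C * (1 + ‖x‖ + |s|) ^ k, k, fun w => (h1 _).trans ?_⟩
  rw [mul_assoc, ← mul_pow]
  refine mul_le_mul_of_nonneg_left (pow_le_pow_left₀ (by positivity) ?_ k) hC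
  have e := norm_add_le x (s • w)
  rw [norm_smul, Real.norm_eq_abs] at e
  nlinarith [norm_nonneg x, norm_nonneg w, abs_nonneg s, mul_nonneg (norm_nonneg x) (norm_nonneg w)]

theorem pg_of_le {f g : E d → ℝ} (hf : Continuous f) (hg : PG g) (h : ∀ x, |f x| ≤ |g x|) :
    PG f := by
  obtain ⟨C, k, h1⟩ := hg.2
  exact ⟨hf, C, k, fun x => (h x).trans (h1 x)⟩

/-- the posterior law, in the noise variable -/
def mu (U : E d → ℝ) (t : ℝ) (x : E d) : Measure (E d) :=
  (gam d).tilted fun w => -U (x + √t • w)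

theorem Ept_eq (U : E d → ℝ) (t : ℝ) (x : E d) (h : E d → ℝ) :
    Ept U t x h = ∫ w, h (x + √t • w) ∂(mu U t x) := by
  unfold Ept mu Zf
  rw [integral_tilted, ← integral_const_mul]
  refine integral_congr_ae (Filter.Eventually.of_forall fun w => ?_)
  simp only [smul_eq_mul]
  ring

theorem poinc_aux (hP : StmtPoinc) {δ : ℝ} {U : E d → ℝ} (hU : Pot δ U) (t : ℝ) (x : E d) :
    IsProbabilityMeasure (mu U t x) ∧ (∀ f : E d → ℝ, PG f → Integrable f (mu U t x)) ∧
    (∀ f : E d → ℝ, ContDiff ℝ 1 f → PG f → PG (fun x => ‖gradient f x‖) →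
      Var[f; mu U t x] ≤ ∫ w, ‖gradient f w‖ ^ 2 ∂(mu U t x)) := by
  have hc : ConvexOn ℝ univ fun w : E d => U (x + √t • w) - 0 / 2 * ‖w‖ ^ 2 := by
    simp only [zero_div, zero_mul, sub_zero]
    refine ⟨convex_univ, fun a _ b _ r s hr hs hrs => ?_⟩
    have := hU.convex.2 (mem_univ (x + √t • a)) (mem_univ (x + √t • b)) hr hs hrs
    have e : x + √t • (r • a + s • b) = r • (x + √t • a) + s • (x + √t • b) := by
      calc _ = (r + s) • x + √t • (r • a + s • b) := by rw [hrs, one_smul]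
        _ = _ := by module
    rw [← e] at this; exact this
  obtain ⟨h1, h2, h3, -⟩ := hP d (fun w => U (x + √t • w)) 0 le_rfl
    (hU.smooth.continuous.comp (by fun_prop)) (fun w => hU.nonneg _) hc
  refine ⟨h1, h2, fun f a b c => ?_⟩
  have := h3 f a b c
  rwa [add_zero, inv_one, one_mul] at this

section
variable (hP : StmtPoinc) {δ : ℝ} {U : E d → ℝ} (hU : Pot δ U) {t : ℝ} {x : E d}
include hP hU

theorem Ept_mono {f g : E d → ℝ} (hf : PG f) (hg : PG g) (h : ∀ X, f X ≤ g X) :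
    Ept U t x f ≤ Ept U t x g := by
  rw [Ept_eq, Ept_eq]
  obtain ⟨-, h2, -⟩ := poinc_aux hP hU t x
  exact integral_mono (h2 _ (pg_aff hf x _)) (h2 _ (pg_aff hg x _)) fun w => h _

theorem Ept_sum {ι : Type} (s : Finset ι) (f : ι → E d → ℝ) (hf : ∀ i, PG (f i)) :
    Ept U t x (fun X => ∑ i ∈ s, f i X) = ∑ i ∈ s, Ept U t x (f i) := by
  simp only [Ept_eq]
  obtain ⟨-, h2, -⟩ := poinc_aux hP hU t x
  exact integral_finsetSum _ fun i _ => h2 _ (pg_aff (hf i) x _)

theorem Ept_add {f g : E d → ℝ} (hf : PG f) (hg : PG g) :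
    Ept U t x (fun X => f X + g X) = Ept U t x f + Ept U t x g := by
  simp only [Ept_eq]
  obtain ⟨-, h2, -⟩ := poinc_aux hP hU t x
  exact integral_add (h2 _ (pg_aff hf x _)) (h2 _ (pg_aff hg x _))

omit hP hU in
theorem Ept_cmul (c : ℝ) (f : E d → ℝ) :
    Ept U t x (fun X => c * f X) = c * Ept U t x f := by
  simp only [Ept_eq]
  exact integral_const_mul _ _

theorem Ept_const (c : ℝ) : Ept U t x (fun _ => c) = c := by
  rw [Ept_eq]
  obtain ⟨h1, -, -⟩ := poinc_aux hP hU t x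
  simp

theorem poinc (ht0 : 0 ≤ t) (ht : t ≤ 1) {h : E d → ℝ} (hc : ContDiff ℝ 1 h) (hh : PG h)
    (hd : ∀ k, PG fun X => fderiv ℝ h X (ee k)) (hm : Ept U t x h = 0) :
    Ept U t x (fun X => h X ^ 2) ≤ Ept U t x (fun X => ∑ k, fderiv ℝ h X (ee k) ^ 2) := by
  obtain ⟨h1, h2, h3⟩ := poinc_aux hP hU t x
  have hf : ContDiff ℝ 1 fun w => h (x + √t • w) := hc.comp (by fun_prop)
  have hS : PG fun X => ∑ k, fderiv ℝ h X (ee k) ^ 2 := pg_sum _ _ fun k => pg_sq (hd k)
  have e : ∀ w, ‖gradient (fun w => h (x + √t • w)) w‖ ^ 2 =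
      t * ∑ k, fderiv ℝ h (x + √t • w) (ee k) ^ 2 := by
    intro w
    rw [EuclideanSpace.real_norm_sq_eq, Finset.mul_sum]
    refine Finset.sum_congr rfl fun k _ => ?_
    have a1 : gradient (fun w => h (x + √t • w)) w k =
        fderiv ℝ (fun w => h (x + √t • w)) w (ee k) := by
      rw [← inner_gradient_left, real_inner_comm, EuclideanSpace.inner_single_left]
      simp
    have a2 : HasFDerivAt (fun w : E d => x + √t • w) (√t • ContinuousLinearMap.id ℝ (E d)) w :=
      ((hasFDerivAt_id w).const_smul √t).const_add x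
    have a3 := (hc.differentiable (by simp) (x + √t • w)).hasFDerivAt.comp w a2
    have a4 : fderiv ℝ (fun w => h (x + √t • w)) w (ee k) =
        √t * fderiv ℝ h (x + √t • w) (ee k) := by
      refine (congrArg (fun L => L (ee k)) a3.fderiv).trans ?_
      simp only [ContinuousLinearMap.comp_apply, smul_apply, ContinuousLinearMap.id_apply,
        map_smul, smul_eq_mul]
    rw [a1, a4, mul_pow, Real.sq_sqrt ht0]
  have hg : PG fun w => ‖gradient (fun w => h (x + √t • w)) w‖ := by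
    have c1 : Continuous (gradient fun w => h (x + √t • w)) :=
      (InnerProductSpace.toDual ℝ (E d)).symm.continuous.comp (hf.continuous_fderiv (by simp))
    refine pg_of_le c1.norm (pg_add (pg_const 1) (pg_cmul t (pg_aff hS x √t))) fun w => ?_
    rw [← e w, abs_norm, abs_of_nonneg (by positivity)]
    nlinarith [norm_nonneg (gradient (fun w => h (x + √t • w)) w),
      sq_nonneg (‖gradient (fun w => h (x + √t • w)) w‖ - 1)]
  have h4 := h3 _ hf (pg_aff hh x _) hg
  rw [variance_eq_integral hf.continuous.aemeasurable, ← Ept_eq, hm] at h4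
  simp only [sub_zero, e] at h4
  rw [integral_const_mul] at h4
  rw [Ept_eq, Ept_eq]
  refine h4.trans (mul_le_of_le_one_left (integral_nonneg fun w => ?_) ht)
  exact Finset.sum_nonneg fun k _ => sq_nonneg _

end

theorem sum_insertNth {n : ℕ} (m : Fin (n + 1)) (G : (Fin (n + 1) → Fin d) → ℝ) :
    ∑ u, G u = ∑ k, ∑ v : Fin n → Fin d, G (Fin.insertNth m k v) := by
  rw [← (Fin.insertNthEquiv (fun _ => Fin d) m).sum_comp, Fintype.sum_prod_type]
  rfl

theorem contract {n : ℕ} (β : (Fin (n + 1) → Fin d) → ℝ) (F : (Fin n → Fin d) → ℝ) (t : ℝ)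
    (k : Fin d) :
    ∑ u, β u * ∑ m, (if u m = k then 1 else 0) / t * F (fun r => u (m.succAbove r)) =
      ∑ m : Fin (n + 1), t⁻¹ * ∑ v, β (Fin.insertNth m k v) * F v := by
  simp only [Finset.mul_sum]
  rw [Finset.sum_comm]
  refine Finset.sum_congr rfl fun m _ => ?_
  rw [sum_insertNth m, Finset.sum_eq_single k]
  · refine Finset.sum_congr rfl fun v _ => ?_
    simp only [Fin.insertNth_apply_same, Fin.insertNth_apply_succAbove, if_true]
    ring
  · intro k' _ hk
    simp [Fin.insertNth_apply_same, hk]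
  · simp

theorem sq_contract {n : ℕ} {t : ℝ} (ht : 1 / 2 ≤ t) (a : Fin (n + 1) → ℝ) :
    (∑ m, t⁻¹ * a m) ^ 2 ≤ 4 * (n + 1) * ∑ m, a m ^ 2 := by
  rw [← Finset.mul_sum, mul_pow, mul_assoc]
  have h1 : t⁻¹ ≤ 2 := by
    rw [inv_le_comm₀ (by linarith) (by norm_num)]; linarith
  have h2 : t⁻¹ ^ 2 ≤ 4 := by
    have : 0 ≤ t⁻¹ := inv_nonneg.2 (by linarith)
    nlinarith
  refine mul_le_mul h2 ?_ (sq_nonneg _) (by norm_num)
  simpa using sq_sum_le_card_mul_sum_sq (s := Finset.univ) (f := a)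

theorem mean_AP (hS : StmtSep) {δ : ℝ} {U : E d → ℝ} (hU : Pot δ U) {t : ℝ} (ht : 0 < t)
    (l : List (Fin d)) (j : Fin d) (x : E d) : Ept U t x (AP U t (j :: l) x) = 0 := by
  obtain ⟨-, -, h1, -, -, h2, h3⟩ := hS d δ U hU t ht
  induction l generalizing j x with
  | nil =>
    change Ept U t x (dd U t j (AP U t []) x) = 0
    rw [← (h3 _ (h1 [])).2.2.2.2.2.2 x j]
    change fderiv ℝ (fun x' => Ept U t x' fun _ => 1) x (ee j) = 0
    simp [h2]
  | cons i l ih =>
    change Ept U t x (dd U t j (AP U t (i :: l)) x) = 0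
    rw [← (h3 _ (h1 _)).2.2.2.2.2.2 x j]
    simp [ih]

theorem mean_Au (hP : StmtPoinc) (hS : StmtSep) {δ : ℝ} {U : E d → ℝ} (hU : Pot δ U) {t : ℝ}
    (ht : 0 < t) (i : Fin d) (l : List (Fin d)) (x : E d) : Ept U t x (Au U t i l x) = 0 := by
  obtain ⟨-, -, -, h1, h2, -, h3⟩ := hS d δ U hU t ht
  induction l generalizing x with
  | nil =>
    have h4 : PG (Au U t i [] x) := (h3 _ (h1 i [])).2.1 x
    have h5 := Ept_add hP hU (t := t) (x := x) h4 (pg_const (GF U t x i))
    rw [Ept_const hP hU] at h5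
    have h6 : (fun X => Au U t i [] x X + GF U t x i) = fun X => gradient U X i := by
      funext X; simp [Au]
    rw [h6, h2] at h5
    linarith
  | cons j l ih =>
    change Ept U t x (dd U t j (Au U t i l) x) = 0
    rw [← (h3 _ (h1 i l)).2.2.2.2.2.2 x j]
    simp [ih]

theorem fderiv_lin {ι : Type} [Fintype ι] (β : ι → ℝ) (F : ι → E d → ℝ)
    (hF : ∀ i, ContDiff ℝ 1 (F i)) (X v : E d) :
    fderiv ℝ (fun X => ∑ i, β i * F i X) X v = ∑ i, β i * fderiv ℝ (F i) X v := by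
  rw [fderiv_fun_sum fun i _ => ((hF i).differentiable (by simp) X).const_mul (β i), sum_apply]
  refine Finset.sum_congr rfl fun i _ => ?_
  rw [fderiv_const_mul ((hF i).differentiable (by simp) X)]
  rfl

theorem boundAP (hP : StmtPoinc) (hS : StmtSep) (k : ℕ) :
    ∃ C : ℝ, 0 ≤ C ∧ ∀ (d : ℕ) (δ : ℝ) (U : E d → ℝ), Pot δ U → ∀ t ∈ Icc (1 / 2 : ℝ) 1,
      ∀ (x : E d) (β : (Fin k → Fin d) → ℝ),
      Ept U t x (fun X => (∑ u, β u * AP U t (List.ofFn u) x X) ^ 2) ≤ C * ∑ u, β u ^ 2 := by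
  induction k with
  | zero =>
    refine ⟨1, zero_le_one, fun d δ U hU t _ x β => ?_⟩
    simp only [Finset.univ_unique, Finset.sum_singleton, List.ofFn_zero, AP, List.foldr_nil,
      mul_one, one_mul]
    rw [Ept_const hP hU]
  | succ n ih =>
    obtain ⟨C, hC, ih⟩ := ih
    refine ⟨4 * (n + 1) * ((n + 1) * C), by positivity, fun d δ U hU t ht x β => ?_⟩
    have ht0 : 0 < t := by linarith [ht.1]
    obtain ⟨hg, -, h1, -, -, -, h3⟩ := hS d δ U hU t ht0
    have hpg : ∀ l, PG (AP U t l x) := fun l => (h3 _ (h1 l)).2.1 x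
    have hsm : ∀ l, ContDiff ℝ 1 (AP U t l x) := fun l =>
      ((sm_FF hg (b := fun _ => 1) contDiff_const l).right x).of_le (by simp)
    have hq : ∀ (m : Fin (n + 1)) (k : Fin d),
        PG fun X => ∑ v, β (Fin.insertNth m k v) * AP U t (List.ofFn v) x X :=
      fun m k => pg_sum _ _ fun v => pg_cmul _ (hpg _)
    have e : ∀ k X, fderiv ℝ (fun X => ∑ u, β u * AP U t (List.ofFn u) x X) X (ee k) =
        ∑ m : Fin (n + 1), t⁻¹ * ∑ v, β (Fin.insertNth m k v) * AP U t (List.ofFn v) x X := by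
      intro k X
      rw [fderiv_lin _ _ fun u => hsm _, ← contract β (fun v => AP U t (List.ofFn v) x X)]
      refine Finset.sum_congr rfl fun u _ => ?_
      congr 1
      exact congrFun (congrFun (DX_FF hg (b := fun _ => 1) contDiff_const k n u) x) X
    have hd : ∀ k, PG fun X =>
        fderiv ℝ (fun X => ∑ u, β u * AP U t (List.ofFn u) x X) X (ee k) := by
      intro k
      simp only [e]
      exact pg_sum _ _ fun m => pg_cmul _ (hq m k)
    refine (poinc hP hU ht0.le ht.2 (ContDiff.sum fun u _ => contDiff_const.mul (hsm _))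
      (pg_sum _ _ fun u => pg_cmul _ (hpg _)) hd ?_).trans ?_
    · rw [Ept_sum hP hU _ _ fun u => pg_cmul _ (hpg _)]
      refine Finset.sum_eq_zero fun u _ => ?_
      rw [Ept_cmul, List.ofFn_succ, mean_AP hS hU ht0, mul_zero]
    refine (Ept_mono hP hU (pg_sum _ _ fun k => pg_sq (hd k))
      (g := fun X => ∑ k, 4 * (n + 1) * ∑ m : Fin (n + 1),
        (∑ v, β (Fin.insertNth m k v) * AP U t (List.ofFn v) x X) ^ 2)
      (pg_sum _ _ fun k => pg_cmul _ (pg_sum _ _ fun m => pg_sq (hq m k))) fun X => ?_).trans ?_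
    · refine Finset.sum_le_sum fun k _ => ?_
      rw [e]; exact sq_contract ht.1 _
    rw [Ept_sum hP hU _ _ fun k => pg_cmul _ (pg_sum _ _ fun m => pg_sq (hq m k))]
    simp only [Ept_cmul]
    rw [← Finset.mul_sum, mul_assoc (4 * ((n : ℝ) + 1))]
    refine mul_le_mul_of_nonneg_left ?_ (by positivity)
    calc _ ≤ ∑ k, ∑ m : Fin (n + 1), C * ∑ v, β (Fin.insertNth m k v) ^ 2 := by
          refine Finset.sum_le_sum fun k _ => ?_
          rw [Ept_sum hP hU _ _ fun m => pg_sq (hq m k)]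
          exact Finset.sum_le_sum fun m _ => ih d δ U hU t ht x _
      _ = ∑ m : Fin (n + 1), C * ∑ u, β u ^ 2 := by
          rw [Finset.sum_comm]
          refine Finset.sum_congr rfl fun m _ => ?_
          rw [← Finset.mul_sum, sum_insertNth m]
      _ = _ := by simp [mul_assoc]

theorem pg_Hs {δ : ℝ} {U : E d → ℝ} (hU : Pot δ U) (k i : Fin d) : PG fun X => Hs U X k i := by
  have c1 : Continuous (fderiv ℝ (gradient U)) := (contDiff_grad hU).continuous_fderiv (by simp)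
  refine pg_bdd (by unfold Hs; fun_prop) δ fun X => ?_
  refine (PiLp.norm_apply_le (fderiv ℝ (gradient U) X (ee k)) i).trans ?_
  refine (ContinuousLinearMap.le_opNorm _ _).trans ?_
  simpa using norm_hess hU X

theorem boundAu (hP : StmtPoinc) (hS : StmtSep) (k : ℕ) :
    ∃ C : ℝ, 0 ≤ C ∧ ∀ (d : ℕ) (δ : ℝ) (U : E d → ℝ), Pot δ U → ∀ t ∈ Icc (1 / 2 : ℝ) 1,
      ∀ (x : E d) (α : Fin d → (Fin k → Fin d) → ℝ),
      Ept U t x (fun X => (∑ i, ∑ u, α i u * Au U t i (List.ofFn u) x X) ^ 2) ≤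
        C * δ ^ 2 * ∑ i, ∑ u, α i u ^ 2 := by
  have key : ∀ (k d : ℕ) (δ : ℝ) (U : E d → ℝ), Pot δ U → ∀ t ∈ Icc (1 / 2 : ℝ) 1,
      ∀ (x : E d) (α : Fin d → (Fin k → Fin d) → ℝ) (D : Fin d → E d → ℝ), (∀ m, PG (D m)) →
      (∀ m X, ∑ i, ∑ u, α i u * DX m (Au U t i (List.ofFn u)) x X = D m X) →
      Ept U t x (fun X => (∑ i, ∑ u, α i u * Au U t i (List.ofFn u) x X) ^ 2) ≤
        Ept U t x (fun X => ∑ m, D m X ^ 2) := by
    intro k d δ U hU t ht x α D hD hDe
    have ht0 : 0 < t := by linarith [ht.1]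
    obtain ⟨hg, -, -, h1, -, -, h3⟩ := hS d δ U hU t ht0
    have hpg : ∀ i l, PG (Au U t i l x) := fun i l => (h3 _ (h1 i l)).2.1 x
    have e : ∀ m X, fderiv ℝ (fun X => ∑ i, ∑ u, α i u * Au U t i (List.ofFn u) x X) X (ee m) =
        D m X := by
      intro m X
      rw [← hDe, ← Fintype.sum_prod_type']
      simp only [← Fintype.sum_prod_type']
      exact fderiv_lin (fun p : Fin d × (Fin k → Fin d) => α p.1 p.2)
        (fun p => Au U t p.1 (List.ofFn p.2) x) (fun p => contDiff_Au hU hg _ _ x) X _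
    have := poinc hP hU (x := x) ht0.le ht.2
      (h := fun X => ∑ i, ∑ u, α i u * Au U t i (List.ofFn u) x X)
      (ContDiff.sum fun i _ => ContDiff.sum fun u _ =>
        contDiff_const.mul (contDiff_Au hU hg _ _ x))
      (pg_sum _ _ fun i => pg_sum _ _ fun u => pg_cmul _ (hpg _ _))
      (fun m => by simp only [e]; exact hD m) (by
        rw [Ept_sum hP hU _ _ fun i => pg_sum _ _ fun u => pg_cmul _ (hpg _ _)]
        refine Finset.sum_eq_zero fun i _ => ?_
        rw [Ept_sum hP hU _ _ fun u => pg_cmul _ (hpg _ _)]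
        refine Finset.sum_eq_zero fun u _ => ?_
        rw [Ept_cmul, mean_Au hP hS hU ht0, mul_zero])
    simpa only [e] using this
  induction k with
  | zero =>
    refine ⟨1, zero_le_one, fun d δ U hU t ht x α => ?_⟩
    have ht0 : 0 < t := by linarith [ht.1]
    obtain ⟨hg, -⟩ := hS d δ U hU t ht0
    have hD : ∀ m, PG fun X => ∑ i, Hs U X m i * α i default := fun m =>
      pg_sum _ _ fun i => pg_mul (pg_Hs hU m i) (pg_const _)
    refine (key 0 d δ U hU t ht x α _ hD fun m X => ?_).trans ?_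
    · refine Finset.sum_congr rfl fun i _ => ?_
      simp only [Finset.univ_unique, Finset.sum_singleton, List.ofFn_zero, DX_Au_nil hU hg]
      ring
    refine (Ept_mono hP hU (pg_sum _ _ fun m => pg_sq (hD m)) (pg_const _)
      fun X => hess_bound hU X _).trans ?_
    rw [Ept_const hP hU]
    simp
  | succ n ih =>
    obtain ⟨C, hC, ih⟩ := ih
    obtain ⟨A, hA, hAP⟩ := boundAP hP hS (n + 1)
    refine ⟨2 * A + 2 * (4 * (n + 1)) * ((n + 1) * C), by positivity,
      fun d δ U hU t ht x α => ?_⟩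
    have ht0 : 0 < t := by linarith [ht.1]
    obtain ⟨hg, -, h0, h1, -, -, h3⟩ := hS d δ U hU t ht0
    have hpg : ∀ i l, PG (Au U t i l x) := fun i l => (h3 _ (h1 i l)).2.1 x
    have hpa : ∀ i, PG fun X => ∑ u, α i u * AP U t (List.ofFn u) x X := fun i =>
      pg_sum _ _ fun u => pg_cmul _ ((h3 _ (h0 _)).2.1 x)
    have hq : ∀ (r : Fin (n + 1)) (m : Fin d),
        PG fun X => ∑ i, ∑ v, α i (Fin.insertNth r m v) * Au U t i (List.ofFn v) x X :=
      fun r m => pg_sum _ _ fun i => pg_sum _ _ fun v => pg_cmul _ (hpg _ _)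
    have hD : ∀ m, PG fun X => ∑ i, Hs U X m i * (∑ u, α i u * AP U t (List.ofFn u) x X) +
        ∑ r : Fin (n + 1), t⁻¹ *
          ∑ i, ∑ v, α i (Fin.insertNth r m v) * Au U t i (List.ofFn v) x X := fun m =>
      pg_add (pg_sum _ _ fun i => pg_mul (pg_Hs hU m i) (hpa i))
        (pg_sum _ _ fun r => pg_cmul _ (hq r m))
    refine (key (n + 1) d δ U hU t ht x α _ hD fun m X => ?_).trans ?_
    · simp only [DX_Au_succ hU hg, mul_add, Finset.sum_add_distrib]
      congr 1
      · refine Finset.sum_congr rfl fun i _ => ?_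
        rw [Finset.mul_sum]
        exact Finset.sum_congr rfl fun u _ => by ring
      · rw [Finset.sum_congr rfl fun i _ =>
          contract (α i) (fun v => Au U t i (List.ofFn v) x X) t m, Finset.sum_comm]
        exact Finset.sum_congr rfl fun r _ => by rw [Finset.mul_sum]
    have hG1 : PG fun X => ∑ i, (∑ u, α i u * AP U t (List.ofFn u) x X) ^ 2 :=
      pg_sum _ _ fun i => pg_sq (hpa i)
    have hG2 : PG fun X => ∑ m, ∑ r : Fin (n + 1),
        (∑ i, ∑ v, α i (Fin.insertNth r m v) * Au U t i (List.ofFn v) x X) ^ 2 :=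
      pg_sum _ _ fun m => pg_sum _ _ fun r => pg_sq (hq r m)
    refine (Ept_mono hP hU (pg_sum _ _ fun m => pg_sq (hD m))
      (pg_add (pg_cmul (2 * δ ^ 2) hG1) (pg_cmul (2 * (4 * (n + 1))) hG2)) fun X => ?_).trans ?_
    · have a1 := hess_bound hU X fun i => ∑ u, α i u * AP U t (List.ofFn u) x X
      rw [mul_assoc 2 (δ ^ 2), mul_assoc 2 (4 * ((n : ℝ) + 1)), Finset.mul_sum _ _ (4 * _)]
      refine le_trans ?_ (add_le_add (mul_le_mul_of_nonneg_left a1 zero_le_two)
        (mul_le_mul_of_nonneg_left (Finset.sum_le_sum fun m _ => sq_contract ht.1 _) zero_le_two))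
      rw [← mul_add, ← Finset.sum_add_distrib, Finset.mul_sum]
      exact Finset.sum_le_sum fun m _ => by nlinarith [sq_nonneg (
        ∑ i, Hs U X m i * (∑ u, α i u * AP U t (List.ofFn u) x X) - ∑ r : Fin (n + 1), t⁻¹ *
          ∑ i, ∑ v, α i (Fin.insertNth r m v) * Au U t i (List.ofFn v) x X)]
    rw [Ept_add hP hU (pg_cmul _ hG1) (pg_cmul _ hG2), Ept_cmul, Ept_cmul,
      Ept_sum hP hU _ _ fun i => pg_sq (hpa i),
      Ept_sum hP hU _ _ fun m => pg_sum _ _ fun r => pg_sq (hq r m)]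
    have b1 : ∑ i, Ept U t x (fun X => (∑ u, α i u * AP U t (List.ofFn u) x X) ^ 2) ≤
        A * ∑ i, ∑ u, α i u ^ 2 := by
      rw [Finset.mul_sum]
      exact Finset.sum_le_sum fun i _ => hAP d δ U hU t ht x _
    have b2 : ∑ m, Ept U t x (fun X => ∑ r : Fin (n + 1),
        (∑ i, ∑ v, α i (Fin.insertNth r m v) * Au U t i (List.ofFn v) x X) ^ 2) ≤
        (n + 1) * (C * δ ^ 2 * ∑ i, ∑ u, α i u ^ 2) := by
      calc _ ≤ ∑ m, ∑ r : Fin (n + 1),
            C * δ ^ 2 * ∑ i, ∑ v, α i (Fin.insertNth r m v) ^ 2 := by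
            refine Finset.sum_le_sum fun m _ => ?_
            rw [Ept_sum hP hU _ _ fun r => pg_sq (hq r m)]
            exact Finset.sum_le_sum fun r _ => ih d δ U hU t ht x _
        _ = ∑ r : Fin (n + 1), C * δ ^ 2 * ∑ i, ∑ u, α i u ^ 2 := by
            rw [Finset.sum_comm]
            refine Finset.sum_congr rfl fun r _ => ?_
            rw [← Finset.mul_sum, Finset.sum_comm]
            congr 1
            exact Finset.sum_congr rfl fun i _ => (sum_insertNth r fun u => α i u ^ 2).symm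
        _ = _ := by simp
    calc _ ≤ 2 * δ ^ 2 * (A * ∑ i, ∑ u, α i u ^ 2) +
          2 * (4 * (n + 1)) * ((n + 1) * (C * δ ^ 2 * ∑ i, ∑ u, α i u ^ 2)) := by gcongr
      _ = _ := by ring

end L2P

set_option linter.unusedVariables false in
theorem l2Stmt (hG : StmtGauss) (hB : StmtBasic) (hP : StmtPoinc) (hS : StmtSep) : StmtL2 := by
  intro k
  obtain ⟨A, hA, h1⟩ := L2P.boundAP hP hS k
  obtain ⟨C, hC, h2⟩ := L2P.boundAu hP hS k
  refine ⟨A + C, fun d δ U hU t ht x => ⟨fun β => (h1 d δ U hU t ht x β).trans ?_,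
    fun α => (h2 d δ U hU t ht x α).trans ?_⟩⟩
  · gcongr; linarith
  · gcongr; linarith

end Crest.Agent.R285
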