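import Crest.Agent.R285.Defs

/-! Row 285, subtask L2, part A: derivatives of the Appell tensors in `X`. -/

set_option autoImplicit false

open MeasureTheory ProbabilityTheory Set
open scoped ENNReal NNReal ContDiff RealInnerProductSpace
open Crest.OracleSampling

noncomputable section

namespace Crest.Agent.R285.L2P

variable {d : ℕ}

/-- jointly smooth -/
def Sm (ψ : E d → E d → ℝ) : Prop := ContDiff ℝ ∞ (Function.uncurry ψ)

/-- derivative in `X` -/
def DX (k : Fin d) (ψ : E d → E d → ℝ) (x X : E d) : ℝ := fderiv ℝ (ψ x) X (ee k)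

theorem Sm.diff {ψ : E d → E d → ℝ} (h : Sm ψ) : Differentiable ℝ (Function.uncurry ψ) :=
  ContDiff.differentiable h (by simp)

theorem Sm.left {ψ : E d → E d → ℝ} (h : Sm ψ) (X : E d) : ContDiff ℝ ∞ fun x => ψ x X :=
  ContDiff.comp (g := Function.uncurry ψ) (f := fun x => (x, X)) h (by fun_prop)

theorem Sm.right {ψ : E d → E d → ℝ} (h : Sm ψ) (x : E d) : ContDiff ℝ ∞ (ψ x) :=
  ContDiff.comp (g := Function.uncurry ψ) (f := fun X => (x, X)) h (by fun_prop)

theorem fd1 {ψ : E d → E d → ℝ} (h : Sm ψ) (x X v : E d) :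
    fderiv ℝ (fun x' => ψ x' X) x v = fderiv ℝ (Function.uncurry ψ) (x, X) (v, 0) := by
  have := (h.diff (x, X)).hasFDerivAt.comp x (hasFDerivAt_prodMk_left (𝕜 := ℝ) x X)
  rw [show (fun x' => ψ x' X) = Function.uncurry ψ ∘ fun x' => (x', X) from rfl, this.fderiv]
  simp

theorem fd2 {ψ : E d → E d → ℝ} (h : Sm ψ) (x X v : E d) :
    fderiv ℝ (ψ x) X v = fderiv ℝ (Function.uncurry ψ) (x, X) (0, v) := by
  have := (h.diff (x, X)).hasFDerivAt.comp X (hasFDerivAt_prodMk_right x X)
  rw [show ψ x = Function.uncurry ψ ∘ fun X' => (x, X') from rfl, this.fderiv]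
  simp

theorem sm_dir {ψ : E d → E d → ℝ} (h : Sm ψ) (v : E d × E d) :
    ContDiff ℝ ∞ fun p => fderiv ℝ (Function.uncurry ψ) p v :=
  (ContDiff.fderiv_right (m := ∞) h (by simp)).clm_apply contDiff_const

theorem Sm.DX {ψ : E d → E d → ℝ} (h : Sm ψ) (k : Fin d) : Sm (DX k ψ) := by
  have : Function.uncurry (L2P.DX k ψ) = fun p => fderiv ℝ (Function.uncurry ψ) p (0, ee k) := by
    funext p; exact fd2 h p.1 p.2 _
  unfold Sm; rw [this]; exact sm_dir h _

theorem Sm.D1 {ψ : E d → E d → ℝ} (h : Sm ψ) (j : Fin d) :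
    Sm (fun x X => fderiv ℝ (fun x' => ψ x' X) x (ee j)) := by
  have : (Function.uncurry fun x X => fderiv ℝ (fun x' => ψ x' X) x (ee j)) =
      fun p => fderiv ℝ (Function.uncurry ψ) p (ee j, 0) := by
    funext p; exact fd1 h p.1 p.2 _
  unfold Sm; rw [this]; exact sm_dir h _

theorem Sm.dd {U : E d → ℝ} {t : ℝ} (hg : ∀ i, ContDiff ℝ ∞ fun x => GF U t x i)
    {ψ : E d → E d → ℝ} (h : Sm ψ) (j : Fin d) : Sm (dd U t j ψ) := by
  have h1 := h.D1 j
  have h2 : ContDiff ℝ ∞ fun p : E d × E d => GF U t p.1 j := (hg j).comp contDiff_fst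
  have h3 : ContDiff ℝ ∞ fun p : E d × E d => (p.2 j - p.1 j) / t := by fun_prop
  exact ContDiff.add h1 (ContDiff.mul h (h3.add h2))

theorem swap_dir {ψ : E d → E d → ℝ} (h : Sm ψ) (p v w : E d × E d) :
    fderiv ℝ (fun q => fderiv ℝ (Function.uncurry ψ) q v) p w =
      fderiv ℝ (fun q => fderiv ℝ (Function.uncurry ψ) q w) p v := by
  have h1 : DifferentiableAt ℝ (fderiv ℝ (Function.uncurry ψ)) p :=
    (ContDiff.fderiv_right (m := ∞) h (by simp)).differentiable (by simp) p
  rw [fderiv_clm_apply h1 (differentiableAt_const _), fderiv_clm_apply h1 (differentiableAt_const _)]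
  simp only [fderiv_fun_const, Pi.zero_apply, ContinuousLinearMap.comp_zero, zero_add,
    ContinuousLinearMap.flip_apply]
  exact (ContDiff.contDiffAt h (x := p)).isSymmSndFDerivAt
    (by rw [minSmoothness_of_isRCLikeNormedField]; exact WithTop.coe_le_coe.2 le_top) |>.eq w v

theorem DX_dd {U : E d → ℝ} {t : ℝ} {ψ : E d → E d → ℝ} (h : Sm ψ) (j k : Fin d) (x X : E d) :
    DX k (dd U t j ψ) x X =
      dd U t j (DX k ψ) x X + (if j = k then 1 else 0) / t * ψ x X := by
  have h1 := (h.D1 j).right x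
  have h2 := h.right x
  have e1 : fderiv ℝ (fun X => fderiv ℝ (fun x' => ψ x' X) x (ee j)) X (ee k) =
      fderiv ℝ (fun x' => DX k ψ x' X) x (ee j) := by
    rw [fd2 (h.D1 j) x X, fd1 (h.DX k) x X]
    have a1 : (Function.uncurry fun x X => fderiv ℝ (fun x' => ψ x' X) x (ee j)) =
        fun p => fderiv ℝ (Function.uncurry ψ) p (ee j, 0) := by
      funext p; exact fd1 h p.1 p.2 _
    have a2 : Function.uncurry (L2P.DX k ψ) =
        fun p => fderiv ℝ (Function.uncurry ψ) p (0, ee k) := by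
      funext p; exact fd2 h p.1 p.2 _
    rw [a1, a2, swap_dir h]
  have hm : HasFDerivAt (fun X : E d => (X j - x j) / t + GF U t x j)
      (t⁻¹ • (EuclideanSpace.proj j : E d →L[ℝ] ℝ)) X := by
    have := (((EuclideanSpace.proj j : E d →L[ℝ] ℝ).hasFDerivAt (x := X)).sub_const
      (x j)).const_mul t⁻¹ |>.add_const (GF U t x j)
    simp only [div_eq_inv_mul]
    exact this
  have hd := ((h1.differentiable (by simp) X).hasFDerivAt).add
    ((h2.differentiable (by simp) X).hasFDerivAt.mul hm)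
  have e2 : DX k (dd U t j ψ) x X = _ := congrArg (fun L => L (ee k)) hd.fderiv
  rw [e2]
  simp only [add_apply, smul_apply, smul_eq_mul, e1]
  unfold dd DX
  by_cases hjk : j = k
  · subst hjk; simp; ring
  · simp [hjk]; ring

theorem dd_sum {U : E d → ℝ} {t : ℝ} {ι : Type} (s : Finset ι) (c : ι → ℝ)
    (F : ι → E d → E d → ℝ) (hF : ∀ i, Sm (F i)) (j : Fin d) (x X : E d) :
    dd U t j (fun x X => ∑ i ∈ s, c i * F i x X) x X = ∑ i ∈ s, c i * dd U t j (F i) x X := by
  unfold dd
  rw [fderiv_fun_sum fun i _ =>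
    (((hF i).left X).differentiable (by simp) x).const_mul (c i)]
  rw [sum_apply, Finset.sum_mul, ← Finset.sum_add_distrib]
  refine Finset.sum_congr rfl fun i _ => ?_
  rw [fderiv_const_mul (((hF i).left X).differentiable (by simp) x)]
  simp only [smul_apply, smul_eq_mul]
  ring

/-- twisted derivatives of a function of `x` -/
def FF (U : E d → ℝ) (t : ℝ) (b : E d → ℝ) (l : List (Fin d)) : E d → E d → ℝ :=
  l.foldr (dd U t) fun x _ => b x

theorem sm_FF {U : E d → ℝ} {t : ℝ} (hg : ∀ i, ContDiff ℝ ∞ fun x => GF U t x i)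
    {b : E d → ℝ} (hb : ContDiff ℝ ∞ b) (l : List (Fin d)) : Sm (FF U t b l) := by
  induction l with
  | nil => exact hb.comp contDiff_fst
  | cons j l ih => exact ih.dd hg j

theorem DX_FF_nil (U : E d → ℝ) (t : ℝ) (b : E d → ℝ) (k : Fin d) :
    DX k (FF U t b []) = fun _ _ => 0 := by
  funext x X
  simp [DX, FF]

theorem DX_FF {U : E d → ℝ} {t : ℝ} (hg : ∀ i, ContDiff ℝ ∞ fun x => GF U t x i)
    {b : E d → ℝ} (hb : ContDiff ℝ ∞ b) (k : Fin d) (n : ℕ) (u : Fin (n + 1) → Fin d) :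
    DX k (FF U t b (List.ofFn u)) = fun x X => ∑ i, (if u i = k then 1 else 0) / t *
      FF U t b (List.ofFn fun m => u (i.succAbove m)) x X := by
  induction n with
  | zero =>
    funext x X
    have : List.ofFn u = [u 0] := by simp
    rw [this]
    change DX k (dd U t (u 0) (FF U t b [])) x X = _
    rw [DX_dd (sm_FF hg hb []), DX_FF_nil]
    simp [dd]
  | succ n ih =>
    funext x X
    rw [List.ofFn_succ]
    change DX k (dd U t (u 0) (FF U t b (List.ofFn fun i => u i.succ))) x X = _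
    rw [DX_dd (sm_FF hg hb _), ih, dd_sum _ _ _ fun i => sm_FF hg hb _, add_comm]
    refine Eq.trans ?_ (Fin.sum_univ_succ _).symm
    congr 1
    refine Finset.sum_congr rfl fun i _ => ?_
    congr 1
    rw [List.ofFn_succ (f := fun m => u (i.succ.succAbove m))]
    simp only [Fin.succ_succAbove_zero, Fin.succ_succAbove_succ]
    rfl

theorem Au_eq {U : E d → ℝ} {t : ℝ} (hg : ∀ i, ContDiff ℝ ∞ fun x => GF U t x i) (i : Fin d)
    (l : List (Fin d)) : Au U t i l = fun x X =>
      gradient U X i * AP U t l x X - FF U t (fun x => GF U t x i) l x X := by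
  induction l with
  | nil => funext x X; simp [Au, AP, FF]
  | cons j l ih =>
    funext x X
    change dd U t j (Au U t i l) x X = gradient U X i * dd U t j (AP U t l) x X -
      dd U t j (FF U t (fun x => GF U t x i) l) x X
    have h1 : DifferentiableAt ℝ (fun x' => AP U t l x' X) x :=
      ((sm_FF hg (b := fun _ => 1) contDiff_const l).left X).differentiable (by simp) x
    have h2 := ((sm_FF hg (hg i) l).left X).differentiable (by simp) x
    rw [ih]
    unfold dd
    rw [fderiv_fun_sub (h1.const_mul _) h2, fderiv_const_mul h1]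
    simp only [sub_apply, smul_apply, smul_eq_mul]
    ring

theorem contDiff_grad {δ : ℝ} {U : E d → ℝ} (hU : Pot δ U) : ContDiff ℝ 1 (gradient U) := by
  have h1 : ContDiff ℝ 1 (fderiv ℝ U) := hU.smooth.fderiv_right (by norm_num)
  exact (InnerProductSpace.toDual ℝ (E d)).symm.toContinuousLinearEquiv.contDiff.comp h1

theorem contDiff_gradi {δ : ℝ} {U : E d → ℝ} (hU : Pot δ U) (i : Fin d) :
    ContDiff ℝ 1 fun X => gradient U X i :=
  (EuclideanSpace.proj i : E d →L[ℝ] ℝ).contDiff.comp (contDiff_grad hU)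

/-- Hessian entries -/
def Hs (U : E d → ℝ) (X : E d) (k i : Fin d) : ℝ := fderiv ℝ (gradient U) X (ee k) i

theorem fderiv_gradi {δ : ℝ} {U : E d → ℝ} (hU : Pot δ U) (X : E d) (k i : Fin d) :
    fderiv ℝ (fun X => gradient U X i) X (ee k) = Hs U X k i := by
  have := (EuclideanSpace.proj i : E d →L[ℝ] ℝ).hasFDerivAt.comp X
    ((contDiff_grad hU).differentiable (by simp) X).hasFDerivAt
  exact congrArg (fun L => L (ee k)) this.fderiv

theorem norm_hess {δ : ℝ} {U : E d → ℝ} (hU : Pot δ U) (X : E d) :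
    ‖fderiv ℝ (gradient U) X‖ ≤ δ :=
  norm_fderiv_le_of_lip' ℝ hU.pos.le (Filter.Eventually.of_forall fun x => hU.lip x X)

theorem hess_bound {δ : ℝ} {U : E d → ℝ} (hU : Pot δ U) (X : E d) (a : Fin d → ℝ) :
    ∑ k, (∑ i, Hs U X k i * a i) ^ 2 ≤ δ ^ 2 * ∑ i, a i ^ 2 := by
  set A := fderiv ℝ (gradient U) X
  set v : E d := WithLp.toLp 2 a
  have e : ∀ k, ∑ i, Hs U X k i * a i = (ContinuousLinearMap.adjoint A v) k := by
    intro k
    have h1 := ContinuousLinearMap.adjoint_inner_left A (ee k) v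
    rw [real_inner_comm, EuclideanSpace.inner_single_left] at h1
    simp only [map_one, one_mul] at h1
    rw [h1, PiLp.inner_apply]
    refine Finset.sum_congr rfl fun i _ => ?_
    simp [Hs, A, v]
  simp only [e]
  rw [← EuclideanSpace.real_norm_sq_eq]
  have h2 : ∑ i, a i ^ 2 = ‖v‖ ^ 2 := by rw [EuclideanSpace.real_norm_sq_eq]
  rw [h2, ← mul_pow]
  refine pow_le_pow_left₀ (norm_nonneg _) ((ContinuousLinearMap.le_opNorm _ _).trans ?_) 2
  rw [LinearIsometryEquiv.norm_map]
  exact mul_le_mul_of_nonneg_right (norm_hess hU X) (norm_nonneg _)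

theorem contDiff_Au {δ : ℝ} {U : E d → ℝ} (hU : Pot δ U) {t : ℝ}
    (hg : ∀ i, ContDiff ℝ ∞ fun x => GF U t x i) (i : Fin d) (l : List (Fin d)) (x : E d) :
    ContDiff ℝ 1 (Au U t i l x) := by
  rw [Au_eq hg]
  exact ((contDiff_gradi hU i).mul
    (((sm_FF hg (b := fun _ => 1) contDiff_const l).right x).of_le (by simp))).sub
    (((sm_FF hg (hg i) l).right x).of_le (by simp))

theorem DX_Au {δ : ℝ} {U : E d → ℝ} (hU : Pot δ U) {t : ℝ}
    (hg : ∀ i, ContDiff ℝ ∞ fun x => GF U t x i) (k i : Fin d) (l : List (Fin d)) (x X : E d) :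
    DX k (Au U t i l) x X = Hs U X k i * AP U t l x X + (gradient U X i * DX k (AP U t l) x X -
      DX k (FF U t (fun x => GF U t x i) l) x X) := by
  have h1 : DifferentiableAt ℝ (AP U t l x) X :=
    ((sm_FF hg (b := fun _ => 1) contDiff_const l).right x).differentiable (by simp) X
  have h2 := ((sm_FF hg (hg i) l).right x).differentiable (by simp) X
  have h3 := (contDiff_gradi hU i).differentiable (by simp) X
  have hd := (h3.hasFDerivAt.mul h1.hasFDerivAt).sub h2.hasFDerivAt
  rw [Au_eq hg]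
  have e2 : DX k (fun x X => gradient U X i * AP U t l x X -
    FF U t (fun x => GF U t x i) l x X) x X = _ := congrArg (fun L => L (ee k)) hd.fderiv
  rw [e2]
  simp only [add_apply, sub_apply,
    smul_apply, smul_eq_mul, fderiv_gradi hU]
  unfold DX
  ring

theorem DX_Au_nil {δ : ℝ} {U : E d → ℝ} (hU : Pot δ U) {t : ℝ}
    (hg : ∀ i, ContDiff ℝ ∞ fun x => GF U t x i) (k i : Fin d) (x X : E d) :
    DX k (Au U t i []) x X = Hs U X k i := by
  rw [DX_Au hU hg, DX_FF_nil, show AP U t [] = FF U t (fun _ => 1) [] from rfl, DX_FF_nil]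
  simp [FF]

theorem DX_Au_succ {δ : ℝ} {U : E d → ℝ} (hU : Pot δ U) {t : ℝ}
    (hg : ∀ i, ContDiff ℝ ∞ fun x => GF U t x i) (k i : Fin d) (n : ℕ) (u : Fin (n + 1) → Fin d)
    (x X : E d) :
    DX k (Au U t i (List.ofFn u)) x X = Hs U X k i * AP U t (List.ofFn u) x X +
      ∑ m, (if u m = k then 1 else 0) / t *
        Au U t i (List.ofFn fun r => u (m.succAbove r)) x X := by
  rw [DX_Au hU hg, DX_FF hg (hg i),
    show AP U t (List.ofFn u) = FF U t (fun _ => 1) (List.ofFn u) from rfl,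
    DX_FF hg contDiff_const]
  congr 1
  rw [Finset.mul_sum, ← Finset.sum_sub_distrib]
  refine Finset.sum_congr rfl fun m _ => ?_
  rw [Au_eq hg]
  change _ = _ * (_ * FF U t (fun _ => 1) _ x X - _)
  ring

end Crest.Agent.R285.L2P
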