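import Crest.Agent.R285.DefsT

/-! The `L²(ν_a)` bound on the class `DC` (iterated Meyer inequality). -/

set_option autoImplicit false

open MeasureTheory ProbabilityTheory Set
open scoped ENNReal NNReal ContDiff RealInnerProductSpace
open Crest.OracleSampling

noncomputable section

namespace Crest.Agent.R285

namespace L4

section PG
variable {H : Type} [NormedAddCommGroup H] {f g : H → ℝ}

theorem pg_bdd (hc : Continuous f) (C : ℝ) (hC : ∀ x, |f x| ≤ C) : PG f :=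
  ⟨hc, C, 0, by simpa using hC⟩

theorem pg_const (c : ℝ) : PG fun _ : H => c := pg_bdd continuous_const |c| fun _ => le_rfl

theorem pg_mul (hf : PG f) (hg : PG g) : PG fun x => f x * g x := by
  obtain ⟨hfc, C, k, hC⟩ := hf
  obtain ⟨hgc, C', k', hC'⟩ := hg
  refine ⟨hfc.mul hgc, C * C', k + k', fun x => ?_⟩
  rw [abs_mul, pow_add, mul_mul_mul_comm]
  exact mul_le_mul (hC x) (hC' x) (abs_nonneg _) ((abs_nonneg _).trans (hC x))

theorem pg_add (hf : PG f) (hg : PG g) : PG fun x => f x + g x := by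
  obtain ⟨hfc, C, k, hC⟩ := hf
  obtain ⟨hgc, C', k', hC'⟩ := hg
  refine ⟨hfc.add hgc, |C| + |C'|, k + k', fun x => ?_⟩
  have h1 : 1 ≤ 1 + ‖x‖ := le_add_of_nonneg_right (norm_nonneg x)
  rw [add_mul]
  refine (abs_add_le _ _).trans (add_le_add ((hC x).trans ?_) ((hC' x).trans ?_))
  · exact mul_le_mul (le_abs_self _) (pow_le_pow_right₀ h1 (by omega)) (by positivity)
      (abs_nonneg _)
  · exact mul_le_mul (le_abs_self _) (pow_le_pow_right₀ h1 (by omega)) (by positivity)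
      (abs_nonneg _)

theorem pg_neg (hf : PG f) : PG fun x => -f x := by
  simpa using pg_mul (pg_const (-1)) hf

theorem pg_sub (hf : PG f) (hg : PG g) : PG fun x => f x - g x := by
  simpa only [sub_eq_add_neg] using pg_add hf (pg_neg hg)

theorem pg_sq (hf : PG f) : PG fun x => f x ^ 2 := by
  simpa only [sq] using pg_mul hf hf

theorem pg_sum {ι : Type} (s : Finset ι) {F : ι → H → ℝ} (h : ∀ i, PG (F i)) :
    PG fun x => ∑ i ∈ s, F i x := by
  classical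
  induction s using Finset.induction_on with
  | empty => simpa using pg_const 0
  | insert i s hi ih => simpa only [Finset.sum_insert hi] using pg_add (h i) ih

theorem pg_lin (hc : Continuous f) (A B : ℝ) (hA : 0 ≤ A) (hB : 0 ≤ B)
    (h : ∀ x, |f x| ≤ A + B * ‖x‖) : PG f :=
  ⟨hc, A + B, 1, fun x => (h x).trans (by nlinarith [norm_nonneg x])⟩

end PG

variable {d : ℕ} {U : E d → ℝ} {δ : ℝ} {a : ℝ × ℝ}

theorem isOpen_dom : IsOpen {p : Ph d | p.1 ∈ OO} :=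
  isOpen_lt (f := fun p : Ph d => p.1.1 ^ 2 + p.1.2 ^ 2) (by fun_prop) continuous_const

theorem sl_contDiff {f : Ph d → ℝ} (hf : Sm f) (ha : a ∈ OO) :
    ContDiff ℝ 1 fun ζ => f (a, ζ) :=
  (hf.of_le (by simp)).comp_contDiff (contDiff_const.prodMk contDiff_id) fun _ => ha

theorem sl_fderiv {f : Ph d → ℝ} (hf : Sm f) (ha : a ∈ OO) (ζ : E d × E d) (β : Bool)
    (l : Fin d) : fderiv ℝ (fun ζ => f (a, ζ)) ζ (ew β l).2 = pd β l f (a, ζ) := by
  have hd : DifferentiableAt ℝ f (a, ζ) :=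
    (hf.contDiffAt (isOpen_dom.mem_nhds ha)).differentiableAt (by simp)
  have := (hd.hasFDerivAt.comp ζ (hasFDerivAt_prodMk_right a ζ)).fderiv
  rw [show (fun ζ => f (a, ζ)) = f ∘ fun ζ => (a, ζ) from rfl, this]
  cases β <;> rfl

/-- the density of `ν_a` -/
def rho (U : E d → ℝ) (a : ℝ × ℝ) (ζ : E d × E d) : ℝ :=
  Real.exp (-Ff U (1 - a.1 ^ 2 - a.2 ^ 2) (a.1 • ζ.1 + a.2 • ζ.2))

theorem contDiff_rho (hB : StmtBasic) (hU : Pot δ U) : ContDiff ℝ 1 (rho U a) := by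
  have h : ContDiff ℝ 1 (Ff U (1 - a.1 ^ 2 - a.2 ^ 2)) := by
    refine contDiff_one_iff_fderiv.2 ⟨fun x => (hB.grad d δ U hU _ x).differentiableAt, ?_⟩
    rw [show fderiv ℝ (Ff U (1 - a.1 ^ 2 - a.2 ^ 2)) = _ from
      funext fun x => (hB.grad d δ U hU _ x).hasFDerivAt.fderiv]
    exact (InnerProductSpace.toDual ℝ (E d)).continuous.comp
      ((hB.contG d δ U hU).comp (continuous_const.prodMk continuous_id))
  exact (h.comp (by fun_prop)).neg.exp

theorem fderiv_rho (hB : StmtBasic) (hU : Pot δ U) (ζ : E d × E d) (β : Bool) (l : Fin d) :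
    fderiv ℝ (rho U a) ζ (ew β l).2 = -(aa β (a, ζ) * Gp U (a, ζ) l * rho U a ζ) := by
  have h1 : HasFDerivAt (fun ζ : E d × E d => a.1 • ζ.1 + a.2 • ζ.2) _ ζ :=
    ((hasFDerivAt_fst (𝕜 := ℝ)).const_smul a.1).add ((hasFDerivAt_snd (𝕜 := ℝ)).const_smul a.2)
  have h2 := (((hB.grad d δ U hU (1 - a.1 ^ 2 - a.2 ^ 2) _).hasFDerivAt.comp ζ h1).neg).exp
  rw [show fderiv ℝ (rho U a) ζ = _ from h2.fderiv]
  cases β <;> simp [ew, aa, Gp, rho, EuclideanSpace.inner_single_right] <;> ring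

theorem pg_rho (hB : StmtBasic) (hU : Pot δ U) : PG (rho U a) := by
  refine pg_bdd (contDiff_rho hB hU).continuous 1 fun ζ => ?_
  have := hB.Zpos d δ U hU (1 - a.1 ^ 2 - a.2 ^ 2) (a.1 • ζ.1 + a.2 • ζ.2)
  rw [rho, Ff, neg_neg, Real.exp_log this.1, abs_of_pos this.1]
  exact this.2

theorem int_nu (hG : StmtGauss) (hB : StmtBasic) (hU : Pot δ U) {h : E d × E d → ℝ}
    (hh : PG h) : Integrable h (nu U a) :=
  (integrable_tilted_iff (hG.pg2 d _ (pg_rho hB hU)) h).2 (hG.pg2 d _ (pg_mul (pg_rho hB hU) hh))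

theorem pg_ww (β : Bool) (l : Fin d) : PG fun ζ : E d × E d => ww β (a, ζ) l := by
  cases β
  · exact pg_lin (f := fun ζ : E d × E d => ζ.1 l) (by fun_prop) 0 1 le_rfl zero_le_one fun ζ => by
      simpa using (PiLp.norm_apply_le ζ.1 l).trans (norm_fst_le ζ)
  · exact pg_lin (f := fun ζ : E d × E d => ζ.2 l) (by fun_prop) 0 1 le_rfl zero_le_one fun ζ => by
      simpa using (PiLp.norm_apply_le ζ.2 l).trans (norm_snd_le ζ)

theorem pg_aa (β : Bool) : PG fun ζ : E d × E d => aa β (a, ζ) := by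
  cases β
  exacts [pg_const a.1, pg_const a.2]

theorem aa_sq (ha : a ∈ OO) (β : Bool) (ζ : E d × E d) : aa β (a, ζ) ^ 2 ≤ 1 := by
  have : a.1 ^ 2 + a.2 ^ 2 < 1 / 2 := ha
  cases β
  · change a.1 ^ 2 ≤ 1
    nlinarith [sq_nonneg a.2]
  · change a.2 ^ 2 ≤ 1
    nlinarith [sq_nonneg a.1]

theorem pg_G (hCo : StmtCov) (hU : Pot δ U) (hc : Calc U) (ha : a ∈ OO) (l : Fin d) :
    PG fun ζ : E d × E d => Gp U (a, ζ) l := by
  have hδ := hU.pos
  refine pg_lin (sl_contDiff (hc.smGi l) ha).continuous ‖GF U (1 - a.1 ^ 2 - a.2 ^ 2) 0‖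
    (δ * (|a.1| + |a.2|)) (norm_nonneg _) (by positivity) fun ζ => ?_
  have h1 := hCo.lip d δ U hU (1 - a.1 ^ 2 - a.2 ^ 2) (a.1 • ζ.1 + a.2 • ζ.2) 0
  have h2 : ‖a.1 • ζ.1 + a.2 • ζ.2 - 0‖ ≤ (|a.1| + |a.2|) * ‖ζ‖ := by
    rw [sub_zero, add_mul]
    refine (norm_add_le _ _).trans (add_le_add ?_ ?_) <;> rw [norm_smul, Real.norm_eq_abs]
    · exact mul_le_mul_of_nonneg_left (norm_fst_le ζ) (abs_nonneg _)
    · exact mul_le_mul_of_nonneg_left (norm_snd_le ζ) (abs_nonneg _)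
  refine (PiLp.norm_apply_le (Gp U (a, ζ)) l).trans ((norm_le_norm_add_norm_sub' _
    (GF U (1 - a.1 ^ 2 - a.2 ^ 2) 0)).trans ?_)
  rw [mul_assoc]
  exact add_le_add le_rfl (h1.trans (mul_le_mul_of_nonneg_left h2 hδ.le))

theorem pg_dl (hCo : StmtCov) (hU : Pot δ U) (hc : Calc U) (ha : a ∈ OO) {f : Ph d → ℝ}
    {β : Bool} {l : Fin d} (h0 : PG fun ζ => f (a, ζ)) (h1 : PG fun ζ => pd β l f (a, ζ)) :
    PG fun ζ => dl U β l f (a, ζ) :=
  pg_sub (pg_mul (pg_add (pg_ww β l) (pg_mul (pg_aa β) (pg_G hCo hU hc ha l))) h0) h1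

theorem adj (hG : StmtGauss) (hB : StmtBasic) (hCo : StmtCov) (hU : Pot δ U) (hc : Calc U)
    (ha : a ∈ OO) {f g : Ph d → ℝ} {β : Bool} {l : Fin d} (hf : Sm f) (hg : Sm g)
    (f0 : PG fun ζ => f (a, ζ)) (g0 : PG fun ζ => g (a, ζ))
    (f1 : PG fun ζ => pd β l f (a, ζ)) (g1 : PG fun ζ => pd β l g (a, ζ)) :
    ∫ ζ, f (a, ζ) * dl U β l g (a, ζ) ∂(nu U a) = ∫ ζ, pd β l f (a, ζ) * g (a, ζ) ∂(nu U a) := by
  have r0 : PG (rho U a) := pg_rho hB hU
  have c1 := sl_contDiff hf ha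
  have c2 := sl_contDiff hg ha
  have c3 : ContDiff ℝ 1 (rho U a) := contDiff_rho hB hU
  have hder : ∀ ζ, fderiv ℝ (fun ζ => f (a, ζ) * g (a, ζ) * rho U a ζ) ζ (ew β l).2 =
      (pd β l f (a, ζ) * g (a, ζ) + f (a, ζ) * pd β l g (a, ζ)) * rho U a ζ -
        f (a, ζ) * g (a, ζ) * (aa β (a, ζ) * Gp U (a, ζ) l * rho U a ζ) := fun ζ => by
    rw [(((c1.differentiable one_ne_zero ζ).hasFDerivAt.fun_mul
      (c2.differentiable one_ne_zero ζ).hasFDerivAt).fun_mul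
      (c3.differentiable one_ne_zero ζ).hasFDerivAt).fderiv]
    simp only [ContinuousLinearMap.add_apply, ContinuousLinearMap.smul_apply, smul_eq_mul,
      sl_fderiv hf ha, sl_fderiv hg ha, fderiv_rho hB hU]
    ring
  have p1 : PG fun ζ => fderiv ℝ (fun ζ => f (a, ζ) * g (a, ζ) * rho U a ζ) ζ (ew β l).2 := by
    simp only [hder]
    exact pg_sub (pg_mul (pg_add (pg_mul f1 g0) (pg_mul f0 g1)) r0) (pg_mul (pg_mul f0 g0)
      (pg_mul (pg_mul (pg_aa β) (pg_G hCo hU hc ha l)) r0))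
  have p0 := pg_mul (pg_mul f0 g0) r0
  have key := hG.ibp2 d _ (ew β l).2 ((c1.mul c2).mul c3) p0 p1
  have hw : ∀ ζ : E d × E d, ⟪(ew β l).2.1, ζ.1⟫ + ⟪(ew β l).2.2, ζ.2⟫ = ww β (a, ζ) l :=
    fun ζ => by cases β <;> simp [ew, ww, EuclideanSpace.inner_single_left]
  simp only [hw] at key
  rw [← sub_eq_zero, ← integral_sub (hG.pg2 d _ (pg_mul (pg_ww β l) p0)) (hG.pg2 d _ p1)] at key
  rw [← sub_eq_zero, ← integral_sub
    (int_nu hG hB hU (pg_mul f0 (pg_dl hCo hU hc ha g0 g1))) (int_nu hG hB hU (pg_mul f1 g0)),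
    nu, integral_tilted]
  simp only [smul_eq_mul, div_mul_eq_mul_div]
  rw [integral_div, div_eq_zero_iff]
  refine Or.inl (Eq.trans (integral_congr_ae (.of_forall fun ζ => ?_)) key)
  simp only [hder]
  simp only [dl, rho]
  ring

theorem alg {ι : Type} [Fintype ι] [DecidableEq ι] (x J : ι → ι → ℝ) (y : ι → ℝ) {α δ : ℝ}
    (hα : α ^ 2 ≤ 1) (h0 : 0 < δ) (h1 : δ ≤ 1) :
    ∑ l, ∑ m, (x m l * x l m + ((if l = m then y m else 0) + α * α * J l m * y m) * y l) ≤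
      ∑ l, ∑ m, x m l ^ 2 + 2 * ∑ l, y l ^ 2 + ∑ l, (∑ m, δ⁻¹ * J l m * y m) ^ 2 := by
  rw [Finset.sum_congr rfl fun l _ => Finset.sum_add_distrib, Finset.sum_add_distrib, add_assoc,
    Finset.mul_sum, ← Finset.sum_add_distrib (f := fun l => 2 * y l ^ 2)]
  refine add_le_add ?_ (Finset.sum_le_sum fun l _ => ?_)
  · have e1 : ∑ l, ∑ m, x m l * x l m ≤ ∑ l, ∑ m, (x m l ^ 2 + x l m ^ 2) / 2 :=
      Finset.sum_le_sum fun l _ => Finset.sum_le_sum fun m _ => by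
        nlinarith [sq_nonneg (x m l - x l m)]
    have e2 : ∑ l, ∑ m, x l m ^ 2 = ∑ l, ∑ m, x m l ^ 2 := Finset.sum_comm
    simp only [← Finset.sum_div, Finset.sum_add_distrib] at e1
    linarith
  · have e1 : ∑ m, α * α * J l m * y m = α ^ 2 * δ * ∑ m, δ⁻¹ * J l m * y m := by
      rw [Finset.mul_sum]
      refine Finset.sum_congr rfl fun m _ => ?_
      field_simp
    rw [← Finset.sum_mul, Finset.sum_add_distrib, Finset.sum_ite_eq, if_pos (Finset.mem_univ _), e1]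
    have e2 : 0 ≤ α ^ 2 * δ := by positivity
    have e3 : α ^ 2 * δ ≤ 1 := mul_le_one₀ hα h0.le h1
    generalize α ^ 2 * δ = c at e2 e3
    generalize ∑ m, δ⁻¹ * J l m * y m = z
    nlinarith [mul_nonneg e2 (sq_nonneg (z - y l)), mul_nonneg (sub_nonneg.2 e3) (sq_nonneg z),
      mul_nonneg (sub_nonneg.2 e3) (sq_nonneg (y l)), sq_nonneg z, sq_nonneg (y l)]

theorem meyer (hG : StmtGauss) (hB : StmtBasic) (hCo : StmtCov) (hU : Pot δ U) (hδ : δ ≤ 1)
    (hc : Calc U) (ha : a ∈ OO) {F : Fin d → Ph d → ℝ} {β : Bool} (hS : ∀ l, Sm (F l))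
    (p0 : ∀ l, PG fun ζ => F l (a, ζ)) (p1 : ∀ l m, PG fun ζ => pd β m (F l) (a, ζ))
    (p2 : ∀ l m n, PG fun ζ => pd β n (pd β m (F l)) (a, ζ))
    (pJ : ∀ l m, PG fun ζ => lift (Jx U l m) (a, ζ)) :
    ∫ ζ, (∑ l, dl U β l (F l) (a, ζ)) ^ 2 ∂(nu U a) ≤
      ∫ ζ, (∑ l, ∑ m, pd β m (F l) (a, ζ) ^ 2 + 2 * ∑ l, F l (a, ζ) ^ 2 +
        ∑ l, (∑ m, δ⁻¹ * lift (Jx U l m) (a, ζ) * F m (a, ζ)) ^ 2) ∂(nu U a) := by
  have int := fun {h : E d × E d → ℝ} (hh : PG h) => int_nu (a := a) hG hB hU hh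
  have q0 : ∀ l, PG fun ζ => dl U β l (F l) (a, ζ) := fun l => pg_dl hCo hU hc ha (p0 l) (p1 l l)
  have q1 : ∀ l m, PG fun ζ => dl U β m (pd β l (F m)) (a, ζ) := fun l m =>
    pg_dl hCo hU hc ha (p1 m l) (p2 m l m)
  set R : Fin d → Fin d → E d × E d → ℝ := fun l m ζ => (if l = m then F m (a, ζ) else 0) +
    aa β (a, ζ) * aa β (a, ζ) * lift (Jx U l m) (a, ζ) * F m (a, ζ) with hR
  have q2 : ∀ l m, PG (R l m) := fun l m => by
    refine pg_add ?_ (pg_mul (pg_mul (pg_mul (pg_aa β) (pg_aa β)) (pJ l m)) (p0 m))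
    split_ifs
    exacts [p0 m, pg_const 0]
  have e0 : ∀ l m ζ, pd β l (dl U β m (F m)) (a, ζ) =
      dl U β m (pd β l (F m)) (a, ζ) + R l m ζ := fun l m ζ => by
    rw [hc.pd_dl _ _ _ _ _ (hS m) _ ha]
    simp only [hR, true_and, add_assoc]
  have pair : ∀ l m, ∫ ζ, dl U β m (F m) (a, ζ) * dl U β l (F l) (a, ζ) ∂(nu U a) =
      ∫ ζ, (pd β m (F l) (a, ζ) * pd β l (F m) (a, ζ) + R l m ζ * F l (a, ζ)) ∂(nu U a) := by
    intro l m
    rw [adj hG hB hCo hU hc ha (hc.sm_dl _ β m (hS m)) (hS l) (q0 m) (p0 l)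
        (by simp only [e0]; exact pg_add (q1 l m) (q2 l m)) (p1 l l),
      integral_add (int (pg_mul (p1 l m) (p1 m l))) (int (pg_mul (q2 l m) (p0 l))),
      ← adj hG hB hCo hU hc ha (hS l) (hc.sm_pd _ β l (hS m)) (p0 l) (p1 m l) (p1 l m) (p2 m l m),
      ← integral_add (int (pg_mul (p0 l) (q1 l m))) (int (pg_mul (q2 l m) (p0 l)))]
    refine integral_congr_ae (.of_forall fun ζ => ?_)
    simp only [e0]
    ring
  have q3 : ∀ l m, PG fun ζ => pd β m (F l) (a, ζ) * pd β l (F m) (a, ζ) + R l m ζ * F l (a, ζ) :=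
    fun l m => pg_add (pg_mul (p1 l m) (p1 m l)) (pg_mul (q2 l m) (p0 l))
  calc _ = ∫ ζ, ∑ l, ∑ m, dl U β m (F m) (a, ζ) * dl U β l (F l) (a, ζ) ∂(nu U a) := by
        simp only [sq, Finset.sum_mul_sum]
        exact integral_congr_ae (.of_forall fun ζ => Finset.sum_comm)
    _ = ∫ ζ, ∑ l, ∑ m, (pd β m (F l) (a, ζ) * pd β l (F m) (a, ζ) + R l m ζ * F l (a, ζ))
          ∂(nu U a) := by
        rw [integral_finset_sum _ fun l _ => int (pg_sum _ fun m => pg_mul (q0 m) (q0 l)),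
          integral_finset_sum _ fun l _ => int (pg_sum _ fun m => q3 l m)]
        refine Finset.sum_congr rfl fun l _ => ?_
        rw [integral_finset_sum _ fun m _ => int (pg_mul (q0 m) (q0 l)),
          integral_finset_sum _ fun m _ => int (q3 l m)]
        exact Finset.sum_congr rfl fun m _ => pair l m
    _ ≤ _ := by
        refine integral_mono (int (pg_sum _ fun l => pg_sum _ fun m => q3 l m))
          (int (pg_add (pg_add (pg_sum _ fun l => pg_sum _ fun m => pg_sq (p1 l m))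
            (pg_mul (pg_const 2) (pg_sum _ fun l => pg_sq (p0 l))))
            (pg_sum _ fun l => pg_sq (pg_sum _ fun m =>
              pg_mul (pg_mul (pg_const _) (pJ l m)) (p0 m))))) fun ζ => ?_
        exact alg (fun m l => pd β m (F l) (a, ζ)) (fun l m => lift (Jx U l m) (a, ζ))
          (fun l => F l (a, ζ)) (aa_sq ha β ζ) hU.pos hδ

theorem t_mem (ha : a ∈ OO) : 1 - a.1 ^ 2 - a.2 ^ 2 ∈ Icc (1 / 2 : ℝ) 1 := by
  have : a.1 ^ 2 + a.2 ^ 2 < 1 / 2 := ha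
  constructor <;> nlinarith [sq_nonneg a.1, sq_nonneg a.2]

theorem dc_ind {Q : (S : Type) → PT S → Prop}
    (h : ∀ j S T, DC j S T → (∀ m, m < j → ∀ S T, DC m S T → Q S T) → Q S T) (j : ℕ) :
    ∀ S T, DC j S T → Q S T := by
  induction j using Nat.strong_induction_on with
  | h j ih => exact fun S T hT => h j S T hT ih

theorem pg_dc (hCo : StmtCov) (hC : StmtCalc) (hXB : StmtXB) (h1 : StmtD1) (j : ℕ) :
    ∀ S T, DC j S T → ∀ (I : Inst) u, ∀ a ∈ OO, PG fun ζ => T I u (a, ζ) := by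
  refine dc_ind (Q := fun S T => ∀ (I : Inst) u, ∀ a ∈ OO, PG fun ζ => T I u (a, ζ)) ?_ j
  intro j S T hT ih
  induction hT with
  | @ofH j S T hH =>
    intro I u a ha
    obtain ⟨hfin, hs⟩ := h1.sm j S _ (DC.ofH hH)
    classical
    have := Fintype.ofFinite S
    obtain ⟨C, -, hC'⟩ := hXB.hh S T hH
    refine pg_bdd (sl_contDiff (hs I u) ha).continuous √(C * I.d) fun ζ => ?_
    exact Real.abs_le_sqrt ((Finset.single_le_sum (f := fun u => T I u _ ^ 2)
      (fun _ _ => sq_nonneg _) (Finset.mem_univ u)).trans (hC' I _ (t_mem ha)))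
  | add _ _ i1 i2 => exact fun I u a ha => pg_add (i1 ih I u a ha) (i2 ih I u a ha)
  | smul c C hc _ i1 => exact fun I u a ha => pg_mul (pg_const _) (i1 ih I u a ha)
  | amul β _ i1 => exact fun I u a ha => pg_mul (pg_aa β) (i1 ih I u a ha)
  | @delta j S T β hT _ =>
    intro I u a ha
    exact pg_sum _ fun l => pg_dl hCo I.pot (hC _ _ _ I.pot) ha
      (ih j j.lt_succ_self _ _ hT I _ a ha)
      (ih j j.lt_succ_self _ _ (h1.pd j _ T hT β) I (fun o => o.elim l fun o => o.elim l u) a ha)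
  | @mono j S T hT _ => exact ih j j.lt_succ_self _ _ hT
  | congr e _ h i1 =>
    intro I u a ha
    simp only [h I u (a, _) ha]
    exact i1 ih I _ a ha

theorem sum_option {S : Type} [Fintype S] [DecidableEq S] (f : (Option S → Fin d) → ℝ) :
    ∑ v, f v = ∑ u : S → Fin d, ∑ l, f fun o => o.elim l u := by
  rw [Finset.sum_comm, ← Fintype.sum_prod_type']
  refine Fintype.sum_equiv Equiv.piOptionEquivProd _ _ fun v => ?_
  congr 1
  funext o
  cases o <;> rfl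

theorem l2_dc (hG : StmtGauss) (hB : StmtBasic) (hCo : StmtCov) (hC : StmtCalc) (hXB : StmtXB)
    (h1 : StmtD1) (j : ℕ) : ∀ S T, DC j S T → ∀ [Fintype S] [DecidableEq S], ∃ C : ℝ, 0 ≤ C ∧
      ∀ (I : Inst), ∀ a ∈ OO, ∫ ζ, ∑ u, T I u (a, ζ) ^ 2 ∂(nu I.U a) ≤ C * I.d := by
  refine dc_ind (Q := fun S T => ∀ [Fintype S] [DecidableEq S], ∃ C : ℝ, 0 ≤ C ∧
      ∀ (I : Inst), ∀ a ∈ OO, ∫ ζ, ∑ u, T I u (a, ζ) ^ 2 ∂(nu I.U a) ≤ C * I.d) ?_ j
  have pg := pg_dc hCo hC hXB h1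
  have int : ∀ {j S T}, DC j S T → ∀ [Fintype S] [DecidableEq S] (I : Inst), ∀ a ∈ OO,
      Integrable (fun ζ => ∑ u, T I u (a, ζ) ^ 2) (nu I.U a) := fun hT _ _ I a ha =>
    int_nu hG hB I.pot (pg_sum _ fun u => pg_sq (pg _ _ _ hT I u a ha))
  intro j S T hT ih
  induction hT with
  | @ofH j S T hH =>
    intro _ _
    obtain ⟨C, hC0, hC'⟩ := hXB.hh S T hH
    refine ⟨C, hC0, fun I a ha => ?_⟩
    have : IsProbabilityMeasure (nu I.U a) :=
      isProbabilityMeasure_tilted (hG.pg2 _ _ (pg_rho hB I.pot))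
    refine (integral_mono (int (DC.ofH (j := j) hH) I a ha) (integrable_const (C * I.d))
      fun ζ => hC' I _ (t_mem ha)).trans (by simp)
  | @add j S T T' hT hT' i1 i2 =>
    intro _ _
    obtain ⟨C, hC0, hC⟩ := i1 ih
    obtain ⟨C', hC0', hC'⟩ := i2 ih
    refine ⟨2 * C + 2 * C', by positivity, fun I a ha => ?_⟩
    have e1 := (int hT I a ha).const_mul 2
    have e2 := (int hT' I a ha).const_mul 2
    refine (integral_mono (int (hT.add hT') I a ha) (e1.add e2) fun ζ => ?_).trans ?_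
    · simp only [Pi.add_apply, Finset.mul_sum, ← Finset.sum_add_distrib]
      exact Finset.sum_le_sum fun u _ => by nlinarith [sq_nonneg (T I u (a, ζ) - T' I u (a, ζ))]
    · simp only [Pi.add_apply]
      rw [integral_add e1 e2, integral_const_mul, integral_const_mul]
      linarith [hC I a ha, hC' I a ha]
  | @smul j S T c K hc hT i1 =>
    intro _ _
    obtain ⟨C, hC0, hC⟩ := i1 ih
    refine ⟨K ^ 2 * C, by positivity, fun I a ha => ?_⟩
    simp only [mul_pow, ← Finset.mul_sum]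
    rw [integral_const_mul, mul_assoc]
    exact mul_le_mul (sq_le_sq' (abs_le.1 (hc I)).1 (abs_le.1 (hc I)).2) (hC I a ha)
      (integral_nonneg fun ζ => Finset.sum_nonneg fun _ _ => sq_nonneg _) (sq_nonneg _)
  | @amul j S T β hT i1 =>
    intro _ _
    obtain ⟨C, hC0, hC⟩ := i1 ih
    refine ⟨C, hC0, fun I a ha => le_trans (integral_mono (int (hT.amul β) I a ha) (int hT I a ha)
      fun ζ => Finset.sum_le_sum fun u _ => ?_) (hC I a ha)⟩
    rw [mul_pow]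
    exact mul_le_of_le_one_left (sq_nonneg _) (aa_sq ha β ζ)
  | @delta j S T β hT _ =>
    intro _ _
    have hT1 := h1.pd j _ T hT β
    have hT2 := h1.pd j _ _ hT1 β
    have hTJ := h1.jmul j _ T hT
    obtain ⟨C0, hC0, b0⟩ := ih j j.lt_succ_self _ _ hT
    obtain ⟨C1, hC1, b1⟩ := ih j j.lt_succ_self _ _ hT1
    obtain ⟨CJ, hCJ, bJ⟩ := ih j j.lt_succ_self _ _ hTJ
    refine ⟨C1 + 2 * C0 + CJ, by positivity, fun I a ha => ?_⟩
    have pJ : ∀ l m, PG fun ζ => lift (Jx I.U l m) (a, ζ) := fun l m => by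
      have := pg_mul (pg_const I.δ) (pg 0 _ _ (DC.ofH (HH.ofM (MM.base 0))) I ![l, m] a ha)
      simp only [lift, mul_inv_cancel_left₀ I.pot.pos.ne'] at this
      exact this
    have p0 := fun (u : S → Fin I.d) l => pg j _ _ hT I (fun o => o.elim l u) a ha
    have p1 : ∀ (u : S → Fin I.d) l m, PG fun ζ => pd β m (T I fun o => o.elim l u) (a, ζ) :=
      fun u l m => pg j _ _ hT1 I (fun o => o.elim m fun o => o.elim l u) a ha
    have pj : ∀ (u : S → Fin I.d) l, PG fun ζ => ∑ m, I.δ⁻¹ * lift (Jx I.U l m) (a, ζ) *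
        T I (fun o => o.elim m u) (a, ζ) := fun u l => pg j _ _ hTJ I (fun o => o.elim l u) a ha
    have i0 := (int hT I a ha).const_mul 2
    have i1 := int hT1 I a ha
    have iJ := int hTJ I a ha
    have key := fun u : S → Fin I.d => meyer hG hB hCo I.pot (I.hδ.trans (by norm_num))
      (hC _ _ _ I.pot) ha (F := fun l => T I fun o => o.elim l u) (β := β)
      (fun l => (h1.sm j _ T hT).2 I _) (p0 u) (p1 u) (fun l m n => pg j _ _ hT2 I
        (fun o => o.elim n fun o => o.elim m fun o => o.elim l u) a ha) pJ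
    rw [integral_finset_sum _ fun u _ => int_nu hG hB I.pot
      (pg_sq (pg _ _ _ (hT.delta β) I u a ha))]
    refine (Finset.sum_le_sum fun u _ => key u).trans ?_
    rw [← integral_finset_sum _ fun u _ => int_nu hG hB I.pot (pg_add (pg_add
      (pg_sum _ fun l => pg_sum _ fun m => pg_sq (p1 u l m))
      (pg_mul (pg_const 2) (pg_sum _ fun l => pg_sq (p0 u l))))
      (pg_sum _ fun l => pg_sq (pj u l)))]
    have e := add_le_add (add_le_add (b1 I a ha)
      (mul_le_mul_of_nonneg_left (b0 I a ha) zero_le_two)) (bJ I a ha)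
    rw [← integral_const_mul, ← integral_add i1 i0, ← integral_add (i1.fun_add i0) iJ] at e
    refine le_trans (le_of_eq (integral_congr_ae (.of_forall fun ζ => ?_))) (e.trans (le_of_eq ?_))
    · simp only [sum_option, Finset.sum_add_distrib, Finset.mul_sum]
      rfl
    · ring
  | @mono j S T hT _ => exact ih j j.lt_succ_self _ _ hT
  | @congr j S S' e T T' hT h i1 =>
    intro _ _
    classical
    have := Fintype.ofEquiv S' e.symm
    obtain ⟨C, hC0, hC⟩ := i1 ih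
    refine ⟨C, hC0, fun I a ha => le_trans (le_of_eq ?_) (hC I a ha)⟩
    refine integral_congr_ae (.of_forall fun ζ => ?_)
    exact Fintype.sum_equiv (e.symm.arrowCongr (Equiv.refl _)) _ _ fun u => by
      rw [h I u (a, ζ) ha]; rfl

end L4

open L4 in
theorem l4Stmt (hG : StmtGauss) (hB : StmtBasic) (hCo : StmtCov) (hC : StmtCalc) (hXB : StmtXB)
    (h1 : StmtD1) : StmtL4 := by
  intro j S T hT _ _
  obtain ⟨C, hC0, h⟩ := l2_dc hG hB hCo hC hXB h1 j S T hT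
  refine ⟨C, hC0, fun I a ha => ?_⟩
  rw [← ofReal_integral_eq_lintegral_ofReal (int_nu hG hB I.pot (pg_sum _ fun u =>
    pg_sq (pg_dc hCo hC hXB h1 j S T hT I u a ha)))
    (.of_forall fun ζ => Finset.sum_nonneg fun _ _ => sq_nonneg _)]
  exact ENNReal.ofReal_le_ofReal (h I a ha)

end Crest.Agent.R285
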