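import Crest.Agent.R285.DefsL

/-! # Row 285: Lipschitz and magnitude bounds for local expressions -/

set_option autoImplicit false

open MeasureTheory ProbabilityTheory Set
open scoped ENNReal NNReal ContDiff RealInnerProductSpace
open Crest.OracleSampling

noncomputable section

namespace Crest.Agent.R285

namespace LEbAux

variable {d : ℕ}

theorem comb_le {a1 a2 ρ T : ℝ} {u v : E d} (h1 : a1 ∈ Icc 0 (2 * ρ)) (h2 : a2 ∈ Icc 0 ρ)
    (hu : ‖u‖ ≤ T) (hv : ‖v‖ ≤ T) : ‖a1 • u + a2 • v‖ ≤ 3 * ρ * T := by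
  have hT : 0 ≤ T := (norm_nonneg _).trans hu
  calc ‖a1 • u + a2 • v‖ ≤ ‖a1 • u‖ + ‖a2 • v‖ := norm_add_le _ _
    _ = a1 * ‖u‖ + a2 * ‖v‖ := by
        rw [norm_smul, norm_smul, Real.norm_of_nonneg h1.1, Real.norm_of_nonneg h2.1]
    _ ≤ 2 * ρ * T + ρ * T :=
        add_le_add (mul_le_mul h1.2 hu (norm_nonneg _) (h1.1.trans h1.2))
          (mul_le_mul h2.2 hv (norm_nonneg _) (h2.1.trans h2.2))
    _ = _ := by ring

/-- a small expression has a small value -/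
theorem child_le {e : LE} {b : ℕ} {β γ δ S : ℝ} {w m : E d} (hδ : 0 ≤ δ) (hs : e.Small b β γ)
    (hm : ‖m‖ ≤ S) (h : ‖w - e.sum • m‖ ≤ 5 * δ * e.abss * S) :
    ‖w‖ ≤ (γ + 5 * β * δ) * S := by
  have hS : 0 ≤ S := (norm_nonneg _).trans hm
  have h1 : ‖w‖ ≤ ‖e.sum • m‖ + ‖w - e.sum • m‖ := norm_le_insert' _ _
  have h2 : ‖e.sum • m‖ ≤ γ * S := by
    rw [norm_smul, Real.norm_eq_abs]
    exact mul_le_mul hs.2.2 hm (norm_nonneg _) ((abs_nonneg _).trans hs.2.2)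
  have h3 : 5 * δ * e.abss * S ≤ 5 * δ * β * S := by
    have := hs.2.1
    gcongr
  linarith

end LEbAux

open LEbAux in
theorem leStmt (hC : StmtCov) : StmtLE := by
  intro d δ U hU hδ b β γ ρ e hβ hγ hρ hρ4 hsm hN
  have hδ0 := hU.pos
  have h6 : 6 * ρ * δ * β ≤ 1 := by
    have : 0 ≤ ρ * γ := by positivity
    have : 0 ≤ ρ * δ * β := by positivity
    nlinarith
  constructor
  · intro ζ ζ'
    induction e with
    | nil => simp [LE.val, LE.abss]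
    | cons k a1 a2 ey ez rest ihy ihz ih =>
      obtain ⟨h1, h2, sy, sz, ny, nz, nr⟩ := hN
      have hD := norm_nonneg (ζ - ζ')
      have hch : ∀ f : LE, f.Small b β γ →
          ‖f.val U ζ - f.val U ζ'‖ ≤ 6 * ρ * δ * f.abss * ‖ζ - ζ'‖ →
          ‖f.val U ζ - f.val U ζ'‖ ≤ ‖ζ - ζ'‖ := by
        intro f hf h
        refine h.trans (mul_le_of_le_one_left hD (le_trans ?_ h6))
        have := hf.2.1
        gcongr
      have hy := hch ey sy (ihy ny)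
      have hz := hch ez sz (ihz nz)
      have hr := ih nr
      have e1 : ‖ζ.1 - ζ'.1‖ ≤ ‖ζ - ζ'‖ := norm_fst_le (ζ - ζ')
      have e2 : ‖ζ.2 - ζ'.2‖ ≤ ‖ζ - ζ'‖ := norm_snd_le (ζ - ζ')
      have hu : ‖(ζ.1 - ζ'.1) + (ey.val U ζ - ey.val U ζ')‖ ≤ 2 * ‖ζ - ζ'‖ :=
        (norm_add_le _ _).trans (by linarith)
      have hv : ‖(ζ.2 - ζ'.2) + (ez.val U ζ - ez.val U ζ')‖ ≤ 2 * ‖ζ - ζ'‖ :=
        (norm_add_le _ _).trans (by linarith)
      have hn := comb_le h1 h2 hu hv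
      have hl := hC.lip d δ U hU (1 - a1 ^ 2 - a2 ^ 2)
        (a1 • (ζ.1 + ey.val U ζ) + a2 • (ζ.2 + ez.val U ζ))
        (a1 • (ζ'.1 + ey.val U ζ') + a2 • (ζ'.2 + ez.val U ζ'))
      have e3 : a1 • (ζ.1 + ey.val U ζ) + a2 • (ζ.2 + ez.val U ζ) -
          (a1 • (ζ'.1 + ey.val U ζ') + a2 • (ζ'.2 + ez.val U ζ')) =
          a1 • ((ζ.1 - ζ'.1) + (ey.val U ζ - ey.val U ζ')) +
            a2 • ((ζ.2 - ζ'.2) + (ez.val U ζ - ez.val U ζ')) := by module
      rw [e3] at hl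
      have hl2 := hl.trans (mul_le_mul_of_nonneg_left hn hδ0.le)
      simp only [LE.val, LE.abss, Gp]
      rw [add_sub_add_comm, ← smul_sub]
      refine (norm_add_le _ _).trans ?_
      rw [norm_smul, Real.norm_eq_abs]
      have := mul_le_mul_of_nonneg_left hl2 (abs_nonneg k)
      linarith
  · intro ζ
    set S := ‖ζ‖ + √d + ‖GF U 1 0‖ with hS
    have hd : (0 : ℝ) ≤ √d := Real.sqrt_nonneg _
    have hm : ‖GF U 1 0‖ ≤ S := by linarith [norm_nonneg ζ]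
    have hζ : ‖ζ‖ ≤ S := by linarith [norm_nonneg (GF U 1 0)]
    have hS0 : 0 ≤ S := (norm_nonneg _).trans hm
    induction e with
    | nil => simp [LE.val, LE.abss, LE.sum]
    | cons k a1 a2 ey ez rest ihy ihz ih =>
      obtain ⟨h1, h2, sy, sz, ny, nz, nr⟩ := hN
      have hy := child_le hδ0.le sy hm (ihy ny)
      have hz := child_le hδ0.le sz hm (ihz nz)
      have hr := ih nr
      have hu : ‖ζ.1 + ey.val U ζ‖ ≤ (1 + γ + 5 * β * δ) * S :=
        (norm_add_le _ _).trans (by linarith [norm_fst_le ζ])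
      have hv : ‖ζ.2 + ez.val U ζ‖ ≤ (1 + γ + 5 * β * δ) * S :=
        (norm_add_le _ _).trans (by linarith [norm_snd_le ζ])
      have hn := comb_le h1 h2 hu hv
      have hn2 : 3 * ρ * ((1 + γ + 5 * β * δ) * S) ≤ S := by
        rw [← mul_assoc]; exact mul_le_of_le_one_left hS0 hsm
      have ht0 : 0 ≤ 1 - a1 ^ 2 - a2 ^ 2 := by nlinarith [h1.1, h1.2, h2.1, h2.2]
      have ht1 : 1 - a1 ^ 2 - a2 ^ 2 ≤ 1 := by nlinarith [sq_nonneg a1, sq_nonneg a2]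
      have hl := hC.near d δ U hU hδ _ (a1 • (ζ.1 + ey.val U ζ) + a2 • (ζ.2 + ez.val U ζ)) ht0 ht1
      have hl2 : ‖GF U (1 - a1 ^ 2 - a2 ^ 2) (a1 • (ζ.1 + ey.val U ζ) + a2 • (ζ.2 + ez.val U ζ)) -
          GF U 1 0‖ ≤ δ * (5 * S) :=
        hl.trans (mul_le_mul_of_nonneg_left (by linarith [norm_nonneg ζ]) hδ0.le)
      simp only [LE.val, LE.abss, LE.sum, Gp]
      rw [add_smul, add_sub_add_comm, ← smul_sub]
      refine (norm_add_le _ _).trans ?_
      rw [norm_smul, Real.norm_eq_abs]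
      have := mul_le_mul_of_nonneg_left hl2 (abs_nonneg k)
      linarith

end Crest.Agent.R285
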