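import Crest.Agent.R285.Defs

/-! # Row 285: marginals of `ν_{(ρ,0)}` -/

set_option autoImplicit false

open MeasureTheory ProbabilityTheory Set
open scoped ENNReal
open Crest.OracleSampling

noncomputable section

namespace Crest.Agent.R285

namespace Marg

variable {d : ℕ} {δ : ℝ} {U : E d → ℝ}

theorem tilted_eq (hB : StmtBasic) (hU : Pot δ U) {X : Type} [MeasurableSpace X] (μ : Measure X)
    (t : ℝ) (g : X → E d) :
    (μ.tilted fun x => -Ff U t (g x)) =
      μ.withDensity fun x => ENNReal.ofReal (Zf U t (g x) / ∫ y, Zf U t (g y) ∂μ) := by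
  have h : ∀ x, Real.exp (-Ff U t (g x)) = Zf U t (g x) := fun x => by
    rw [Ff, neg_neg, Real.exp_log (hB.Zpos d δ U hU t _).1]
  simp only [Measure.tilted, h]

theorem continuous_Zf (hB : StmtBasic) (hU : Pot δ U) (t : ℝ) : Continuous (Zf U t) :=
  (hB.contZ d δ U hU).comp (Continuous.prodMk_right t)

theorem lintegral_Zf (hB : StmtBasic) (hU : Pot δ U) {t τ c : ℝ} (ht : 0 ≤ t) (hτ : 0 ≤ τ)
    (hc : 0 < c) (x : E d) :
    ∫⁻ w, ENNReal.ofReal (Zf U t (x + √τ • w) / c) ∂(gam d) =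
      ENNReal.ofReal (Zf U (t + τ) x / c) := by
  have hcont : Continuous fun w : E d => Zf U t (x + √τ • w) :=
    (continuous_Zf hB hU t).comp (by fun_prop)
  have hint : Integrable (fun w : E d => Zf U t (x + √τ • w)) (gam d) :=
    Integrable.of_bound hcont.aestronglyMeasurable 1 (ae_of_all _ fun w => by
      rw [Real.norm_eq_abs, abs_of_pos (hB.Zpos d δ U hU t _).1]
      exact (hB.Zpos d δ U hU t _).2)
  rw [← ofReal_integral_eq_lintegral_ofReal (hint.div_const c)
    (ae_of_all _ fun w => div_nonneg (hB.Zpos d δ U hU t _).1.le hc.le), integral_div,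
    hB.semi d δ U hU t τ x ht hτ]

end Marg

open _root_.Crest.Agent.R285.Marg in
theorem margStmt (hG : StmtGauss) (hB : StmtBasic) : StmtMarg := by
  intro d δ U hU ρ h0 h1
  have ht : 0 ≤ 1 - ρ ^ 2 := by nlinarith
  have hc : 0 < Zf U 1 0 := (hB.Zpos d δ U hU 1 0).1
  have hZ := fun t => continuous_Zf hB hU t
  set f : E d → ℝ≥0∞ := fun y => ENNReal.ofReal (Zf U (1 - ρ ^ 2) (ρ • y) / Zf U 1 0) with hf
  have hfm : Measurable f :=
    (((hZ _).comp (continuous_const_smul ρ)).div_const _).measurable.ennreal_ofReal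
  have hnu : nu U (ρ, 0) = ((gam d).withDensity f).prod (gam d) := by
    have h2 := hB.semi d δ U hU (1 - ρ ^ 2) (ρ ^ 2) 0 ht (sq_nonneg ρ)
    simp only [zero_add, Real.sqrt_sq h0.le, sub_add_cancel] at h2
    rw [nu, tilted_eq hB hU, prod_withDensity_left hfm]
    simp only [ne_eq, OfNat.ofNat_ne_zero, not_false_eq_true, zero_pow, sub_zero, zero_smul,
      add_zero]
    rw [integral_fun_fst (fun y => Zf U (1 - ρ ^ 2) (ρ • y)), h2]
    simp [hf]
  have hprob : IsProbabilityMeasure ((gam d).withDensity f) := by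
    refine ⟨?_⟩
    have h2 := lintegral_Zf hB hU ht (sq_nonneg ρ) hc 0
    simp only [zero_add, Real.sqrt_sq h0.le, sub_add_cancel, div_self hc.ne',
      ENNReal.ofReal_one] at h2
    rw [withDensity_apply _ MeasurableSet.univ, Measure.restrict_univ]
    exact h2
  refine ⟨by rw [hnu, Measure.map_snd_prod, measure_univ, one_smul], ?_⟩
  rw [hnu, Measure.map_fst_prod, measure_univ, one_smul, prod_withDensity_left hfm, post,
    tilted_eq hB hU]
  have hτ : 0 ≤ ρ ^ 2 / 2 := by positivity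
  have h2 := hB.semi d δ U hU (1 - ρ ^ 2 / 2) (ρ ^ 2 / 2) 0 (by linarith) hτ
  rw [sub_add_cancel] at h2
  rw [h2]
  obtain ⟨a, ha0, ha⟩ : ∃ a : ℝ, 0 < a ∧ a ^ 2 = 1 / 2 :=
    ⟨√(1 / 2), by positivity, Real.sq_sqrt (by norm_num)⟩
  have hσ : √(ρ ^ 2 / 2) = ρ * a := by
    rw [show ρ ^ 2 / 2 = (ρ * a) ^ 2 by rw [mul_pow, ha]; ring, Real.sqrt_sq (by positivity)]
  refine Measure.ext_of_lintegral _ fun g hg => ?_
  have hm1 : Measurable fun p : E d × E d => (ρ / 2) • (p.1 + p.2) := by fun_prop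
  have hm2 : Measurable fun w : E d => 0 + √(ρ ^ 2 / 2) • w := by fun_prop
  have hm3 : Measurable fun w : E d =>
      ENNReal.ofReal (Zf U (1 - ρ ^ 2 / 2) (0 + √(ρ ^ 2 / 2) • w) / Zf U 1 0) :=
    (((hZ _).measurable.comp hm2).div_const _).ennreal_ofReal
  rw [lintegral_map hg hm1, lintegral_map hg hm2,
    lintegral_withDensity_eq_lintegral_mul _ (hfm.fun_comp measurable_fst) (hg.fun_comp hm1),
    lintegral_withDensity_eq_lintegral_mul _ hm3 (hg.fun_comp hm2)]
  set H : E d × E d → ℝ≥0∞ := fun q => ENNReal.ofReal (Zf U (1 - ρ ^ 2)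
    ((0 + √(ρ ^ 2 / 2) • q.2) + √(ρ ^ 2 / 2) • q.1) / Zf U 1 0) * g (0 + √(ρ ^ 2 / 2) • q.2)
    with hH
  have hm4 : Measurable fun q : E d × E d => ENNReal.ofReal (Zf U (1 - ρ ^ 2)
      ((0 + √(ρ ^ 2 / 2) • q.2) + √(ρ ^ 2 / 2) • q.1) / Zf U 1 0) :=
    (((hZ _).measurable.comp (by fun_prop)).div_const _).ennreal_ofReal
  have hHm : Measurable H := hm4.mul (hg.comp (hm2.comp measurable_snd))
  have hR := hG.rot2 d a (-a) (by rw [neg_sq, ha]; norm_num)
  have h3 : ∫⁻ q, H q ∂((gam d).prod (gam d)) =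
      ∫⁻ p, H (a • p.1 + (-a) • p.2, (- -a) • p.1 + a • p.2) ∂((gam d).prod (gam d)) := by
    conv_lhs => rw [← hR]
    exact lintegral_map hHm (by fun_prop)
  calc _ = ∫⁻ p, H (a • p.1 + (-a) • p.2, (- -a) • p.1 + a • p.2) ∂((gam d).prod (gam d)) := by
        refine lintegral_congr fun p => ?_
        have e1 : (0 : E d) + √(ρ ^ 2 / 2) • ((- -a) • p.1 + a • p.2) = (ρ / 2) • (p.1 + p.2) := by
          rw [hσ, neg_neg, ← smul_add, smul_smul, zero_add, mul_assoc, ← pow_two, ha]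
          congr 1
          ring
        have e2 : (ρ / 2) • (p.1 + p.2) + √(ρ ^ 2 / 2) • (a • p.1 + (-a) • p.2) = ρ • p.1 := by
          rw [hσ, neg_smul, ← sub_eq_add_neg, ← smul_sub, smul_smul, mul_assoc, ← pow_two, ha]
          module
        simp only [hH, e1, e2]
        rfl
    _ = ∫⁻ q, H q ∂((gam d).prod (gam d)) := h3.symm
    _ = _ := by
        rw [lintegral_prod_symm _ hHm.aemeasurable]
        refine lintegral_congr fun y => ?_
        simp only [hH]
        rw [lintegral_mul_const _ (hm4.fun_comp (measurable_id'.prodMk measurable_const))]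
        simp only
        rw [lintegral_Zf hB hU ht hτ hc, show 1 - ρ ^ 2 + ρ ^ 2 / 2 = 1 - ρ ^ 2 / 2 by ring]
        rfl

end Crest.Agent.R285
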