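import Crest.Agent.R285.DefsP

/-!
# Row 285: choice of the parameters (`StmtRef`)

Everything is a power of the single small parameter `u = ρ`, `v = u⁻¹`.
-/

set_option autoImplicit false

open MeasureTheory ProbabilityTheory Set
open scoped ENNReal NNReal
open Crest.OracleSampling

noncomputable section

namespace Crest.Agent.R285

namespace Num

variable {d : ℕ}

theorem size_nonneg {X : Type} (V : E d → ℝ) (e : Ex d X) (x : X) : 0 ≤ e.size V x := by
  induction e with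
  | pt f => exact le_rfl
  | add rest κ r c ap ih _ => exact le_max_of_le_left ih

theorem realizes_mono {X : Type} [MeasurableSpace X] {Q Q' : ℝ}
    {ν : (E d → ℝ) → X → Measure (E d)} {e e' : (E d → ℝ) → X → ℝ} (hQ : Q ≤ Q')
    (he : ∀ V x, e V x ≤ e' V x) (h : Realizes Q ν e) : Realizes Q' ν e' := by
  obtain ⟨q, K, hq, hK, hW⟩ := h
  refine ⟨q, K, hq.trans hQ, hK, fun V hV x ψ L hψ => (hW V hV x ψ L hψ).trans ?_⟩
  gcongr
  exact he V x

theorem CR_mono {th : ℕ → ℝ} {smax ρ : ℝ} {k W : ℕ} {A Q Q' η η' : ℝ} (hQ : Q ≤ Q') (hη : η ≤ η')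
    (h : CR d th smax ρ k W A Q η) : CR d th smax ρ k W A Q' η' := by
  intro X _ e r v h1 h2 h3 h4
  refine realizes_mono hQ (fun V x => ?_) (h X e r v h1 h2 h3 h4)
  have := size_nonneg V e x
  gcongr

theorem decay {u : ℝ} (hu : 0 < u) (hu1 : u ≤ 1) {m N : ℕ} (hN : (u⁻¹) ^ 3 ≤ N)
    (hm : ((m + 1).factorial : ℝ) ≤ u⁻¹) : (1 - u ^ 2) ^ N ≤ u ^ m := by
  have h1 : 1 - u ^ 2 ≤ Real.exp (-u ^ 2) := by linarith [Real.add_one_le_exp (-u ^ 2)]
  have h2 : (1 - u ^ 2) ^ N ≤ Real.exp (-u ^ 2) ^ N :=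
    pow_le_pow_left₀ (by nlinarith) h1 N
  have h3 : Real.exp (-u ^ 2) ^ N ≤ Real.exp (-u⁻¹) := by
    rw [← Real.exp_nat_mul]
    refine Real.exp_le_exp.2 ?_
    have : u⁻¹ ^ 3 * u ^ 2 ≤ N * u ^ 2 := mul_le_mul_of_nonneg_right hN (by positivity)
    have e : u⁻¹ ^ 3 * u ^ 2 = u⁻¹ := by field_simp
    linarith
  have h4 := Real.pow_div_factorial_le_exp u⁻¹ (by positivity) (m + 1)
  have h5 : u⁻¹ ^ m ≤ Real.exp u⁻¹ := by
    refine le_trans ?_ h4
    rw [le_div_iff₀ (by positivity), pow_succ]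
    gcongr
  refine h2.trans (h3.trans ?_)
  rw [Real.exp_neg, ← inv_inv (u ^ m), ← inv_pow]
  exact inv_anti₀ (by positivity) h5

set_option maxHeartbeats 1000000 in
theorem key (hC : StmtCore) (h0 : StmtBase) (hS : StmtStep) (hR : StmtRefOf) (B : ℕ) :
    ∃ (J : ℕ) (v₀ : ℝ), 1 ≤ J ∧ ∀ u : ℝ, 0 < u → v₀ ≤ u⁻¹ → u ≤ 1 / 8 ∧
      ∀ (d : ℕ) (s : ℝ), 0 < s → s ≤ u ^ J →
        Realizes (u ^ J)⁻¹
          (fun V (c : E d) => post V (s ^ 2 * (1 - u ^ 2 / 2)) (s ^ 2 * (u ^ 2 / 2)) c)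
          fun _ c => u ^ (J * B) * s * (‖c‖ + √d) := by
  obtain ⟨K, hK⟩ : ∃ K : ℕ, K = B + 1 := ⟨_, rfl⟩
  obtain ⟨L', hL'⟩ : ∃ L' : ℕ, L' = 2 * K * B + B + 1 := ⟨_, rfl⟩
  obtain ⟨L, hL⟩ : ∃ L : ℕ, L = L' + 1 := ⟨_, rfl⟩
  obtain ⟨a, ha⟩ : ∃ a : ℕ, a = 5 * L + 4 := ⟨_, rfl⟩
  obtain ⟨H, hH⟩ : ∃ H : ℕ, H = a + 6 := ⟨_, rfl⟩
  obtain ⟨T, hT⟩ : ∃ T : ℕ, T = 2 * H * K := ⟨_, rfl⟩
  have hT6 : 6 ≤ T := by rw [hT, hK, hH]; nlinarith
  have hHL6 : 6 ≤ H * L' := by rw [hL', hH]; nlinarith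
  have n1 : (a + 1) * (K + 1) ≤ T + 1 := by rw [hT, hH, hK]; nlinarith
  have n2 : (T + 1) * B + 1 ≤ H * L' := by rw [hL', hT, hH]; nlinarith
  have n3 : (T + 1) * B + 1 ≤ T * (K + 1) := by
    have : B + 1 ≤ T := by rw [hT, hK, hH]; nlinarith
    rw [hK]; nlinarith
  have n4 : H * L' ≤ H * L := Nat.mul_le_mul_left _ (by omega)
  obtain ⟨C, b, hCb⟩ := hC (H * L + 1)
  have hC1 := hCb.one
  refine ⟨T + 1, 8 * C + (b + 1) + (3 * (2 ^ ((L + 1) * K) * (2 * b) : ℕ) + 1) + 2 * 3 ^ (L * K) +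
    65 * (L + 1) + 577 + (2 * (H * L) + 1).factorial, by omega, fun u hu hv => ?_⟩
  obtain ⟨v, hvdef⟩ : ∃ v : ℝ, v = u⁻¹ := ⟨_, rfl⟩
  rw [← hvdef] at hv
  have huv : u * v = 1 := by rw [hvdef]; exact mul_inv_cancel₀ hu.ne'
  have p1 : (0 : ℝ) ≤ 8 * C := by positivity
  have p2 : (0 : ℝ) ≤ b + 1 := by positivity
  have p3 : (0 : ℝ) ≤ 3 * (2 ^ ((L + 1) * K) * (2 * b) : ℕ) + 1 := by positivity
  have p4 : (0 : ℝ) ≤ 2 * 3 ^ (L * K) := by positivity
  have p5 : (0 : ℝ) ≤ 65 * (L + 1) := by positivity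
  have p7 : (0 : ℝ) ≤ (2 * (H * L) + 1).factorial := by positivity
  have c1 : 8 * C ≤ v := by linarith
  have c2 : (b : ℝ) + 1 ≤ v := by linarith
  have c3 : 3 * ((2 ^ ((L + 1) * K) * (2 * b) : ℕ) : ℝ) + 1 ≤ v := by linarith
  have c4 : 2 * (3 : ℝ) ^ (L * K) ≤ v := by linarith
  have c5 : 65 * ((L : ℝ) + 1) ≤ v := by linarith
  have c6 : 577 ≤ v := by linarith
  have c7 : ((2 * (H * L) + 1).factorial : ℝ) ≤ v := by linarith
  clear hv p1 p2 p3 p4 p5 p7
  have hv0 : 0 < v := by linarith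
  have hv1 : 1 ≤ v := by linarith
  have hmul : ∀ {x : ℝ}, x ≤ v → x * u ≤ 1 := fun h => by
    rw [← huv, mul_comm u]; exact mul_le_mul_of_nonneg_right h hu.le
  have hu577 : 577 * u ≤ 1 := hmul c6
  have hu1 : u ≤ 1 := by linarith
  have hCu : 8 * C * u ≤ 1 := hmul c1
  have hCu1 : C * u ≤ 1 := hmul (by linarith)
  have hCu2 : 2 * C * u ≤ 1 := hmul (by linarith)
  have hu2 : 0 ≤ 1 - u ^ 2 := sub_nonneg.2 (pow_le_one₀ hu.le hu1)
  have hpw : ∀ i : ℕ, v ^ i * u ^ i = 1 := fun i => by rw [← mul_pow, mul_comm, huv, one_pow]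
  have hanti : ∀ {i j : ℕ}, i ≤ j → u ^ j ≤ u ^ i := fun h => pow_le_pow_of_le_one hu.le hu1 h
  have hle1 : ∀ i : ℕ, u ^ i ≤ 1 := fun i => pow_le_one₀ hu.le hu1
  refine ⟨by linarith, fun d s hs hsu => ?_⟩
  obtain ⟨N, hN1, hN2⟩ : ∃ N : ℕ, v ^ 3 ≤ N ∧ (N : ℝ) + 1 ≤ v ^ 4 := by
    refine ⟨⌈v ^ 3⌉₊, Nat.le_ceil _, ?_⟩
    have h1 := Nat.ceil_lt_add_one (show 0 ≤ v ^ 3 by positivity)
    have h2 : 1 ≤ v ^ 3 := one_le_pow₀ hv1
    have h3 : v ^ 3 * 577 ≤ v ^ 3 * v := mul_le_mul_of_nonneg_left c6 (by positivity)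
    rw [← pow_succ] at h3
    norm_num at h3
    linarith
  have hMc0 : 0 ≤ Mc b N L := by unfold Mc; positivity
  have hMc : Mc b N L ≤ v ^ a := by
    unfold Mc
    calc ((N : ℝ) + 1) * (((b : ℝ) + 1) * ((N : ℝ) + 1)) ^ L ≤ v ^ 4 * (v * v ^ 4) ^ L := by gcongr
      _ = v ^ a := by rw [ha]; ring
  set th : ℕ → ℝ := fun j => u ^ (T + 1 + 2 * H * j) with hth
  have hth0 : ∀ j, 0 ≤ th j := fun j => by positivity
  have hths : ∀ j, th (j + 1) = th j * u ^ (2 * H) := fun j => by simp only [hth]; ring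
  have hH1 : 1 ≤ 2 * H := by omega
  have hth4 : ∀ j, 4 * th (j + 1) ≤ th j := fun j => by
    rw [hths]
    have := hanti hH1
    rw [pow_one] at this
    have h2 : 4 * u ^ (2 * H) ≤ 1 := by linarith
    rw [mul_left_comm]
    exact mul_le_of_le_one_right (hth0 j) h2
  have hthK : ∀ k ≤ K, 2 * (u ^ (T + 1)) ^ 2 ≤ th k := fun k hk => by
    have h1 : u ^ (T + 1 + T) ≤ th k := hanti (by
      have := Nat.mul_le_mul_left (2 * H) hk
      omega)
    have h2 : 2 * (u ^ (T + 1)) ^ 2 = (2 * u) * u ^ (T + 1 + T) := by ring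
    rw [h2]
    exact le_trans (mul_le_of_le_one_left (by positivity) (by linarith)) h1
  have hsm : u ^ (T + 1) ≤ 1 / 2 := by
    have := hanti (show 1 ≤ T + 1 by omega)
    rw [pow_one] at this
    linarith
  have hlam : u ^ T ≤ 1 / 2 := by
    have := hanti (show 1 ≤ T by omega)
    rw [pow_one] at this
    linarith
  have main : ∀ k j : ℕ, k + j = K → CR d th (u ^ (T + 1)) u k (2 ^ ((L + 1) * j) * (2 * b))
      (3 ^ (L * j)) (v ^ ((a + 1) * (k + 1))) (8 * u ^ (H * L') + (u ^ T) ^ (k + 1)) := by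
    intro k
    induction k with
    | zero =>
      intro j hj
      obtain rfl : j = K := by omega
      refine CR_mono ?_ ?_ (h0 d th _ u _ _ hsm)
      · refine le_trans (by linarith [Nat.cast_nonneg (α := ℝ) (2 ^ ((L + 1) * j) * (2 * b))])
          (le_self_pow₀ hv1 (by positivity))
      · have e : th 0 = u * u ^ T := by simp only [hth]; ring
        have h1 : 2 * 3 ^ (L * j) * u ≤ 1 := hmul c4
        have h2 : 0 ≤ u ^ (H * L') := by positivity
        rw [e, zero_add, pow_one, ← mul_assoc]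
        have := mul_le_of_le_one_left (show 0 ≤ u ^ T by positivity) h1
        linarith
    | succ k ih =>
      intro j hj
      have ih' := ih (j + 1) (by omega)
      obtain ⟨W, hW⟩ : ∃ W : ℕ, W = 2 ^ ((L + 1) * j) * (2 * b) := ⟨_, rfl⟩
      obtain ⟨A, hA⟩ : ∃ A : ℝ, A = 3 ^ (L * j) := ⟨_, rfl⟩
      have e1 : 2 ^ ((L + 1) * (j + 1)) * (2 * b) = 2 ^ (L + 1) * W := by rw [hW]; ring
      have e2 : (3 : ℝ) ^ (L * (j + 1)) = 3 ^ L * A := by rw [hA]; ring
      rw [e1, e2] at ih'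
      rw [← hW, ← hA]
      have hjK : j ≤ K := by omega
      have hWv : 3 * (W : ℝ) + 1 ≤ v := by
        refine le_trans ?_ c3
        have : W ≤ 2 ^ ((L + 1) * K) * (2 * b) := by
          rw [hW]
          exact Nat.mul_le_mul_right _ (Nat.pow_le_pow_right (by norm_num)
            (Nat.mul_le_mul_left _ hjK))
        gcongr
      have hW0 : (0 : ℝ) ≤ W := Nat.cast_nonneg _
      have hA1 : 1 ≤ A := by rw [hA]; exact one_le_pow₀ (by norm_num)
      have hAv : 2 * A ≤ v := by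
        refine le_trans ?_ c4
        rw [hA]
        gcongr
        norm_num
      obtain ⟨η, hη⟩ : ∃ η : ℝ, η = 8 * u ^ (H * L') + (u ^ T) ^ (k + 1) := ⟨_, rfl⟩
      rw [← hη] at ih'
      have hη0 : 0 ≤ η := by rw [hη]; positivity
      have hη6 : η ≤ 9 * u ^ 6 := by
        have h1 := hanti hHL6
        have h2 : (u ^ T) ^ (k + 1) ≤ u ^ 6 := by
          rw [← pow_mul]; exact hanti (hT6.trans (Nat.le_mul_of_pos_right _ (by omega)))
        linarith
      have hθ1 : th k * u ^ (a + 9) ≤ 1 := mul_le_one₀ (hle1 _) (by positivity) (hle1 _)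
      have hLN : ((L : ℝ) + 1) * (N + 1) ≤ v / 65 * v ^ 4 := by
        gcongr
        linarith
      have hstep := hS _ C b hCb d th (u ^ (T + 1)) u (th k * u ^ (a + 9)) (u ^ H) ((u ^ H) ^ L) η
        (v ^ ((a + 1) * (k + 1))) A k W L N hth0 hth4 hu hCu (by positivity) hsm
        (hthK k (by omega)) (hle1 _)
        (by rw [hW]; exact le_trans (by omega) (Nat.le_mul_of_pos_left _ (by positivity))) hA1 hη0 (by positivity)
        (by positivity)
        (by
          have e : C * (th k * u ^ (a + 9)) = (C * u) * (u ^ H * (th k * u ^ 2)) := by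
            rw [hH]; ring
          rw [e]
          exact mul_le_of_le_one_left (by positivity) hCu1)
        (hle1 _) (by positivity) (mul_le_of_le_one_left (by positivity) hθ1)
        (by
          have h1 := decay hu hu1 (m := 2 * (H * L)) (N := N) (by rwa [← hvdef]) (by rwa [← hvdef])
          have h2 : (th k * u ^ (a + 9)) ^ 2 ≤ 1 := pow_le_one₀ (by positivity) hθ1
          have h3 : 0 ≤ (1 - u ^ 2) ^ N := pow_nonneg hu2 _
          calc _ ≤ (1 - u ^ 2) ^ N := mul_le_of_le_one_left h3 h2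
            _ ≤ u ^ (2 * (H * L)) := h1
            _ = _ := by ring)
        (by
          have h1 : √((W + 1) * Mc b N L) ≤ v ^ (a + 1) := by
            refine Real.sqrt_le_iff.2 ⟨by positivity, ?_⟩
            calc ((W : ℝ) + 1) * Mc b N L ≤ v * v ^ a := by gcongr; linarith
              _ = v ^ (a + 1) := by ring
              _ ≤ _ := le_self_pow₀ (one_le_pow₀ hv1) (by norm_num)
          calc 2 * A * th (k + 1) * √((W + 1) * Mc b N L)
              ≤ v * th (k + 1) * v ^ (a + 1) := by gcongr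
            _ = (v ^ (a + 2) * u ^ (a + 2)) * (th k * u ^ (a + 9) * u) := by
              rw [hths, hH]; ring
            _ = _ := by rw [hpw, one_mul])
        (by
          have h1 : u ^ (T + 1) ≤ u ^ 6 := hanti (by omega)
          calc ((L : ℝ) + 1) * (N + 1) * (8 * u ^ (T + 1) + 16 * η)
              ≤ v / 65 * v ^ 4 * (152 * u ^ 6) := by gcongr; linarith
            _ = (v ^ 5 * u ^ 5) * (152 / 65 * u) := by ring
            _ ≤ 1 := by rw [hpw]; linarith)
        ih'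
      refine CR_mono ?_ ?_ hstep
      · have h1 : 1 ≤ v ^ ((a + 1) * (k + 1)) := one_le_pow₀ hv1
        calc (W : ℝ) * Mc b N L * (v ^ ((a + 1) * (k + 1)) + 1)
            ≤ (v / 2) * v ^ a * (2 * v ^ ((a + 1) * (k + 1))) := by
              gcongr <;> linarith
          _ = _ := by ring
      · have hF : 3 * (W : ℝ) * Mc b N L * (1 + 64 * ((L + 1) * (N + 1))) ≤ v ^ H := by
          have h1 : (1 : ℝ) ≤ (L + 1) * (N + 1) :=
            one_le_mul_of_one_le_of_one_le (by linarith [Nat.cast_nonneg (α := ℝ) L])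
              (by linarith [Nat.cast_nonneg (α := ℝ) N])
          calc _ ≤ v * v ^ a * (v * v ^ 4) := by gcongr <;> linarith
            _ = _ := by rw [hH]; ring
        have hG : 2 * (u ^ H) ^ L + 8 * C * (th k * u ^ (a + 9)) * η + 2 * C * u ^ (H * L + 1) ≤
            u ^ H * (4 * u ^ (H * L') + u ^ T * η) := by
          have h1 : 2 * C * u ^ (H * L + 1) ≤ 2 * u ^ (H * L) := by
            have e : 2 * C * u ^ (H * L + 1) = (C * u) * (2 * u ^ (H * L)) := by ring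
            rw [e]
            exact mul_le_of_le_one_left (by positivity) hCu1
          have h2 : th k ≤ u ^ T := hanti (by omega)
          have h3 : 8 * C * (th k * u ^ (a + 9)) * η ≤ u ^ H * (u ^ T * η) := by
            have e : 8 * C * (th k * u ^ (a + 9)) * η =
                (8 * C * u * u ^ 2) * (u ^ H * (th k * η)) := by rw [hH]; ring
            rw [e]
            refine le_trans (mul_le_of_le_one_left (by positivity)
              (mul_le_one₀ hCu (by positivity) (hle1 _))) ?_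
            gcongr
          have e1 : (u ^ H) ^ L = u ^ H * u ^ (H * L') := by rw [hL]; ring
          have e2 : u ^ (H * L) = u ^ H * u ^ (H * L') := by rw [hL]; ring
          rw [e2] at h1
          rw [e1]
          linarith
        calc _ ≤ v ^ H * (u ^ H * (4 * u ^ (H * L') + u ^ T * η)) := by gcongr
          _ = 4 * u ^ (H * L') + u ^ T * η := by rw [← mul_assoc, hpw, one_mul]
          _ = 4 * u ^ (H * L') + u ^ T * (8 * u ^ (H * L')) + (u ^ T) ^ (k + 1 + 1) := by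
            rw [hη]; ring
          _ ≤ _ := by
            have : u ^ T * (8 * u ^ (H * L')) ≤ 1 / 2 * (8 * u ^ (H * L')) := by gcongr
            linarith
  have hfin := main K 0 rfl
  simp only [mul_zero, pow_zero, one_mul] at hfin
  have := hR _ C b hCb d th (u ^ (T + 1)) u _ _ K hth0 hth4 hu hCu hsm (hthK K le_rfl) (hle1 _)
    (by positivity) hfin s hs hsu
  refine realizes_mono ?_ (fun V c => ?_) this
  · rw [← inv_pow, ← hvdef]
    exact pow_le_pow_right₀ hv1 n1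
  · have h1 : u ^ (H * L') ≤ u ^ ((T + 1) * B + 1) := hanti n2
    have h2 : (u ^ T) ^ (K + 1) ≤ u ^ ((T + 1) * B + 1) := by
      rw [← pow_mul]
      exact hanti n3
    have h3 : 2 * C * u ^ (H * L + 1) ≤ u ^ ((T + 1) * B + 1) := by
      have e : 2 * C * u ^ (H * L + 1) = (2 * C * u) * u ^ (H * L) := by ring
      rw [e]
      exact le_trans (mul_le_of_le_one_left (by positivity) hCu2) (le_trans (hanti n4) h1)
    have h4 : 577 * u ^ ((T + 1) * B + 1) ≤ u ^ ((T + 1) * B) := by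
      rw [pow_succ, mul_left_comm]
      exact mul_le_of_le_one_right (by positivity) hu577
    gcongr
    linarith

end Num

theorem refStmt (hC : StmtCore) (h0 : StmtBase) (hS : StmtStep) (hR : StmtRefOf) : StmtRef := by
  intro ε hε B
  obtain ⟨J, v₀, hJ, hkey⟩ := Num.key hC h0 hS hR ⌈B / ε⌉₊
  have hJ0 : (0 : ℝ) < J := by exact_mod_cast hJ
  refine ⟨max 1 ((max v₀ 1) ^ (J / ε)), fun D hD => ?_⟩
  have hD1 : 1 ≤ D := (le_max_left _ _).trans hD
  have hD0 : 0 < D := by linarith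
  have hu : 0 < D ^ (-ε / J) := Real.rpow_pos_of_pos hD0 _
  have huJ : (D ^ (-ε / J)) ^ J = D ^ (-ε) := by
    rw [← Real.rpow_natCast, ← Real.rpow_mul hD0.le, div_mul_cancel₀ _ hJ0.ne']
  have hv : v₀ ≤ (D ^ (-ε / J))⁻¹ := by
    rw [neg_div, Real.rpow_neg hD0.le, inv_inv]
    refine (le_max_left v₀ 1).trans ?_
    have h1 : (0 : ℝ) ≤ max v₀ 1 := le_max_of_le_right zero_le_one
    have h2 := Real.rpow_le_rpow (Real.rpow_nonneg h1 _) ((le_max_right _ _).trans hD)
      (show 0 ≤ ε / J by positivity)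
    rwa [← Real.rpow_mul h1, show J / ε * (ε / J) = 1 by field_simp, Real.rpow_one] at h2
  obtain ⟨h8, hreal⟩ := hkey _ hu hv
  have hle : D ^ (-ε) ≤ D ^ (-ε / J) := by
    rw [← huJ]
    exact pow_le_of_le_one hu.le (by linarith) (by omega)
  refine ⟨D ^ (-ε / J), D ^ (-ε), hle, h8, le_rfl, by linarith, fun d s hs hsm => ?_⟩
  refine Num.realizes_mono ?_ (fun V c => ?_) (hreal d s hs (by rwa [huJ]))
  · rw [huJ, Real.rpow_neg hD0.le, inv_inv]
  · have h1 : (D ^ (-ε / J)) ^ (J * ⌈B / ε⌉₊) ≤ (D ^ B)⁻¹ := by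
      rw [pow_mul, huJ, ← Real.rpow_natCast, ← Real.rpow_mul hD0.le, ← Real.rpow_natCast,
        ← Real.rpow_neg hD0.le]
      refine Real.rpow_le_rpow_of_exponent_le hD1 ?_
      have := (div_le_iff₀ hε).1 (Nat.le_ceil (B / ε))
      linarith
    gcongr

end Crest.Agent.R285
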