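import Crest.Agent.R285.DefsP

/-!
# Row 285 (S0430): the outer loop, `mainStmt`
-/

set_option autoImplicit false

open MeasureTheory ProbabilityTheory Set Filter Topology
open scoped ENNReal NNReal ContDiff RealInnerProductSpace
open Crest.OracleSampling

noncomputable section

namespace Crest.Agent.R285

namespace Outer

variable {d : ℕ}

theorem meas_test {ψ : E d → ℝ≥0∞} {L : ℝ≥0} (h : ∀ x y, ψ x ≤ ψ y + L * edist x y) :
    Measurable ψ :=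
  (continuous_of_le_add_edist L ENNReal.coe_ne_top h).measurable

/-- Gaussian smoothing of a test function -/
def sm (σ : ℝ) (ψ : E d → ℝ≥0∞) (y : E d) : ℝ≥0∞ := ∫⁻ w, ψ (y + σ • w) ∂(gam d)

theorem sm_lip (σ : ℝ) {ψ : E d → ℝ≥0∞} {L : ℝ≥0} (h : ∀ x y, ψ x ≤ ψ y + L * edist x y)
    (x y : E d) : sm σ ψ x ≤ sm σ ψ y + L * edist x y := by
  unfold sm
  calc ∫⁻ w, ψ (x + σ • w) ∂(gam d) ≤ ∫⁻ w, ψ (y + σ • w) + L * edist x y ∂(gam d) :=
        lintegral_mono fun w => by simpa only [edist_add_right] using h (x + σ • w) (y + σ • w)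
    _ = _ := by rw [lintegral_add_right _ measurable_const, lintegral_const, measure_univ, mul_one]

theorem lintegral_noise (μ : Measure (E d)) [SFinite μ] (σ : ℝ) {ψ : E d → ℝ≥0∞}
    (hψ : Measurable ψ) :
    ∫⁻ x, ψ x ∂((μ.prod (gam d)).map fun p => p.1 + σ • p.2) = ∫⁻ y, sm σ ψ y ∂μ := by
  rw [lintegral_map hψ (by fun_prop), lintegral_prod _ (by fun_prop)]
  rfl

theorem sm_sm (hG : StmtGauss) (a b : ℝ) {ψ : E d → ℝ≥0∞} (hψ : Measurable ψ) (x : E d) :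
    sm a (sm b ψ) x = sm √(a ^ 2 + b ^ 2) ψ x := by
  have h := congrArg (fun μ => ∫⁻ w, ψ (x + w) ∂μ) (hG.rot d a b)
  beta_reduce at h
  rw [lintegral_map (by fun_prop) (by fun_prop), lintegral_map (by fun_prop) (by fun_prop),
    lintegral_prod _ (by fun_prop)] at h
  simp only [sm, add_assoc]
  exact h

theorem meas_gmap (σ : ℝ) : Measurable fun y : E d => (gam d).map fun w => y + σ • w := by
  refine Measure.measurable_of_measurable_coe _ fun s hs => ?_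
  have h : Measurable fun p : E d × E d => p.1 + σ • p.2 := by fun_prop
  have : (fun y : E d => ((gam d).map fun w => y + σ • w) s) =
      fun y => gam d (Prod.mk y ⁻¹' ((fun p : E d × E d => p.1 + σ • p.2) ⁻¹' s)) := by
    funext y
    rw [Measure.map_apply (by fun_prop) hs]
    rfl
  rw [this]
  exact measurable_measure_prodMk_left (h hs)

theorem bind_gmap (μ : Measure (E d)) [SFinite μ] (σ : ℝ) :
    (μ.bind fun y => (gam d).map fun w => y + σ • w) =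
      (μ.prod (gam d)).map fun p => p.1 + σ • p.2 := by
  refine Measure.ext_of_lintegral _ fun f hf => ?_
  rw [Measure.lintegral_bind (meas_gmap σ).aemeasurable hf.aemeasurable, lintegral_noise μ σ hf]
  refine lintegral_congr fun y => ?_
  rw [lintegral_map hf (by fun_prop)]
  rfl

theorem prog_noise (hP : StmtProg) {q : ℕ} {K : (E d → ℝ) → Unit → Measure (E d)} (hK : Prog q K)
    (σ : ℝ) : ∃ K' : (E d → ℝ) → Unit → Measure (E d), Prog q K' ∧ ∀ V, Admissible d V →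
      K' V () = ((K V ()).prod (gam d)).map fun p => p.1 + σ • p.2 := by
  refine ⟨_, hP.bind d q 0 Unit (E d) (E d) K _ hK
    (hP.seed d (Unit × E d) (E d) (E d) (gam d) (fun p => p.1.2 + σ • p.2) (by fun_prop)),
    fun V hV => ?_⟩
  have := (hP.meas d q _ _ K hK V hV).2 ()
  exact bind_gmap (K V ()) σ

theorem piT_prob (hBa : StmtBayes) {V : E d → ℝ} (hV : Admissible d V) (t : ℝ) :
    IsProbabilityMeasure (piT V t) := by
  have := (hBa d V hV).1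
  exact Measure.isProbabilityMeasure_map (by fun_prop)

theorem piT_mom (hBa : StmtBayes) {V : E d → ℝ} (hV : Admissible d V) {t : ℝ} (h0 : 0 ≤ t)
    (h1 : t ≤ 1) : ∫⁻ x, ‖x‖ₑ ∂(piT V t) ≤ ENNReal.ofReal (3 * √d) := by
  refine ((hBa d V hV).2.1 t h0).trans (ENNReal.ofReal_le_ofReal ?_)
  have : √t ≤ 1 := Real.sqrt_le_one.2 h1
  exact mul_le_mul_of_nonneg_right (by linarith) (Real.sqrt_nonneg _)

/-- `π_t` is sampled with `Q` queries and error `W` -/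
def St (d : ℕ) (Q t W : ℝ) : Prop :=
  Realizes (X := Unit) Q (fun (V : E d → ℝ) _ => piT V t) fun _ _ => W

theorem St.mono {Q t W W' : ℝ} (h : St d Q t W) (hW : W ≤ W') : St d Q t W' := by
  obtain ⟨q, K, hq, hK, hW'⟩ := h
  refine ⟨q, K, hq, hK, fun V hV x ψ L hψ => (hW' V hV x ψ L hψ).trans ?_⟩
  gcongr

theorem st_start (hP : StmtProg) (hBa : StmtBayes) {t : ℝ} (h0 : 0 ≤ t) (h1 : t ≤ 1) :
    St d 0 t (3 * √d) := by
  refine ⟨0, _, by simp, hP.seed d Unit (E d) (E d) (gam d) (fun _ => 0) measurable_const,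
    fun V hV x ψ L hψ => ?_⟩
  have := piT_prob hBa hV t
  rw [Measure.map_const, measure_univ, one_smul, lintegral_dirac]
  calc ψ 0 = ∫⁻ _, ψ 0 ∂(piT V t) := by rw [lintegral_const, measure_univ, mul_one]
    _ ≤ ∫⁻ y, ψ y + L * ‖y‖ₑ ∂(piT V t) :=
        lintegral_mono fun y => by
          have := hψ 0 y
          rwa [edist_comm, edist_zero_right] at this
    _ = ∫⁻ y, ψ y ∂(piT V t) + L * ∫⁻ y, ‖y‖ₑ ∂(piT V t) := by
        rw [lintegral_add_right _ (by fun_prop), lintegral_const_mul _ (by fun_prop)]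
    _ ≤ _ := by
        gcongr
        exact piT_mom hBa hV h0 h1

theorem st_noise (hG : StmtGauss) (hP : StmtProg) (hBa : StmtBayes) {Q t τ W : ℝ} (h0 : 0 ≤ t)
    (hτ : 0 ≤ τ) (h : St d Q t W) : St d Q (t + τ) W := by
  obtain ⟨q, K, hq, hK, hW⟩ := h
  obtain ⟨K', hK', he⟩ := prog_noise hP hK √τ
  refine ⟨q, K', hq, hK', fun V hV x ψ L hψ => ?_⟩
  have := (hP.meas d q _ _ K hK V hV).2 ()
  have := (hBa d V hV).1
  have hm := meas_test hψ
  rw [he V hV, lintegral_noise _ _ hm]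
  refine (hW V hV () _ L (sm_lip √τ hψ)).trans (le_of_eq ?_)
  congr 1
  simp only [piT]
  rw [lintegral_noise _ _ hm, lintegral_noise _ _ (meas_test (sm_lip √τ hψ))]
  refine lintegral_congr fun y => ?_
  rw [sm_sm hG _ _ hm, Real.sq_sqrt h0, Real.sq_sqrt hτ]

theorem st_refine (hP : StmtProg) (hBa : StmtBayes) (hCo : StmtContr) {Q Q' t τ W η s : ℝ}
    (h0 : 0 ≤ t) (hτ : 0 < τ) (h1 : t + τ ≤ 1) (hη : 0 ≤ η) (hs : s ≤ 1) (hW0 : 0 ≤ W)
    (h : St d Q (t + τ) W)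
    (hR : Realizes Q' (fun V (c : E d) => post V t τ c) fun _ c => η * s * (‖c‖ + √d)) :
    St d (Q + Q') t (W / (1 + τ / 2) + η * (W + 4 * √d)) := by
  obtain ⟨q, K, hq, hK, hW⟩ := h
  obtain ⟨q', K', hq', hK', hW'⟩ := hR
  refine ⟨q + q', _, by push_cast; linarith, hP.bind d q q' Unit (E d) (E d) K _ hK
    (hP.comap d q' (E d) (Unit × E d) (E d) K' Prod.snd measurable_snd hK'),
    fun V hV x ψ L hψ => ?_⟩
  have hm := meas_test hψ
  obtain ⟨hpm, -, hb⟩ := (hBa d V hV).2.2 t τ h0 hτ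
  have := piT_prob hBa hV (t + τ)
  have hκ : 0 ≤ (1 + τ / 2)⁻¹ + η := by positivity
  set Φ : E d → ℝ≥0∞ := fun c => ∫⁻ x, ψ x ∂(post V t τ c) +
    L * ENNReal.ofReal η * (‖c‖ₑ + ENNReal.ofReal √d) with hΦ
  have hΦl : ∀ c c', Φ c ≤ Φ c' + (L * NNReal.mk _ hκ : ℝ≥0) * edist c c' := by
    intro c c'
    have e1 := hCo d V hV t τ h0 (by linarith) hτ c c' ψ L hψ
    have e2 : ‖c‖ₑ ≤ ‖c'‖ₑ + edist c c' := by
      simpa only [edist_zero_right, add_comm] using edist_triangle c c' 0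
    have e3 : ENNReal.ofReal (‖c - c'‖ / (1 + τ / 2)) =
        ENNReal.ofReal (1 + τ / 2)⁻¹ * edist c c' := by
      rw [edist_dist, dist_eq_norm, ← ENNReal.ofReal_mul (by positivity), div_eq_inv_mul]
    have e4 : ((NNReal.mk _ hκ : ℝ≥0) : ℝ≥0∞) = ENNReal.ofReal (1 + τ / 2)⁻¹ + ENNReal.ofReal η := by
      rw [← ENNReal.ofReal_add (by positivity) hη, ENNReal.ofReal_eq_coe_nnreal hκ]
    rw [e3] at e1
    calc Φ c ≤ (∫⁻ x, ψ x ∂(post V t τ c') + L * (ENNReal.ofReal (1 + τ / 2)⁻¹ * edist c c')) +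
          L * ENNReal.ofReal η * ((‖c'‖ₑ + edist c c') + ENNReal.ofReal √d) := by
          simp only [hΦ]
          gcongr
      _ = _ := by
          simp only [hΦ]
          rw [ENNReal.coe_mul, e4]
          ring
  rw [Measure.lintegral_bind ((hP.meas d q' _ _ K' hK' V hV).1).aemeasurable hm.aemeasurable]
  calc ∫⁻ c, ∫⁻ x, ψ x ∂(K' V c) ∂(K V x) ≤ ∫⁻ c, Φ c ∂(K V x) := by
        refine lintegral_mono fun c => (hW' V hV c ψ L hψ).trans ?_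
        simp only [hΦ]
        rw [mul_assoc (L : ℝ≥0∞), ← ofReal_norm_eq_enorm,
          ← ENNReal.ofReal_add (norm_nonneg _) (Real.sqrt_nonneg _), ← ENNReal.ofReal_mul hη]
        gcongr
        exact mul_le_of_le_one_right hη hs
    _ ≤ ∫⁻ c, Φ c ∂(piT V (t + τ)) + (L * NNReal.mk _ hκ : ℝ≥0) * ENNReal.ofReal W :=
        hW V hV x Φ _ hΦl
    _ ≤ (∫⁻ x, ψ x ∂(piT V t) + L * ENNReal.ofReal η *
          (ENNReal.ofReal (3 * √d) + ENNReal.ofReal √d)) +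
          (L * NNReal.mk _ hκ : ℝ≥0) * ENNReal.ofReal W := by
        gcongr
        simp only [hΦ]
        rw [lintegral_add_right _ (by fun_prop), lintegral_const_mul _ (by fun_prop),
          lintegral_add_right _ measurable_const, lintegral_const, measure_univ, mul_one, ← hb,
          Measure.lintegral_bind hpm.aemeasurable hm.aemeasurable]
        gcongr
        exact piT_mom hBa hV (by linarith) h1
    _ = _ := by
        rw [add_assoc, ENNReal.coe_mul, ← ENNReal.ofReal_eq_coe_nnreal hκ, mul_assoc, mul_assoc,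
          ← mul_add, ← ENNReal.ofReal_add (by positivity) (by positivity),
          ← ENNReal.ofReal_mul hη, ← ENNReal.ofReal_mul hκ,
          ← ENNReal.ofReal_add (by positivity) (by positivity)]
        congr 3
        ring

theorem st_end (hP : StmtProg) (hE : StmtEnd) {Q t W σ : ℝ} (h0 : 0 ≤ t) (hσ : 0 < σ)
    (hW0 : 0 ≤ W) (h1 : t + σ ^ 2 ≤ 1) (h2 : 2 * W / σ + 5 * d * √(t + σ ^ 2) ≤ 1 / 10)
    (h : St d Q t W) : ∃ (q : ℕ) (A : QueryAlg d q), (q : ℝ) ≤ Q ∧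
      ∀ V : E d → ℝ, Admissible d V → Succeeds A V := by
  obtain ⟨q, K, hq, hK, hW⟩ := h
  obtain ⟨K', hK', he⟩ := prog_noise hP hK σ
  obtain ⟨A, hA⟩ := hP.final d q K' hK'
  refine ⟨q, A, hq, fun V hV B hB => ?_⟩
  have := (hP.meas d q _ _ K hK V hV).2 ()
  rw [hA V hV, he V hV]
  exact (hE d V hV (K V ()) t σ W h0 hσ hW0 h1 (hW V hV ()) B hB).trans h2

/-- the main loop -/
theorem st_loop (hG : StmtGauss) (hP : StmtProg) (hBa : StmtBayes) (hCo : StmtContr)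
    {Q' t τ η s : ℝ} (h0 : 0 ≤ t) (hτ : 0 < τ) (h1 : t + τ ≤ 1) (hη : 0 ≤ η) (hητ : η ≤ τ / 8)
    (hs : s ≤ 1)
    (hR : Realizes Q' (fun V (c : E d) => post V t τ c) fun _ c => η * s * (‖c‖ + √d)) (n : ℕ) :
    St d (n * Q') t ((1 - τ / 8) ^ n * (3 * √d) + 32 * η * √d / τ) := by
  have hτ1 : 0 ≤ 1 - τ / 8 := by linarith
  induction n with
  | zero =>
    rw [Nat.cast_zero, zero_mul, pow_zero, one_mul]
    exact (st_start hP hBa h0 (by linarith)).mono (le_add_of_nonneg_right (by positivity))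
  | succ n ih =>
    have hW0 : 0 ≤ (1 - τ / 8) ^ n * (3 * √d) + 32 * η * √d / τ := by positivity
    have h2 := st_refine hP hBa hCo h0 hτ h1 hη hs hW0 (st_noise hG hP hBa h0 hτ.le ih) hR
    rw [Nat.cast_succ, add_mul, one_mul]
    refine h2.mono ?_
    set W := (1 - τ / 8) ^ n * (3 * √d) + 32 * η * √d / τ with hW
    have e1 : W / (1 + τ / 2) ≤ (1 - τ / 4) * W := by
      rw [div_le_iff₀ (by positivity)]
      have : 1 ≤ (1 - τ / 4) * (1 + τ / 2) := by nlinarith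
      nlinarith
    have e2 : η * W ≤ τ / 8 * W := mul_le_mul_of_nonneg_right hητ hW0
    have e3 : (1 - τ / 8) ^ (n + 1) * (3 * √d) + 32 * η * √d / τ =
        (1 - τ / 8) * W + 4 * η * √d := by
      rw [hW]
      field_simp
      ring
    rw [e3]
    nlinarith

/-- the descent -/
theorem st_descent (hP : StmtProg) (hBa : StmtBayes) (hCo : StmtContr) {Q Q' ρ smax η W : ℝ}
    {N : ℕ} (hρ0 : 0 < ρ) (hρ : ρ ≤ 1) (hs0 : 0 < smax) (hs : smax ≤ 1) (hη : 0 ≤ η)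
    (hW0 : 0 ≤ W) (hWN : W + 5 * N * η * √d ≤ √d)
    (hR : ∀ s : ℝ, 0 < s → s ≤ smax → Realizes Q'
      (fun V (c : E d) => post V (s ^ 2 * (1 - ρ ^ 2 / 2)) (s ^ 2 * (ρ ^ 2 / 2)) c)
      fun _ c => η * s * (‖c‖ + √d))
    (h : St d Q (smax ^ 2 * (1 - ρ ^ 2 / 2)) W) (n : ℕ) (hn : n ≤ N) :
    St d (Q + n * Q') (smax ^ 2 * (1 - ρ ^ 2 / 2) ^ (n + 1)) (W + 5 * n * η * √d) := by
  have hρ2 : 0 < 1 - ρ ^ 2 / 2 := by nlinarith
  have hρ3 : 1 - ρ ^ 2 / 2 ≤ 1 := by nlinarith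
  induction n with
  | zero => simpa using h
  | succ n ih =>
    set T := smax ^ 2 * (1 - ρ ^ 2 / 2) ^ (n + 1) with hT
    have hT0 : 0 < T := by positivity
    have hT1 : T ≤ smax ^ 2 := mul_le_of_le_one_right (by positivity) (pow_le_one₀ hρ2.le hρ3)
    have hs1 : √T ≤ smax := by
      rw [Real.sqrt_le_left hs0.le]
      exact hT1
    have h2 := hR √T (Real.sqrt_pos.2 hT0) hs1
    rw [Real.sq_sqrt hT0.le] at h2
    have e0 : T * (1 - ρ ^ 2 / 2) + T * (ρ ^ 2 / 2) = T := by ring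
    have hW1 : 0 ≤ W + 5 * n * η * √d := by positivity
    have h3 := st_refine hP hBa hCo (by positivity) (by positivity)
      (by rw [e0]; nlinarith) hη (hs1.trans hs) hW1 (e0.symm ▸ ih (by omega)) h2
    have e1 : smax ^ 2 * (1 - ρ ^ 2 / 2) ^ (n + 1 + 1) = T * (1 - ρ ^ 2 / 2) := by
      rw [hT]; ring
    rw [e1, Nat.cast_succ, add_mul, one_mul, ← add_assoc]
    refine h3.mono ?_
    have e2 : (W + 5 * n * η * √d) / (1 + T * (ρ ^ 2 / 2) / 2) ≤ W + 5 * n * η * √d :=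
      div_le_self hW1 (le_add_of_nonneg_right (by positivity))
    have e3 : W + 5 * n * η * √d ≤ √d := by
      refine le_trans ?_ hWN
      gcongr
      omega
    have e4 : η * (W + 5 * n * η * √d + 4 * √d) ≤ η * (5 * √d) :=
      mul_le_mul_of_nonneg_left (by linarith) hη
    nlinarith

theorem exists_large {ε : ℝ} (hε : 0 < ε) :
    ∃ D₁ : ℝ, ∀ D, D₁ ≤ D → D ^ 2 * Real.exp (-D ^ ε) ≤ 1 / 48000 := by
  have h := (tendsto_rpow_mul_exp_neg_mul_atTop_nhds_zero (2 / ε) 1 one_pos).comp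
    (tendsto_rpow_atTop hε)
  obtain ⟨D₁, hD⟩ := eventually_atTop.1 (h.eventually (ge_mem_nhds (by norm_num : (0 : ℝ) < 1 / 48000)))
  refine ⟨max D₁ 0, fun D hD' => ?_⟩
  have h1 := hD D (le_of_max_le_left hD')
  have h2 : (D ^ ε) ^ (2 / ε) = D ^ 2 := by
    rw [← Real.rpow_mul (le_of_max_le_right hD'), mul_div_cancel₀ _ hε.ne', Real.rpow_two]
  simpa only [Function.comp, h2, neg_mul, one_mul] using h1

theorem pow_le_exp {x u : ℝ} {N : ℕ} (h1 : x ≤ 1) (h : u ≤ x * N) :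
    (1 - x) ^ N ≤ Real.exp (-u) := by
  calc (1 - x) ^ N ≤ Real.exp (-x) ^ N :=
        pow_le_pow_left₀ (by linarith) (by linarith [Real.add_one_le_exp (-x)]) N
    _ = Real.exp (-(x * N)) := by rw [← Real.exp_nat_mul]; ring_nf
    _ ≤ _ := Real.exp_le_exp.2 (by linarith)

theorem num_eta {D ε : ℝ} {B : ℕ} (hD : 2384000 ≤ D) (hB : 5 * ε + 3 ≤ B) :
    (D ^ ε) ^ 5 * (D ^ B)⁻¹ * D ^ 2 ≤ 1 / 2384000 := by
  have hD0 : 0 < D := by linarith
  have e1 : (D ^ ε) ^ 5 * D ^ 3 ≤ D ^ B := by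
    rw [← Real.rpow_natCast, ← Real.rpow_mul hD0.le, ← Real.rpow_natCast D 3,
      ← Real.rpow_add hD0, ← Real.rpow_natCast D B]
    refine Real.rpow_le_rpow_of_exponent_le (by linarith) ?_
    push_cast
    linarith
  have e2 : (D ^ ε) ^ 5 * (D ^ B)⁻¹ * D ^ 2 * D ≤ 1 := by
    rw [show (D ^ ε) ^ 5 * (D ^ B)⁻¹ * D ^ 2 * D = (D ^ ε) ^ 5 * D ^ 3 / D ^ B by ring]
    exact div_le_one_of_le₀ e1 (by positivity)
  have e3 : 0 ≤ (D ^ ε) ^ 5 * (D ^ B)⁻¹ * D ^ 2 := by positivity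
  rw [le_div_iff₀ (by norm_num)]
  exact (mul_le_mul_of_nonneg_left hD e3).trans e2

theorem num_W {D u τ η r : ℝ} {N : ℕ} (hD : 1 ≤ D) (hu : 1 ≤ u) (hτ0 : 0 < τ) (hτ1 : τ ≤ 1)
    (hτu : 1 ≤ 2 * τ * u ^ 4) (hη0 : 0 ≤ η) (hη1 : u ^ 5 * η * D ^ 2 ≤ 1 / 2384000)
    (hr0 : 0 ≤ r) (hr : r ≤ D) (hN1 : 16 * u ^ 5 ≤ N) (hN2 : (N : ℝ) ≤ 17 * u ^ 5)
    (hexp : D ^ 2 * Real.exp (-u) ≤ 1 / 48000) :
    (1 - τ / 8) ^ N * (3 * r) + 32 * η * r / τ + 5 * N * η * r ≤ 1 / (8000 * D) := by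
  have e1 : (1 - τ / 8) ^ N ≤ Real.exp (-u) := by
    refine pow_le_exp (by linarith) ?_
    have : τ / 8 * (16 * u ^ 5) = (2 * τ * u ^ 4) * u := by ring
    calc u ≤ τ / 8 * (16 * u ^ 5) := by
          rw [this]
          exact le_mul_of_one_le_left (by linarith) hτu
      _ ≤ _ := by gcongr
  have e2 : 32 * η * r / τ ≤ 64 * (u ^ 5 * η) * D := by
    rw [div_le_iff₀ hτ0]
    have hu45 : u ^ 4 ≤ u ^ 5 := pow_le_pow_right₀ hu (by norm_num)
    calc 32 * η * r = 32 * η * r * 1 := (mul_one _).symm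
      _ ≤ 32 * η * D * (2 * τ * u ^ 5) := by
        gcongr
        exact hτu.trans (by gcongr)
      _ = _ := by ring
  have e3 : 5 * N * η * r ≤ 85 * (u ^ 5 * η) * D := by
    calc 5 * N * η * r ≤ 5 * (17 * u ^ 5) * η * D := by gcongr
      _ = _ := by ring
  have e4 : (1 - τ / 8) ^ N * (3 * r) ≤ Real.exp (-u) * (3 * D) := by gcongr
  rw [le_div_iff₀ (by positivity)]
  have e5 : (1 - τ / 8) ^ N * (3 * r) + 32 * η * r / τ + 5 * N * η * r ≤
      Real.exp (-u) * (3 * D) + 149 * (u ^ 5 * η) * D := by linarith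
  calc _ ≤ (Real.exp (-u) * (3 * D) + 149 * (u ^ 5 * η) * D) * (8000 * D) := by gcongr
    _ = 24000 * (D ^ 2 * Real.exp (-u)) + 1192000 * (u ^ 5 * η * D ^ 2) := by ring
    _ ≤ 1 := by linarith

theorem num_T {D u ρ s : ℝ} {N : ℕ} (hD : 1 ≤ D) (hu : 1 ≤ u) (hρ : ρ ^ 2 ≤ 1) (hρu : 1 ≤ ρ * u)
    (hs : s ^ 2 ≤ 1) (hN1 : 16 * u ^ 5 ≤ N) (hexp : D ^ 2 * Real.exp (-u) ≤ 1 / 48000) :
    s ^ 2 * (1 - ρ ^ 2 / 2) ^ (N + 1) ≤ 3 * (1 / (200 * D)) ^ 2 := by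
  have e1 : (1 - ρ ^ 2 / 2) ^ (N + 1) ≤ Real.exp (-u) := by
    refine pow_le_exp (by linarith) ?_
    have f1 : 1 ≤ (ρ * u) ^ 2 := one_le_pow₀ hρu
    have f2 : u ≤ u ^ 3 := le_self_pow₀ hu (by norm_num)
    have f3 : ρ ^ 2 / 2 * (16 * u ^ 5) = 8 * ((ρ * u) ^ 2 * u ^ 3) := by ring
    have f4 : u ^ 3 ≤ (ρ * u) ^ 2 * u ^ 3 := le_mul_of_one_le_left (by positivity) f1
    calc u ≤ ρ ^ 2 / 2 * (16 * u ^ 5) := by rw [f3]; linarith
      _ ≤ _ := by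
        push_cast
        gcongr
        linarith
  have e2 : s ^ 2 * (1 - ρ ^ 2 / 2) ^ (N + 1) ≤ 1 * Real.exp (-u) :=
    mul_le_mul hs e1 (pow_nonneg (by linarith) _) zero_le_one
  refine e2.trans ?_
  rw [show 3 * (1 / (200 * D)) ^ 2 = 3 / 40000 / D ^ 2 by field_simp; norm_num,
    le_div_iff₀ (by positivity)]
  linarith

theorem num_end {D T W x : ℝ} (hD : 1 ≤ D) (hT : T ≤ 3 * (1 / (200 * D)) ^ 2)
    (hW : W ≤ 1 / (8000 * D)) (hx : x ≤ D) :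
    T + (1 / (200 * D)) ^ 2 ≤ 1 ∧
      2 * W / (1 / (200 * D)) + 5 * x * √(T + (1 / (200 * D)) ^ 2) ≤ 1 / 10 := by
  have hσ0 : 0 < 1 / (200 * D) := by positivity
  have hσ1 : 1 / (200 * D) ≤ 1 / 2 := one_div_le_one_div_of_le (by norm_num) (by linarith)
  refine ⟨by nlinarith, ?_⟩
  have e1 : √(T + (1 / (200 * D)) ^ 2) ≤ 2 * (1 / (200 * D)) := by
    rw [Real.sqrt_le_left (by positivity)]
    nlinarith
  have e2 : 2 * W / (1 / (200 * D)) ≤ 1 / 20 := by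
    rw [div_le_iff₀ hσ0]
    have : 1 / 20 * (1 / (200 * D)) = 2 * (1 / (8000 * D)) := by field_simp; norm_num
    linarith
  have e3 : 5 * x * √(T + (1 / (200 * D)) ^ 2) ≤ 1 / 20 := by
    calc 5 * x * √(T + (1 / (200 * D)) ^ 2) ≤ 5 * D * (2 * (1 / (200 * D))) := by gcongr
      _ = 1 / 20 := by field_simp; norm_num
  linarith

theorem core (hG : StmtGauss) (hP : StmtProg) (hBa : StmtBayes) (hCo : StmtContr)
    (hE : StmtEnd) {D u ρ smax η : ℝ} (hd : 1 ≤ d) (hdD : (d : ℝ) ≤ D) (hu1 : 1 ≤ u)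
    (hρu : 1 ≤ ρ * u) (hρ2 : ρ ≤ 1 / 8) (hsu : 1 ≤ smax * u) (hs2 : smax ≤ 1 / 2) (hη0 : 0 ≤ η)
    (hη1 : u ^ 5 * η * D ^ 2 ≤ 1 / 2384000) (hexp : D ^ 2 * Real.exp (-u) ≤ 1 / 48000)
    (hRe : ∀ s : ℝ, 0 < s → s ≤ smax → Realizes u
      (fun V (c : E d) => post V (s ^ 2 * (1 - ρ ^ 2 / 2)) (s ^ 2 * (ρ ^ 2 / 2)) c)
      fun _ c => η * s * (‖c‖ + √d)) :
    ∃ (q : ℕ) (A : QueryAlg d q), (q : ℝ) ≤ 34 * u ^ 6 ∧
      ∀ V : E d → ℝ, Admissible d V → Succeeds A V := by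
  have hd1 : (1 : ℝ) ≤ d := by exact_mod_cast hd
  have hD1 : 1 ≤ D := hd1.trans hdD
  have hu0 : 0 < u := by linarith
  have hρ0 : 0 < ρ := pos_of_mul_pos_right (by linarith) hu0.le
  have hs0 : 0 < smax := pos_of_mul_pos_right (by linarith) hu0.le
  have hu5 : 1 ≤ u ^ 5 := one_le_pow₀ hu1
  obtain ⟨N, hN1, hN2⟩ : ∃ N : ℕ, 16 * u ^ 5 ≤ N ∧ (N : ℝ) ≤ 17 * u ^ 5 := by
    refine ⟨⌈16 * u ^ 5⌉₊, Nat.le_ceil _, ?_⟩
    have := Nat.ceil_lt_add_one (show 0 ≤ 16 * u ^ 5 by positivity)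
    linarith
  have hs3 : smax ^ 2 ≤ 1 := pow_le_one₀ hs0.le (by linarith)
  have hρ3 : ρ ^ 2 ≤ 1 := pow_le_one₀ hρ0.le (by linarith)
  obtain ⟨τ, hτ⟩ : ∃ τ, τ = smax ^ 2 * (ρ ^ 2 / 2) := ⟨_, rfl⟩
  have hτ0 : 0 < τ := by rw [hτ]; positivity
  have hτu : 1 ≤ 2 * τ * u ^ 4 := by
    have : 2 * τ * u ^ 4 = (smax * u) ^ 2 * (ρ * u) ^ 2 := by rw [hτ]; ring
    rw [this]
    exact one_le_mul_of_one_le_of_one_le (one_le_pow₀ hsu) (one_le_pow₀ hρu)
  have hτ1 : τ ≤ 1 := by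
    rw [hτ]
    exact mul_le_one₀ hs3 (by positivity) (by linarith)
  have hητ : η ≤ τ / 8 := by
    have e1 : u ^ 5 * η ≤ 1 / 2384000 :=
      le_trans (le_mul_of_one_le_right (by positivity) (one_le_pow₀ hD1)) hη1
    have e2 : u ^ 4 * η ≤ u ^ 5 * η :=
      mul_le_mul_of_nonneg_right (pow_le_pow_right₀ hu1 (by norm_num)) hη0
    calc η = η * 1 := (mul_one _).symm
      _ ≤ η * (2 * τ * u ^ 4) := mul_le_mul_of_nonneg_left hτu hη0
      _ = 2 * τ * (u ^ 4 * η) := by ring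
      _ ≤ 2 * τ * (1 / 16) := by gcongr; linarith
      _ = _ := by ring
  have hsd : √(d : ℝ) ≤ D := by
    refine le_trans ?_ hdD
    rw [Real.sqrt_le_left (by linarith)]
    exact le_self_pow₀ hd1 (by norm_num)
  have hsd1 : 1 ≤ √(d : ℝ) := Real.one_le_sqrt.2 hd1
  have L1 := st_loop hG hP hBa hCo (t := smax ^ 2 * (1 - ρ ^ 2 / 2)) (τ := τ)
    (mul_nonneg (by positivity) (by linarith)) hτ0 (by rw [hτ]; linarith) hη0 hητ
    (by linarith : smax ≤ 1) (hτ ▸ hRe smax hs0 le_rfl) N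
  have hWf := num_W hD1 hu1 hτ0 hτ1 hτu hη0 hη1 (Real.sqrt_nonneg _) hsd hN1 hN2 hexp
  have hW0 : 0 ≤ (1 - τ / 8) ^ N * (3 * √(d : ℝ)) + 32 * η * √(d : ℝ) / τ := by
    have : 0 ≤ 1 - τ / 8 := by linarith
    positivity
  have hWf1 : 1 / (8000 * D) ≤ 1 := by
    rw [div_le_one (by positivity)]
    linarith
  have L2 := st_descent hP hBa hCo hρ0 (by linarith) hs0 (by linarith) hη0 hW0
    (hWf.trans (hWf1.trans hsd1)) hRe L1 N le_rfl
  obtain ⟨e1, e2⟩ := num_end hD1 (num_T hD1 hu1 hρ3 hρu hs3 hN1 hexp) hWf hdD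
  obtain ⟨q, A, hq, hA⟩ := st_end hP hE
    (mul_nonneg (by positivity) (pow_nonneg (by linarith) _)) (by positivity) (by positivity)
    e1 e2 L2
  refine ⟨q, A, hq.trans ?_, hA⟩
  calc N * u + N * u ≤ 17 * u ^ 5 * u + 17 * u ^ 5 * u := by gcongr
    _ = _ := by ring

end Outer

open Outer in
theorem mainStmt (hG : StmtGauss) (hP : StmtProg) (hBa : StmtBayes) (hCo : StmtContr)
    (hE : StmtEnd) (hR : StmtRef) : StmtMain := by
  intro ε hε
  have hε' : 0 < ε / 6 := by positivity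
  obtain ⟨B, hB⟩ := exists_nat_ge (5 * (ε / 6) + 3)
  obtain ⟨D₀, hD₀⟩ := hR (ε / 6) hε' B
  obtain ⟨D₁, hD₁⟩ := exists_large hε'
  obtain ⟨M, hM0, hM1, hM2⟩ : ∃ M : ℝ, D₀ ≤ M ∧ D₁ ≤ M ∧ 2384000 ≤ M :=
    ⟨max (max D₀ D₁) 2384000, (le_max_left _ _).trans (le_max_left _ _),
      (le_max_right _ _).trans (le_max_left _ _), le_max_right _ _⟩
  refine ⟨34 * M ^ ε, fun d hd => ?_⟩
  have hd1 : (1 : ℝ) ≤ d := by exact_mod_cast (by omega : 1 ≤ d)
  obtain ⟨D, hD⟩ : ∃ D, D = M * d := ⟨_, rfl⟩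
  have hMD : M ≤ D := hD ▸ le_mul_of_one_le_right (by linarith) hd1
  have hdD : (d : ℝ) ≤ D := hD ▸ le_mul_of_one_le_left (by linarith) (by linarith)
  have hD0 : 0 < D := by linarith
  obtain ⟨ρ, smax, hρ1, hρ2, hs1, hs2, hRe⟩ := hD₀ D (hM0.trans hMD)
  have hu1 : 1 ≤ D ^ (ε / 6) := Real.one_le_rpow (by linarith) hε'.le
  have hu0 : 0 < D ^ (ε / 6) := by linarith
  rw [Real.rpow_neg hD0.le] at hρ1 hs1
  obtain ⟨q, A, hq, hA⟩ := core hG hP hBa hCo hE (by omega) hdD hu1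
    (by rwa [← div_le_iff₀ hu0, one_div]) hρ2 (by rwa [← div_le_iff₀ hu0, one_div]) hs2
    (by positivity) (num_eta (hM2.trans hMD) hB) (hD₁ D (hM1.trans hMD)) (hRe d)
  refine ⟨q, A, hq.trans (le_of_eq ?_), hA⟩
  rw [mul_assoc, ← Real.rpow_natCast, ← Real.rpow_mul hD0.le, hD,
    ← Real.mul_rpow (by linarith) (by linarith)]
  congr 2
  push_cast
  ring

end Crest.Agent.R285
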