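import Crest.Agent.R285.PicB

/-! # Row 285: quadrature along a flow and convergence of the Picard collocation -/

set_option autoImplicit false
set_option maxHeartbeats 400000

open MeasureTheory ProbabilityTheory Set
open scoped ENNReal NNReal ContDiff RealInnerProductSpace
open Crest.OracleSampling

noncomputable section

namespace Crest.Agent.R285
namespace Pic

variable {d : ℕ}

theorem up {C x δ s : ℝ} (hx : 0 ≤ x) (hδ : 0 ≤ δ) (hs : 0 ≤ s) :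
    ENNReal.ofReal (C * x * δ * s) ≤ ENNReal.ofReal (|C| * x * δ * s) :=
  ENNReal.ofReal_le_ofReal (by gcongr; exact le_abs_self _)

theorem arith0 {C lam δ ε s μ : ℝ} (hC : 0 ≤ C) (hδ0 : 0 ≤ δ) (hδ : δ ≤ 1 / 2) (hε : 0 ≤ ε)
    (hs : 0 ≤ s) (hμ : 0 ≤ μ) (hlam : |lam| * δ ≤ ε) :
    ε * (μ + C * 1 ^ (0 + 1) * δ * s) + 2 * (|lam| * (C * ε ^ 0 * δ * s)) ≤
      (1 + 3 * C) * ε * (s + μ) := by
  have e1 : |lam| * (C * ε ^ 0 * δ * s) ≤ ε * (C * s) := by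
    calc _ = (|lam| * δ) * (C * s) := by ring
      _ ≤ _ := mul_le_mul_of_nonneg_right hlam (by positivity)
  have e2 : C * 1 ^ (0 + 1) * δ * s ≤ C * s := by
    calc _ = δ * (C * s) := by ring
      _ ≤ 1 * (C * s) := mul_le_mul_of_nonneg_right (by linarith) (by positivity)
      _ = _ := one_mul _
  have e3 := mul_le_mul_of_nonneg_left e2 hε
  have e4 : 0 ≤ ε * s := by positivity
  have e5 : 0 ≤ C * ε * μ := by positivity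
  have e6 : (1 + 3 * C) * ε * (s + μ) = ε * s + ε * μ + 3 * (ε * (C * s)) + 3 * (C * ε * μ) := by
    ring
  rw [e6, mul_add]
  linarith

theorem arith1 {C₁ C₂ lam δ ε s μ : ℝ} (m : ℕ) (h1 : 0 ≤ C₁) (h2 : 0 ≤ C₂) (hδ0 : 0 ≤ δ)
    (hδ : δ ≤ 1 / 2) (hε : 0 ≤ ε) (hs : 0 ≤ s) (hμ : 0 ≤ μ) (hlam : |lam| * δ ≤ ε) :
    ε * (C₁ * ε ^ (m + 1) * δ * s) + 2 * (|lam| * (C₂ * ε ^ (m + 1) * δ * s)) ≤
      (C₁ + 2 * C₂) * ε ^ (m + 2) * (s + μ) := by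
  have e1 : |lam| * (C₂ * ε ^ (m + 1) * δ * s) ≤ C₂ * ε ^ (m + 2) * s := by
    calc _ = (|lam| * δ) * (C₂ * ε ^ (m + 1) * s) := by ring
      _ ≤ ε * (C₂ * ε ^ (m + 1) * s) := mul_le_mul_of_nonneg_right hlam (by positivity)
      _ = _ := by ring
  have e2 : ε * (C₁ * ε ^ (m + 1) * δ * s) ≤ C₁ * ε ^ (m + 2) * s := by
    calc _ = δ * (C₁ * ε ^ (m + 2) * s) := by ring
      _ ≤ 1 * (C₁ * ε ^ (m + 2) * s) := mul_le_mul_of_nonneg_right (by linarith) (by positivity)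
      _ = _ := one_mul _
  have e3 : 0 ≤ (C₁ + 2 * C₂) * ε ^ (m + 2) * μ := by positivity
  have e6 : (C₁ + 2 * C₂) * ε ^ (m + 2) * (s + μ) = C₁ * ε ^ (m + 2) * s +
      2 * (C₂ * ε ^ (m + 2) * s) + (C₁ + 2 * C₂) * ε ^ (m + 2) * μ := by ring
  rw [e6]
  linarith

/-- the regularity bounds of order `n` with constant `C` -/
def RegAt (n : ℕ) (C : ℝ) : Prop :=
  ∀ (d : ℕ) (δ : ℝ) (U : E d → ℝ), Pot δ U → δ ≤ 1 / 2 →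
    ∀ (α : ℝ × ℝ) (lam ε : ℝ), 0 < ε → |α.1| ≤ ε → |α.2| ≤ ε → |lam| * δ ≤ ε → ∀ a ∈ OO,
      ∫⁻ ζ, ‖(Lie (WF U α lam))^[n + 1] (Gp U) (a, ζ)‖ₑ ∂(nu U a) ≤
        ENNReal.ofReal (C * ε ^ (n + 1) * δ * √d) ∧
      ∫⁻ ζ, ‖(Lie (WF U α lam))^[n] (Lie (V1 U) (Gp U)) (a, ζ)‖ₑ ∂(nu U a) ≤
        ENNReal.ofReal (C * ε ^ n * δ * √d) ∧
      ∫⁻ ζ, ‖(Lie (WF U α lam))^[n] (Lie (V2 U) (Gp U)) (a, ζ)‖ₑ ∂(nu U a) ≤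
        ENNReal.ofReal (C * ε ^ n * δ * √d)

theorem regAt (hR : StmtReg) (n : ℕ) : ∃ C, 0 ≤ C ∧ RegAt n C := by
  obtain ⟨C, hC⟩ := hR n
  refine ⟨|C|, abs_nonneg C, fun d δ U hU hδ α lam ε hε h1 h2 hl a ha => ?_⟩
  obtain ⟨k0, k1, k2, -⟩ := hC d δ U hU hδ α lam ε hε h1 h2 hl a ha
  have hδ0 := hU.pos.le
  have hd : 0 ≤ √(d : ℝ) := Real.sqrt_nonneg _
  exact ⟨k0.trans (up (pow_nonneg hε.le _) hδ0 hd), k1.trans (up (pow_nonneg hε.le _) hδ0 hd),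
    k2.trans (up (pow_nonneg hε.le _) hδ0 hd)⟩

section
variable {δ : ℝ} {U : E d → ℝ} {α : ℝ × ℝ} {lam ε : ℝ}

theorem mean_T0 (hF : StmtFlow) {C₀ : ℝ} (h0 : 0 ≤ C₀) (hC₀ : RegAt 0 C₀) (hU : Pot δ U)
    (hδ : δ ≤ 1 / 2) (hε : 0 < ε) (hα1 : |α.1| ≤ ε) (hα2 : |α.2| ≤ ε) (hlam : |lam| * δ ≤ ε)
    (a' : ℝ × ℝ) (ha' : a' ∈ OO) :
    ∫⁻ ζ, ‖TT U α lam 0 (a', ζ)‖ₑ ∂(nu U a') ≤
      ENNReal.ofReal ((1 + 3 * C₀) * ε * (√d + ‖GF U 1 0‖)) := by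
  obtain ⟨h1, h2, -, -, -⟩ := hF d δ U hU hδ
  have hG : SM (Gp U) := ⟨h1, h2⟩
  have hδ0 := hU.pos.le
  have hd : 0 ≤ √(d : ℝ) := Real.sqrt_nonneg _
  obtain ⟨-, k1, k2⟩ := hC₀ d δ U hU hδ α lam ε hε hα1 hα2 hlam a' ha'
  have k0 := int_G hF (C₀ := C₀ * 1 ^ (0 + 1) * δ * √d) hU hδ
    (fun β b1 b2 a'' ha'' => (hC₀ d δ U hU hδ β 0 1 one_pos b1 b2 (by simp) a'' ha'').1)
    (by positivity) ha'
  exact int_TT hG hα1 hα2 0 a' k0 k1 k2 (by positivity) (by positivity)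
    (arith0 h0 hδ0 hδ hε.le hd (norm_nonneg _) hlam)

theorem mean_T1 (hG : SM (Gp U)) {m : ℕ} {C₁ C₂ : ℝ} (h1 : 0 ≤ C₁) (h2 : 0 ≤ C₂) (hC₁ : RegAt m C₁)
    (hC₂ : RegAt (m + 1) C₂) (hU : Pot δ U)
    (hδ : δ ≤ 1 / 2) (hε : 0 < ε) (hα1 : |α.1| ≤ ε) (hα2 : |α.2| ≤ ε) (hlam : |lam| * δ ≤ ε)
    (a' : ℝ × ℝ) (ha' : a' ∈ OO) :
    ∫⁻ ζ, ‖TT U α lam (m + 1) (a', ζ)‖ₑ ∂(nu U a') ≤
      ENNReal.ofReal ((C₁ + 2 * C₂) * ε ^ (m + 2) * (√d + ‖GF U 1 0‖)) := by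
  have hδ0 := hU.pos.le
  have hd : 0 ≤ √(d : ℝ) := Real.sqrt_nonneg _
  obtain ⟨k0, -, -⟩ := hC₁ d δ U hU hδ α lam ε hε hα1 hα2 hlam a' ha'
  obtain ⟨-, k1, k2⟩ := hC₂ d δ U hU hδ α lam ε hε hα1 hα2 hlam a' ha'
  exact int_TT hG hα1 hα2 (m + 1) a' k0 k1 k2 (by positivity) (by positivity)
    (arith1 m h1 h2 hδ0 hδ hε.le hd (norm_nonneg _) hlam)

end

section flow
variable {U : E d → ℝ} {a α : ℝ × ℝ} {lam : ℝ} {φ : ℝ → E d × E d → E d × E d}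
  {m : ℕ} {w : Fin (m + 1) → ℝ} {q : Fin (m + 1) → Fin (m + 1) → ℝ} {c : ℝ}

theorem clause1 [IsProbabilityMeasure (nu U a)] (hQ : Quad m w q c) (hφ : IsFlow U a α lam φ)
    (ha : a ∈ OO) (hb : a + α ∈ OO) (hG : SM (Gp U)) {f : Ph d → E d} (hf : SM f) {e : ℝ}
    (he : ∀ a' ∈ OO, ∫⁻ ζ, ‖(Lie (WF U α lam))^[m + 1] f (a', ζ)‖ₑ ∂(nu U a') ≤ ENNReal.ofReal e) :
    ∫⁻ ζ, ‖∑ k, w k • f (a + ((k : ℕ) / (m : ℝ)) • α, φ ((k : ℕ) / (m : ℝ)) ζ) -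
        Lie (WF U α lam) f (a, ζ)‖ₑ ∂(nu U a) ≤ ENNReal.ofReal (c * e) ∧
      ∀ k : Fin (m + 1),
        ∫⁻ ζ, ‖∑ l, q k l • f (a + ((l : ℕ) / (m : ℝ)) • α, φ ((l : ℕ) / (m : ℝ)) ζ) -
          ∫ τ in (0 : ℝ)..((k : ℕ) / (m : ℝ)), f (a + τ • α, φ τ ζ)‖ₑ ∂(nu U a) ≤
          ENNReal.ofReal (c * e) := by
  have hc : 0 ≤ c := zero_le_one.trans hQ.one
  have hI := int_path hφ ha hb (H := fun p => ‖(Lie (WF U α lam))^[m + 1] f p‖ₑ)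
    ((sm_WF hG α lam).iter hf (m + 1)).me.enorm he
  have hE := fun ζ => hQ.est (E d) (fun j s => (Lie (WF U α lam))^[j] f (a + s • α, φ s ζ))
    fun j τ hτ => chain hφ ha hb hG hf ζ j hτ
  have key : ∀ F : E d × E d → ℝ≥0∞, (∀ ζ, F ζ ≤ ENNReal.ofReal c * ∫⁻ τ in Icc (0 : ℝ) 1,
      ‖(Lie (WF U α lam))^[m + 1] f (a + τ • α, φ τ ζ)‖ₑ) →
      ∫⁻ ζ, F ζ ∂(nu U a) ≤ ENNReal.ofReal (c * e) := by
    intro F hF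
    refine (lintegral_mono hF).trans ?_
    rw [lintegral_const_mul' _ _ ENNReal.ofReal_ne_top, ENNReal.ofReal_mul hc]
    exact mul_le_mul_right hI _
  refine ⟨key _ fun ζ => ?_, fun k => key _ fun ζ => ?_⟩
  · have := (hE ζ).1
    simp only [Function.iterate_zero, id_eq, Function.iterate_one, zero_smul, add_zero,
      hφ.init] at this
    exact this
  · have := (hE ζ).2 k
    simp only [Function.iterate_zero, id_eq] at this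
    exact this

theorem pathwise (hm : 0 < m) (hQ : Quad m w q c) (hφ : IsFlow U a α lam φ)
    (ha : a ∈ OO) (hb : a + α ∈ OO) (hG : SM (Gp U)) (Wt : Fin (m + 1) → LE × LE) {Λ r : ℝ}
    (hΛ : 0 ≤ Λ) (hLip : ∀ l ζ ζ', ‖valP U (Wt l) ζ - valP U (Wt l) ζ'‖ ≤ Λ * ‖ζ - ζ'‖)
    (hr : ((m + 1 : ℕ) : ℝ) * c * Λ ≤ r) (hr2 : r ≤ 1 / 2) (i : ℕ) (ζ : E d × E d) :
    ∑ k, ‖ζ + valP U (pic q Wt i k) ζ - φ ((k : ℕ) / (m : ℝ)) ζ‖ₑ ≤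
      ENNReal.ofReal (r ^ i * ((m + 1 : ℕ) : ℝ)) *
        (∫⁻ τ in Icc (0 : ℝ) 1, ‖TT U α lam 0 (a + τ • α, φ τ ζ)‖ₑ) +
      (ENNReal.ofReal (2 * (((m + 1 : ℕ) : ℝ) * c)) * ∑ l : Fin (m + 1),
        ‖valP U (Wt l) (φ ((l : ℕ) / (m : ℝ)) ζ) -
          (WF U α lam (a + ((l : ℕ) / (m : ℝ)) • α, φ ((l : ℕ) / (m : ℝ)) ζ)).2‖ₑ +
      ENNReal.ofReal (2 * (((m + 1 : ℕ) : ℝ) * c)) *
        ∫⁻ τ in Icc (0 : ℝ) 1, ‖TT U α lam (m + 1) (a + τ • α, φ τ ζ)‖ₑ) := by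
  have hc : 0 ≤ c := zero_le_one.trans hQ.one
  have hq : ∀ k l, |q k l| ≤ c := fun k l =>
    (Finset.single_le_sum (f := fun l => |q k l|) (fun _ _ => abs_nonneg _)
      (Finset.mem_univ l)).trans (hQ.abs_q k)
  have hE := (hQ.est (E d × E d) (fun j s => TT U α lam j (a + s • α, φ s ζ))
    fun j τ hτ => chain_TT hφ ha hb hG ζ j hτ).2
  refine recurE q hq hc hΛ hr hr2 (fun l => valP U (Wt l)) hLip
    ζ (fun k => φ ((k : ℕ) / (m : ℝ)) ζ)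
    (fun l => (WF U α lam (a + ((l : ℕ) / (m : ℝ)) • α, φ ((l : ℕ) / (m : ℝ)) ζ)).2)
    (fun i k => ζ + valP U (pic q Wt i k) ζ) (fun k => by simp [pic, valP, LE.val])
    (fun i k => by rw [valP_pic_succ]) i
    (fun k => (ftc_flow hφ ha hb hG ζ (node_mem k hm)).2) fun k => ?_
  have := hE k
  rw [(ftc_flow hφ ha hb hG ζ (node_mem k hm)).1] at this
  simp only [TT_zero] at this
  exact this

theorem meas_err (hG : SM (Gp U)) (e : LE × LE) :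
    Measurable fun p : Ph d => ‖valP U e p.2 - (WF U α lam p).2‖ₑ :=
  (((measurable_valP hG.me e).comp measurable_snd).sub (sm_WF hG α lam).me.snd).enorm

theorem meas_err' (hφ : IsFlow U a α lam φ) (hG : SM (Gp U)) (e : LE × LE) (τ : ℝ) :
    Measurable fun ζ : E d × E d =>
      ‖valP U e (φ τ ζ) - (WF U α lam (a + τ • α, φ τ ζ)).2‖ₑ := by
  have h1 : Measurable fun ζ : E d × E d => ((a + τ • α, φ τ ζ) : Ph d) :=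
    measurable_const.prodMk (meas_at hφ τ)
  exact (((measurable_valP hG.me e).comp (meas_at hφ τ)).sub
    ((sm_WF hG α lam).me.comp h1).snd).enorm

theorem int_err (hφ : IsFlow U a α lam φ) (hG : SM (Gp U)) (e : LE × LE) {τ : ℝ}
    (hτ : τ ∈ Icc (0 : ℝ) 1) :
    ∫⁻ ζ, ‖valP U e (φ τ ζ) - (WF U α lam (a + τ • α, φ τ ζ)).2‖ₑ ∂(nu U a) =
      ∫⁻ ζ, ‖valP U e ζ - (WF U α lam (a + τ • α, ζ)).2‖ₑ ∂(nu U (a + τ • α)) :=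
  int_pt hφ (H := fun p : Ph d => ‖valP U e p.2 - (WF U α lam p).2‖ₑ) (meas_err hG e) hτ

theorem clause2 [IsProbabilityMeasure (nu U a)] (hm : 0 < m) (hQ : Quad m w q c)
    (hφ : IsFlow U a α lam φ) (ha : a ∈ OO) (hb : a + α ∈ OO) (hG : SM (Gp U))
    (Wt : Fin (m + 1) → LE × LE) {Λ r b₀ b₁ e₁ K : ℝ} (hb₀ : 0 ≤ b₀) (hb₁ : 0 ≤ b₁) (he₁ : 0 ≤ e₁)
    (hT0 : ∀ a' ∈ OO, ∫⁻ ζ, ‖TT U α lam 0 (a', ζ)‖ₑ ∂(nu U a') ≤ ENNReal.ofReal b₀)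
    (hT1 : ∀ a' ∈ OO, ∫⁻ ζ, ‖TT U α lam (m + 1) (a', ζ)‖ₑ ∂(nu U a') ≤ ENNReal.ofReal b₁)
    (hWt : ∀ l : Fin (m + 1), ∫⁻ ζ, ‖valP U (Wt l) ζ -
      (WF U α lam (a + ((l : ℕ) / (m : ℝ)) • α, ζ)).2‖ₑ
        ∂(nu U (a + ((l : ℕ) / (m : ℝ)) • α)) ≤ ENNReal.ofReal e₁)
    (hΛ : 0 ≤ Λ) (hLip : ∀ l ζ ζ', ‖valP U (Wt l) ζ - valP U (Wt l) ζ'‖ ≤ Λ * ‖ζ - ζ'‖)
    (hr : ((m + 1 : ℕ) : ℝ) * c * Λ ≤ r) (hr2 : r ≤ 1 / 2) (i : ℕ)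
    (hK : r ^ i * ((m + 1 : ℕ) : ℝ) * b₀ + (2 * (((m + 1 : ℕ) : ℝ) * c) * (((m + 1 : ℕ) : ℝ) * e₁) +
      2 * (((m + 1 : ℕ) : ℝ) * c) * b₁) ≤ K) :
    ∫⁻ ζ, ∑ k, ‖ζ + valP U (pic q Wt i k) ζ - φ ((k : ℕ) / (m : ℝ)) ζ‖ₑ ∂(nu U a) ≤
      ENNReal.ofReal K := by
  have hc : 0 ≤ c := zero_le_one.trans hQ.one
  have hr0 : 0 ≤ r := le_trans (by positivity) hr
  have mT : ∀ j, Measurable fun p : Ph d => ‖TT U α lam j p‖ₑ :=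
    fun j => (measurable_TT hG α lam j).enorm
  have f0 := int_path hφ ha hb (mT 0) hT0
  have f1 := int_path hφ ha hb (mT (m + 1)) hT1
  have m0 := meas_path hφ (mT 0)
  have hp := pathwise hm hQ hφ ha hb hG Wt hΛ hLip hr hr2 i
  have k0 : 0 ≤ r ^ i * ((m + 1 : ℕ) : ℝ) := by positivity
  have k1 : 0 ≤ 2 * (((m + 1 : ℕ) : ℝ) * c) := by positivity
  exact integ (nu U a) (n := m + 1)
    (J := fun (l : Fin (m + 1)) ζ => ‖valP U (Wt l) (φ ((l : ℕ) / (m : ℝ)) ζ) -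
      (WF U α lam (a + ((l : ℕ) / (m : ℝ)) • α, φ ((l : ℕ) / (m : ℝ)) ζ)).2‖ₑ)
    k0 k1 hb₀ hb₁ he₁ m0 (fun l => meas_err' hφ hG (Wt l) _) hp f0 f1
    (fun l => (int_err hφ hG (Wt l) (node_mem l hm)).trans_le (hWt l)) hK

end flow

end Pic

open Pic in
theorem picStmt (hF : StmtFlow) (hR : StmtReg) : StmtPic := by
  intro m w q c hm hQ
  obtain ⟨C₀, p₀, hC₀⟩ := regAt hR 0
  obtain ⟨C₁, p₁, hC₁⟩ := regAt hR m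
  obtain ⟨C₂, p₂, hC₂⟩ := regAt hR (m + 1)
  have hc : 0 ≤ c := zero_le_one.trans hQ.one
  have hn : (1 : ℝ) ≤ ((m + 1 : ℕ) : ℝ) := by exact_mod_cast Nat.succ_le_succ (Nat.zero_le m)
  have hn0 : (0 : ℝ) ≤ ((m + 1 : ℕ) : ℝ) := Nat.cast_nonneg _
  refine ⟨((m + 1 : ℕ) : ℝ) * (1 + 3 * C₀) + 2 * (((m + 1 : ℕ) : ℝ) * c * ((m + 1 : ℕ) : ℝ)) +
    2 * (((m + 1 : ℕ) : ℝ) * c * (C₁ + 2 * C₂)), ?_, ?_⟩
  · have h1 : (1 : ℝ) ≤ ((m + 1 : ℕ) : ℝ) * (1 + 3 * C₀) :=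
      one_le_mul_of_one_le_of_one_le hn (by linarith)
    have h2 : 0 ≤ 2 * (((m + 1 : ℕ) : ℝ) * c * ((m + 1 : ℕ) : ℝ)) := by positivity
    have h3 : 0 ≤ 2 * (((m + 1 : ℕ) : ℝ) * c * (C₁ + 2 * C₂)) := by positivity
    linarith
  intro d δ U hU hδ a α lam φ ha hb hφ
  obtain ⟨h1, h2, h3, -, -⟩ := hF d δ U hU hδ
  have hG : SM (Gp U) := ⟨h1, h2⟩
  have := h3 a
  refine ⟨fun f hf hfm e he => clause1 hQ hφ ha hb hG ⟨hf, hfm⟩ he, ?_⟩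
  intro Wt ε e₁ Λ r hε hε1 hα1 hα2 hlam he₁ hΛ hWt hLip hr hr2 i
  have hd : 0 ≤ √(d : ℝ) + ‖GF U 1 0‖ := by positivity
  have hr0 : 0 ≤ r := le_trans (by positivity) hr
  have hr' : ((m + 1 : ℕ) : ℝ) * c * Λ ≤ r := by push_cast; exact hr
  have q0 : 0 ≤ 1 + 3 * C₀ := by positivity
  have q1 : 0 ≤ C₁ + 2 * C₂ := by positivity
  have q2 : 0 ≤ ε ^ (m + 2) := by positivity
  exact clause2 hm hQ hφ ha hb hG Wt (mul_nonneg (mul_nonneg q0 hε.le) hd)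
    (mul_nonneg (mul_nonneg q1 q2) hd) he₁ (mean_T0 hF p₀ hC₀ hU hδ hε hα1 hα2 hlam)
    (mean_T1 hG p₁ p₂ hC₁ hC₂ hU hδ hε hα1 hα2 hlam) hWt hΛ hLip hr' hr2 i
    (final_arith hn0 hc q0 q1 hε.le he₁ hd (pow_nonneg hr0 i) q2)

end Crest.Agent.R285
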