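import Crest.Agent.R285.DefsL

/-! # Row 285: calculus along the flows (auxiliary file for `Pic`) -/

set_option autoImplicit false

open MeasureTheory ProbabilityTheory Set
open scoped ENNReal NNReal ContDiff RealInnerProductSpace
open Crest.OracleSampling

noncomputable section

namespace Crest.Agent.R285
namespace Pic

variable {d : ℕ}

theorem isOpen_OO : IsOpen OO :=
  isOpen_lt (by fun_prop) continuous_const

theorem isOpen_S : IsOpen {p : Ph d | p.1 ∈ OO} := isOpen_OO.preimage continuous_fst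

theorem zero_mem_OO : (0 : ℝ × ℝ) ∈ OO := by simp [OO]

theorem mem_OO {a α : ℝ × ℝ} (ha : a ∈ OO) (hb : a + α ∈ OO) {τ : ℝ} (hτ : τ ∈ Icc (0 : ℝ) 1) :
    a + τ • α ∈ OO := by
  simp only [OO, mem_ofPred_eq, Prod.fst_add, Prod.snd_add, Prod.smul_fst, Prod.smul_snd,
    smul_eq_mul] at *
  obtain ⟨h0, h1⟩ := hτ
  have e : (a.1 + τ * α.1) ^ 2 + (a.2 + τ * α.2) ^ 2 =
      (1 - τ) * (a.1 ^ 2 + a.2 ^ 2) + τ * ((a.1 + α.1) ^ 2 + (a.2 + α.2) ^ 2) -
        τ * (1 - τ) * (α.1 ^ 2 + α.2 ^ 2) := by ring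
  have h2 : 0 ≤ τ * (1 - τ) * (α.1 ^ 2 + α.2 ^ 2) :=
    mul_nonneg (mul_nonneg h0 (by linarith)) (by positivity)
  rcases h0.eq_or_lt with rfl | h0'
  · simpa using ha
  · have h3 : (1 - τ) * (a.1 ^ 2 + a.2 ^ 2) ≤ (1 - τ) * (1 / 2) :=
      mul_le_mul_of_nonneg_left ha.le (by linarith)
    have h4 : τ * ((a.1 + α.1) ^ 2 + (a.2 + α.2) ^ 2) < τ * (1 / 2) :=
      mul_lt_mul_of_pos_left hb h0'
    rw [e]; linarith

theorem abs_le_of_OO {a : ℝ × ℝ} (ha : a ∈ OO) : |a.1| ≤ 1 ∧ |a.2| ≤ 1 := by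
  have h : a.1 ^ 2 + a.2 ^ 2 < 1 / 2 := ha
  constructor <;> rw [← sq_le_one_iff_abs_le_one] <;> nlinarith [sq_nonneg a.1, sq_nonneg a.2]

/-- smooth on the phase domain and measurable -/
structure SM {Y : Type} [NormedAddCommGroup Y] [NormedSpace ℝ Y] [MeasurableSpace Y]
    (f : Ph d → Y) : Prop where
  sm : ContDiffOn ℝ ∞ f {p | p.1 ∈ OO}
  me : Measurable f

theorem SM.lie {W : Ph d → Ph d} {f : Ph d → E d} (hW : SM W) (hf : SM f) : SM (Lie W f) := by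
  refine ⟨(hf.sm.fderiv_of_isOpen isOpen_S (by simp)).clm_apply hW.sm, ?_⟩
  have h1 : Continuous fun x : (Ph d →L[ℝ] E d) × Ph d => x.1 x.2 :=
    isBoundedBilinearMap_apply.continuous
  exact h1.measurable.comp ((measurable_fderiv ℝ f).prodMk hW.me)

theorem SM.iter {W : Ph d → Ph d} {f : Ph d → E d} (hW : SM W) (hf : SM f) (j : ℕ) :
    SM ((Lie W)^[j] f) := by
  induction j with
  | zero => exact hf
  | succ j ih => rw [Function.iterate_succ_apply']; exact hW.lie ih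

theorem sm_V1 {U : E d → ℝ} (hG : SM (Gp U)) : SM (V1 U) :=
  ⟨contDiffOn_const.prodMk (hG.sm.neg.prodMk contDiffOn_const),
    measurable_const.prodMk (hG.me.neg.prodMk measurable_const)⟩

theorem sm_V2 {U : E d → ℝ} (hG : SM (Gp U)) : SM (V2 U) :=
  ⟨contDiffOn_const.prodMk (contDiffOn_const.prodMk hG.sm.neg),
    measurable_const.prodMk (measurable_const.prodMk hG.me.neg)⟩

theorem sm_VB {U : E d → ℝ} (hG : SM (Gp U)) : SM (VB U) :=
  ⟨contDiffOn_const.prodMk (((sm_V2 hG).lie hG).sm.neg.prodMk ((sm_V1 hG).lie hG).sm),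
    measurable_const.prodMk (((sm_V2 hG).lie hG).me.neg.prodMk ((sm_V1 hG).lie hG).me)⟩

theorem sm_WF {U : E d → ℝ} (hG : SM (Gp U)) (α : ℝ × ℝ) (lam : ℝ) : SM (WF U α lam) :=
  ⟨(((sm_V1 hG).sm.const_smul α.1).add ((sm_V2 hG).sm.const_smul α.2)).add
      ((sm_VB hG).sm.const_smul lam),
    (((sm_V1 hG).me.const_smul α.1).add ((sm_V2 hG).me.const_smul α.2)).add
      ((sm_VB hG).me.const_smul lam)⟩

theorem measurable_val {U : E d → ℝ} (hG : Measurable (Gp U)) (e : LE) : Measurable (e.val U) := by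
  induction e with
  | nil => exact measurable_const
  | cons k a1 a2 ey ez rest ihy ihz ih =>
    exact ((hG.comp (measurable_const.prodMk
      ((measurable_fst.add ihy).prodMk (measurable_snd.add ihz)))).const_smul k).add ih

theorem measurable_valP {U : E d → ℝ} (hG : Measurable (Gp U)) (e : LE × LE) :
    Measurable (valP U e) := (measurable_val hG e.1).prodMk (measurable_val hG e.2)

/-- fundamental theorem of calculus on `[0,1]` -/
theorem ftc {H : Type} [NormedAddCommGroup H] [NormedSpace ℝ H] [CompleteSpace H] {g g' : ℝ → H}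
    (h : ∀ τ ∈ Icc (0 : ℝ) 1, HasDerivWithinAt g (g' τ) (Icc (0 : ℝ) 1) τ)
    (hc : ContinuousOn g' (Icc (0 : ℝ) 1)) {t : ℝ} (ht : t ∈ Icc (0 : ℝ) 1) :
    ∫ τ in (0 : ℝ)..t, g' τ = g t - g 0 ∧ ‖g t - g 0‖ₑ ≤ ∫⁻ τ in Icc (0 : ℝ) 1, ‖g' τ‖ₑ := by
  have hsub : Icc (0 : ℝ) t ⊆ Icc 0 1 := Icc_subset_Icc_right ht.2
  have h1 : ∫ τ in (0 : ℝ)..t, g' τ = g t - g 0 := by
    refine intervalIntegral.integral_eq_sub_of_hasDerivAt_of_le ht.1
      (fun x hx => (h x (hsub hx)).continuousWithinAt.mono hsub) (fun x hx => ?_) ?_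
    · exact (h x (hsub (Ioo_subset_Icc_self hx))).hasDerivAt
        (Icc_mem_nhds hx.1 (hx.2.trans_le ht.2))
    · exact (hc.mono (by rw [uIcc_of_le ht.1]; exact hsub)).intervalIntegrable
  refine ⟨h1, ?_⟩
  rw [← h1, intervalIntegral.integral_of_le ht.1]
  exact (enorm_integral_le_lintegral_enorm _).trans
    (lintegral_mono_set (Ioc_subset_Icc_self.trans hsub))

section flow
variable {U : E d → ℝ} {a α : ℝ × ℝ} {lam : ℝ} {φ : ℝ → E d × E d → E d × E d}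

theorem meas_at (hφ : IsFlow U a α lam φ) (τ : ℝ) : Measurable (φ τ) :=
  hφ.meas.comp (measurable_const.prodMk measurable_id)

theorem int_pt (hφ : IsFlow U a α lam φ) {H : Ph d → ℝ≥0∞} (hH : Measurable H) {τ : ℝ}
    (hτ : τ ∈ Icc (0 : ℝ) 1) :
    ∫⁻ ζ, H (a + τ • α, φ τ ζ) ∂(nu U a) = ∫⁻ ζ, H (a + τ • α, ζ) ∂(nu U (a + τ • α)) := by
  rw [← hφ.law τ hτ]
  exact (lintegral_map (f := fun ζ => H (a + τ • α, ζ))
    (hH.comp (measurable_const.prodMk measurable_id)) (meas_at hφ τ)).symm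

theorem meas_joint (hφ : IsFlow U a α lam φ) {H : Ph d → ℝ≥0∞} (hH : Measurable H) :
    Measurable fun x : (E d × E d) × ℝ => H (a + x.2 • α, φ x.2 x.1) :=
  hH.comp ((measurable_const.add (measurable_snd.smul measurable_const)).prodMk
    (hφ.meas.comp (measurable_snd.prodMk measurable_fst)))

theorem meas_path (hφ : IsFlow U a α lam φ) {H : Ph d → ℝ≥0∞} (hH : Measurable H) :
    Measurable fun ζ : E d × E d => ∫⁻ τ in Icc (0 : ℝ) 1, H (a + τ • α, φ τ ζ) :=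
  (meas_joint hφ hH).lintegral_prod_right'

theorem int_path [IsProbabilityMeasure (nu U a)] (hφ : IsFlow U a α lam φ) (ha : a ∈ OO)
    (hb : a + α ∈ OO) {H : Ph d → ℝ≥0∞} (hH : Measurable H) {B : ℝ≥0∞}
    (hB : ∀ a' ∈ OO, ∫⁻ ζ, H (a', ζ) ∂(nu U a') ≤ B) :
    ∫⁻ ζ, (∫⁻ τ in Icc (0 : ℝ) 1, H (a + τ • α, φ τ ζ)) ∂(nu U a) ≤ B := by
  rw [lintegral_lintegral_swap (meas_joint hφ hH).aemeasurable]
  calc ∫⁻ τ in Icc (0 : ℝ) 1, ∫⁻ ζ, H (a + τ • α, φ τ ζ) ∂(nu U a)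
      ≤ ∫⁻ _ in Icc (0 : ℝ) 1, B := by
        refine setLIntegral_mono' measurableSet_Icc fun τ hτ => ?_
        rw [int_pt hφ hH hτ]
        exact hB _ (mem_OO ha hb hτ)
    _ = B := by simp

theorem chain (hφ : IsFlow U a α lam φ) (ha : a ∈ OO) (hb : a + α ∈ OO) (hG : SM (Gp U))
    {f : Ph d → E d} (hf : SM f) (ζ : E d × E d) (j : ℕ) {τ : ℝ} (hτ : τ ∈ Icc (0 : ℝ) 1) :
    HasDerivWithinAt (fun s => (Lie (WF U α lam))^[j] f (a + s • α, φ s ζ))
      ((Lie (WF U α lam))^[j + 1] f (a + τ • α, φ τ ζ)) (Icc (0 : ℝ) 1) τ := by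
  rw [Function.iterate_succ_apply']
  have h1 : DifferentiableAt ℝ ((Lie (WF U α lam))^[j] f) (a + τ • α, φ τ ζ) :=
    (((sm_WF hG α lam).iter hf j).sm.contDiffAt
      (isOpen_S.mem_nhds (mem_OO ha hb hτ))).differentiableAt (by simp)
  exact h1.hasFDerivAt.comp_hasDerivWithinAt τ (hφ.ode ζ τ hτ)

end flow

end Pic
end Crest.Agent.R285
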