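import Crest.Agent.R285.PicAux

/-! # Row 285: auxiliary estimates for the Picard collocation -/

set_option autoImplicit false
set_option maxHeartbeats 400000

open MeasureTheory ProbabilityTheory Set
open scoped ENNReal NNReal ContDiff RealInnerProductSpace
open Crest.OracleSampling

noncomputable section

namespace Crest.Agent.R285
namespace Pic

variable {d : ℕ}

/-- the derivatives of the space part of the field along the flow -/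
def TT (U : E d → ℝ) (α : ℝ × ℝ) (lam : ℝ) (j : ℕ) (p : Ph d) : E d × E d :=
  (-α.1 • (Lie (WF U α lam))^[j] (Gp U) p - lam • (Lie (WF U α lam))^[j] (Lie (V2 U) (Gp U)) p,
   -α.2 • (Lie (WF U α lam))^[j] (Gp U) p + lam • (Lie (WF U α lam))^[j] (Lie (V1 U) (Gp U)) p)

theorem TT_zero (U : E d → ℝ) (α : ℝ × ℝ) (lam : ℝ) (p : Ph d) :
    TT U α lam 0 p = (WF U α lam p).2 := by
  simp [TT, WF, V1, V2, VB, sub_eq_add_neg]

theorem measurable_TT {U : E d → ℝ} (hG : SM (Gp U)) (α : ℝ × ℝ) (lam : ℝ) (j : ℕ) :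
    Measurable (TT U α lam j) := by
  have hW := sm_WF hG α lam
  have h0 := (hW.iter hG j).me
  have h1 := (hW.iter ((sm_V1 hG).lie hG) j).me
  have h2 := (hW.iter ((sm_V2 hG).lie hG) j).me
  exact ((h0.const_smul (-α.1)).sub (h2.const_smul lam)).prodMk
    ((h0.const_smul (-α.2)).add (h1.const_smul lam))

theorem enorm_TT_le (U : E d → ℝ) {α : ℝ × ℝ} (lam : ℝ) {ε : ℝ} (h1 : |α.1| ≤ ε) (h2 : |α.2| ≤ ε)
    (j : ℕ) (p : Ph d) :
    ‖TT U α lam j p‖ₑ ≤ ENNReal.ofReal ε * ‖(Lie (WF U α lam))^[j] (Gp U) p‖ₑ +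
      (ENNReal.ofReal |lam| * ‖(Lie (WF U α lam))^[j] (Lie (V1 U) (Gp U)) p‖ₑ +
       ENNReal.ofReal |lam| * ‖(Lie (WF U α lam))^[j] (Lie (V2 U) (Gp U)) p‖ₑ) := by
  have hε : 0 ≤ ε := (abs_nonneg _).trans h1
  unfold TT
  generalize (Lie (WF U α lam))^[j] (Gp U) p = x
  generalize (Lie (WF U α lam))^[j] (Lie (V1 U) (Gp U)) p = y
  generalize (Lie (WF U α lam))^[j] (Lie (V2 U) (Gp U)) p = z
  rw [← ofReal_norm, ← ofReal_norm, ← ofReal_norm, ← ofReal_norm,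
    ← ENNReal.ofReal_mul hε, ← ENNReal.ofReal_mul (abs_nonneg _),
    ← ENNReal.ofReal_mul (abs_nonneg _), ← ENNReal.ofReal_add (by positivity) (by positivity),
    ← ENNReal.ofReal_add (by positivity) (by positivity)]
  refine ENNReal.ofReal_le_ofReal ?_
  have e1 : |α.1| * ‖x‖ ≤ ε * ‖x‖ := mul_le_mul_of_nonneg_right h1 (norm_nonneg _)
  have e2 : |α.2| * ‖x‖ ≤ ε * ‖x‖ := mul_le_mul_of_nonneg_right h2 (norm_nonneg _)
  have e3 : 0 ≤ |lam| * ‖y‖ := by positivity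
  have e4 : 0 ≤ |lam| * ‖z‖ := by positivity
  rw [Prod.norm_mk]
  refine max_le ((norm_sub_le _ _).trans ?_) ((norm_add_le _ _).trans ?_) <;>
    simp only [norm_smul, norm_neg, Real.norm_eq_abs] <;> linarith

theorem int_TT {U : E d → ℝ} (hG : SM (Gp U)) {α : ℝ × ℝ} {lam ε : ℝ} (h1 : |α.1| ≤ ε)
    (h2 : |α.2| ≤ ε) (j : ℕ) (a' : ℝ × ℝ) {A B : ℝ}
    (hA : ∫⁻ ζ, ‖(Lie (WF U α lam))^[j] (Gp U) (a', ζ)‖ₑ ∂(nu U a') ≤ ENNReal.ofReal A)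
    (hB1 : ∫⁻ ζ, ‖(Lie (WF U α lam))^[j] (Lie (V1 U) (Gp U)) (a', ζ)‖ₑ ∂(nu U a') ≤
      ENNReal.ofReal B)
    (hB2 : ∫⁻ ζ, ‖(Lie (WF U α lam))^[j] (Lie (V2 U) (Gp U)) (a', ζ)‖ₑ ∂(nu U a') ≤
      ENNReal.ofReal B) {K : ℝ} (hA0 : 0 ≤ A) (hB0 : 0 ≤ B) (hK : ε * A + 2 * (|lam| * B) ≤ K) :
    ∫⁻ ζ, ‖TT U α lam j (a', ζ)‖ₑ ∂(nu U a') ≤ ENNReal.ofReal K := by
  have hε : 0 ≤ ε := (abs_nonneg _).trans h1
  have hW := sm_WF hG α lam
  have hs : Measurable fun ζ : E d × E d => ((a', ζ) : Ph d) :=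
    measurable_const.prodMk measurable_id
  have m0 := ((hW.iter hG j).me.comp hs).enorm
  have m1 := ((hW.iter ((sm_V1 hG).lie hG) j).me.comp hs).enorm
  simp only [Function.comp_apply] at m0 m1
  refine (lintegral_mono fun ζ => enorm_TT_le U lam h1 h2 j (a', ζ)).trans ?_
  rw [lintegral_add_left (m0.const_mul _), lintegral_add_left (m1.const_mul _),
    lintegral_const_mul' _ _ ENNReal.ofReal_ne_top, lintegral_const_mul' _ _ ENNReal.ofReal_ne_top,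
    lintegral_const_mul' _ _ ENNReal.ofReal_ne_top]
  calc _ ≤ ENNReal.ofReal ε * ENNReal.ofReal A + (ENNReal.ofReal |lam| * ENNReal.ofReal B +
        ENNReal.ofReal |lam| * ENNReal.ofReal B) := by gcongr
    _ ≤ _ := by
      rw [← ENNReal.ofReal_mul hε, ← ENNReal.ofReal_mul (abs_nonneg _),
        ← ENNReal.ofReal_add (by positivity) (by positivity),
        ← ENNReal.ofReal_add (by positivity) (by positivity)]
      exact ENNReal.ofReal_le_ofReal (by linarith)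

section flow
variable {U : E d → ℝ} {a α : ℝ × ℝ} {lam : ℝ} {φ : ℝ → E d × E d → E d × E d}

theorem chain_TT (hφ : IsFlow U a α lam φ) (ha : a ∈ OO) (hb : a + α ∈ OO) (hG : SM (Gp U))
    (ζ : E d × E d) (j : ℕ) {τ : ℝ} (hτ : τ ∈ Icc (0 : ℝ) 1) :
    HasDerivWithinAt (fun s => TT U α lam j (a + s • α, φ s ζ))
      (TT U α lam (j + 1) (a + τ • α, φ τ ζ)) (Icc (0 : ℝ) 1) τ := by
  have h0 := chain hφ ha hb hG hG ζ j hτ
  have h1 := chain hφ ha hb hG ((sm_V1 hG).lie hG) ζ j hτ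
  have h2 := chain hφ ha hb hG ((sm_V2 hG).lie hG) ζ j hτ
  exact ((h0.const_smul (-α.1)).sub (h2.const_smul lam)).prodMk
    ((h0.const_smul (-α.2)).add (h1.const_smul lam))

theorem ftc_flow (hφ : IsFlow U a α lam φ) (ha : a ∈ OO) (hb : a + α ∈ OO) (hG : SM (Gp U))
    (ζ : E d × E d) {t : ℝ} (ht : t ∈ Icc (0 : ℝ) 1) :
    ∫ τ in (0 : ℝ)..t, TT U α lam 0 (a + τ • α, φ τ ζ) = φ t ζ - ζ ∧
      ‖φ t ζ - ζ‖ₑ ≤ ∫⁻ τ in Icc (0 : ℝ) 1, ‖TT U α lam 0 (a + τ • α, φ τ ζ)‖ₑ := by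
  have := ftc (g := fun s => φ s ζ) (g' := fun τ => TT U α lam 0 (a + τ • α, φ τ ζ))
    (fun τ hτ => by
      rw [TT_zero]
      exact (hφ.ode ζ τ hτ).snd)
    (fun τ hτ => (chain_TT hφ ha hb hG ζ 0 hτ).continuousWithinAt) ht
  simpa only [hφ.init] using this

end flow

/-- the mean size of `G` -/
theorem int_G (hF : StmtFlow) {C₀ δ : ℝ} {U : E d → ℝ} (hU : Pot δ U) (hδ : δ ≤ 1 / 2)
    (hC : ∀ (α : ℝ × ℝ), |α.1| ≤ 1 → |α.2| ≤ 1 → ∀ a ∈ OO,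
      ∫⁻ ζ, ‖(Lie (WF U α 0))^[0 + 1] (Gp U) (a, ζ)‖ₑ ∂(nu U a) ≤ ENNReal.ofReal C₀)
    (h0 : 0 ≤ C₀) {a : ℝ × ℝ} (ha : a ∈ OO) :
    ∫⁻ ζ, ‖Gp U (a, ζ)‖ₑ ∂(nu U a) ≤ ENNReal.ofReal (‖GF U 1 0‖ + C₀) := by
  obtain ⟨h1, h2, h3, -, h5⟩ := hF d δ U hU hδ
  have hG : SM (Gp U) := ⟨h1, h2⟩
  have hb : (0 : ℝ × ℝ) + a ∈ OO := by simpa using ha
  obtain ⟨ψ, hψ⟩ := h5 0 a 0 zero_mem_OO hb
  have := h3 0
  have e1 := int_pt hψ (H := fun p => ‖Gp U p‖ₑ) h2.enorm (τ := 1) ⟨zero_le_one, le_rfl⟩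
  have e2 : (0 : ℝ × ℝ) + (1 : ℝ) • a = a := by simp
  have hm := ((sm_WF hG a 0).iter hG (0 + 1)).me.enorm
  conv_rhs at e1 => rw [e2]
  rw [← e1, ENNReal.ofReal_add (norm_nonneg _) h0]
  calc _ ≤ ∫⁻ ζ, (ENNReal.ofReal ‖GF U 1 0‖ + ∫⁻ τ in Icc (0 : ℝ) 1,
        ‖(Lie (WF U a 0))^[0 + 1] (Gp U) (0 + τ • a, ψ τ ζ)‖ₑ) ∂(nu U 0) := by
        refine lintegral_mono fun ζ => ?_
        have e3 := (ftc (g := fun s => (Lie (WF U a 0))^[0] (Gp U) (0 + s • a, ψ s ζ))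
          (fun τ hτ => chain hψ zero_mem_OO hb hG hG ζ 0 hτ)
          (fun τ hτ => (chain hψ zero_mem_OO hb hG hG ζ (0 + 1) hτ).continuousWithinAt)
          (t := 1) ⟨zero_le_one, le_rfl⟩).2
        have e4 : Gp U (0 + (0 : ℝ) • a, ψ 0 ζ) = GF U 1 0 := by simp [Gp]
        simp only [Function.iterate_zero, id_eq, e4] at e3
        calc ‖Gp U (0 + (1 : ℝ) • a, ψ 1 ζ)‖ₑ
            = ‖GF U 1 0 + (Gp U (0 + (1 : ℝ) • a, ψ 1 ζ) - GF U 1 0)‖ₑ := by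
              rw [add_sub_cancel]
          _ ≤ ‖GF U 1 0‖ₑ + ‖Gp U (0 + (1 : ℝ) • a, ψ 1 ζ) - GF U 1 0‖ₑ := enorm_add_le _ _
          _ ≤ _ := by rw [ofReal_norm]; gcongr
    _ ≤ _ := by
        rw [lintegral_add_left measurable_const, lintegral_const, measure_univ, mul_one]
        gcongr
        exact int_path hψ zero_mem_OO hb hm fun a' ha' =>
          hC a (abs_le_of_OO ha).1 (abs_le_of_OO ha).2 a' ha'

theorem valP_pic_succ (U : E d → ℝ) {m : ℕ} (q : Fin (m + 1) → Fin (m + 1) → ℝ)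
    (Wt : Fin (m + 1) → LE × LE) (i : ℕ) (k : Fin (m + 1)) (ζ : E d × E d) :
    valP U (pic q Wt (i + 1) k) ζ = ∑ l, q k l • valP U (Wt l) (ζ + valP U (pic q Wt i l) ζ) := by
  refine Prod.ext ?_ ?_
  · simp only [valP, pic, LE.val_sumL, LE.val_smul, LE.val_subst, Prod.fst_sum, Prod.smul_fst]
    rfl
  · simp only [valP, pic, LE.val_sumL, LE.val_smul, LE.val_subst, Prod.snd_sum, Prod.smul_snd]
    rfl

/-- the pathwise recursion -/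
theorem recur {X : Type} [NormedAddCommGroup X] [NormedSpace ℝ X] {n : ℕ} (q : Fin n → Fin n → ℝ)
    {c Λ r : ℝ} (hq : ∀ k l, |q k l| ≤ c) (hc : 0 ≤ c) (hΛ : 0 ≤ Λ) (hr : n * c * Λ ≤ r)
    (hr2 : r ≤ 1 / 2) (V : Fin n → X → X) (hV : ∀ l x y, ‖V l x - V l y‖ ≤ Λ * ‖x - y‖)
    (ζ : X) (y t : Fin n → X) (x : ℕ → Fin n → X) (hx0 : ∀ k, x 0 k = ζ)
    (hx : ∀ i k, x (i + 1) k = ζ + ∑ l, q k l • V l (x i l)) (i : ℕ) :
    ∑ k, ‖x i k - y k‖ ≤ r ^ i * ∑ k, ‖y k - ζ‖ +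
      2 * (n * c * ∑ l, ‖V l (y l) - t l‖ + ∑ k, ‖∑ l, q k l • t l - (y k - ζ)‖) := by
  have hr0 : 0 ≤ r := le_trans (by positivity) hr
  set R := n * c * ∑ l, ‖V l (y l) - t l‖ + ∑ k, ‖∑ l, q k l • t l - (y k - ζ)‖ with hR
  have hR0 : 0 ≤ R := by positivity
  induction i with
  | zero =>
    simp only [hx0, pow_zero, one_mul]
    have : ∑ k, ‖ζ - y k‖ = ∑ k, ‖y k - ζ‖ := Finset.sum_congr rfl fun k _ => norm_sub_rev _ _
    linarith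
  | succ i ih =>
    have hk : ∀ k, ‖x (i + 1) k - y k‖ ≤ c * Λ * ∑ l, ‖x i l - y l‖ + c * ∑ l, ‖V l (y l) - t l‖ +
        ‖∑ l, q k l • t l - (y k - ζ)‖ := by
      intro k
      have e : x (i + 1) k - y k = ∑ l, q k l • (V l (x i l) - V l (y l)) +
          ∑ l, q k l • (V l (y l) - t l) + (∑ l, q k l • t l - (y k - ζ)) := by
        rw [hx]
        simp only [smul_sub, Finset.sum_sub_distrib]
        abel
      rw [e]
      refine (norm_add_le _ _).trans (add_le_add ((norm_add_le _ _).trans (add_le_add ?_ ?_)) le_rfl)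
      · rw [Finset.mul_sum]
        refine (norm_sum_le _ _).trans (Finset.sum_le_sum fun l _ => ?_)
        rw [norm_smul, Real.norm_eq_abs, mul_assoc]
        exact mul_le_mul (hq k l) (hV l _ _) (norm_nonneg _) hc
      · rw [Finset.mul_sum]
        refine (norm_sum_le _ _).trans (Finset.sum_le_sum fun l _ => ?_)
        rw [norm_smul, Real.norm_eq_abs]
        exact mul_le_mul_of_nonneg_right (hq k l) (norm_nonneg _)
    have h1 := Finset.sum_le_sum fun k (_ : k ∈ Finset.univ) => hk k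
    simp only [Finset.sum_add_distrib, Finset.sum_const, Finset.card_univ, Fintype.card_fin,
      nsmul_eq_mul] at h1
    have hD : 0 ≤ ∑ l, ‖x i l - y l‖ := by positivity
    have h2 : n * (c * Λ * ∑ l, ‖x i l - y l‖) ≤ r * ∑ l, ‖x i l - y l‖ := by
      rw [← mul_assoc, ← mul_assoc]
      exact mul_le_mul_of_nonneg_right hr hD
    have h3 := mul_le_mul_of_nonneg_left ih hr0
    have h4 : r * (2 * R) ≤ R := by nlinarith
    rw [pow_succ]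
    nlinarith

theorem node_mem {m : ℕ} (k : Fin (m + 1)) (hm : 0 < m) :
    ((k : ℕ) : ℝ) / (m : ℝ) ∈ Icc (0 : ℝ) 1 := by
  have h0 : (0 : ℝ) < m := by exact_mod_cast hm
  refine ⟨by positivity, (div_le_one h0).2 ?_⟩
  exact_mod_cast Nat.lt_succ_iff.1 k.2

/-- the pathwise recursion, extended-real form -/
theorem recurE {X : Type} [NormedAddCommGroup X] [NormedSpace ℝ X] {n : ℕ} (q : Fin n → Fin n → ℝ)
    {c Λ r : ℝ} (hq : ∀ k l, |q k l| ≤ c) (hc : 0 ≤ c) (hΛ : 0 ≤ Λ) (hr : n * c * Λ ≤ r)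
    (hr2 : r ≤ 1 / 2) (V : Fin n → X → X) (hV : ∀ l x y, ‖V l x - V l y‖ ≤ Λ * ‖x - y‖)
    (ζ : X) (y t : Fin n → X) (x : ℕ → Fin n → X) (hx0 : ∀ k, x 0 k = ζ)
    (hx : ∀ i k, x (i + 1) k = ζ + ∑ l, q k l • V l (x i l)) (i : ℕ) {I₀ I₁ : ℝ≥0∞}
    (h0 : ∀ k, ‖y k - ζ‖ₑ ≤ I₀)
    (h1 : ∀ k, ‖∑ l, q k l • t l - (y k - ζ)‖ₑ ≤ ENNReal.ofReal c * I₁) :
    ∑ k, ‖x i k - y k‖ₑ ≤ ENNReal.ofReal (r ^ i * n) * I₀ +
      (ENNReal.ofReal (2 * (n * c)) * ∑ l, ‖V l (y l) - t l‖ₑ +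
        ENNReal.ofReal (2 * (n * c)) * I₁) := by
  have hr0 : 0 ≤ r := le_trans (by positivity) hr
  have e1 := recur q hq hc hΛ hr hr2 V hV ζ y t x hx0 hx i
  have hs : ∀ f : Fin n → X, ENNReal.ofReal (∑ k, ‖f k‖) = ∑ k, ‖f k‖ₑ := by
    intro f
    rw [ENNReal.ofReal_sum_of_nonneg fun _ _ => norm_nonneg _]
    simp only [ofReal_norm]
  have hb : ∀ (f : Fin n → X) (J : ℝ≥0∞), (∀ k, ‖f k‖ₑ ≤ J) →
      ENNReal.ofReal (∑ k, ‖f k‖) ≤ ENNReal.ofReal n * J := by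
    intro f J hJ
    rw [hs, ENNReal.ofReal_natCast]
    refine (Finset.sum_le_sum fun k _ => hJ k).trans (le_of_eq ?_)
    rw [Finset.sum_const, Finset.card_univ, Fintype.card_fin, nsmul_eq_mul]
  have b0 := hb _ _ h0
  have b1 := hb _ _ h1
  rw [← hs, ← hs]
  have a0 : 0 ≤ ∑ k, ‖y k - ζ‖ := by positivity
  have a1 : 0 ≤ ∑ l, ‖V l (y l) - t l‖ := by positivity
  have a2 : 0 ≤ ∑ k, ‖∑ l, q k l • t l - (y k - ζ)‖ := by positivity
  generalize ∑ k, ‖y k - ζ‖ = A at *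
  generalize ∑ l, ‖V l (y l) - t l‖ = B at *
  generalize ∑ k, ‖∑ l, q k l • t l - (y k - ζ)‖ = D at *
  have p0 : 0 ≤ r ^ i := by positivity
  have p1 : 0 ≤ 2 * ((n : ℝ) * c) := by positivity
  have p2 : (0 : ℝ) ≤ n := by positivity
  calc ENNReal.ofReal (∑ k, ‖x i k - y k‖) ≤
        ENNReal.ofReal (r ^ i * A + (2 * (n * c) * B + 2 * D)) :=
        ENNReal.ofReal_le_ofReal (by linarith)
    _ = ENNReal.ofReal (r ^ i) * ENNReal.ofReal A + (ENNReal.ofReal (2 * (n * c)) *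
        ENNReal.ofReal B + ENNReal.ofReal 2 * ENNReal.ofReal D) := by
        rw [ENNReal.ofReal_add (by positivity) (by positivity),
          ENNReal.ofReal_add (by positivity) (by positivity), ENNReal.ofReal_mul p0,
          ENNReal.ofReal_mul p1, ENNReal.ofReal_mul zero_le_two (q := D)]
    _ ≤ ENNReal.ofReal (r ^ i) * (ENNReal.ofReal n * I₀) + (ENNReal.ofReal (2 * (n * c)) *
        ENNReal.ofReal B + ENNReal.ofReal 2 * (ENNReal.ofReal n * (ENNReal.ofReal c * I₁))) :=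
        add_le_add (mul_le_mul_right b0 _) (add_le_add le_rfl (mul_le_mul_right b1 _))
    _ = _ := by
        rw [ENNReal.ofReal_mul p0, ENNReal.ofReal_mul zero_le_two (q := n * c),
          ENNReal.ofReal_mul p2]
        simp only [mul_assoc]

/-- integration of the pathwise bound -/
theorem integ {Ω : Type} [MeasurableSpace Ω] (μ : Measure Ω) {n : ℕ} {F I₀ I₁ : Ω → ℝ≥0∞}
    {J : Fin n → Ω → ℝ≥0∞} {k₀ k₁ b₀ b₁ e K : ℝ} (hk₀ : 0 ≤ k₀) (hk₁ : 0 ≤ k₁) (hb₀ : 0 ≤ b₀)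
    (hb₁ : 0 ≤ b₁) (he : 0 ≤ e) (m0 : Measurable I₀) (mJ : ∀ l, Measurable (J l))
    (hF : ∀ ζ, F ζ ≤ ENNReal.ofReal k₀ * I₀ ζ +
      (ENNReal.ofReal k₁ * ∑ l, J l ζ + ENNReal.ofReal k₁ * I₁ ζ))
    (f0 : ∫⁻ ζ, I₀ ζ ∂μ ≤ ENNReal.ofReal b₀) (f1 : ∫⁻ ζ, I₁ ζ ∂μ ≤ ENNReal.ofReal b₁)
    (fJ : ∀ l, ∫⁻ ζ, J l ζ ∂μ ≤ ENNReal.ofReal e)
    (hK : k₀ * b₀ + (k₁ * (n * e) + k₁ * b₁) ≤ K) :
    ∫⁻ ζ, F ζ ∂μ ≤ ENNReal.ofReal K := by
  refine (lintegral_mono hF).trans ?_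
  rw [lintegral_add_left (m0.const_mul _),
    lintegral_add_left ((Finset.measurable_sum _ fun l _ => mJ l).const_mul _),
    lintegral_const_mul' _ _ ENNReal.ofReal_ne_top, lintegral_const_mul' _ _ ENNReal.ofReal_ne_top,
    lintegral_const_mul' _ _ ENNReal.ofReal_ne_top, lintegral_finsetSum _ fun l _ => mJ l]
  have f2 : ∑ l, ∫⁻ ζ, J l ζ ∂μ ≤ ENNReal.ofReal (n * e) := by
    refine (Finset.sum_le_sum fun l _ => fJ l).trans (le_of_eq ?_)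
    rw [Finset.sum_const, Finset.card_univ, Fintype.card_fin, nsmul_eq_mul,
      ENNReal.ofReal_mul (Nat.cast_nonneg n), ENNReal.ofReal_natCast]
  refine (add_le_add (mul_le_mul_right f0 _)
    (add_le_add (mul_le_mul_right f2 _) (mul_le_mul_right f1 _))).trans ?_
  rw [← ENNReal.ofReal_mul hk₀, ← ENNReal.ofReal_mul hk₁,
    ← ENNReal.ofReal_mul hk₁, ← ENNReal.ofReal_add (by positivity) (by positivity),
    ← ENNReal.ofReal_add (by positivity) (by positivity)]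
  exact ENNReal.ofReal_le_ofReal hK

theorem final_arith {n c C₀ C₁ ε e₁ s ρ y : ℝ} (hn : 0 ≤ n) (hc : 0 ≤ c) (h0 : 0 ≤ C₀) (h1 : 0 ≤ C₁)
    (hε : 0 ≤ ε) (he₁ : 0 ≤ e₁) (hs : 0 ≤ s) (hρ : 0 ≤ ρ) (hy : 0 ≤ y) :
    ρ * n * (C₀ * ε * s) + (2 * (n * c) * (n * e₁) + 2 * (n * c) * (C₁ * y * s)) ≤
      (n * C₀ + 2 * (n * c * n) + 2 * (n * c * C₁)) * ((ρ * ε + y) * s + e₁) := by
  have hA0 : 0 ≤ n * C₀ := by positivity
  have hB0 : 0 ≤ 2 * (n * c * n) := by positivity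
  have hD0 : 0 ≤ 2 * (n * c * C₁) := by positivity
  have hx0 : 0 ≤ ρ * ε * s := by positivity
  have hy0 : 0 ≤ y * s := by positivity
  have e : (n * C₀ + 2 * (n * c * n) + 2 * (n * c * C₁)) * ((ρ * ε + y) * s + e₁) =
      ρ * n * (C₀ * ε * s) + (2 * (n * c) * (n * e₁) + 2 * (n * c) * (C₁ * y * s)) +
      ((n * C₀) * (y * s) + (n * C₀) * e₁ + 2 * (n * c * n) * (ρ * ε * s) +
        2 * (n * c * n) * (y * s) + 2 * (n * c * C₁) * (ρ * ε * s) + 2 * (n * c * C₁) * e₁) := by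
    ring
  rw [e]
  exact le_add_of_nonneg_right (by positivity)

end Pic
end Crest.Agent.R285
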