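import Crest.Agent.R285.Defs
import Crest.Agent.Lib.Convex.BrunnMinkowski

/-!
# Row 285, sub-task POINC: the Poincaré inequality for strongly log-concave laws
(property `τ` from Prékopa–Leindler, expansion to second order).
-/

set_option autoImplicit false

open MeasureTheory ProbabilityTheory Set Filter Topology
open scoped ENNReal NNReal ContDiff RealInnerProductSpace
open Crest.OracleSampling

noncomputable section

namespace Crest.Agent.R285

namespace Poinc

variable {d : ℕ}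

/-- property `τ` -/
def Tau (μ : Measure (E d)) (a : ℝ) : Prop :=
  ∀ f g : E d → ℝ, Continuous f → Continuous g → (∀ x y, g x - f y ≤ a * ‖x - y‖ ^ 2 / 4) →
    Integrable (fun x => Real.exp (g x)) μ → Integrable (fun x => Real.exp (-f x)) μ →
    (∫ x, Real.exp (g x) ∂μ) * (∫ x, Real.exp (-f x) ∂μ) ≤ 1

theorem int_exp {W : E d → ℝ} (hW : Continuous W) (h0 : ∀ x, 0 ≤ W x) :
    Integrable (fun x => Real.exp (-W x)) (gam d) :=
  Integrable.of_bound (by fun_prop) 1 (Eventually.of_forall fun x => by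
    rw [Real.norm_eq_abs, abs_of_pos (Real.exp_pos _), Real.exp_le_one_iff]
    linarith [h0 x])

theorem tau (hG : StmtGauss) {W : E d → ℝ} {β : ℝ} (hW : Continuous W) (h0 : ∀ x, 0 ≤ W x)
    (hc : ConvexOn ℝ univ (fun x => W x - β / 2 * ‖x‖ ^ 2)) :
    Tau ((gam d).tilted fun w => -W w) (1 + β) := by
  intro f g hf hg H hgi hfi
  have hP := isProbabilityMeasure_tilted (μ := gam d) (f := fun w => -W w) (int_exp hW h0)
  set Z : ℝ := ∫ x, Real.exp (-W x) ∂(gam d) with hZ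
  have hZ0 : 0 < Z := integral_exp_pos (int_exp hW h0)
  set c : ℝ := (√(2 * Real.pi))⁻¹ ^ d / Z with hc'
  have hc0 : 0 ≤ c := by positivity
  let ρ : E d → ℝ := fun x => c * Real.exp (-(‖x‖ ^ 2 / 2) - W x)
  have hρ : Continuous ρ := by fun_prop
  have hρ0 : ∀ x, 0 ≤ ρ x := fun x => by positivity
  have key : ∀ φ : E d → ℝ, Continuous φ → (∀ x, 0 ≤ φ x) →
      ∫⁻ x, ENNReal.ofReal (φ x) ∂((gam d).tilted fun w => -W w) =
        ∫⁻ x, ENNReal.ofReal (ρ x * φ x) := fun φ hφ hφ0 => by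
    rw [lintegral_tilted, ← hZ, hG.dens d, lintegral_withDensity_eq_lintegral_mul _
      (by fun_prop) (by fun_prop)]
    refine lintegral_congr fun x => ?_
    rw [Pi.mul_apply, ← ENNReal.ofReal_mul (by positivity), ← ENNReal.ofReal_mul (by positivity)]
    congr 1
    simp only [ρ, hc', sub_eq_add_neg, Real.exp_add]
    ring
  have h1 : ∫⁻ x, ENNReal.ofReal (ρ x) = 1 := by
    have := key (fun _ => 1) continuous_const fun _ => zero_le_one
    simpa using this.symm
  have h2 := Crest.Agent.Lib.BM.prekopa_leindler_midpoint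
    (f := fun x => ENNReal.ofReal (ρ x * Real.exp (g x)))
    (g := fun x => ENNReal.ofReal (ρ x * Real.exp (-f x)))
    (h := fun x => ENNReal.ofReal (ρ x)) (by fun_prop) (by fun_prop) (by fun_prop) fun x y => by
      rw [← ENNReal.ofReal_mul (by have := hρ0 x; positivity), ← ENNReal.ofReal_pow (hρ0 _)]
      apply ENNReal.ofReal_le_ofReal
      have hm : midpoint ℝ x y = (1 / 2 : ℝ) • x + (1 / 2 : ℝ) • y := by
        rw [midpoint_eq_smul_add, smul_add]; norm_num
      have h3 := hc.2 (mem_univ x) (mem_univ y) (show (0 : ℝ) ≤ 1 / 2 by norm_num)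
        (show (0 : ℝ) ≤ 1 / 2 by norm_num) (by norm_num)
      rw [← hm] at h3
      have h4 : ‖midpoint ℝ x y‖ ^ 2 = (‖x‖ ^ 2 + ‖y‖ ^ 2) / 2 - ‖x - y‖ ^ 2 / 4 := by
        have := parallelogram_law_with_norm ℝ x y
        rw [midpoint_eq_smul_add, norm_smul, mul_pow]
        norm_num
        nlinarith
      simp only [smul_eq_mul] at h3
      have h5 : (-(‖x‖ ^ 2 / 2) - W x) + g x + ((-(‖y‖ ^ 2 / 2) - W y) + -f y) ≤
          2 * (-(‖midpoint ℝ x y‖ ^ 2 / 2) - W (midpoint ℝ x y)) := by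
        have := H x y
        rw [h4] at h3 ⊢
        nlinarith
      calc ρ x * Real.exp (g x) * (ρ y * Real.exp (-f y))
          = c ^ 2 * Real.exp ((-(‖x‖ ^ 2 / 2) - W x) + g x + ((-(‖y‖ ^ 2 / 2) - W y) + -f y)) := by
            simp only [ρ, Real.exp_add]; ring
        _ ≤ c ^ 2 * Real.exp (2 * (-(‖midpoint ℝ x y‖ ^ 2 / 2) - W (midpoint ℝ x y))) := by
            gcongr
        _ = ρ (midpoint ℝ x y) ^ 2 := by
            simp only [ρ, two_mul, Real.exp_add]; ring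
  rw [h1, one_pow, ← key _ (by fun_prop) fun _ => (Real.exp_pos _).le,
    ← key _ (by fun_prop) fun _ => (Real.exp_pos _).le,
    ← ofReal_integral_eq_lintegral_ofReal hgi (Eventually.of_forall fun _ => (Real.exp_pos _).le),
    ← ofReal_integral_eq_lintegral_ofReal hfi (Eventually.of_forall fun _ => (Real.exp_pos _).le),
    ← ENNReal.ofReal_mul (integral_nonneg fun _ => (Real.exp_pos _).le)] at h2
  exact ENNReal.ofReal_le_one.1 h2

theorem exp_lower {u : ℝ} (hu : |u| ≤ 1) : 1 + u + u ^ 2 / 2 - |u| ^ 3 ≤ Real.exp u := by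
  have h := Real.exp_bound hu (n := 3) (by norm_num)
  simp only [Finset.sum_range_succ, Finset.sum_range_zero, Nat.factorial] at h
  norm_num at h
  have h2 := (abs_le.1 h).1
  have h3 : 0 ≤ |u| ^ 3 := by positivity
  linarith

theorem int_bdd {μ : Measure (E d)} [IsProbabilityMeasure μ] {f : E d → ℝ} (hf : Continuous f)
    {M : ℝ} (hM : ∀ x, |f x| ≤ M) : Integrable f μ :=
  Integrable.of_bound hf.aestronglyMeasurable M (Eventually.of_forall hM)

theorem expand {μ : Measure (E d)} [IsProbabilityMeasure μ] {f : E d → ℝ} (hf : Continuous f)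
    {M : ℝ} (hM : ∀ x, |f x| ≤ M) {ε : ℝ} (hε : |ε| * M ≤ 1) :
    1 + ε * ∫ x, f x ∂μ + ε ^ 2 * (∫ x, f x ^ 2 ∂μ) / 2 - |ε| ^ 3 * M ^ 3 ≤
      ∫ x, Real.exp (ε * f x) ∂μ := by
  have hb : ∀ x, |ε * f x| ≤ |ε| * M := fun x => by
    rw [abs_mul]; exact mul_le_mul_of_nonneg_left (hM x) (abs_nonneg _)
  have i1 : Integrable f μ := int_bdd hf hM
  have i2 : Integrable (fun x => f x ^ 2) μ := int_bdd (by fun_prop) (M := M ^ 2) fun x => by
    rw [abs_pow]; exact pow_le_pow_left₀ (abs_nonneg _) (hM x) 2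
  have i3 : Integrable (fun x => Real.exp (ε * f x)) μ :=
    int_bdd (by fun_prop) (M := Real.exp 1) fun x => by
      rw [abs_of_pos (Real.exp_pos _)]
      exact Real.exp_le_exp.2 ((le_abs_self _).trans ((hb x).trans hε))
  have h1 : ∫ x, (1 - |ε| ^ 3 * M ^ 3 + ε * f x + ε ^ 2 / 2 * f x ^ 2) ∂μ =
      1 + ε * ∫ x, f x ∂μ + ε ^ 2 * (∫ x, f x ^ 2 ∂μ) / 2 - |ε| ^ 3 * M ^ 3 := by
    have i4 : Integrable (fun x => 1 - |ε| ^ 3 * M ^ 3 + ε * f x) μ :=
      (integrable_const _).add (i1.const_mul _)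
    rw [integral_add i4 (i2.const_mul _),
      integral_add (integrable_const _) (i1.const_mul _), integral_const_mul, integral_const_mul]
    simp
    ring
  rw [← h1]
  refine integral_mono (((integrable_const _).add (i1.const_mul _)).add (i2.const_mul _)) i3
    fun x => ?_
  have h2 := exp_lower ((hb x).trans hε)
  have h3 : |ε * f x| ^ 3 ≤ (|ε| * M) ^ 3 := pow_le_pow_left₀ (abs_nonneg _) (hb x) 3
  simp only
  nlinarith

/-- bounded functions -/
theorem bdd {μ : Measure (E d)} [IsProbabilityMeasure μ] {a : ℝ} (ha : 0 < a) (hτ : Tau μ a)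
    {f Λ : E d → ℝ} (hf : Continuous f) (hΛ : Continuous Λ) {M r : ℝ} (hM : ∀ x, |f x| ≤ M)
    (hr : 0 < r) (hi : Integrable (fun x => Λ x ^ 2) μ)
    (H : ∀ x y, ‖x - y‖ ≤ r → |f x - f y| ≤ Λ x * ‖x - y‖) :
    ∫ x, f x ^ 2 ∂μ - (∫ x, f x ∂μ) ^ 2 ≤ a⁻¹ * ∫ x, Λ x ^ 2 ∂μ := by
  set m := ∫ x, f x ∂μ
  set s := ∫ x, f x ^ 2 ∂μ
  set K := a⁻¹ * ∫ x, Λ x ^ 2 ∂μ with hK
  have hM0 : 0 ≤ M := (abs_nonneg _).trans (hM 0)
  let P : ℝ → ℝ := fun ε => s / 2 - ε * M ^ 3 - Real.exp (ε * M) * K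
  let Q : ℝ → ℝ := fun ε => s / 2 - ε * M ^ 3
  have cP : Continuous P := by fun_prop
  have cQ : Continuous Q := by fun_prop
  have ev : ∀ (φ : ℝ → ℝ), Continuous φ → 0 < φ 0 → ∀ᶠ ε in 𝓝[>] (0 : ℝ), 0 < φ ε :=
    fun φ hφ h0 => (hφ.continuousAt.eventually (lt_mem_nhds h0)).filter_mono nhdsWithin_le_nhds
  have main : ∀ᶠ ε in 𝓝[>] (0 : ℝ),
      -m ^ 2 + (1 - ε * m) * P ε + (1 + ε * m) * Q ε + ε ^ 2 * (P ε * Q ε) ≤ 0 := by
    filter_upwards [self_mem_nhdsWithin, ev (fun ε => 1 - ε * M) (by fun_prop) (by simp),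
      ev (fun ε => a * r ^ 2 / 4 - ε * (2 * M)) (by fun_prop) (by simp; positivity),
      ev (fun ε => 1 + ε * m + ε ^ 2 * P ε) (by fun_prop) (by simp),
      ev (fun ε => 1 - ε * m + ε ^ 2 * Q ε) (by fun_prop) (by simp)] with ε hε e1 e2 e3 e4
    have hε : 0 < ε := hε
    have hb : ∀ x, ε * f x ≤ ε * M := fun x =>
      mul_le_mul_of_nonneg_left ((le_abs_self _).trans (hM x)) hε.le
    have i1 : Integrable (fun x => Real.exp (ε * f x - ε ^ 2 * (a⁻¹ * Λ x ^ 2))) μ :=
      int_bdd (by fun_prop) (M := Real.exp (ε * M)) fun x => by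
        rw [abs_of_pos (Real.exp_pos _)]
        have : 0 ≤ ε ^ 2 * (a⁻¹ * Λ x ^ 2) := by positivity
        exact Real.exp_le_exp.2 (by linarith [hb x])
    have i2 : Integrable (fun x => Real.exp (-(ε * f x))) μ :=
      int_bdd (by fun_prop) (M := Real.exp (ε * M)) fun x => by
        rw [abs_of_pos (Real.exp_pos _)]
        have := mul_le_mul_of_nonneg_left (neg_le_of_abs_le (hM x)) hε.le
        exact Real.exp_le_exp.2 (by linarith)
    have i3 : Integrable (fun x => Real.exp (ε * f x)) μ :=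
      int_bdd (by fun_prop) (M := Real.exp (ε * M)) fun x => by
        rw [abs_of_pos (Real.exp_pos _)]
        exact Real.exp_le_exp.2 (hb x)
    have h1 := hτ (fun x => ε * f x) (fun x => ε * f x - ε ^ 2 * (a⁻¹ * Λ x ^ 2)) (by fun_prop)
      (by fun_prop) (fun x y => by
        have h0 : 0 ≤ ε ^ 2 * (a⁻¹ * Λ x ^ 2) := by positivity
        rcases le_total ‖x - y‖ r with hxy | hxy
        · have h2 := mul_le_mul_of_nonneg_left ((le_abs_self _).trans (H x y hxy)) hε.le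
          have h3 : 0 ≤ a⁻¹ * (ε * Λ x - a * ‖x - y‖ / 2) ^ 2 := by positivity
          have h4 : a⁻¹ * (ε * Λ x - a * ‖x - y‖ / 2) ^ 2 =
              ε ^ 2 * (a⁻¹ * Λ x ^ 2) - ε * (Λ x * ‖x - y‖) + a * ‖x - y‖ ^ 2 / 4 := by
            field_simp
            ring
          linarith
        · have h2 := mul_le_mul_of_nonneg_left (neg_le_of_abs_le (hM y)) hε.le
          have h3 : a * r ^ 2 / 4 ≤ a * ‖x - y‖ ^ 2 / 4 := by gcongr
          linarith [hb x]) i1 i2
    have h2 := expand (μ := μ) hf hM (ε := ε) (by rw [abs_of_pos hε]; linarith)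
    have h3 := expand (μ := μ) hf hM (ε := -ε) (by rw [abs_neg, abs_of_pos hε]; linarith)
    rw [abs_of_pos hε] at h2
    rw [abs_neg, abs_of_pos hε] at h3
    have h4 : ∫ x, Real.exp (ε * f x) ∂μ - ε ^ 2 * (Real.exp (ε * M) * K) ≤
        ∫ x, Real.exp (ε * f x - ε ^ 2 * (a⁻¹ * Λ x ^ 2)) ∂μ := by
      rw [hK, ← mul_assoc, ← mul_assoc, ← integral_const_mul, ← integral_sub i3 (hi.const_mul _)]
      refine integral_mono (i3.sub (hi.const_mul _)) i1 fun x => ?_
      have h0 : 0 ≤ ε ^ 2 * (a⁻¹ * Λ x ^ 2) := by positivity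
      have h5 := Real.add_one_le_exp (-(ε ^ 2 * (a⁻¹ * Λ x ^ 2)))
      have h6 : Real.exp (ε * f x) ≤ Real.exp (ε * M) := Real.exp_le_exp.2 (hb x)
      have h7 := mul_le_mul_of_nonneg_left h5 (Real.exp_pos (ε * f x)).le
      have h8 := mul_le_mul_of_nonneg_right h6 h0
      simp only
      rw [sub_eq_add_neg (ε * f x), Real.exp_add]
      nlinarith
    have hA : 1 + ε * m + ε ^ 2 * P ε ≤
        ∫ x, Real.exp (ε * f x - ε ^ 2 * (a⁻¹ * Λ x ^ 2)) ∂μ := by
      simp only [P]; nlinarith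
    have hB : 1 - ε * m + ε ^ 2 * Q ε ≤ ∫ x, Real.exp (-(ε * f x)) ∂μ := by
      simp only [neg_mul] at h3
      simp only [Q]; nlinarith
    have h5 := (mul_le_mul hA hB e4.le (e3.le.trans hA)).trans h1
    have h6 : ε ^ 2 * (-m ^ 2 + (1 - ε * m) * P ε + (1 + ε * m) * Q ε + ε ^ 2 * (P ε * Q ε)) ≤
        ε ^ 2 * 0 := by nlinarith
    exact le_of_mul_le_mul_left h6 (by positivity)
  have lim : Tendsto (fun ε => -m ^ 2 + (1 - ε * m) * P ε + (1 + ε * m) * Q ε +
      ε ^ 2 * (P ε * Q ε)) (𝓝[>] (0 : ℝ))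
      (𝓝 (-m ^ 2 + (1 - 0 * m) * P 0 + (1 + 0 * m) * Q 0 + 0 ^ 2 * (P 0 * Q 0))) :=
    (Continuous.tendsto (by fun_prop) 0).mono_left nhdsWithin_le_nhds
  have := le_of_tendsto lim main
  simp only [P, Q] at this
  simp at this
  linarith

/-- truncation -/
def cl (n : ℕ) (t : ℝ) : ℝ := max (min t n) (-n)

theorem cl_lip (n : ℕ) (s t : ℝ) : |cl n s - cl n t| ≤ |s - t| :=
  (abs_max_sub_max_le_abs _ _ _).trans ((abs_min_sub_min_le_max _ _ _ _).trans (by simp))

theorem cl_le (n : ℕ) (t : ℝ) : |cl n t| ≤ |t| := by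
  have := cl_lip n t 0
  simpa [cl] using this

theorem cl_bdd (n : ℕ) (t : ℝ) : |cl n t| ≤ n := by
  have : (0 : ℝ) ≤ n := n.cast_nonneg
  exact abs_le.2 ⟨le_max_right _ _, max_le (min_le_right _ _) (by linarith)⟩

theorem cl_tendsto (t : ℝ) : Tendsto (fun n => cl n t) atTop (𝓝 t) := by
  refine tendsto_const_nhds.congr' ?_
  filter_upwards [tendsto_natCast_atTop_atTop.eventually_ge_atTop |t|] with n hn
  rw [cl, min_eq_left ((le_abs_self _).trans hn), max_eq_left (neg_le_of_abs_le hn)]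

theorem unbdd {μ : Measure (E d)} [IsProbabilityMeasure μ] {a : ℝ} (ha : 0 < a) (hτ : Tau μ a)
    {f Λ : E d → ℝ} (hf : Continuous f) (hΛ : Continuous Λ) {r : ℝ}
    (hf2 : Integrable (fun x => f x ^ 2) μ)
    (hr : 0 < r) (hi : Integrable (fun x => Λ x ^ 2) μ)
    (H : ∀ x y, ‖x - y‖ ≤ r → |f x - f y| ≤ Λ x * ‖x - y‖) :
    Var[f; μ] ≤ a⁻¹ * ∫ x, Λ x ^ 2 ∂μ := by
  have hm : MemLp f 2 μ := (memLp_two_iff_integrable_sq hf.aestronglyMeasurable).2 hf2
  have hf1 : Integrable f μ := hm.integrable (by norm_num)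
  have hc : ∀ n, Continuous fun x => cl n (f x) := fun n => by unfold cl; fun_prop
  have l1 : Tendsto (fun n => ∫ x, cl n (f x) ∂μ) atTop (𝓝 (∫ x, f x ∂μ)) :=
    tendsto_integral_of_dominated_convergence (fun x => |f x|)
      (fun n => (hc n).aestronglyMeasurable) hf1.abs
      (fun n => Eventually.of_forall fun x => cl_le n (f x))
      (Eventually.of_forall fun x => cl_tendsto (f x))
  have l2 : Tendsto (fun n => ∫ x, cl n (f x) ^ 2 ∂μ) atTop (𝓝 (∫ x, f x ^ 2 ∂μ)) :=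
    tendsto_integral_of_dominated_convergence (fun x => f x ^ 2)
      (fun n => ((hc n).pow 2).aestronglyMeasurable) hf2
      (fun n => Eventually.of_forall fun x => by
        rw [Real.norm_eq_abs, abs_pow, sq_abs]; exact sq_le_sq.2 (cl_le n (f x)))
      (Eventually.of_forall fun x => (cl_tendsto (f x)).pow 2)
  rw [variance_eq_sub hm]
  exact le_of_tendsto' (l2.sub (l1.pow 2)) fun n =>
    bdd ha hτ (hc n) hΛ (fun x => cl_bdd n (f x)) hr hi fun x y hxy =>
      (cl_lip n _ _).trans (H x y hxy)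

theorem PG_sq {f : E d → ℝ} (hf : PG f) : PG fun x => f x ^ 2 := by
  obtain ⟨hc, C, k, h⟩ := hf
  refine ⟨hc.pow 2, C ^ 2, k * 2, fun x => ?_⟩
  rw [abs_pow, pow_mul, ← mul_pow]
  exact pow_le_pow_left₀ (abs_nonneg _) (h x) 2

theorem c1 {μ : Measure (E d)} [IsProbabilityMeasure μ] {a : ℝ} (ha : 0 < a) (hτ : Tau μ a)
    (hI : ∀ f : E d → ℝ, PG f → Integrable f μ) {f : E d → ℝ} (hf : ContDiff ℝ 1 f) (h1 : PG f)
    (h2 : PG fun x => ‖gradient f x‖) :
    Var[f; μ] ≤ a⁻¹ * ∫ x, ‖gradient f x‖ ^ 2 ∂μ := by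
  obtain ⟨hc, C, k, hC⟩ := h2
  let L : ℝ × E d → ℝ := fun p =>
    sSup ((fun u : E d => ‖gradient f (p.2 + p.1 • u)‖) '' Metric.closedBall 0 1)
  have hcj : Continuous fun q : (ℝ × E d) × E d => ‖gradient f (q.1.2 + q.1.1 • q.2)‖ :=
    hc.comp (by fun_prop)
  have cL : Continuous L := (isCompact_closedBall (0 : E d) 1).continuous_sSup hcj
  have hne : (Metric.closedBall (0 : E d) 1).Nonempty := ⟨0, by simp⟩
  have hle : ∀ (p : ℝ × E d) (u : E d), ‖u‖ ≤ 1 → ‖gradient f (p.2 + p.1 • u)‖ ≤ L p :=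
    fun p u hu => le_csSup ((isCompact_closedBall (0 : E d) 1).bddAbove_image
      (hcj.comp (Continuous.prodMk_right p)).continuousOn) ⟨u, by simpa using hu, rfl⟩
  have hL0 : ∀ p, 0 ≤ L p := fun p => (norm_nonneg _).trans (hle p 0 (by simp))
  have hC0 : 0 ≤ C := by
    have := (abs_nonneg _).trans (hC 0)
    simpa using this
  have hub : ∀ r x, |r| ≤ 1 → L (r, x) ≤ C * 2 ^ k * (1 + ‖x‖) ^ k := fun r x hr => by
    refine csSup_le (hne.image _) ?_
    rintro _ ⟨u, hu, rfl⟩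
    have hu : ‖u‖ ≤ 1 := by simpa using hu
    refine (le_abs_self _).trans ((hC _).trans ?_)
    have : ‖x + r • u‖ ≤ ‖x‖ + 1 := by
      refine (norm_add_le _ _).trans ?_
      rw [norm_smul, Real.norm_eq_abs]
      have := mul_le_one₀ hr (norm_nonneg u) hu
      linarith
    rw [mul_assoc, ← mul_pow]
    have h0 := norm_nonneg x
    gcongr
    linarith
  have hz : ∀ x, L (0, x) = ‖gradient f x‖ := fun x => by
    simp only [L, zero_smul, add_zero]
    rw [hne.image_const, csSup_singleton]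
  have hB : PG fun x : E d => C * 2 ^ k * (1 + ‖x‖) ^ k :=
    ⟨by fun_prop, C * 2 ^ k, k, fun x => by rw [abs_of_nonneg (by positivity)]⟩
  have hsq : ∀ r x, |r| ≤ 1 → ‖L (r, x) ^ 2‖ ≤ (C * 2 ^ k * (1 + ‖x‖) ^ k) ^ 2 := fun r x hr => by
    rw [Real.norm_eq_abs, abs_pow, abs_of_nonneg (hL0 _)]
    exact pow_le_pow_left₀ (hL0 _) (hub r x hr) 2
  have cr : ∀ r : ℝ, Continuous fun x => L (r, x) := fun r => cL.comp (by fun_prop)
  have small : ∀ᶠ r in 𝓝[>] (0 : ℝ), |r| ≤ 1 := by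
    filter_upwards [Ioc_mem_nhdsGT (zero_lt_one' ℝ)] with r hr
    rw [abs_of_pos hr.1]; exact hr.2
  have lim : Tendsto (fun r => ∫ x, L (r, x) ^ 2 ∂μ) (𝓝[>] (0 : ℝ))
      (𝓝 (∫ x, ‖gradient f x‖ ^ 2 ∂μ)) := by
    refine tendsto_integral_filter_of_dominated_convergence _
      (Eventually.of_forall fun r => ((cr r).pow 2).aestronglyMeasurable)
      (small.mono fun r hr => Eventually.of_forall fun x => hsq r x hr) (hI _ (PG_sq hB))
      (Eventually.of_forall fun x => ?_)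
    rw [← hz]
    have : Continuous fun r : ℝ => L (r, x) ^ 2 := (cL.comp (by fun_prop)).pow 2
    exact (this.tendsto 0).mono_left nhdsWithin_le_nhds
  refine ge_of_tendsto (lim.const_mul a⁻¹) ?_
  filter_upwards [small, self_mem_nhdsWithin] with r hr hr0
  have hr0 : 0 < r := hr0
  refine unbdd ha hτ h1.1 (cr r) (hI _ (PG_sq h1)) hr0
    ((hI _ (PG_sq hB)).mono' ((cr r).pow 2).aestronglyMeasurable
      (Eventually.of_forall fun x => hsq r x hr)) fun x y hxy => ?_
  have hd : Differentiable ℝ f := hf.differentiable (by norm_num)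
  refine (convex_closedBall x r).norm_image_sub_le_of_norm_fderiv_le (𝕜 := ℝ) (f := f)
    (fun z _ => hd z) (fun z hz => ?_) (x := y) (y := x)
    (by rw [mem_closedBall_iff_norm']; exact hxy) (by simp [hr0.le])
  have hu : ‖r⁻¹ • (z - x)‖ ≤ 1 := by
    rw [norm_smul, norm_inv, Real.norm_eq_abs, abs_of_pos hr0, inv_mul_le_iff₀ hr0, mul_one]
    exact mem_closedBall_iff_norm.1 hz
  have := hle (r, x) _ hu
  simp only [smul_inv_smul₀ hr0.ne', add_sub_cancel] at this
  rwa [gradient, LinearIsometryEquiv.norm_map] at this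

end Poinc

open Poinc in
theorem poincStmt (hG : StmtGauss) : StmtPoinc := by
  intro d W β hβ hW h0 hc
  have hP := isProbabilityMeasure_tilted (μ := gam d) (f := fun w => -W w) (int_exp hW h0)
  have hτ := tau hG hW h0 hc
  have hI : ∀ f : E d → ℝ, PG f → Integrable f ((gam d).tilted fun w => -W w) := fun f hf => by
    rw [integrable_tilted_iff (int_exp hW h0)]
    have := hf.1
    refine (hG.pg d f hf).mono (by fun_prop) (Eventually.of_forall fun x => ?_)
    rw [norm_smul, Real.norm_eq_abs, abs_of_pos (Real.exp_pos _)]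
    exact mul_le_of_le_one_left (norm_nonneg _) (Real.exp_le_one_iff.2 (by linarith [h0 x]))
  have ha : 0 < 1 + β := by linarith
  refine ⟨hP, hI, fun f hf h1 h2 => c1 ha hτ hI hf h1 h2, fun f L hL H => ?_⟩
  have hf : Continuous f := by
    refine (LipschitzWith.of_dist_le_mul (K := ⟨L, hL⟩) fun x y => ?_).continuous
    rw [dist_eq_norm, dist_eq_norm]
    exact H x y
  have h1 : PG f := ⟨hf, |f 0| + L, 1, fun x => by
    have h2 := H x 0
    have h3 := abs_sub_abs_le_abs_sub (f x) (f 0)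
    rw [sub_zero] at h2
    have h4 := mul_nonneg (abs_nonneg (f 0)) (norm_nonneg x)
    rw [pow_one]
    nlinarith⟩
  have := unbdd ha hτ hf (Λ := fun _ => L) continuous_const (hI _ (PG_sq h1)) zero_lt_one
    (integrable_const _) fun x y _ => H x y
  simpa using this

end Crest.Agent.R285
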