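import Crest.Agent.R285.DefsP

/-!
# Row 285: closure properties of oracle programs (`StmtProg`)
-/

set_option autoImplicit false

open MeasureTheory ProbabilityTheory Set
open scoped ENNReal NNReal ContDiff RealInnerProductSpace
open Crest.OracleSampling

noncomputable section

namespace Crest.Agent.R285

namespace ProgAux

instance instM {d q : ℕ} {X Y : Type} [MeasurableSpace X] [MeasurableSpace Y]
    (P : OProg d q X Y) : MeasurableSpace P.Ω := P.mΩ

instance instP {d q : ℕ} {X Y : Type} [MeasurableSpace X] [MeasurableSpace Y]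
    (P : OProg d q X Y) : IsProbabilityMeasure P.μ := P.prob

variable {d q : ℕ} {X Y : Type} [MeasurableSpace X] [MeasurableSpace Y]

/-- the `k`-th answer -/
def ans (P : OProg d q X Y) (V : E d → ℝ) (o : X × P.Ω) (k : ℕ) : Answer d :=
  oracle V (P.query k o (P.transcript V o k))

theorem tr_eq_of (P : OProg d q X Y) (V : E d → ℝ) (o : X × P.Ω) (a : ℕ → Answer d)
    (ha : ∀ k, a k = oracle V (P.query k o fun j => a j)) (i : ℕ) :
    P.transcript V o i = fun j : Fin i => a j := by
  induction i with
  | zero => exact Subsingleton.elim _ _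
  | succ i ih =>
    rw [OProg.transcript, ih, ← ha]
    funext j
    refine Fin.lastCases ?_ (fun j => ?_) j
    · simp
    · simp

theorem tr_eq (P : OProg d q X Y) (V : E d → ℝ) (o : X × P.Ω) (i : ℕ) :
    P.transcript V o i = fun j : Fin i => ans P V o j := by
  induction i with
  | zero => exact Subsingleton.elim _ _
  | succ i ih =>
    rw [OProg.transcript]
    funext j
    refine Fin.lastCases ?_ (fun j => ?_) j
    · simp [ans]
    · simp [ih]

theorem ans_eq (P : OProg d q X Y) (V : E d → ℝ) (o : X × P.Ω) (k : ℕ) :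
    ans P V o k = oracle V (P.query k o fun j => ans P V o j) := by
  rw [ans, tr_eq]

theorem meas_oracle {V : E d → ℝ} (hB : StmtBasic) (hV : Admissible d V) :
    Measurable (oracle V) := by
  have hU := (hB.adm d V hV).1
  have hc : Continuous (gradient V) :=
    (LipschitzWith.of_dist_le_mul (K := ⟨2, zero_le_two⟩) fun x y => by
      rw [dist_eq_norm, dist_eq_norm]; exact hU.lip x y).continuous
  exact hV.1.continuous.measurable.prodMk hc.measurable

theorem meas_tr (P : OProg d q X Y) {V : E d → ℝ} (hV : Measurable (oracle V)) (i : ℕ) :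
    Measurable fun o => P.transcript V o i := by
  induction i with
  | zero => exact measurable_pi_lambda _ fun j => j.elim0
  | succ i ih =>
    refine measurable_pi_lambda _ fun j => ?_
    refine Fin.lastCases ?_ (fun j => ?_) j
    · simp only [OProg.transcript, Fin.snoc_last]
      exact hV.comp ((P.query_meas i).comp (measurable_id.prodMk ih))
    · simp only [OProg.transcript, Fin.snoc_castSucc]
      exact (measurable_pi_apply j).comp ih

/-- the output as a function of input and seed -/
def run (P : OProg d q X Y) (V : E d → ℝ) (o : X × P.Ω) : Y := P.output o (P.transcript V o q)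

theorem meas_run (P : OProg d q X Y) {V : E d → ℝ} (hV : Measurable (oracle V)) :
    Measurable (run P V) :=
  P.output_meas.comp (measurable_id.prodMk (meas_tr P hV q))

theorem meas_run' (P : OProg d q X Y) {V : E d → ℝ} (hV : Measurable (oracle V)) (x : X) :
    Measurable fun o => run P V (x, o) :=
  (meas_run P hV).comp measurable_prodMk_left

theorem law_eq (P : OProg d q X Y) (V : E d → ℝ) (x : X) :
    P.law V x = P.μ.map fun o => run P V (x, o) := rfl

theorem meas_law (P : OProg d q X Y) {V : E d → ℝ} (hV : Measurable (oracle V)) :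
    Measurable (P.law V) := by
  refine Measure.measurable_of_measurable_coe _ fun s hs => ?_
  have h1 : (fun x => P.law V x s) = fun x => P.μ (Prod.mk x ⁻¹' (run P V ⁻¹' s)) := by
    funext x
    rw [law_eq, Measure.map_apply (meas_run' P hV x) hs]
    rfl
  rw [h1]
  exact measurable_measure_prodMk_left ((meas_run P hV) hs)

theorem meas_restrict {A : Type} [MeasurableSpace A] {m n : ℕ} (f : Fin m → Fin n) :
    Measurable fun (a : Fin n → A) (j : Fin m) => a (f j) :=
  measurable_pi_lambda _ fun j => measurable_pi_apply (f j)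

/-- same queries, new input and output maps -/
def reshape (P : OProg d q X Y) {q' : ℕ} (h : q ≤ q') {X' Y' : Type} [MeasurableSpace X']
    [MeasurableSpace Y'] (g : X' → X) (hg : Measurable g) (f : X' × Y → Y') (hf : Measurable f) :
    OProg d q' X' Y' where
  Ω := P.Ω
  mΩ := P.mΩ
  μ := P.μ
  prob := P.prob
  query i o a := P.query i (g o.1, o.2) a
  output o a := f (o.1, P.output (g o.1, o.2) fun j => a (Fin.castLE h j))
  query_meas i := (P.query_meas i).comp
    (((hg.comp measurable_fst.fst).prodMk measurable_fst.snd).prodMk measurable_snd)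
  output_meas := hf.comp (measurable_fst.fst.prodMk (P.output_meas.comp
    (((hg.comp measurable_fst.fst).prodMk measurable_fst.snd).prodMk
      ((meas_restrict _).comp measurable_snd))))

theorem law_reshape (P : OProg d q X Y) {q' : ℕ} (h : q ≤ q') {X' Y' : Type} [MeasurableSpace X']
    [MeasurableSpace Y'] (g : X' → X) (hg : Measurable g) (f : X' × Y → Y') (hf : Measurable f)
    {V : E d → ℝ} (hV : Measurable (oracle V)) (x : X') :
    (reshape P h g hg f hf).law V x = (P.law V (g x)).map fun y => f (x, y) := by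
  have hf' : Measurable fun y => f (x, y) := hf.comp measurable_prodMk_left
  rw [law_eq, law_eq, Measure.map_map hf' (meas_run' P hV _)]
  congr 1
  funext o
  have h1 := tr_eq_of (reshape P h g hg f hf) V (x, o) (ans P V (g x, o))
    (fun k => ans_eq P V (g x, o) k) q'
  rw [run, h1]
  change _ = f (x, P.output (g x, o) (P.transcript V (g x, o) q))
  rw [tr_eq]
  rfl

/-- sequential composition -/
def seq {q₁ q₂ : ℕ} {Z : Type} [MeasurableSpace Z] (P₁ : OProg d q₁ X Y)
    (P₂ : OProg d q₂ (X × Y) Z) : OProg d (q₁ + q₂) X Z where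
  Ω := P₁.Ω × P₂.Ω
  mΩ := inferInstance
  μ := P₁.μ.prod P₂.μ
  prob := inferInstance
  query i o a := if h : i < q₁ then P₁.query i (o.1, o.2.1) a else
    P₂.query (i - q₁) ((o.1, P₁.output (o.1, o.2.1) fun j => a ⟨j, by omega⟩), o.2.2)
      fun j => a ⟨q₁ + j, by omega⟩
  output o a := P₂.output ((o.1, P₁.output (o.1, o.2.1) fun j => a ⟨j, by omega⟩), o.2.2)
    fun j => a ⟨q₁ + j, by omega⟩
  query_meas i := by
    by_cases h : i < q₁
    · simp only [Function.uncurry_def, dif_pos h]
      exact (P₁.query_meas i).comp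
        ((measurable_fst.fst.prodMk measurable_fst.snd.fst).prodMk measurable_snd)
    · simp only [Function.uncurry_def, dif_neg h]
      exact (P₂.query_meas (i - q₁)).comp
        (((measurable_fst.fst.prodMk (P₁.output_meas.comp
          ((measurable_fst.fst.prodMk measurable_fst.snd.fst).prodMk
            ((meas_restrict _).comp measurable_snd)))).prodMk measurable_fst.snd.snd).prodMk
          ((meas_restrict _).comp measurable_snd))
  output_meas := by
    simp only [Function.uncurry_def]
    exact P₂.output_meas.comp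
      (((measurable_fst.fst.prodMk (P₁.output_meas.comp
        ((measurable_fst.fst.prodMk measurable_fst.snd.fst).prodMk
          ((meas_restrict _).comp measurable_snd)))).prodMk measurable_fst.snd.snd).prodMk
        ((meas_restrict _).comp measurable_snd))

theorem run_seq {q₁ q₂ : ℕ} {Z : Type} [MeasurableSpace Z] (P₁ : OProg d q₁ X Y)
    (P₂ : OProg d q₂ (X × Y) Z) (V : E d → ℝ) (x : X) (o₁ : P₁.Ω) (o₂ : P₂.Ω) :
    run (seq P₁ P₂) V (x, (o₁, o₂)) = run P₂ V ((x, run P₁ V (x, o₁)), o₂) := by
  let a : ℕ → Answer d := fun k =>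
    if k < q₁ then ans P₁ V (x, o₁) k else ans P₂ V ((x, run P₁ V (x, o₁)), o₂) (k - q₁)
  have ha1 : ∀ k, k < q₁ → a k = ans P₁ V (x, o₁) k := fun k hk => if_pos hk
  have ha2 : ∀ k, a (q₁ + k) = ans P₂ V ((x, run P₁ V (x, o₁)), o₂) k := fun k => by
    simp only [a]
    rw [if_neg (by omega), Nat.add_sub_cancel_left]
  have hy : P₁.output (x, o₁) (fun j : Fin q₁ => a j) = run P₁ V (x, o₁) := by
    rw [run, tr_eq]
    congr 1
    funext j
    exact ha1 j j.2
  have h1 := tr_eq_of (seq P₁ P₂) V (x, (o₁, o₂)) a (fun k => by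
    by_cases h : k < q₁
    · rw [ha1 k h, ans_eq]
      simp only [seq, dif_pos h]
      congr 2
      funext j
      exact (ha1 j (j.2.trans h)).symm
    · have h2 : a k = ans P₂ V ((x, run P₁ V (x, o₁)), o₂) (k - q₁) := if_neg h
      rw [h2, ans_eq]
      simp only [seq, dif_neg h, hy, ha2]) (q₁ + q₂)
  rw [run, h1, run, tr_eq]
  simp only [seq, hy, ha2]

theorem law_seq {q₁ q₂ : ℕ} {Z : Type} [MeasurableSpace Z] (P₁ : OProg d q₁ X Y)
    (P₂ : OProg d q₂ (X × Y) Z) {V : E d → ℝ} (hV : Measurable (oracle V)) (x : X) :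
    (seq P₁ P₂).law V x = (P₁.law V x).bind fun y => P₂.law V (x, y) := by
  have hm : Measurable fun y => P₂.law V (x, y) := (meas_law P₂ hV).comp measurable_prodMk_left
  have hr1 : Measurable fun o => run P₁ V (x, o) := (meas_run P₁ hV).comp measurable_prodMk_left
  have hr : Measurable fun o : P₁.Ω × P₂.Ω => run (seq P₁ P₂) V (x, o) :=
    (meas_run (seq P₁ P₂) hV).comp measurable_prodMk_left
  ext s hs
  have hm' : Measurable fun y => P₂.law V (x, y) s := (Measure.measurable_coe hs).comp hm
  rw [Measure.bind_apply hs hm.aemeasurable, law_eq P₁, lintegral_map hm' hr1]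
  change (P₁.μ.prod P₂.μ).map (fun o : P₁.Ω × P₂.Ω => run (seq P₁ P₂) V (x, o)) s = _
  rw [Measure.map_apply hr hs, Measure.prod_apply (hr hs)]
  refine lintegral_congr fun o₁ => ?_
  rw [law_eq, Measure.map_apply (meas_run' P₂ hV _) hs]
  congr 1
  ext o₂
  simp only [mem_preimage, run_seq]

end ProgAux

open ProgAux in
theorem progStmt (hB : StmtBasic) : StmtProg where
  meas d q X Y _ _ K := by
    rintro ⟨P, hP⟩ V hV
    have h1 : K V = P.law V := funext (hP V hV)
    rw [h1]
    exact ⟨meas_law P (meas_oracle hB hV), fun x => Measure.isProbabilityMeasure_map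
      ((meas_run P (meas_oracle hB hV)).comp measurable_prodMk_left).aemeasurable⟩
  mono d q q' X Y _ _ K h := by
    rintro ⟨P, hP⟩
    refine ⟨reshape P h id measurable_id Prod.snd measurable_snd, fun V hV x => ?_⟩
    rw [law_reshape _ _ _ _ _ _ (meas_oracle hB hV), hP V hV]
    exact Measure.map_id.symm
  seed d X Y Ω _ _ _ μ _ f hf :=
    ⟨⟨Ω, inferInstance, μ, inferInstance, fun _ _ _ => 0, fun o _ => f o,
      fun _ => measurable_const, hf.comp measurable_fst⟩, fun _ _ _ => rfl⟩
  query d X _ f hf := by
    refine ⟨⟨Unit, inferInstance, Measure.dirac (), inferInstance, fun _ o _ => f o.1,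
      fun _ a => (a 0).2, fun _ => hf.comp measurable_fst.fst,
      ((measurable_pi_apply 0).comp measurable_snd).snd⟩, fun V _ x => ?_⟩
    change _ = (Measure.dirac ()).map fun _ : Unit => gradient V (f x)
    simp
  bind d q₁ q₂ X Y Z _ _ _ K₁ K₂ := by
    rintro ⟨P₁, h₁⟩ ⟨P₂, h₂⟩
    refine ⟨seq P₁ P₂, fun V hV x => ?_⟩
    rw [law_seq _ _ (meas_oracle hB hV)]
    simp only [h₁ V hV, h₂ V hV]
  comap d q X X' Y _ _ _ K g hg := by
    rintro ⟨P, hP⟩
    refine ⟨reshape P le_rfl g hg Prod.snd measurable_snd, fun V hV x => ?_⟩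
    rw [law_reshape _ _ _ _ _ _ (meas_oracle hB hV), ← hP V hV]
    exact Measure.map_id.symm
  map d q X Y Y' _ _ _ K g hg := by
    rintro ⟨P, hP⟩
    refine ⟨reshape P le_rfl id measurable_id g hg, fun V hV x => ?_⟩
    rw [law_reshape _ _ _ _ _ _ (meas_oracle hB hV), ← hP V hV]
    rfl
  final d q K := by
    rintro ⟨P, hP⟩
    let A : QueryAlg d q := ⟨P.Ω, P.mΩ, P.μ, P.prob, fun i o => P.query i ((), o),
      fun o => P.output ((), o),
      fun i => (P.query_meas i).comp
        ((measurable_const.prodMk measurable_fst).prodMk measurable_snd),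
      P.output_meas.comp ((measurable_const.prodMk measurable_fst).prodMk measurable_snd)⟩
    refine ⟨A, fun V hV => ?_⟩
    have h1 : ∀ (o : P.Ω) (i : ℕ), transcript A V o i = P.transcript V ((), o) i := fun o i => by
      induction i with
      | zero => rfl
      | succ i ih => rw [transcript, OProg.transcript, ih]
    rw [hP V hV, law_eq, outputLaw]
    congr 1
    funext o
    rw [Crest.OracleSampling.run, h1]
    rfl

end Crest.Agent.R285
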