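import Crest.Agent.R285.Defs

/-! # Row 285: quadrature and differentiation weights -/

set_option autoImplicit false

open MeasureTheory Set
open scoped ENNReal

noncomputable section

namespace Crest.Agent.R285

namespace QuadP

/-- weights with prescribed moments -/
theorem exists_weights {m : ℕ} (hm : 0 < m) (b : ℕ → ℝ) :
    ∃ c : Fin (m + 1) → ℝ, ∀ i ∈ Finset.range (m + 1),
      ∑ l : Fin (m + 1), c l * (((l : ℕ) : ℝ) / (m : ℝ)) ^ i = b i := by
  set v : Fin (m + 1) → ℝ := fun l => ((l : ℕ) : ℝ) / (m : ℝ) with hv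
  have hm' : (m : ℝ) ≠ 0 := by positivity
  have hinj : Function.Injective v := fun a b h => by
    simp only [hv] at h
    rw [div_left_inj' hm'] at h
    exact Fin.ext (by exact_mod_cast h)
  have hdet : IsUnit (Matrix.vandermonde v).det :=
    (Matrix.det_vandermonde_ne_zero_iff.2 hinj).isUnit
  refine ⟨Matrix.vecMul (fun i : Fin (m + 1) => b i) (Matrix.vandermonde v)⁻¹, fun i hi => ?_⟩
  have h := Matrix.vecMul_vecMul (fun i : Fin (m + 1) => b i) (Matrix.vandermonde v)⁻¹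
    (Matrix.vandermonde v)
  rw [Matrix.nonsing_inv_mul _ hdet, Matrix.vecMul_one] at h
  have := congrFun h ⟨i, Finset.mem_range.1 hi⟩
  simpa [Matrix.vecMul, dotProduct, Matrix.vandermonde_apply, hv] using this

variable {H : Type} [NormedAddCommGroup H] [NormedSpace ℝ H] [CompleteSpace H]

omit [CompleteSpace H] in
theorem cont {g : ℕ → ℝ → H}
    (hg : ∀ j, ∀ τ ∈ Icc (0 : ℝ) 1, HasDerivWithinAt (g j) (g (j + 1) τ) (Icc (0 : ℝ) 1) τ)
    (j : ℕ) : ContinuousOn (g j) (Icc 0 1) := fun τ hτ => (hg j τ hτ).continuousWithinAt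

/-- the Taylor polynomial -/
def tay (n : ℕ) (g : ℕ → ℝ → H) (τ : ℝ) : H :=
  ∑ i ∈ Finset.range (n + 1), (τ ^ i / (i.factorial : ℝ)) • g i 0

theorem taylor (n : ℕ) : ∀ g : ℕ → ℝ → H,
    (∀ j, ∀ τ ∈ Icc (0 : ℝ) 1, HasDerivWithinAt (g j) (g (j + 1) τ) (Icc (0 : ℝ) 1) τ) →
    ∀ τ ∈ Icc (0 : ℝ) 1, ‖g 0 τ - tay n g τ‖ ≤ ∫ s in (0 : ℝ)..1, ‖g (n + 1) s‖ := by
  induction n with
  | zero =>
    intro g hg τ hτ
    have hsub : Icc (0 : ℝ) τ ⊆ Icc 0 1 := Icc_subset_Icc_right hτ.2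
    have i1 : IntervalIntegrable (g 1) volume 0 τ :=
      ((cont hg 1).mono hsub).intervalIntegrable_of_Icc hτ.1
    have h1 := intervalIntegral.integral_eq_sub_of_hasDerivAt_of_le hτ.1 ((cont hg 0).mono hsub)
      (fun s hs => (hg 0 s (hsub (Ioo_subset_Icc_self hs))).hasDerivAt
        (Icc_mem_nhds hs.1 (hs.2.trans_le hτ.2))) i1
    have e : tay 0 g τ = g 0 0 := by simp [tay]
    rw [e, ← h1]
    refine (intervalIntegral.norm_integral_le_integral_norm hτ.1).trans ?_
    exact intervalIntegral.integral_mono_interval le_rfl hτ.1 hτ.2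
      (Filter.Eventually.of_forall fun s => norm_nonneg _)
      ((cont hg 1).norm.intervalIntegrable_of_Icc zero_le_one)
  | succ n ih =>
    intro g hg τ hτ
    have h1 := ih (fun j => g (j + 1)) (fun j => hg (j + 1))
    have hd : ∀ s, HasDerivAt (tay (n + 1) g) (tay n (fun j => g (j + 1)) s) s := by
      intro s
      have e : tay (n + 1) g = fun τ => ∑ i ∈ Finset.range (n + 1),
          (τ ^ (i + 1) / ((i + 1).factorial : ℝ)) • g (i + 1) 0 + g 0 0 := by
        ext τ
        rw [tay, Finset.sum_range_succ']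
        simp
      rw [e, tay]
      refine HasDerivAt.add_const _ (HasDerivAt.fun_sum fun i _ => ?_)
      have := ((hasDerivAt_pow (i + 1) s).div_const ((i + 1).factorial : ℝ)).smul_const (g (i + 1) 0)
      convert this using 2
      rw [Nat.factorial_succ]
      push_cast
      field_simp
    have h2 := norm_image_sub_le_of_norm_deriv_le_segment' (f := fun s => g 0 s - tay (n + 1) g s)
      (fun s hs => (hg 0 s hs).sub (hd s).hasDerivWithinAt)
      (fun s hs => h1 s (Ico_subset_Icc_self hs)) τ hτ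
    have e : tay (n + 1) g 0 = g 0 0 := by simp [tay, Finset.sum_range_succ']
    have h3 : 0 ≤ ∫ s in (0 : ℝ)..1, ‖g (n + 1 + 1) s‖ :=
      intervalIntegral.integral_nonneg zero_le_one fun s _ => norm_nonneg _
    simp only [e, sub_self, sub_zero] at h2
    exact h2.trans (mul_le_of_le_one_right h3 hτ.2)

omit [CompleteSpace H] in
theorem sum_tay {m : ℕ} {c : Fin (m + 1) → ℝ} {b : ℕ → ℝ}
    (hc : ∀ i ∈ Finset.range (m + 1), ∑ l : Fin (m + 1), c l * (((l : ℕ) : ℝ) / (m : ℝ)) ^ i = b i)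
    (g : ℕ → ℝ → H) : ∑ l : Fin (m + 1), c l • tay m g (((l : ℕ) : ℝ) / (m : ℝ)) =
      ∑ i ∈ Finset.range (m + 1), (b i / (i.factorial : ℝ)) • g i 0 := by
  simp only [tay, Finset.smul_sum, smul_smul]
  rw [Finset.sum_comm]
  refine Finset.sum_congr rfl fun i hi => ?_
  rw [← Finset.sum_smul, ← hc i hi, Finset.sum_div]
  simp only [mul_div_assoc]

omit [CompleteSpace H] in
theorem norm_wsum_le {m : ℕ} (hm : 0 < m) (c : Fin (m + 1) → ℝ) {R : ℝ → H} {A : ℝ}
    (hR : ∀ τ ∈ Icc (0 : ℝ) 1, ‖R τ‖ ≤ A) :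
    ‖∑ l : Fin (m + 1), c l • R (((l : ℕ) : ℝ) / (m : ℝ))‖ ≤ (∑ l, |c l|) * A := by
  rw [Finset.sum_mul]
  refine (norm_sum_le _ _).trans (Finset.sum_le_sum fun l _ => ?_)
  rw [norm_smul, Real.norm_eq_abs]
  refine mul_le_mul_of_nonneg_left (hR _ ⟨by positivity, ?_⟩) (abs_nonneg _)
  rw [div_le_one (by positivity)]
  exact_mod_cast Nat.lt_succ_iff.1 l.2

end QuadP

open QuadP in
theorem quadStmt : StmtQuad := by
  intro m hm
  obtain ⟨w, hw⟩ := exists_weights hm fun i => if i = 1 then 1 else 0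
  choose q hq using fun k : Fin (m + 1) =>
    exists_weights hm fun i => (((k : ℕ) : ℝ) / (m : ℝ)) ^ (i + 1) / ((i : ℝ) + 1)
  have h1 : 0 ≤ ∑ k, |w k| := Finset.sum_nonneg fun k _ => abs_nonneg _
  have h2 : ∀ k, 0 ≤ ∑ l, |q k l| := fun k => Finset.sum_nonneg fun l _ => abs_nonneg _
  have h3 : ∀ k, ∑ l, |q k l| ≤ ∑ k, ∑ l, |q k l| := fun k =>
    Finset.single_le_sum (f := fun k => ∑ l, |q k l|) (fun k _ => h2 k) (Finset.mem_univ k)
  have h4 : 0 ≤ ∑ k, ∑ l, |q k l| := Finset.sum_nonneg fun k _ => h2 k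
  set c : ℝ := 1 + ∑ k, |w k| + ∑ k, ∑ l, |q k l| with hc
  refine ⟨w, q, c, by linarith, by simpa using hw 0 (by simp), by linarith,
    fun k => by linarith [h3 k], fun H _ _ _ g hg => ?_⟩
  set A : ℝ := ∫ s in (0 : ℝ)..1, ‖g (m + 1) s‖ with hA
  have hA0 : 0 ≤ A := intervalIntegral.integral_nonneg zero_le_one fun s _ => norm_nonneg _
  have hI : ∫⁻ τ in Icc (0 : ℝ) 1, ‖g (m + 1) τ‖ₑ = ENNReal.ofReal A := by
    rw [hA, intervalIntegral.integral_of_le zero_le_one, ← integral_Icc_eq_integral_Ioc,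
      ofReal_integral_norm_eq_lintegral_enorm (cont hg (m + 1)).integrableOn_Icc]
  have key : ∀ z : H, ‖z‖ ≤ c * A → ‖z‖ₑ ≤ ENNReal.ofReal c * ENNReal.ofReal A := fun z hz => by
    rw [← ENNReal.ofReal_mul (by linarith), ← ofReal_norm]
    exact ENNReal.ofReal_le_ofReal hz
  have hR := taylor m g hg
  rw [hI]
  refine ⟨key _ ?_, fun k => key _ ?_⟩
  · have e1 := sum_tay hw g
    have e2 : ∑ i ∈ Finset.range (m + 1),
        ((if i = 1 then (1 : ℝ) else 0) / (i.factorial : ℝ)) • g i 0 = g 1 0 := by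
      rw [Finset.sum_eq_single 1 (fun i _ hi => by simp [hi])
        fun h => absurd (Finset.mem_range.2 (by omega)) h]
      simp
    rw [← e2, ← e1, ← Finset.sum_sub_distrib]
    simp only [← smul_sub]
    refine (norm_wsum_le hm w (R := fun τ => g 0 τ - tay m g τ) hR).trans ?_
    exact mul_le_mul_of_nonneg_right (by linarith) hA0
  · set t : ℝ := ((k : ℕ) : ℝ) / (m : ℝ) with ht
    have ht0 : 0 ≤ t := by positivity
    have ht1 : t ≤ 1 := by
      rw [ht, div_le_one (by positivity)]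
      exact_mod_cast Nat.lt_succ_iff.1 k.2
    have hsub : Icc (0 : ℝ) t ⊆ Icc 0 1 := Icc_subset_Icc_right ht1
    have e1 := sum_tay (hq k) g
    have hct : ∀ i : ℕ, Continuous fun τ : ℝ => (τ ^ i / (i.factorial : ℝ)) • g i 0 := fun i => by
      fun_prop
    have e2 : ∫ τ in (0 : ℝ)..t, tay m g τ = ∑ i ∈ Finset.range (m + 1),
        (t ^ (i + 1) / ((i : ℝ) + 1) / (i.factorial : ℝ)) • g i 0 := by
      unfold tay
      rw [intervalIntegral.integral_finsetSum fun i _ => (hct i).intervalIntegrable _ _]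
      refine Finset.sum_congr rfl fun i _ => ?_
      rw [intervalIntegral.integral_smul_const, intervalIntegral.integral_div, integral_pow]
      simp
    have i0 : IntervalIntegrable (g 0) volume 0 t :=
      ((cont hg 0).mono hsub).intervalIntegrable_of_Icc ht0
    have i1 : IntervalIntegrable (tay m g) volume 0 t :=
      (continuous_finsetSum _ fun i _ => hct i).intervalIntegrable _ _
    have e3 : ∑ l, q k l • g 0 ((l : ℕ) / (m : ℝ)) - ∫ τ in (0 : ℝ)..t, g 0 τ =
        ∑ l : Fin (m + 1), q k l • (g 0 ((l : ℕ) / (m : ℝ)) - tay m g ((l : ℕ) / (m : ℝ))) -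
          ∫ τ in (0 : ℝ)..t, (g 0 τ - tay m g τ) := by
      rw [intervalIntegral.integral_sub i0 i1, e2, ← e1]
      simp only [smul_sub, Finset.sum_sub_distrib]
      abel
    rw [e3]
    have b1 := norm_wsum_le hm (q k) (R := fun τ => g 0 τ - tay m g τ) hR
    have b2 := intervalIntegral.norm_integral_le_of_norm_le_const (a := 0) (b := t) (C := A)
      (f := fun τ => g 0 τ - tay m g τ) fun τ hτ => by
        rw [uIoc_of_le ht0] at hτ
        exact hR τ (hsub (Ioc_subset_Icc_self hτ))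
    rw [sub_zero, abs_of_nonneg ht0] at b2
    have b3 : A * t ≤ A := mul_le_of_le_one_right hA0 ht1
    have b4 : (∑ l, |q k l|) * A ≤ (∑ k, ∑ l, |q k l|) * A :=
      mul_le_mul_of_nonneg_right (h3 k) hA0
    have b5 := mul_nonneg h1 hA0
    refine (norm_sub_le _ _).trans ?_
    rw [hc]
    linarith

end Crest.Agent.R285
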