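import Crest.Agent.R285.DefsP

/-!
# Row 285 (S0430): the calculus of approximate realisations
-/

set_option autoImplicit false

open MeasureTheory ProbabilityTheory Set
open scoped ENNReal NNReal ContDiff RealInnerProductSpace
open Crest.OracleSampling

noncomputable section

namespace Crest.Agent.R285

variable {d : ℕ}

namespace RealAux

theorem lip_meas {ψ : E d → ℝ≥0∞} {L : ℝ≥0} (h : ∀ x y, ψ x ≤ ψ y + L * edist x y) :
    Measurable ψ :=
  (continuous_of_le_add_edist L ENNReal.coe_ne_top h).measurable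

theorem meas_aff (m : E d) (a : ℝ) : Measurable fun w : E d => m + a • w := by fun_prop

instance gauss_prob (m : E d) (v : ℝ) : IsProbabilityMeasure (gauss m v) :=
  Measure.isProbabilityMeasure_map (meas_aff m _).aemeasurable

theorem lintegral_gauss {ψ : E d → ℝ≥0∞} (hψ : Measurable ψ) (m : E d) (v : ℝ) :
    ∫⁻ x, ψ x ∂(gauss m v) = ∫⁻ w, ψ (m + √v • w) ∂(gam d) :=
  lintegral_map hψ (meas_aff m _)

theorem wle_refl (μ : Measure (E d)) (η : ℝ) : WLe μ μ η := fun _ _ _ => le_self_add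

theorem wle_mono {μ ν : Measure (E d)} {η η' : ℝ} (h : WLe μ ν η) (hη : η ≤ η') : WLe μ ν η' :=
  fun ψ L hψ => (h ψ L hψ).trans (by gcongr)

theorem wle_trans {μ ν ξ : Measure (E d)} {η η' : ℝ} (h : WLe μ ν η) (h' : WLe ν ξ η')
    (hη : 0 ≤ η) (hη' : 0 ≤ η') : WLe μ ξ (η + η') := fun ψ L hψ => by
  refine (h ψ L hψ).trans ?_
  rw [ENNReal.ofReal_add hη hη', mul_add, add_comm (L * ENNReal.ofReal η), ← add_assoc]
  gcongr
  exact h' ψ L hψ

theorem couple {Ω : Type} [MeasurableSpace Ω] (P : Measure Ω) {f g : Ω → E d} {η : ℝ}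
    (hf : Measurable f) (hg : Measurable g) (h : ∫⁻ o, ‖f o - g o‖ₑ ∂P ≤ ENNReal.ofReal η) :
    WLe (P.map f) (P.map g) η := fun ψ L hψ => by
  have hm := lip_meas hψ
  rw [lintegral_map hm hf, lintegral_map hm hg]
  calc ∫⁻ o, ψ (f o) ∂P ≤ ∫⁻ o, (ψ (g o) + L * ‖f o - g o‖ₑ) ∂P :=
        lintegral_mono fun o => by simpa only [edist_eq_enorm_sub] using hψ (f o) (g o)
    _ = ∫⁻ o, ψ (g o) ∂P + L * ∫⁻ o, ‖f o - g o‖ₑ ∂P := by
        rw [lintegral_add_left (f := fun o => ψ (g o)) (hm.comp hg),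
          lintegral_const_mul _ (f := fun o => ‖f o - g o‖ₑ) (hf.sub hg).enorm]
    _ ≤ _ := by gcongr

theorem gauss_shift (a b : E d) (v : ℝ) : WLe (gauss a v) (gauss b v) ‖a - b‖ := by
  refine couple (gam d) (meas_aff a _) (meas_aff b _) ?_
  simp

theorem gsum (hG : StmtGauss) {Ω : Type} [MeasurableSpace Ω] (P : Measure Ω)
    [IsProbabilityMeasure P] {h : Ω → E d} (c : E d) (σ : ℝ) {v : ℝ} (hh : Measurable h)
    (hP : P.map h = gam d) (hv : 0 ≤ v) :
    (P.prod (gam d)).map (fun o => c + σ • h o.1 + √v • o.2) = gauss c (σ ^ 2 + v) := by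
  have e1 : (P.prod (gam d)).map (Prod.map h id) = (gam d).prod (gam d) := by
    rw [← Measure.map_prod_map _ _ hh measurable_id, hP, Measure.map_id]
  have e2 := hG.rot d σ √v
  rw [Real.sq_sqrt hv] at e2
  have e3 : gauss c (σ ^ 2 + v) =
      ((gam d).map fun w => √(σ ^ 2 + v) • w).map fun w => c + w := by
    rw [Measure.map_map (by fun_prop) (by fun_prop)]
    rfl
  rw [e3, ← e2, ← e1, Measure.map_map (by fun_prop) (by fun_prop),
    Measure.map_map (by fun_prop) (hh.prodMap measurable_id)]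
  congr 1
  ext o : 1
  simp [add_assoc]

theorem lintegral_conv (hG : StmtGauss) {ψ : E d → ℝ≥0∞} (hψ : Measurable ψ) (m₁ m₂ : E d)
    {v₁ v₂ : ℝ} (h₁ : 0 ≤ v₁) (h₂ : 0 ≤ v₂) :
    ∫⁻ y, ∫⁻ z, ψ (y + z) ∂(gauss m₂ v₂) ∂(gauss m₁ v₁) =
      ∫⁻ x, ψ x ∂(gauss (m₁ + m₂) (v₁ + v₂)) := by
  have e := gsum hG (gam d) (h := id) (m₁ + m₂) √v₁ measurable_id Measure.map_id h₂
  rw [Real.sq_sqrt h₁] at e
  rw [← e, lintegral_map hψ (by fun_prop), lintegral_prod _ (by fun_prop),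
    lintegral_gauss (Measurable.lintegral_prod_right (by fun_prop))]
  refine lintegral_congr fun y => ?_
  rw [lintegral_gauss (by fun_prop)]
  refine lintegral_congr fun z => ?_
  congr 1
  simp only [id]
  abel

theorem lip_conv {ψ : E d → ℝ≥0∞} {L : ℝ≥0} (hψ : ∀ x y, ψ x ≤ ψ y + L * edist x y)
    (ν : Measure (E d)) [IsProbabilityMeasure ν] (x y : E d) :
    ∫⁻ z, ψ (x + z) ∂ν ≤ ∫⁻ z, ψ (y + z) ∂ν + L * edist x y := by
  calc ∫⁻ z, ψ (x + z) ∂ν ≤ ∫⁻ z, (ψ (y + z) + L * edist x y) ∂ν :=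
        lintegral_mono fun z => by simpa only [edist_add_right] using hψ (x + z) (y + z)
    _ = _ := by rw [lintegral_add_right _ measurable_const]; simp

end RealAux

open RealAux

theorem real_add (hG : StmtGauss) (hP : StmtProg) (d : ℕ) (X : Type) [MeasurableSpace X]
    (Q₁ Q₂ v₁ v₂ : ℝ) (m₁ m₂ : (E d → ℝ) → X → E d) (e₁ e₂ : (E d → ℝ) → X → ℝ) (h₁ : 0 ≤ v₁)
    (h₂ : 0 ≤ v₂) (he₁ : ∀ V, Admissible d V → ∀ x, 0 ≤ e₁ V x)
    (he₂ : ∀ V, Admissible d V → ∀ x, 0 ≤ e₂ V x)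
    (R₁ : Realizes Q₁ (fun V x => gauss (m₁ V x) v₁) e₁)
    (R₂ : Realizes Q₂ (fun V x => gauss (m₂ V x) v₂) e₂) :
    Realizes (Q₁ + Q₂) (fun V x => gauss (m₁ V x + m₂ V x) (v₁ + v₂))
      fun V x => e₁ V x + e₂ V x := by
  obtain ⟨q₁, K₁, hq₁, hK₁, hW₁⟩ := R₁
  obtain ⟨q₂, K₂, hq₂, hK₂, hW₂⟩ := R₂
  have hK₂' := hP.map d q₂ (X × E d) (E d) (E d) _ (fun p => p.1.2 + p.2) (by fun_prop)
    (hP.comap d q₂ X (X × E d) (E d) K₂ Prod.fst measurable_fst hK₂)
  refine ⟨q₁ + q₂, _, by push_cast; linarith, hP.bind d q₁ q₂ X (E d) (E d) K₁ _ hK₁ hK₂',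
    fun V hV x ψ L hψ => ?_⟩
  have hm := lip_meas hψ
  haveI := (hP.meas d q₁ X (E d) K₁ hK₁ V hV).2 x
  have hk : Measurable fun y : E d => (K₂ V x).map fun z => y + z :=
    (hP.meas d q₂ _ _ _ hK₂' V hV).1.comp measurable_prodMk_left
  simp only
  rw [Measure.lintegral_bind hk.aemeasurable hm.aemeasurable]
  calc ∫⁻ y, ∫⁻ z, ψ z ∂((K₂ V x).map fun z => y + z) ∂(K₁ V x)
      ≤ ∫⁻ y, (∫⁻ z, ψ (y + z) ∂(gauss (m₂ V x) v₂) + L * ENNReal.ofReal (e₂ V x)) ∂(K₁ V x) := by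
        refine lintegral_mono fun y => ?_
        rw [lintegral_map hm (by fun_prop)]
        exact hW₂ V hV x (fun z => ψ (y + z)) L fun a b => by
          simpa only [edist_add_left] using hψ (y + a) (y + b)
    _ = ∫⁻ y, ∫⁻ z, ψ (y + z) ∂(gauss (m₂ V x) v₂) ∂(K₁ V x) + L * ENNReal.ofReal (e₂ V x) := by
        rw [lintegral_add_right _ measurable_const]; simp
    _ ≤ ∫⁻ y, ∫⁻ z, ψ (y + z) ∂(gauss (m₂ V x) v₂) ∂(gauss (m₁ V x) v₁) +
          L * ENNReal.ofReal (e₁ V x) + L * ENNReal.ofReal (e₂ V x) := by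
        gcongr
        exact hW₁ V hV x _ L (lip_conv hψ _)
    _ = _ := by
        rw [lintegral_conv hG hm _ _ h₁ h₂, ENNReal.ofReal_add (he₁ V hV x) (he₂ V hV x), mul_add,
          add_assoc]

theorem real_query (hP : StmtProg) (d : ℕ) (X : Type) [MeasurableSpace X] (ap : X → E d)
    (κ v : ℝ) (m : (E d → ℝ) → X → E d) (hap : Measurable ap) :
    Realizes 1 (fun V x => gauss (κ • m V x) v)
      fun V x => |κ| * ‖m V x - gradient V (ap x)‖ := by
  have hK₂ := hP.seed d (X × E d) (E d) (E d) (gam d) (fun p => κ • p.1.2 + √v • p.2)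
    (by fun_prop)
  refine ⟨1 + 0, _, by simp, hP.bind d 1 0 X (E d) (E d) _ _ (hP.query d X ap hap) hK₂,
    fun V hV x => ?_⟩
  have hk : Measurable fun y : E d => (gam d).map fun o => κ • y + √v • o :=
    (hP.meas d 0 _ _ _ hK₂ V hV).1.comp (measurable_prodMk_left (x := x))
  simp only
  rw [Measure.dirac_bind hk]
  refine wle_mono (gauss_shift (κ • gradient V (ap x)) (κ • m V x) v) (le_of_eq ?_)
  rw [← smul_sub, norm_smul, norm_sub_rev, Real.norm_eq_abs]

theorem real_bind (hG : StmtGauss) (hP : StmtProg) (d : ℕ) (X : Type) [MeasurableSpace X]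
    (Q₁ Q₂ v₁ v₂ L L' b₁ b₂ : ℝ)
    (m : (E d → ℝ) → X → E d) (m' : (E d → ℝ) → X × E d × E d → E d)
    (e₁ A : (E d → ℝ) → X → ℝ) (e₂ : (E d → ℝ) → X × E d × E d → ℝ)
    (hL : 0 ≤ L) (hL' : 0 ≤ L') (hb₁ : 0 ≤ b₁) (hb₂ : 0 ≤ b₂)
    (he₁ : ∀ V, Admissible d V → ∀ x, 0 ≤ e₁ V x) (hA : ∀ V, Admissible d V → ∀ x, 0 ≤ A V x)
    (hm' : ∀ V, Admissible d V → ∀ x P z P' z',
      ‖m' V (x, P, z) - m' V (x, P', z')‖ ≤ L * ‖P - P'‖ + L' * ‖z - z'‖)
    (he₂ : ∀ V, Admissible d V → ∀ x P z, e₂ V (x, P, z) ≤ A V x + b₁ * ‖P - m V x‖ + b₂ * ‖z‖)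
    (R₁ : Realizes Q₁ (fun V x => gauss (m V x) v₁) e₁)
    (R₂ : Realizes Q₂ (fun V x => gauss (m' V x) v₂) e₂) :
    Realizes (Q₁ + Q₂)
      (fun V x => (((gam d).prod (gam d)).prod (gam d)).map
        fun o => m' V (x, m V x + √v₁ • o.1.1, o.1.2) + √v₂ • o.2)
      fun V x => (L + b₁) * e₁ V x + A V x + (b₁ * √v₁ + b₂) * √d := by
  obtain ⟨q₁, K₁, hq₁, hK₁, hW₁⟩ := R₁
  obtain ⟨q₂, K₂, hq₂, hK₂, hW₂⟩ := R₂
  have hK₂' : Prog (0 + q₂) fun V (p : X × E d) => (gam d).bind fun z => K₂ V (p.1, p.2, z) := by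
    have := hP.bind d 0 q₂ (X × E d) (E d) (E d) _ _
      (hP.seed d (X × E d) (E d) (E d) (gam d) Prod.snd measurable_snd)
      (hP.comap d q₂ (X × E d × E d) ((X × E d) × E d) (E d) K₂ (fun p => (p.1.1, p.1.2, p.2))
        (by fun_prop) hK₂)
    simpa only [Measure.map_id'] using this
  refine ⟨q₁ + (0 + q₂), _, by push_cast; linarith,
    hP.bind d q₁ (0 + q₂) X (E d) (E d) K₁ _ hK₁ hK₂', fun V hV x ψ L'' hψ => ?_⟩
  have hm := lip_meas hψ
  have hk : Measurable fun P : E d => (gam d).bind fun z => K₂ V (x, P, z) := by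
    simpa only [Function.comp_def] using
      (hP.meas d (0 + q₂) _ _ _ hK₂' V hV).1.comp (measurable_prodMk_left (x := x))
  have hk₂ : ∀ P : E d, Measurable fun z : E d => K₂ V (x, P, z) := fun P => by
    have h1 : Measurable fun z : E d => (x, P, z) := by fun_prop
    simpa only [Function.comp_def] using (hP.meas d q₂ _ _ _ hK₂ V hV).1.comp h1
  have hc : Continuous fun p : E d × E d => m' V (x, p.1, p.2) := by
    refine (LipschitzWith.of_dist_le_mul (K := (L + L').toNNReal) fun p p' => ?_).continuous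
    rw [dist_eq_norm, Real.coe_toNNReal _ (add_nonneg hL hL')]
    refine (hm' V hV x _ _ _ _).trans ?_
    have h1 : ‖p.1 - p'.1‖ ≤ dist p p' := by rw [← dist_eq_norm]; exact le_max_left _ _
    have h2 : ‖p.2 - p'.2‖ ≤ dist p p' := by rw [← dist_eq_norm]; exact le_max_right _ _
    have h3 := mul_le_mul_of_nonneg_left h1 hL
    have h4 := mul_le_mul_of_nonneg_left h2 hL'
    linarith
  have hmm : Measurable fun p : E d × E d => m' V (x, p.1, p.2) := hc.measurable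
  let G : E d → E d → ℝ≥0∞ := fun P z => ∫⁻ w, ψ (m' V (x, P, z) + √v₂ • w) ∂(gam d)
  let Ψ : E d → ℝ≥0∞ := fun P => ∫⁻ z, (G P z +
    L'' * ENNReal.ofReal (A V x + b₁ * ‖P - m V x‖ + b₂ * ‖z‖)) ∂(gam d)
  have hΨ : ∀ P P', Ψ P ≤ Ψ P' + (L'' * (L + b₁).toNNReal : ℝ≥0) * edist P P' := by
    intro P P'
    have h1 : ∀ z, G P z ≤ G P' z + L'' * ENNReal.ofReal (L * ‖P - P'‖) := by
      intro z
      have h2 := gauss_shift (m' V (x, P, z)) (m' V (x, P', z)) v₂ ψ L'' hψ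
      rw [lintegral_gauss hm, lintegral_gauss hm] at h2
      refine h2.trans ?_
      have h3 := hm' V hV x P z P' z
      rw [sub_self, norm_zero, mul_zero, add_zero] at h3
      simp only [G]
      gcongr
    have h2 : ∀ z : E d, ENNReal.ofReal (A V x + b₁ * ‖P - m V x‖ + b₂ * ‖z‖) ≤
        ENNReal.ofReal (A V x + b₁ * ‖P' - m V x‖ + b₂ * ‖z‖) +
          ENNReal.ofReal (b₁ * ‖P - P'‖) := by
      intro z
      have h3 := hA V hV x
      rw [← ENNReal.ofReal_add (by positivity) (by positivity)]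
      refine ENNReal.ofReal_le_ofReal ?_
      have h4 : ‖P - m V x‖ ≤ ‖P' - m V x‖ + ‖P - P'‖ := by
        rw [add_comm]; exact norm_sub_le_norm_sub_add_norm_sub _ _ _
      have h5 := mul_le_mul_of_nonneg_left h4 hb₁
      linarith
    have h3 : ((L'' * (L + b₁).toNNReal : ℝ≥0) : ℝ≥0∞) * edist P P' =
        L'' * ENNReal.ofReal (L * ‖P - P'‖) + L'' * ENNReal.ofReal (b₁ * ‖P - P'‖) := by
      rw [← mul_add, ← ENNReal.ofReal_add (by positivity) (by positivity), ← add_mul,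
        ENNReal.ofReal_mul (add_nonneg hL hb₁), edist_dist, dist_eq_norm, ENNReal.coe_mul,
        mul_assoc]
      rfl
    calc Ψ P ≤ ∫⁻ z, (G P' z + L'' * ENNReal.ofReal (A V x + b₁ * ‖P' - m V x‖ + b₂ * ‖z‖) +
          (L'' * (L + b₁).toNNReal : ℝ≥0) * edist P P') ∂(gam d) := by
          refine lintegral_mono fun z => ?_
          rw [h3]
          calc G P z + L'' * ENNReal.ofReal (A V x + b₁ * ‖P - m V x‖ + b₂ * ‖z‖)
              ≤ (G P' z + L'' * ENNReal.ofReal (L * ‖P - P'‖)) +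
                L'' * (ENNReal.ofReal (A V x + b₁ * ‖P' - m V x‖ + b₂ * ‖z‖) +
                  ENNReal.ofReal (b₁ * ‖P - P'‖)) := by
                gcongr
                · exact h1 z
                · exact h2 z
            _ = _ := by ring
      _ = _ := by rw [lintegral_add_right _ measurable_const]; simp [Ψ]
  have hGm : Measurable fun p : E d × E d => G p.1 p.2 :=
    Measurable.lintegral_prod_right' (f := fun q : (E d × E d) × E d =>
      ψ (m' V (x, q.1.1, q.1.2) + √v₂ • q.2))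
      (hm.comp ((hmm.comp measurable_fst).add (by fun_prop)))
  have hν : ∫⁻ u, ψ u ∂((((gam d).prod (gam d)).prod (gam d)).map
        fun o => m' V (x, m V x + √v₁ • o.1.1, o.1.2) + √v₂ • o.2) =
      ∫⁻ y, ∫⁻ z, G (m V x + √v₁ • y) z ∂(gam d) ∂(gam d) := by
    have h1 : Measurable fun o : (E d × E d) × E d =>
        m' V (x, m V x + √v₁ • o.1.1, o.1.2) + √v₂ • o.2 :=
      (hmm.comp (f := fun o : (E d × E d) × E d => (m V x + √v₁ • o.1.1, o.1.2))
        (by fun_prop)).add (by fun_prop)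
    rw [lintegral_map hm h1, lintegral_prod (fun o : (E d × E d) × E d =>
      ψ (m' V (x, m V x + √v₁ • o.1.1, o.1.2) + √v₂ • o.2)) (hm.comp h1).aemeasurable]
    exact lintegral_prod (fun p : E d × E d => G (m V x + √v₁ • p.1) p.2)
      (hGm.comp (f := fun p : E d × E d => (m V x + √v₁ • p.1, p.2)) (by fun_prop)).aemeasurable
  have hE : ∫⁻ y, ∫⁻ z, ENNReal.ofReal (A V x + b₁ * ‖m V x + √v₁ • y - m V x‖ + b₂ * ‖z‖)
      ∂(gam d) ∂(gam d) ≤ ENNReal.ofReal (A V x + (b₁ * √v₁ + b₂) * √d) := by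
    have h3 := hA V hV x
    have h1 : ∀ y z : E d, ENNReal.ofReal (A V x + b₁ * ‖m V x + √v₁ • y - m V x‖ + b₂ * ‖z‖) =
        ENNReal.ofReal (A V x) + ENNReal.ofReal (b₁ * √v₁) * ‖y‖ₑ + ENNReal.ofReal b₂ * ‖z‖ₑ := by
      intro y z
      rw [add_sub_cancel_left, norm_smul, Real.norm_eq_abs, abs_of_nonneg (Real.sqrt_nonneg _),
        ← mul_assoc, ENNReal.ofReal_add (by positivity) (by positivity),
        ENNReal.ofReal_add h3 (by positivity), ENNReal.ofReal_mul (by positivity),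
        ENNReal.ofReal_mul hb₂, ofReal_norm, ofReal_norm]
    simp only [h1]
    have h2 : ∀ y : E d, ∫⁻ z, (ENNReal.ofReal (A V x) + ENNReal.ofReal (b₁ * √v₁) * ‖y‖ₑ +
        ENNReal.ofReal b₂ * ‖z‖ₑ) ∂(gam d) = ENNReal.ofReal (b₁ * √v₁) * ‖y‖ₑ +
          (ENNReal.ofReal (A V x) + ENNReal.ofReal b₂ * ∫⁻ z, ‖z‖ₑ ∂(gam d)) := by
      intro y
      rw [lintegral_add_left measurable_const, lintegral_const_mul _ measurable_enorm]
      simp only [lintegral_const, measure_univ, mul_one]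
      ring
    simp only [h2]
    rw [lintegral_add_right _ measurable_const, lintegral_const_mul _ measurable_enorm]
    simp only [lintegral_const, measure_univ, mul_one]
    calc _ ≤ ENNReal.ofReal (b₁ * √v₁) * ENNReal.ofReal √d +
          (ENNReal.ofReal (A V x) + ENNReal.ofReal b₂ * ENNReal.ofReal √d) := by
          gcongr <;> exact hG.abs d
      _ = _ := by
          rw [← ENNReal.ofReal_mul (by positivity), ← ENNReal.ofReal_mul hb₂,
            ← ENNReal.ofReal_add h3 (by positivity),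
            ← ENNReal.ofReal_add (by positivity) (by positivity)]
          congr 1
          ring
  simp only
  rw [Measure.lintegral_bind hk.aemeasurable hm.aemeasurable, hν]
  calc ∫⁻ P, ∫⁻ u, ψ u ∂((gam d).bind fun z => K₂ V (x, P, z)) ∂(K₁ V x)
      ≤ ∫⁻ P, Ψ P ∂(K₁ V x) := by
        refine lintegral_mono fun P => ?_
        rw [Measure.lintegral_bind (hk₂ P).aemeasurable hm.aemeasurable]
        refine lintegral_mono fun z => ?_
        have h1 := hW₂ V hV (x, P, z) ψ L'' hψ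
        rw [lintegral_gauss hm] at h1
        refine h1.trans ?_
        simp only [G]
        gcongr
        exact he₂ V hV x P z
    _ ≤ ∫⁻ P, Ψ P ∂(gauss (m V x) v₁) +
          (L'' * (L + b₁).toNNReal : ℝ≥0) * ENNReal.ofReal (e₁ V x) := hW₁ V hV x Ψ _ hΨ
    _ = ∫⁻ y, ∫⁻ z, G (m V x + √v₁ • y) z ∂(gam d) ∂(gam d) +
          L'' * ∫⁻ y, ∫⁻ z, ENNReal.ofReal
            (A V x + b₁ * ‖m V x + √v₁ • y - m V x‖ + b₂ * ‖z‖) ∂(gam d) ∂(gam d) +
          L'' * ENNReal.ofReal ((L + b₁) * e₁ V x) := by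
        rw [lintegral_gauss (lip_meas hΨ), ENNReal.ofReal_mul (add_nonneg hL hb₁),
          ENNReal.coe_mul, mul_assoc]
        congr 1
        have h1 : Measurable fun p : E d × E d =>
            ENNReal.ofReal (A V x + b₁ * ‖m V x + √v₁ • p.1 - m V x‖ + b₂ * ‖p.2‖) := by
          fun_prop
        rw [← lintegral_const_mul _ h1.lintegral_prod_right',
          ← lintegral_add_right _ (h1.lintegral_prod_right'.const_mul _)]
        refine lintegral_congr fun y => ?_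
        have h2 : Measurable fun z : E d =>
            ENNReal.ofReal (A V x + b₁ * ‖m V x + √v₁ • y - m V x‖ + b₂ * ‖z‖) := by
          fun_prop
        simp only [Ψ]
        rw [lintegral_add_right _ (h2.const_mul _), lintegral_const_mul _ h2]
    _ ≤ ∫⁻ y, ∫⁻ z, G (m V x + √v₁ • y) z ∂(gam d) ∂(gam d) +
          L'' * ENNReal.ofReal (A V x + (b₁ * √v₁ + b₂) * √d) +
          L'' * ENNReal.ofReal ((L + b₁) * e₁ V x) := by gcongr
    _ = _ := by
        have h1 := hA V hV x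
        have h2 := he₁ V hV x
        rw [add_assoc, ← mul_add, ← ENNReal.ofReal_add (by positivity) (by positivity)]
        congr 3
        ring

theorem realStmt (hG : StmtGauss) (hP : StmtProg) : StmtReal where
  pure d X _ f v hf :=
    ⟨0, _, by simp, hP.seed d X (E d) (E d) (gam d) (fun p => f p.1 + √v • p.2) (by fun_prop),
      fun _ _ _ => wle_refl _ _⟩
  add := real_add hG hP
  query := real_query hP
  mono d X _ Q Q' ν ν' e e' hQ hν he := fun ⟨q, K, hq, hK, hW⟩ =>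
    ⟨q, K, hq.trans hQ, hK, fun V hV x => hν V hV x ▸ wle_mono (hW V hV x) (he V hV x)⟩
  trans d X _ Q ν ν' e e' he he' hν := fun ⟨q, K, hq, hK, hW⟩ =>
    ⟨q, K, hq, hK, fun V hV x => wle_trans (hW V hV x) (hν V hV x) (he V hV x) (he' V hV x)⟩
  bind := real_bind hG hP
  couple d Ω _ P f g η hf hg h := couple P hf hg h
  gsum d Ω _ P _ h c σ v hh hP' hv := gsum hG P c σ hh hP' hv

end Crest.Agent.R285
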