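import Crest.Agent.R285.D2

/-!
# Row 285: dimension-free regularity along the flows
-/

set_option autoImplicit false

open MeasureTheory ProbabilityTheory Set
open scoped ENNReal NNReal ContDiff RealInnerProductSpace
open Crest.OracleSampling

noncomputable section

namespace Crest.Agent.R285

namespace Reg

open D2

variable {d : ℕ}

/-- the normalised derivation -/
def Gh (I : Inst) (f : Ph I.d → ℝ) (p : Ph I.d) : ℝ :=
  I.c1 * Lie (VV I.U false) f p + I.c2 * Lie (VV I.U true) f p + I.c3 * (I.δ⁻¹ * Lie (VB I.U) f p)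

lemma DC_Gh (h2 : StmtD2) {j : ℕ} {S : Type} {T : PT S} (hT : DC j S T) (n : ℕ) :
    DC (j + n) S fun I u => (Gh I)^[n] (T I u) := by
  induction n with
  | zero => exact hT
  | succ n ih =>
    refine DC.congr (Equiv.refl _) ((((h2.D _ _ _ ih false).smul Inst.c1 1 Inst.h1).add
      ((h2.D _ _ _ ih true).smul Inst.c2 1 Inst.h2)).add
      ((h2.B _ _ _ ih).smul Inst.c3 1 Inst.h3)) fun I u p _ => ?_
    rw [Function.iterate_succ_apply']
    rfl

lemma sm_Lie {Y : Type} [NormedAddCommGroup Y] [NormedSpace ℝ Y] {W : Ph d → Ph d}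
    {g : Ph d → Y} (hW : ContDiffOn ℝ ∞ W {p | p.1 ∈ OO}) (hg : ContDiffOn ℝ ∞ g {p | p.1 ∈ OO}) :
    ContDiffOn ℝ ∞ (Lie W g) {p | p.1 ∈ OO} :=
  (hg.fderiv_of_isOpen isOpen_O (m := ∞) (by simp)).clm_apply hW

lemma Lie_apply (W : Ph d → Ph d) {g : Ph d → E d} (hg : ContDiffOn ℝ ∞ g {p | p.1 ∈ OO})
    {p : Ph d} (hp : p.1 ∈ OO) (i : Fin d) : Lie W g p i = Lie W (fun p => g p i) p := by
  have := ((EuclideanSpace.proj i : E d →L[ℝ] ℝ).hasFDerivAt.comp p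
    (diffAt hg hp).hasFDerivAt).fderiv
  rw [Lie, Lie, show (fun p => g p i) = (EuclideanSpace.proj i : E d →L[ℝ] ℝ) ∘ g from rfl, this]
  rfl

lemma sm_V {U : E d → ℝ} (K : Calc U) (β : Bool) : ContDiffOn ℝ ∞ (VV U β) {p | p.1 ∈ OO} := by
  cases β
  · exact contDiffOn_const.prodMk (K.smG.neg.prodMk contDiffOn_const)
  · exact contDiffOn_const.prodMk (contDiffOn_const.prodMk K.smG.neg)

lemma sm_VB {U : E d → ℝ} (K : Calc U) : ContDiffOn ℝ ∞ (VB U) {p | p.1 ∈ OO} :=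
  contDiffOn_const.prodMk ((sm_Lie (sm_V K true) K.smG).neg.prodMk (sm_Lie (sm_V K false) K.smG))

lemma sm_W {U : E d → ℝ} (K : Calc U) (α : ℝ × ℝ) (lam : ℝ) :
    ContDiffOn ℝ ∞ (WF U α lam) {p | p.1 ∈ OO} :=
  (((sm_V K false).const_smul α.1).add ((sm_V K true).const_smul α.2)).add
    ((sm_VB K).const_smul lam)

lemma Lie_W (I : Inst) {α : ℝ × ℝ} {lam ε : ℝ} (e1 : α.1 = ε * I.c1) (e2 : α.2 = ε * I.c2)
    (e3 : lam = ε * I.c3 * I.δ⁻¹) (f : Ph I.d → ℝ) (p : Ph I.d) :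
    Lie (WF I.U α lam) f p = ε * Gh I f p := by
  simp only [Lie, WF, Gh, VV, map_add, map_smul, smul_eq_mul, cond_true, cond_false, e1, e2, e3]
  ring

lemma iter (I : Inst) (K : Calc I.U) {α : ℝ × ℝ} {lam ε : ℝ} (e1 : α.1 = ε * I.c1)
    (e2 : α.2 = ε * I.c2) (e3 : lam = ε * I.c3 * I.δ⁻¹) {g : Ph I.d → E I.d}
    (hg : ContDiffOn ℝ ∞ g {p | p.1 ∈ OO}) {f : Fin I.d → Ph I.d → ℝ} (hf : ∀ i, Sm (f i)) {κ : ℝ}
    (h : ∀ i, ∀ p : Ph I.d, p.1 ∈ OO → g p i = κ * f i p) (n : ℕ) :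
    ContDiffOn ℝ ∞ ((Lie (WF I.U α lam))^[n] g) {p | p.1 ∈ OO} ∧ (∀ i, Sm ((Gh I)^[n] (f i))) ∧
      ∀ i, ∀ p : Ph I.d, p.1 ∈ OO →
        (Lie (WF I.U α lam))^[n] g p i = ε ^ n * κ * (Gh I)^[n] (f i) p := by
  induction n with
  | zero => exact ⟨hg, hf, by simpa using h⟩
  | succ n ih =>
    obtain ⟨h1, h2, h3⟩ := ih
    simp only [Function.iterate_succ_apply']
    refine ⟨sm_Lie (sm_W K α lam) h1, fun i => ?_, fun i p hp => ?_⟩
    · exact sm_add (sm_add (sm_mul (sm_const _) (K.sm_D _ _ (h2 i)))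
        (sm_mul (sm_const _) (K.sm_D _ _ (h2 i))))
        (sm_mul (sm_const _) (sm_mul (sm_const _) (K.sm_B _ (h2 i))))
    · rw [Lie_apply _ h1 hp, Lie_congr _ (h3 i) hp, Lie, fd_cmul _ (h2 i) hp, ← Lie,
        Lie_W I e1 e2 e3]
      ring

lemma l1_le {X : Type} [MeasurableSpace X] (ν : Measure X) [IsZeroOrProbabilityMeasure ν]
    {g : X → E d} {T : (Unit → Fin d) → X → ℝ} {κ C : ℝ} (hκ : 0 ≤ κ) (hC : 0 ≤ C)
    (h : ∀ u x, g x (u ()) = κ * T u x)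
    (hT : ∫⁻ x, ENNReal.ofReal (∑ u, T u x ^ 2) ∂ν ≤ ENNReal.ofReal (C * d)) :
    ∫⁻ x, ‖g x‖ₑ ∂ν ≤ ENNReal.ofReal ((C + 1) * κ * √d) := by
  rcases Nat.eq_zero_or_pos d with rfl | hd
  · have : ∀ x, g x = 0 := fun x => Subsingleton.elim _ _
    simp [this]
  have hs : 0 < √(d : ℝ) := Real.sqrt_pos.2 (by exact_mod_cast hd)
  have h1 : ∀ x, ‖g x‖ₑ ≤ ENNReal.ofReal (κ / √d) * ENNReal.ofReal (∑ u, T u x ^ 2)
      + ENNReal.ofReal (κ * √d) := by
    intro x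
    have h0 : 0 ≤ ∑ u, T u x ^ 2 := by positivity
    rw [← ENNReal.ofReal_mul (by positivity), ← ENNReal.ofReal_add (by positivity) (by positivity),
      ← ofReal_norm]
    refine ENNReal.ofReal_le_ofReal ?_
    have h2 : ‖g x‖ = κ * √(∑ u, T u x ^ 2) := by
      rw [EuclideanSpace.norm_eq, ← Real.sqrt_sq hκ, ← Real.sqrt_mul (by positivity),
        Finset.mul_sum]
      congr 1
      refine (Fintype.sum_equiv (Equiv.funUnique Unit (Fin d)) _ _ fun u => ?_).symm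
      rw [← mul_pow, ← h, Real.norm_eq_abs, sq_abs]
      rfl
    rw [h2, div_mul_eq_mul_div, mul_div_assoc, ← mul_add]
    refine mul_le_mul_of_nonneg_left ?_ hκ
    rw [div_add' _ _ _ hs.ne', le_div_iff₀ hs]
    nlinarith [Real.sq_sqrt h0, sq_nonneg (√(∑ u, T u x ^ 2) - √d), Real.sqrt_nonneg (∑ u, T u x ^ 2)]
  refine (lintegral_mono h1).trans ?_
  rw [lintegral_add_right _ measurable_const, lintegral_const_mul' _ _ ENNReal.ofReal_ne_top,
    lintegral_const]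
  refine (add_le_add (mul_le_mul_right hT _) (mul_le_of_le_one_right zero_le prob_le_one)).trans ?_
  rw [← ENNReal.ofReal_mul (by positivity), ← ENNReal.ofReal_add (by positivity) (by positivity)]
  refine ENNReal.ofReal_le_ofReal (le_of_eq ?_)
  nth_rewrite 2 [← Real.mul_self_sqrt (Nat.cast_nonneg d)]
  field_simp

end Reg

open D2 Reg

theorem regStmt (hC : StmtCalc) (h1 : StmtD1) (h2 : StmtD2) (h4 : StmtL4) (_hB : StmtBasic) :
    StmtReg := by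
  intro n
  have hW : DC 1 Unit fun I u p =>
      I.c1 * (I.δ⁻¹ * Lie (VV I.U false) (fun p => Gp I.U p (u ())) p)
      + I.c2 * (I.δ⁻¹ * Lie (VV I.U true) (fun p => Gp I.U p (u ())) p)
      + I.c3 * (I.δ⁻¹ ^ 2 * Lie (VB I.U) (fun p => Gp I.U p (u ())) p) :=
    (((h2.initD false).smul Inst.c1 1 Inst.h1).add
      ((h2.initD true).smul Inst.c2 1 Inst.h2)).add (h2.initB.smul Inst.c3 1 Inst.h3)
  obtain ⟨C0, hC0, H0⟩ := h4 _ _ _ (DC_Gh h2 hW n)
  obtain ⟨C1, hC1, H1⟩ := h4 _ _ _ (DC_Gh h2 (h2.initD false) n)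
  obtain ⟨C2, hC2, H2⟩ := h4 _ _ _ (DC_Gh h2 (h2.initD true) n)
  obtain ⟨C3, hC3, H3⟩ := h4 _ _ _ (DC_Gh h2 h2.initB n)
  refine ⟨C0 + C1 + C2 + C3 + 1, fun d δ U hU hδ α lam ε hε ha1 ha2 hl a ha => ?_⟩
  have hδ0 := hU.pos
  let I : Inst := ⟨d, δ, U, hU, hδ, α.1 / ε, α.2 / ε, lam * δ / ε,
    by rw [abs_div, abs_of_pos hε, div_le_one hε]; exact ha1,
    by rw [abs_div, abs_of_pos hε, div_le_one hε]; exact ha2,
    by rw [abs_div, abs_of_pos hε, div_le_one hε, abs_mul, abs_of_pos hδ0]; exact hl⟩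
  have K : Calc U := hC _ _ _ hU
  have e1 : α.1 = ε * I.c1 := by simp only [I]; field_simp
  have e2 : α.2 = ε * I.c2 := by simp only [I]; field_simp
  have e3 : lam = ε * I.c3 * I.δ⁻¹ := by simp only [I]; field_simp
  have : IsZeroOrProbabilityMeasure (nu U a) := by unfold nu; infer_instance
  have key : ∀ (T : PT Unit) (j : ℕ) (C κ : ℝ) (g : Ph d → E d), DC j Unit T → 0 ≤ C →
      C ≤ C0 + C1 + C2 + C3 → 0 ≤ κ → ContDiffOn ℝ ∞ g {p | p.1 ∈ OO} →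
      (∀ i, ∀ p : Ph d, p.1 ∈ OO → g p i = κ * T I (fun _ => i) p) →
      ∫⁻ ζ, ENNReal.ofReal (∑ u, (Gh I)^[n] (T I u) (a, ζ) ^ 2) ∂(nu U a)
        ≤ ENNReal.ofReal (C * d) →
      ∫⁻ ζ, ‖(Lie (WF U α lam))^[n] g (a, ζ)‖ₑ ∂(nu U a) ≤
        ENNReal.ofReal ((C0 + C1 + C2 + C3 + 1) * (ε ^ n * κ) * √d) := by
    intro T j C κ g hT hC0' hCle hκ hg h H
    obtain ⟨-, -, h3⟩ := iter I K e1 e2 e3 hg (f := fun i => T I fun _ => i)
      (fun i => (h1.sm _ _ _ hT).2 I _) h n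
    refine (l1_le (nu U a) (κ := ε ^ n * κ) (by positivity) hC0'
      (T := fun u ζ => (Gh I)^[n] (T I u) (a, ζ)) (fun u ζ => h3 (u ()) (a, ζ) ha) H).trans ?_
    exact ENNReal.ofReal_le_ofReal (by gcongr)
  refine ⟨?_, ?_, ?_, ?_⟩
  · rw [Function.iterate_succ_apply]
    refine (key _ _ C0 (ε * δ) _ hW hC0 (by linarith) (by positivity)
      (sm_Lie (sm_W K α lam) K.smG) (fun i p hp => ?_) (H0 I a ha)).trans (le_of_eq ?_)
    · rw [Lie_apply _ K.smG hp, Lie_W I e1 e2 e3]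
      simp only [Gh, I]
      field_simp
    · congr 1; ring
  · refine (key _ _ C1 δ _ (h2.initD false) hC1 (by linarith) hδ0.le
      (sm_Lie (sm_V K false) K.smG) (fun i p hp => ?_) (H1 I a ha)).trans (le_of_eq ?_)
    · rw [Lie_apply _ K.smG hp]
      simp only [I]
      field_simp
    · congr 1; ring
  · refine (key _ _ C2 δ _ (h2.initD true) hC2 (by linarith) hδ0.le
      (sm_Lie (sm_V K true) K.smG) (fun i p hp => ?_) (H2 I a ha)).trans (le_of_eq ?_)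
    · rw [Lie_apply _ K.smG hp]
      simp only [I]
      field_simp
    · congr 1; ring
  · refine (key _ _ C3 (δ ^ 2) _ h2.initB hC3 (by linarith) (by positivity)
      (sm_Lie (sm_VB K) K.smG) (fun i p hp => ?_) (H3 I a ha)).trans (le_of_eq ?_)
    · rw [Lie_apply _ K.smG hp]
      simp only [I]
      field_simp
    · congr 1; ring

end Crest.Agent.R285
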