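import Crest.Agent.R285.Defs

/-! # Row 285: calculus of separable functions under the posterior expectation -/

set_option autoImplicit false

open MeasureTheory ProbabilityTheory Set
open scoped ENNReal NNReal ContDiff RealInnerProductSpace
open Crest.OracleSampling

noncomputable section

namespace Crest.Agent.R285

namespace SepAux

variable {d : ℕ}

section PG
variable {H : Type} [NormedAddCommGroup H]

theorem pg_const (c : ℝ) : PG fun _ : H => c := ⟨continuous_const, |c|, 0, fun _ => by simp⟩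

theorem pg_mul {f g : H → ℝ} (hf : PG f) (hg : PG g) : PG fun x => f x * g x := by
  obtain ⟨hf, C, k, hC⟩ := hf
  obtain ⟨hg, D, l, hD⟩ := hg
  refine ⟨hf.mul hg, C * D, k + l, fun x => ?_⟩
  rw [abs_mul, pow_add]
  calc |f x| * |g x| ≤ C * (1 + ‖x‖) ^ k * (D * (1 + ‖x‖) ^ l) :=
        mul_le_mul (hC x) (hD x) (abs_nonneg _) ((abs_nonneg _).trans (hC x))
    _ = _ := by ring

theorem pg_add {f g : H → ℝ} (hf : PG f) (hg : PG g) : PG fun x => f x + g x := by
  obtain ⟨hf, C, k, hC⟩ := hf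
  obtain ⟨hg, D, l, hD⟩ := hg
  refine ⟨hf.add hg, |C| + |D|, k + l, fun x => ?_⟩
  have h1 : (1 : ℝ) ≤ 1 + ‖x‖ := by linarith [norm_nonneg x]
  have h2 : (1 + ‖x‖) ^ k ≤ (1 + ‖x‖) ^ (k + l) := pow_le_pow_right₀ h1 (by omega)
  have h3 : (1 + ‖x‖) ^ l ≤ (1 + ‖x‖) ^ (k + l) := pow_le_pow_right₀ h1 (by omega)
  calc |f x + g x| ≤ |f x| + |g x| := abs_add_le _ _
    _ ≤ C * (1 + ‖x‖) ^ k + D * (1 + ‖x‖) ^ l := add_le_add (hC x) (hD x)
    _ ≤ |C| * (1 + ‖x‖) ^ (k + l) + |D| * (1 + ‖x‖) ^ (k + l) := by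
        gcongr
        · exact le_abs_self C
        · exact le_abs_self D
    _ = _ := by ring

end PG

theorem pg_affine {f : E d → ℝ} (hf : PG f) (x : E d) (s : ℝ) : PG fun w => f (x + s • w) := by
  obtain ⟨hf, C, k, hC⟩ := hf
  refine ⟨hf.comp (by fun_prop), |C| * (1 + ‖x‖ + |s|) ^ k, k, fun w => ?_⟩
  have h1 : 1 + ‖x + s • w‖ ≤ (1 + ‖x‖ + |s|) * (1 + ‖w‖) := by
    have := norm_add_le x (s • w)
    rw [norm_smul, Real.norm_eq_abs] at this
    nlinarith [norm_nonneg x, norm_nonneg w, abs_nonneg s, mul_nonneg (norm_nonneg x) (norm_nonneg w)]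
  calc |f (x + s • w)| ≤ C * (1 + ‖x + s • w‖) ^ k := hC _
    _ ≤ |C| * ((1 + ‖x‖ + |s|) * (1 + ‖w‖)) ^ k := by
        gcongr
        exact le_abs_self C
    _ = _ := by rw [mul_pow]; ring

theorem pg_coord (i : Fin d) : PG fun X : E d => X i := by
  refine ⟨by fun_prop, 1, 1, fun X => ?_⟩
  have := PiLp.norm_apply_le X i
  rw [Real.norm_eq_abs] at this
  linarith

theorem pg_exp {δ : ℝ} {U : E d → ℝ} (hU : Pot δ U) : PG fun X => Real.exp (-U X) := by
  refine ⟨by have := hU.smooth.continuous; fun_prop, 1, 0, fun X => ?_⟩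
  rw [abs_of_pos (Real.exp_pos _)]
  simpa using hU.nonneg X

theorem pg_grad {δ : ℝ} {U : E d → ℝ} (hU : Pot δ U) (i : Fin d) :
    PG fun X => gradient U X i := by
  have hc : Continuous (gradient U) := by
    refine (LipschitzWith.of_dist_le_mul (K := ⟨δ, hU.pos.le⟩) fun x y => ?_).continuous
    rw [dist_eq_norm, dist_eq_norm]
    exact hU.lip x y
  refine ⟨by fun_prop, δ + ‖gradient U 0‖, 1, fun X => ?_⟩
  have h1 := PiLp.norm_apply_le (gradient U X) i
  rw [Real.norm_eq_abs] at h1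
  have h2 := hU.lip X 0
  rw [sub_zero] at h2
  have h3 := norm_sub_norm_le (gradient U X) (gradient U 0)
  have h4 := hU.pos
  nlinarith [norm_nonneg X, norm_nonneg (gradient U 0),
    mul_nonneg (norm_nonneg X) (norm_nonneg (gradient U 0))]

theorem smx_slice {φ : ℝ × E d → ℝ} (hφ : Smx φ) {t : ℝ} (ht : 0 < t) :
    ContDiff ℝ ∞ fun x => φ (t, x) :=
  ContDiffOn.comp_contDiff hφ (f := fun x : E d => (t, x)) (by fun_prop) fun _ => ht

theorem smx_fderiv {φ : ℝ × E d → ℝ} (hφ : Smx φ) {t : ℝ} (ht : 0 < t) (x : E d) (j : Fin d) :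
    fderiv ℝ (fun x => φ (t, x)) x (ee j) = nab j φ (t, x) := by
  have ho : IsOpen {p : ℝ × E d | 0 < p.1} := isOpen_lt continuous_const continuous_fst
  have h1 : DifferentiableAt ℝ φ (t, x) :=
    (hφ.contDiffAt (ho.mem_nhds ht)).differentiableAt (by simp)
  have h2 : HasFDerivAt (fun x : E d => (t, x)) (ContinuousLinearMap.inr ℝ ℝ (E d)) x :=
    hasFDerivAt_prodMk_right t x
  have h3 := h1.hasFDerivAt.comp x h2
  have h4 : fderiv ℝ (fun x => φ (t, x)) x = _ := h3.fderiv
  rw [h4]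
  simp [nab]

theorem cd_fderiv {k : E d → ℝ} (hk : ContDiff ℝ ∞ k) (v : E d) :
    ContDiff ℝ ∞ fun x => fderiv ℝ k x v :=
  (hk.fderiv_right (m := ∞) (by simp)).clm_apply contDiff_const

theorem sep_congr {ψ χ : E d → E d → ℝ} (h : Sep ψ) (e : ∀ x X, χ x X = ψ x X) : Sep χ := by
  have : χ = ψ := funext fun x => funext fun X => e x X
  rwa [this]

theorem sep_mul {ψ χ : E d → E d → ℝ} (h₁ : Sep ψ) (h₂ : Sep χ) :
    Sep fun x X => ψ x X * χ x X := by
  induction h₁ with
  | base k h hk hh =>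
    induction h₂ with
    | base k' h' hk' hh' =>
      exact sep_congr (Sep.base _ _ (hk.mul hk') (pg_mul hh hh')) fun x X => by ring
    | add _ _ i1 i2 => exact sep_congr (i1.add i2) fun x X => by ring
  | add _ _ i1 i2 => exact sep_congr (i1.add i2) fun x X => by ring

theorem sep_smooth {ψ : E d → E d → ℝ} (h : Sep ψ) (X : E d) : ContDiff ℝ ∞ fun x => ψ x X := by
  induction h with
  | base k h hk hh => exact hk.mul contDiff_const
  | add _ _ i1 i2 => exact i1.add i2

theorem sep_pg {ψ : E d → E d → ℝ} (h : Sep ψ) (x : E d) : PG (ψ x) := by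
  induction h with
  | base k h hk hh => exact pg_mul (pg_const _) hh
  | add _ _ i1 i2 => exact pg_add i1 i2

theorem fd_base {k h : E d → ℝ} (hk : ContDiff ℝ ∞ k) (x X v : E d) :
    fderiv ℝ (fun x' => k x' * h X) x v = fderiv ℝ k x v * h X := by
  rw [fderiv_mul_const (hk.differentiable (by simp) x)]
  simp [mul_comm]

theorem fd_add {ψ χ : E d → E d → ℝ} (h₁ : Sep ψ) (h₂ : Sep χ) (x X v : E d) :
    fderiv ℝ (fun x' => ψ x' X + χ x' X) x v =
      fderiv ℝ (fun x' => ψ x' X) x v + fderiv ℝ (fun x' => χ x' X) x v := by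
  rw [fderiv_fun_add ((sep_smooth h₁ X).differentiable (by simp) x)
    ((sep_smooth h₂ X).differentiable (by simp) x)]
  simp

theorem sep_fderiv {ψ : E d → E d → ℝ} (h : Sep ψ) (v : E d) :
    Sep fun x X => fderiv ℝ (fun x' => ψ x' X) x v := by
  induction h with
  | base k h hk hh =>
    exact sep_congr (Sep.base _ _ (cd_fderiv hk v) hh) fun x X => fd_base hk x X v
  | add h₁ h₂ i1 i2 => exact sep_congr (i1.add i2) fun x X => fd_add h₁ h₂ x X v

end SepAux

open SepAux in
theorem sepStmt (hG : StmtGauss) (hB : StmtBasic) (hS : StmtSmooth) : StmtSep := by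
  intro d δ U hU t ht
  have hF : ContDiff ℝ ∞ (Ff U t) := smx_slice (hS.smooth d δ U hU) ht
  have hFd : ∀ x i, fderiv ℝ (Ff U t) x (ee i) = GF U t x i := fun x i =>
    (smx_fderiv (hS.smooth d δ U hU) ht x i).trans (hS.grad d δ U hU (t, x) ht i)
  have hGF : ∀ i, ContDiff ℝ ∞ fun x => GF U t x i := fun i => by
    simp only [← hFd]; exact cd_fderiv hF _
  have hZ : ∀ x, 0 < Zf U t x := fun x => (hB.Zpos d δ U hU t x).1
  have hZi : ∀ x, (Zf U t x)⁻¹ = Real.exp (Ff U t x) := fun x => by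
    rw [Ff, Real.exp_neg, Real.exp_log (hZ x)]
  have hint : ∀ h : E d → ℝ, PG h → ∀ x,
      Integrable (fun w => h (x + √t • w) * Real.exp (-U (x + √t • w))) (gam d) := fun h hh x =>
    hG.pg d _ (pg_affine (pg_mul hh (pg_exp hU)) x √t)
  have hsc : ∀ j, Sep fun x X : E d => (X j - x j) / t + GF U t x j := fun j => by
    have h1 : ContDiff ℝ ∞ fun x : E d => -(x j / t) + GF U t x j :=
      ContDiff.add (by fun_prop) (hGF j)
    refine sep_congr ((Sep.base (fun _ => t⁻¹) _ contDiff_const (pg_coord j)).add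
      (Sep.base _ _ h1 (pg_const 1))) fun x X => ?_
    ring
  have hdd : ∀ ψ : E d → E d → ℝ, Sep ψ → ∀ j, Sep (dd U t j ψ) := fun ψ hψ j =>
    (sep_fderiv hψ (ee j)).add (sep_mul hψ (hsc j))
  have hfold : ∀ ψ : E d → E d → ℝ, Sep ψ → ∀ l : List (Fin d), Sep (l.foldr (dd U t) ψ) := by
    intro ψ hψ l
    induction l with
    | nil => exact hψ
    | cons j l ih => exact hdd _ ih j
  have hEadd : ∀ (f g : E d → ℝ), PG f → PG g → ∀ x,
      Ept U t x (fun X => f X + g X) = Ept U t x f + Ept U t x g := by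
    intro f g hf hg x
    simp only [Ept, add_mul]
    rw [integral_add (hint f hf x) (hint g hg x), mul_add]
  have hEbase : ∀ (c : ℝ) (h : E d → ℝ) (x : E d), Ept U t x (fun X => c * h X) =
      c * (Real.exp (Ff U t x) * Mom (fun X => h X * Real.exp (-U X)) (t, x)) := by
    intro c h x
    simp only [Ept, Mom, mul_assoc, integral_const_mul, hZi]
    ring
  have hE : ∀ ψ : E d → E d → ℝ, Sep ψ → (ContDiff ℝ ∞ fun x => Ept U t x (ψ x)) ∧
      ∀ x j, fderiv ℝ (fun x' => Ept U t x' (ψ x')) x (ee j) = Ept U t x (dd U t j ψ x) := by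
    intro ψ hψ
    induction hψ with
    | base k h hk hh =>
      obtain ⟨hM, hM'⟩ := hS.mom d _ (pg_mul hh (pg_exp hU))
      have hMs := smx_slice hM ht
      have hex : ContDiff ℝ ∞ fun x => Real.exp (Ff U t x) := hF.exp
      simp only [hEbase]
      refine ⟨hk.mul (hex.mul hMs), fun x j => ?_⟩
      have d1 := (hk.differentiable (by simp) x).hasFDerivAt
      have d2 := (hF.differentiable (by simp) x).hasFDerivAt.exp
      have d3 := (hMs.differentiable (by simp) x).hasFDerivAt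
      have d4 : fderiv ℝ (fun x => k x * (Real.exp (Ff U t x) *
          Mom (fun X => h X * Real.exp (-U X)) (t, x))) x = _ := (d1.mul (d2.mul d3)).fderiv
      have e1 : dd U t j (fun x X => k x * h X) x = fun X =>
          (fderiv ℝ k x (ee j) + k x * (GF U t x j - x j / t)) * h X + (k x / t) * (h X * X j) := by
        ext X
        simp only [dd, fd_base hk]
        ring
      rw [d4, e1, hEadd _ _ (pg_mul (pg_const _) hh) (pg_mul (pg_const _) (pg_mul hh (pg_coord j))),
        hEbase, hEbase]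
      have e2 : (fun X : E d => h X * X j * Real.exp (-U X)) =
          fun X => h X * Real.exp (-U X) * X j := by ext X; ring
      simp only [add_apply, smul_apply, smul_eq_mul,
        Pi.mul_apply, hFd, smx_fderiv hM ht, (hM' (t, x) ht).1 j, e2]
      field_simp
      ring
    | @add ψ χ h₁ h₂ i1 i2 =>
      have e1 : (fun x => Ept U t x (fun X => ψ x X + χ x X)) =
          fun x => Ept U t x (ψ x) + Ept U t x (χ x) :=
        funext fun x => hEadd _ _ (sep_pg h₁ x) (sep_pg h₂ x) x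
      rw [e1]
      refine ⟨i1.1.add i2.1, fun x j => ?_⟩
      have e2 : dd U t j (fun x X => ψ x X + χ x X) x =
          fun X => dd U t j ψ x X + dd U t j χ x X := by
        ext X
        simp only [dd, fd_add h₁ h₂]
        ring
      rw [fderiv_fun_add (i1.1.differentiable (by simp) x) (i2.1.differentiable (by simp) x), e2,
        hEadd _ _ (sep_pg (hdd _ h₁ j) x) (sep_pg (hdd _ h₂ j) x), ← i1.2, ← i2.2]
      simp
  refine ⟨hGF, fun ψ χ => sep_mul, fun l => hfold _ ?_ l, fun i l => hfold _ ?_ l, fun x i => ?_,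
    fun x => ?_, fun ψ hψ => ⟨sep_smooth hψ, sep_pg hψ, fun j => sep_fderiv hψ _, hdd ψ hψ,
      fun x => hint _ (sep_pg hψ x) x, hE ψ hψ⟩⟩
  · exact sep_congr (Sep.base (fun _ => 1) _ contDiff_const (pg_const 1)) fun x X => by ring
  · exact sep_congr ((Sep.base (fun _ => 1) _ contDiff_const (pg_grad hU i)).add
      (Sep.base _ _ (hGF i).neg (pg_const 1))) fun x X => by ring
  · simp only [Ept, GF, PiLp.smul_apply, smul_eq_mul]
    rw [eval_integral_piLp]
    · simp only [PiLp.smul_apply, smul_eq_mul, mul_comm]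
    · intro i
      simpa only [PiLp.smul_apply, smul_eq_mul, mul_comm] using hint _ (pg_grad hU i) x
  · simp only [Ept, one_mul]
    exact inv_mul_cancel₀ (hZ x).ne'

end Crest.Agent.R285
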