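import Crest.Agent.R285.DefsP
import Crest.Agent.R285.LEb

/-! # Row 285: sizes created by a translation -/

set_option autoImplicit false

open MeasureTheory ProbabilityTheory Set
open scoped ENNReal NNReal ContDiff RealInnerProductSpace
open Crest.OracleSampling

noncomputable section

namespace Crest.Agent.R285

namespace SizeAux

variable {d : ℕ} {X X' : Type}

theorem val_comap (V : E d → ℝ) (π : X' → X) (e : Ex d X) (x : X') :
    (e.comap π).val V x = e.val V (π x) := by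
  induction e with
  | pt f => rfl
  | add rest κ r c ap i1 i2 => simp only [Ex.comap, Ex.val, i1, i2]

theorem size_comap (V : E d → ℝ) (π : X' → X) (e : Ex d X) (x : X') :
    (e.comap π).size V x = e.size V (π x) := by
  induction e with
  | pt f => rfl
  | add rest κ r c ap i1 i2 =>
    simp only [Ex.comap, Ex.size, i1, i2, val_comap, Function.comp_apply]

theorem val_aff (V : E d → ℝ) (lam : ℝ) (h : X' → E d) (π : X' → X) (e : Ex d X) (x : X') :
    (e.aff lam h π).val V x = lam • e.val V (π x) + h x := by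
  induction e with
  | pt f => rfl
  | add rest κ r c ap i1 _ =>
    simp only [Ex.aff, Ex.val, i1, val_comap]
    module

theorem size_aff (V : E d → ℝ) (lam : ℝ) (h : X' → E d) (π : X' → X) (e : Ex d X) (x : X') :
    (e.aff lam h π).size V x = e.size V (π x) := by
  induction e with
  | pt f => rfl
  | add rest κ r c ap i1 _ =>
    simp only [Ex.aff, Ex.size, i1, size_comap, val_comap, Function.comp_apply]

end SizeAux

set_option maxHeartbeats 1000000 in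
open SizeAux LEbAux in
theorem sizeStmt (hB : StmtBasic) (hC : StmtCov) (hL : StmtLE) (hT : StmtTr) : StmtSize := by
  intro d X c s ρ b β γ V hV hs hs2 hρ hρ8 hβ hγ hsm ⟨x, P, z⟩
  have hval := hT.val d X c s ρ b β γ V hV hs hρ (by linarith) x P z
  obtain ⟨c₀, hc₀⟩ : ∃ c₀, c₀ = c.val V x := ⟨_, rfl⟩
  obtain ⟨U, hUdef⟩ : ∃ U : E d → ℝ, U = fun y => V (c₀ + s • y) := ⟨_, rfl⟩
  have hU : Pot (2 * s ^ 2) U := hUdef ▸ hB.scale d 2 V c₀ s (hB.adm d V hV).1 hs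
  have hδ : 2 * s ^ 2 ≤ 1 / 2 := by nlinarith
  have hd : (0 : ℝ) ≤ √d := Real.sqrt_nonneg _
  have hm : ‖GF U 1 0‖ ≤ 4 * s * ‖c₀‖ + √d := by
    rw [hUdef, hB.scaleG d 2 V c₀ s 1 0 (hB.adm d V hV).1 hs zero_le_one, mul_one, smul_zero,
      add_zero, norm_smul, Real.norm_of_nonneg hs.le]
    have h1 := mul_le_mul_of_nonneg_left (hC.adm d V hV s c₀ hs.le hs2) hs.le
    have h2 : 4 * s ^ 2 * √d ≤ 1 * √d := mul_le_mul_of_nonneg_right (by linarith) hd
    nlinarith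
  obtain ⟨y₀, hy₀⟩ : ∃ y₀ : E d, y₀ = (s * ρ)⁻¹ • (P - c₀) := ⟨_, rfl⟩
  have hP : P = c₀ + (s * ρ) • y₀ := by
    rw [hy₀, smul_smul, mul_inv_cancel₀ (by positivity), one_smul]; abel
  obtain ⟨ζ, hζ⟩ : ∃ ζ : E d × E d, ζ = (y₀, z) := ⟨_, rfl⟩
  rw [← hc₀, ← hUdef, ← hy₀, ← hζ] at hval
  obtain ⟨S, hS⟩ : ∃ S, S = ‖ζ‖ + √d + ‖GF U 1 0‖ := ⟨_, rfl⟩
  obtain ⟨A, hA⟩ : ∃ A, A = ‖P - c₀‖ / s := ⟨_, rfl⟩
  have hA0 : 0 ≤ A := by rw [hA]; positivity
  have hAy : ρ * ‖y₀‖ = A := by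
    rw [hy₀, norm_smul, Real.norm_of_nonneg (by positivity), hA]
    field_simp
  have hζ1 : ‖y₀‖ ≤ S := by
    have : ‖y₀‖ ≤ ‖ζ‖ := by rw [hζ]; exact norm_fst_le (y₀, z)
    linarith [norm_nonneg (GF U 1 0)]
  have hζ2 : ‖z‖ ≤ S := by
    have : ‖z‖ ≤ ‖ζ‖ := by rw [hζ]; exact norm_snd_le (y₀, z)
    linarith [norm_nonneg (GF U 1 0)]
  have hmS : ‖GF U 1 0‖ ≤ S := by linarith [norm_nonneg ζ]
  have hS0 : 0 ≤ S := (norm_nonneg _).trans hmS
  have hρS : ρ * S ≤ A + (‖z‖ + 2 * √d + 4 * s * ‖c₀‖) / 8 := by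
    have h1 : ‖ζ‖ ≤ ‖y₀‖ + ‖z‖ := by
      rw [hζ, Prod.norm_def]
      exact max_le (by simp) (by simp)
    have h2 : S ≤ ‖y₀‖ + (‖z‖ + 2 * √d + 4 * s * ‖c₀‖) := by linarith
    have h3 : ρ * (‖z‖ + 2 * √d + 4 * s * ‖c₀‖) ≤ 1 / 8 * (‖z‖ + 2 * √d + 4 * s * ‖c₀‖) :=
      mul_le_mul_of_nonneg_right hρ8 (by positivity)
    have h4 := mul_le_mul_of_nonneg_left h2 hρ.le
    rw [mul_add, hAy] at h4
    linarith
  have hBd : Bd V c s (x, P, z) =
      (1 + 8 * s) * max (c.size V x) ‖c₀‖ + 16 * (A + ‖z‖ + √d) := by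
    rw [hA, hc₀]; rfl
  have hM1 : c.size V x ≤ max (c.size V x) ‖c₀‖ := le_max_left _ _
  have hM2 : ‖c₀‖ ≤ max (c.size V x) ‖c₀‖ := le_max_right _ _
  have hM0 : 0 ≤ max (c.size V x) ‖c₀‖ := (norm_nonneg _).trans hM2
  have hB1 : ‖c₀‖ + 13 * (ρ * S) ≤ Bd V c s (x, P, z) := by
    rw [hBd]
    have h1 := mul_le_mul_of_nonneg_left hM2 hs.le
    have h2 : 0 ≤ s * ‖c₀‖ := by positivity
    nlinarith [norm_nonneg z]
  have hB0 : 0 ≤ Bd V c s (x, P, z) := le_trans (by positivity) hB1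
  have hB2 : c.size V x ≤ Bd V c s (x, P, z) := by
    rw [hBd]
    have h1 : 0 ≤ s * max (c.size V x) ‖c₀‖ := by positivity
    nlinarith [norm_nonneg z]
  have hch : ∀ e : LE, e.Small b β γ → e.Nodes b β γ ρ → ‖e.val U ζ‖ ≤ S := by
    intro e he hn
    have h1 := (hL d _ U hU hδ b β γ ρ e hβ hγ hρ.le (by linarith) (by nlinarith) hn).2 ζ
    rw [← hS] at h1
    exact (child_le hU.pos.le he hmS h1).trans (mul_le_of_le_one_left hS0 hsm)
  have hrad : ∀ t : ℝ, 1 / 4 ≤ t → s / 2 ≤ s * √t := by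
    intro t ht
    have : (1 / 2 : ℝ) ≤ √t := Real.le_sqrt_of_sq_le (by linarith)
    nlinarith
  have hfin : ∀ (w : E d) (t : ℝ), 1 / 4 ≤ t → ‖w - c₀‖ ≤ 6 * (s * (ρ * S)) →
      ‖w - P‖ ≤ 5 * (s * (ρ * S)) → ‖w‖ + ‖w - P‖ / (s * √t) ≤ Bd V c s (x, P, z) := by
    intro w t ht h1 h2
    have h3 := hrad t ht
    have h0 : 0 ≤ ρ * S := by positivity
    have h4 : ‖w - P‖ / (s * √t) ≤ 10 * (ρ * S) := by
      rw [div_le_iff₀ (by linarith)]
      nlinarith
    have h5 : ‖w‖ ≤ ‖c₀‖ + ‖w - c₀‖ := norm_le_insert' _ _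
    have h6 : s * (ρ * S) ≤ 1 / 2 * (ρ * S) := mul_le_mul_of_nonneg_right hs2 h0
    linarith
  have hnode : ∀ κ a1 a2 ey ez rest, (LE.cons κ a1 a2 ey ez rest).Nodes b β γ ρ →
      ‖(c.node s ρ a1 a2 ey ez).val V (x, P, z)‖ +
        ‖(c.node s ρ a1 a2 ey ez).val V (x, P, z) - P‖ / (s * √(1 - a1 ^ 2 - a2 ^ 2)) ≤
        Bd V c s (x, P, z) := by
    intro κ a1 a2 ey ez rest ⟨h1, h2, sy, sz, ny, nz, _⟩
    have hy := hch ey sy ny
    have hz := hch ez sz nz
    have ev : (c.node s ρ a1 a2 ey ez).val V (x, P, z) =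
        c₀ + s • (a1 • (y₀ + ey.val U ζ) + a2 • (z + ez.val U ζ)) := by
      rw [Ex.node, hval _ _ _ ny, hval _ _ _ nz, Ex.ctr, val_aff, ← hc₀]
      change (1 - a1 / ρ) • c₀ + ((a1 / ρ) • P + (s * a2) • z) + (s * a2) • ez.val U ζ +
        (s * a1) • ey.val U ζ = _
      have : (a1 / ρ) • P = (a1 / ρ) • c₀ + (s * a1) • y₀ := by
        conv_lhs => rw [hP]
        rw [smul_add, smul_smul]
        congr 2
        field_simp
      rw [this]
      module
    have hu : ‖y₀ + ey.val U ζ‖ ≤ 2 * S := (norm_add_le _ _).trans (by linarith)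
    have hv : ‖z + ez.val U ζ‖ ≤ 2 * S := (norm_add_le _ _).trans (by linarith)
    refine hfin _ _ (by nlinarith [h1.1, h1.2, h2.1, h2.2]) ?_ ?_
    · rw [ev, add_sub_cancel_left, norm_smul, Real.norm_of_nonneg hs.le]
      have := mul_le_mul_of_nonneg_left (comb_le h1 h2 hu hv) hs.le
      linarith
    · have e2 : (c.node s ρ a1 a2 ey ez).val V (x, P, z) - P =
          s • ((a1 - ρ) • y₀ + (a1 • ey.val U ζ + a2 • (z + ez.val U ζ))) := by
        rw [ev]
        conv_lhs => rw [hP]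
        module
      rw [e2, norm_smul, Real.norm_of_nonneg hs.le]
      have n1 : ‖(a1 - ρ) • y₀‖ ≤ ρ * S := by
        rw [norm_smul, Real.norm_eq_abs]
        exact mul_le_mul (abs_le.2 ⟨by linarith [h1.1], by linarith [h1.2]⟩) hζ1 (norm_nonneg _)
          hρ.le
      have n2 : ‖a1 • ey.val U ζ‖ ≤ 2 * ρ * S := by
        rw [norm_smul, Real.norm_of_nonneg h1.1]
        exact mul_le_mul h1.2 hy (norm_nonneg _) (by positivity)
      have n3 : ‖a2 • (z + ez.val U ζ)‖ ≤ ρ * (2 * S) := by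
        rw [norm_smul, Real.norm_of_nonneg h2.1]
        exact mul_le_mul h2.2 hv (norm_nonneg _) hρ.le
      have n4 : ‖(a1 - ρ) • y₀ + (a1 • ey.val U ζ + a2 • (z + ez.val U ζ))‖ ≤ 5 * (ρ * S) := by
        refine (norm_add_le _ _).trans ?_
        have := norm_add_le (a1 • ey.val U ζ) (a2 • (z + ez.val U ζ))
        linarith
      have := mul_le_mul_of_nonneg_left n4 hs.le
      linarith
  have hctr : ∀ a1 a2, (c.ctr s ρ a1 a2).size V (x, P, z) ≤ Bd V c s (x, P, z) := fun a1 a2 => by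
    rw [Ex.ctr, size_aff]; exact hB2
  have hgen : ∀ (e : LE) (lam : ℝ) (base : Ex d (X × E d × E d)), e.Nodes b β γ ρ →
      base.size V (x, P, z) ≤ Bd V c s (x, P, z) →
      (c.tr s ρ e lam base).size V (x, P, z) ≤ Bd V c s (x, P, z) := by
    intro e
    induction e with
    | nil => intro lam base _ h; exact h
    | cons k a1 a2 ey ez rest ihy ihz ih =>
      intro lam base hn h
      have h0 := hnode _ _ _ _ _ _ hn
      obtain ⟨-, -, -, -, ny, nz, nr⟩ := hn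
      exact max_le (ih _ _ nr h) (max_le (ihy _ _ ny (ihz _ _ nz (hctr a1 a2))) h0)
  refine ⟨fun κ a1 a2 ey ez rest hn => ?_, fun e lam f hn => hgen e lam _ hn hB0,
    fun e he hn => ?_⟩
  · have h0 := hnode _ _ _ _ _ _ hn
    obtain ⟨-, -, -, -, ny, nz, -⟩ := hn
    exact max_le (hgen _ _ _ ny (hgen _ _ _ nz (hctr a1 a2))) h0
  · refine max_le (hgen e _ _ hn hB0) ?_
    have ev : (c.tr s ρ e (s * ρ) (.pt fun x => x.2.1)).val V (x, P, z) =
        P + (s * ρ) • e.val U ζ := hval _ _ _ hn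
    have he' := hch e he hn
    have n1 : ‖(s * ρ) • e.val U ζ‖ ≤ s * (ρ * S) := by
      rw [norm_smul, Real.norm_of_nonneg (by positivity), ← mul_assoc]
      gcongr
    have n2 : ‖(s * ρ) • y₀‖ ≤ s * (ρ * S) := by
      rw [norm_smul, Real.norm_of_nonneg (by positivity), ← mul_assoc]
      gcongr
    have n0 : 0 ≤ s * (ρ * S) := by positivity
    refine hfin _ _ (by nlinarith) ?_ ?_
    · have e2 : P + (s * ρ) • e.val U ζ - c₀ = (s * ρ) • y₀ + (s * ρ) • e.val U ζ := by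
        conv_lhs => rw [hP]
        abel
      rw [ev, e2]
      refine (norm_add_le _ _).trans ?_
      linarith
    · rw [ev, add_sub_cancel_left]
      linarith

end Crest.Agent.R285
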