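import Crest.Agent.R285.Gauss

/-!
# Row 285: smoothness of Gaussian moments and the heat equation (`StmtSmooth`)
-/

set_option autoImplicit false

open MeasureTheory ProbabilityTheory Set Filter Topology
open scoped ENNReal NNReal ContDiff RealInnerProductSpace
open Crest.OracleSampling

noncomputable section

namespace Crest.Agent.R285

namespace Smooth

open Gauss

variable {d : ℕ}

theorem PG_coord (i : Fin d) : PG fun X : E d => X i :=
  PG_clm (EuclideanSpace.proj i : E d →L[ℝ] ℝ)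

theorem PG_mul_coord {h : E d → ℝ} (hh : PG h) (i : Fin d) : PG fun X => h X * X i :=
  PG_mul hh (PG_coord i)

theorem PG_abs {h : E d → ℝ} (hh : PG h) : PG fun X => |h X| := by
  obtain ⟨hc, C, k, hC⟩ := hh
  exact ⟨hc.abs, C, k, fun x => by rw [abs_abs]; exact hC x⟩

theorem PG_smul {h : E d → ℝ} (hh : PG h) (s : ℝ) : PG fun X => h (s • X) := by
  obtain ⟨hc, C, k, hC⟩ := hh
  refine ⟨by fun_prop, C * (1 + |s|) ^ k, k, fun x => (hC _).trans ?_⟩
  have hC0 : 0 ≤ C := by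
    have := (abs_nonneg _).trans (hC 0)
    simpa using this
  rw [mul_assoc, ← mul_pow]
  refine mul_le_mul_of_nonneg_left (pow_le_pow_left₀ (by positivity) ?_ k) hC0
  rw [norm_smul, Real.norm_eq_abs]
  nlinarith [abs_nonneg s, norm_nonneg x]

theorem integrable_gauss {h : E d → ℝ} (hh : PG h) {a : ℝ} (ha : 0 < a) :
    Integrable fun X => h X * Real.exp (-(a * ‖X‖ ^ 2)) := by
  have hs : (√(2 * a))⁻¹ ≠ 0 := by positivity
  rw [← integrable_comp_smul_iff volume _ hs]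
  have h1 := PG_integrable (gam d) (PG_smul hh (√(2 * a))⁻¹)
  rw [dens, integrable_withDensity_iff_integrable_smul'
    (continuous_rho d).measurable.ennreal_ofReal (by simp)] at h1
  have hc : ((√(2 * Real.pi))⁻¹ ^ d) ≠ 0 := by
    have := Real.pi_pos
    positivity
  refine (h1.const_mul ((√(2 * Real.pi))⁻¹ ^ d)⁻¹).congr (Eventually.of_forall fun w => ?_)
  have h2 : a * ‖(√(2 * a))⁻¹ • w‖ ^ 2 = ‖w‖ ^ 2 / 2 := by
    rw [norm_smul, mul_pow, Real.norm_eq_abs, sq_abs, inv_pow, Real.sq_sqrt (by positivity)]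
    field_simp
  simp only [ENNReal.toReal_ofReal (rho_pos d w).le, smul_eq_mul, h2]
  rw [rho]
  field_simp

theorem integrable_gauss' {h : E d → ℝ} (hh : PG h) {a : ℝ} (ha : 0 < a) (R : ℝ) :
    Integrable fun X => h X * Real.exp (R * ‖X‖ - a * ‖X‖ ^ 2) := by
  refine ((integrable_gauss (PG_abs hh) (half_pos ha)).const_mul
    (Real.exp (R ^ 2 / (2 * a)))).mono' (by have := hh.1; fun_prop)
    (Eventually.of_forall fun X => ?_)
  rw [Real.norm_eq_abs, abs_mul, abs_of_pos (Real.exp_pos _), mul_left_comm, ← Real.exp_add]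
  refine mul_le_mul_of_nonneg_left (Real.exp_le_exp.2 ?_) (abs_nonneg _)
  have h1 : R ^ 2 / (2 * a) - R * ‖X‖ + a / 2 * ‖X‖ ^ 2 = (R - a * ‖X‖) ^ 2 / (2 * a) := by
    field_simp
    ring
  have h2 : 0 ≤ (R - a * ‖X‖) ^ 2 / (2 * a) := by positivity
  linarith

/-- the sufficient statistic -/
def T (X : E d) : (ℝ × E d) →L[ℝ] ℝ :=
  (innerSL ℝ X).comp (ContinuousLinearMap.snd ℝ ℝ (E d)) -
    ‖X‖ ^ 2 • ContinuousLinearMap.fst ℝ ℝ (E d)

theorem T_apply (X : E d) (θ : ℝ × E d) : T X θ = ⟪X, θ.2⟫ - ‖X‖ ^ 2 * θ.1 := by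
  simp [T]

theorem T_apply' (X : E d) (θ : ℝ × E d) : T X θ = ∑ i, (X i * θ.2 i - X i * X i * θ.1) := by
  rw [T_apply, Finset.sum_sub_distrib, ← Finset.sum_mul, EuclideanSpace.real_norm_sq_eq,
    PiLp.inner_apply]
  simp [_root_.sq, mul_comm]

theorem continuous_T : Continuous (T : E d → (ℝ × E d) →L[ℝ] ℝ) := by
  unfold T
  fun_prop

theorem norm_T (X : E d) : ‖T X‖ ≤ (1 + ‖X‖) ^ 2 := by
  refine ContinuousLinearMap.opNorm_le_bound _ (by positivity) fun θ => ?_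
  rw [T_apply, Real.norm_eq_abs]
  have h1 := abs_real_inner_le_norm X θ.2
  have h2 : ‖θ.2‖ ≤ ‖θ‖ := norm_snd_le θ
  have h3 : |θ.1| ≤ ‖θ‖ := norm_fst_le θ
  have h4 := abs_sub (⟪X, θ.2⟫) (‖X‖ ^ 2 * θ.1)
  rw [abs_mul, abs_of_nonneg (sq_nonneg ‖X‖)] at h4
  have h5 := mul_le_mul_of_nonneg_left h2 (norm_nonneg X)
  have h6 := mul_le_mul_of_nonneg_left h3 (sq_nonneg ‖X‖)
  nlinarith [norm_nonneg X, norm_nonneg θ, mul_nonneg (norm_nonneg X) (norm_nonneg θ)]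

theorem T_le (X : E d) {θ : ℝ × E d} {a R : ℝ} (ha : a ≤ θ.1) (hR : ‖θ.2‖ ≤ R) :
    T X θ ≤ R * ‖X‖ - a * ‖X‖ ^ 2 := by
  rw [T_apply]
  have h1 := real_inner_le_norm X θ.2
  have h2 := mul_le_mul_of_nonneg_left hR (norm_nonneg X)
  have h3 := mul_le_mul_of_nonneg_left ha (sq_nonneg ‖X‖)
  nlinarith

theorem integrable_T {h : E d → ℝ} (hh : PG h) {θ : ℝ × E d} (hθ : 0 < θ.1) :
    Integrable fun X => h X * Real.exp (T X θ) := by
  refine (integrable_gauss' (PG_abs hh) hθ ‖θ.2‖).mono'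
    (by have := hh.1; have := continuous_T (d := d); fun_prop) (Eventually.of_forall fun X => ?_)
  rw [Real.norm_eq_abs, abs_mul, abs_of_pos (Real.exp_pos _)]
  exact mul_le_mul_of_nonneg_left (Real.exp_le_exp.2 (T_le X le_rfl le_rfl)) (abs_nonneg _)

/-- the Laplace transform -/
def Lap (h : E d → ℝ) (θ : ℝ × E d) : ℝ := ∫ X, h X * Real.exp (T X θ)

/-- coordinate projections -/
def pr (i : Fin d) : (ℝ × E d) →L[ℝ] ℝ :=
  (EuclideanSpace.proj i : E d →L[ℝ] ℝ).comp (ContinuousLinearMap.snd ℝ ℝ (E d))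

@[simp] theorem pr_apply (i : Fin d) (θ : ℝ × E d) : pr i θ = θ.2 i := rfl

/-- the derivative of the Laplace transform -/
def DL (h : E d → ℝ) (θ : ℝ × E d) : (ℝ × E d) →L[ℝ] ℝ :=
  ∑ i, (Lap (fun X => h X * X i) θ • pr i -
    Lap (fun X => h X * X i * X i) θ • ContinuousLinearMap.fst ℝ ℝ (E d))

theorem hasFDerivAt_Lap {h : E d → ℝ} (hh : PG h) {θ : ℝ × E d} (hθ : 0 < θ.1) :
    HasFDerivAt (Lap h) (DL h θ) θ := by
  have hc := hh.1
  have hT := continuous_T (d := d)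
  have hb : PG fun X : E d => |h X| * (1 + ‖X‖) ^ 2 :=
    PG_mul (PG_abs hh) ⟨by fun_prop, 1, 2, fun x => by
      rw [one_mul, abs_of_nonneg (by positivity)]⟩
  have hbi := integrable_gauss' hb (half_pos hθ) (‖θ.2‖ + θ.1 / 2)
  have hbound : ∀ X : E d, ∀ θ' ∈ Metric.ball θ (θ.1 / 2),
      ‖(h X * Real.exp (T X θ')) • T X‖ ≤ |h X| * (1 + ‖X‖) ^ 2 *
        Real.exp ((‖θ.2‖ + θ.1 / 2) * ‖X‖ - θ.1 / 2 * ‖X‖ ^ 2) := by
    intro X θ' hθ'
    rw [Metric.mem_ball, dist_eq_norm] at hθ'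
    have h1 : |θ'.1 - θ.1| ≤ ‖θ' - θ‖ := norm_fst_le (θ' - θ)
    have h2 : ‖θ'.2 - θ.2‖ ≤ ‖θ' - θ‖ := norm_snd_le (θ' - θ)
    have h3 : ‖θ'.2‖ ≤ ‖θ.2‖ + θ.1 / 2 := by
      have := norm_le_norm_add_norm_sub' θ'.2 θ.2
      linarith
    have h4 : θ.1 / 2 ≤ θ'.1 := by
      have := (abs_le.1 h1).1
      linarith
    rw [norm_smul, Real.norm_eq_abs, abs_mul, abs_of_pos (Real.exp_pos _), mul_right_comm]
    exact mul_le_mul (mul_le_mul_of_nonneg_left (norm_T X) (abs_nonneg _))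
      (Real.exp_le_exp.2 (T_le X h4 h3)) (Real.exp_pos _).le (by positivity)
  have hmain := hasFDerivAt_integral_of_dominated_of_fderiv_le (μ := (volume : Measure (E d)))
    (F := fun θ X => h X * Real.exp (T X θ))
    (F' := fun θ X => (h X * Real.exp (T X θ)) • T X) (Metric.ball_mem_nhds θ (half_pos hθ))
    (Eventually.of_forall fun θ' => by fun_prop) (integrable_T hh hθ) (by fun_prop)
    (Eventually.of_forall hbound) hbi (Eventually.of_forall fun X θ' _ => by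
      have := ((T X).hasFDerivAt (x := θ')).exp.const_mul (h X)
      rwa [smul_smul] at this)
  have hint : Integrable fun X => (h X * Real.exp (T X θ)) • T X :=
    hbi.mono' (by fun_prop)
      (Eventually.of_forall fun X => hbound X θ (Metric.mem_ball_self (half_pos hθ)))
  suffices hD : DL h θ = ∫ X, (h X * Real.exp (T X θ)) • T X by
    rw [hD]
    exact hmain
  refine ContinuousLinearMap.ext fun v => ?_
  rw [ContinuousLinearMap.integral_apply hint]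
  have h1 : ∀ X, ((h X * Real.exp (T X θ)) • T X) v =
      ∑ i, (h X * X i * Real.exp (T X θ) * v.2 i - h X * X i * X i * Real.exp (T X θ) * v.1) := by
    intro X
    rw [smul_apply, T_apply' X v, smul_eq_mul, Finset.mul_sum]
    exact Finset.sum_congr rfl fun i _ => by ring
  have i1 := fun i => (integrable_T (PG_mul_coord hh i) hθ).mul_const (v.2 i)
  have i2 := fun i => (integrable_T (PG_mul_coord (PG_mul_coord hh i) i) hθ).mul_const v.1
  simp only [h1]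
  rw [integral_finsetSum (f := fun i X => h X * X i * Real.exp (T X θ) * v.2 i -
    h X * X i * X i * Real.exp (T X θ) * v.1) _ fun i _ => (i1 i).sub (i2 i), DL,
    ContinuousLinearMap.sum_apply]
  refine Finset.sum_congr rfl fun i _ => ?_
  rw [integral_sub (i1 i) (i2 i), integral_mul_const, integral_mul_const]
  rfl

theorem isOpen_pos : IsOpen {p : ℝ × E d | 0 < p.1} := isOpen_lt continuous_const continuous_fst

theorem contDiffOn_Lap (n : ℕ) : ∀ h : E d → ℝ, PG h →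
    ContDiffOn ℝ n (Lap h) {p : ℝ × E d | 0 < p.1} := by
  induction n with
  | zero =>
    intro h hh
    exact contDiffOn_zero.2 fun θ hθ => (hasFDerivAt_Lap hh hθ).continuousAt.continuousWithinAt
  | succ n ih =>
    intro h hh
    rw [Nat.cast_succ, contDiffOn_succ_iff_fderiv_of_isOpen isOpen_pos]
    refine ⟨fun θ hθ => (hasFDerivAt_Lap hh hθ).differentiableAt.differentiableWithinAt,
      fun h => absurd h (by simp), ?_⟩
    refine ContDiffOn.congr (f := DL h) ?_ fun θ hθ => (hasFDerivAt_Lap hh hθ).fderiv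
    unfold DL
    refine ContDiffOn.sum fun i _ => ?_
    exact ((ih _ (PG_mul_coord hh i)).smul contDiffOn_const).sub
      ((ih _ (PG_mul_coord (PG_mul_coord hh i) i)).smul contDiffOn_const)

theorem smx_Lap {h : E d → ℝ} (hh : PG h) : Smx (Lap h) :=
  contDiffOn_infty.2 fun n => contDiffOn_Lap n h hh

/-- natural parameters -/
def Psi (p : ℝ × E d) : ℝ × E d := (p.1⁻¹ / 2, p.1⁻¹ • p.2)

/-- normalising factor -/
def cf (p : ℝ × E d) : ℝ :=
  (√(2 * Real.pi))⁻¹ ^ d * Real.exp (-(d / 2 * Real.log p.1) - p.1⁻¹ * ‖p.2‖ ^ 2 / 2)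

theorem Psi_pos {p : ℝ × E d} (hp : 0 < p.1) : 0 < (Psi p).1 := half_pos (inv_pos.2 hp)

theorem Mom_eq (h : E d → ℝ) {p : ℝ × E d} (hp : 0 < p.1) : Mom h p = cf p * Lap h (Psi p) := by
  obtain ⟨t, x⟩ := p
  simp only at hp
  have hs : 0 < √t := Real.sqrt_pos.2 hp
  let f : E d → ℝ := fun X => rho d ((√t)⁻¹ • (X - x)) * h X
  have h1 : Mom h (t, x) = ∫ w : E d, f (x + √t • w) := by
    rw [Mom, dens, integral_withDensity_eq_integral_toReal_smul
      (continuous_rho d).measurable.ennreal_ofReal (by simp)]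
    refine integral_congr_ae (Eventually.of_forall fun w => ?_)
    simp only [ENNReal.toReal_ofReal (rho_pos d w).le, smul_eq_mul, f, add_sub_cancel_left,
      smul_smul, inv_mul_cancel₀ hs.ne', one_smul]
  have h2 := Measure.integral_comp_smul_of_nonneg (volume : Measure (E d)) (fun y => f (x + y))
    (√t) (hR := hs.le)
  rw [h1, h2, integral_add_left_eq_self, finrank_euclideanSpace_fin, Lap, ← integral_smul,
    ← integral_const_mul]
  refine integral_congr_ae (Eventually.of_forall fun X => ?_)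
  have h3 : (√t ^ d)⁻¹ = Real.exp (-(d / 2 * Real.log t)) := by
    rw [Real.exp_neg, show (d : ℝ) / 2 * Real.log t = d * Real.log √t by
      rw [Real.log_sqrt hp.le]; ring, Real.exp_nat_mul, Real.exp_log hs]
  have h4 : -(‖(√t)⁻¹ • (X - x)‖ ^ 2 / 2) = -(t⁻¹ * ‖x‖ ^ 2 / 2) + T X (Psi (t, x)) := by
    rw [norm_smul, mul_pow, Real.norm_eq_abs, sq_abs, inv_pow, Real.sq_sqrt hp.le, T_apply,
      norm_sub_sq_real]
    simp only [Psi, inner_smul_right]
    ring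
  simp only [f, rho, cf, smul_eq_mul, h3, h4]
  simp only [sub_eq_add_neg, Real.exp_add]
  ring

theorem smx_Psi : ContDiffOn ℝ ∞ (Psi : ℝ × E d → ℝ × E d) {p | 0 < p.1} := by
  have h1 : ContDiffOn ℝ ∞ (fun p : ℝ × E d => p.1⁻¹) {p | 0 < p.1} :=
    contDiffOn_fst.inv fun p hp => ne_of_gt hp
  exact (h1.div_const 2).prodMk (h1.smul contDiffOn_snd)

theorem smx_cf : Smx (cf : ℝ × E d → ℝ) := by
  have h1 : ContDiffOn ℝ ∞ (fun p : ℝ × E d => p.1⁻¹) {p | 0 < p.1} :=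
    contDiffOn_fst.inv fun p hp => ne_of_gt hp
  have h2 : ContDiffOn ℝ ∞ (fun p : ℝ × E d => Real.log p.1) {p | 0 < p.1} :=
    contDiffOn_fst.log fun p hp => ne_of_gt hp
  have h3 : ContDiffOn ℝ ∞ (fun p : ℝ × E d => ‖p.2‖ ^ 2) {p | 0 < p.1} :=
    (contDiffOn_snd.norm_sq ℝ)
  exact contDiffOn_const.mul
    (((contDiffOn_const.mul h2).neg.sub ((h1.mul h3).div_const 2)).exp)

theorem smx_Mom {h : E d → ℝ} (hh : PG h) : Smx (Mom h) :=
  (smx_cf.mul ((smx_Lap hh).comp smx_Psi fun _ hp => Psi_pos hp)).congr fun _ hp => Mom_eq h hp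

theorem Smx.diff {φ : ℝ × E d → ℝ} (hφ : Smx φ) {p : ℝ × E d} (hp : 0 < p.1) :
    DifferentiableAt ℝ φ p :=
  (hφ.contDiffAt (isOpen_pos.mem_nhds hp)).differentiableAt (by simp)

theorem Smx.nab {φ : ℝ × E d → ℝ} (hφ : Smx φ) (i : Fin d) : Smx (nab i φ) :=
  (hφ.fderiv_of_isOpen isOpen_pos (by simp)).clm_apply contDiffOn_const

theorem hasFDerivAt_inv {p : ℝ × E d} (hp : 0 < p.1) :
    HasFDerivAt (fun p : ℝ × E d => p.1⁻¹)
      ((-(p.1 ^ 2)⁻¹) • ContinuousLinearMap.fst ℝ ℝ (E d)) p :=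
  (hasDerivAt_inv hp.ne').comp_hasFDerivAt p hasFDerivAt_fst

theorem fderiv_Mom {h : E d → ℝ} (hh : PG h) {p : ℝ × E d} (hp : 0 < p.1) (v : ℝ × E d) :
    fderiv ℝ (Mom h) p v =
      ∑ i, (Mom (fun X => h X * X i) p * (p.1⁻¹ * v.2 i - (p.1 ^ 2)⁻¹ * v.1 * p.2 i) +
        Mom (fun X => h X * X i * X i) p * ((p.1 ^ 2)⁻¹ * v.1 / 2)) +
      Mom h p * (-(d / 2 * (p.1⁻¹ * v.1)) -
        (p.1⁻¹ * (2 * ⟪p.2, v.2⟫) - (p.1 ^ 2)⁻¹ * v.1 * ‖p.2‖ ^ 2) / 2) := by
  have h1 := hasFDerivAt_inv hp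
  have h2 : HasFDerivAt (fun p : ℝ × E d => Real.log p.1)
      (p.1⁻¹ • ContinuousLinearMap.fst ℝ ℝ (E d)) p := hasFDerivAt_fst.log hp.ne'
  have h3 := (hasFDerivAt_snd (𝕜 := ℝ) (p := p)).norm_sq
  have hPsi : HasFDerivAt Psi _ p :=
    (h1.mul_const (2 : ℝ)⁻¹).prodMk (h1.smul hasFDerivAt_snd)
  have hcf : HasFDerivAt cf _ p :=
    (((h2.const_mul (d / 2 : ℝ)).neg.sub ((h1.mul h3).mul_const (2 : ℝ)⁻¹)).exp).const_mul
      ((√(2 * Real.pi))⁻¹ ^ d)
  have h4 := hcf.mul ((hasFDerivAt_Lap hh (Psi_pos hp)).comp p hPsi)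
  have h5 : Mom h =ᶠ[𝓝 p] cf * (Lap h ∘ Psi) := by
    filter_upwards [isOpen_pos.mem_nhds hp] with q hq
    exact Mom_eq h hq
  rw [h5.fderiv_eq, h4.fderiv]
  simp only [Mom_eq _ hp]
  simp [DL, cf, div_eq_mul_inv]
  congr 1
  · rw [← Finset.sum_add_distrib, Finset.mul_sum]
    exact Finset.sum_congr rfl fun i _ => by ring
  · ring

theorem nab_Mom {h : E d → ℝ} (hh : PG h) {p : ℝ × E d} (hp : 0 < p.1) (i : Fin d) :
    nab i (Mom h) p = (Mom (fun X => h X * X i) p - p.2 i * Mom h p) / p.1 := by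
  classical
  rw [nab, fderiv_Mom hh hp, Finset.sum_eq_single i]
  · simp [EuclideanSpace.inner_single_right]
    ring
  · intro j _ hj
    simp [hj]
  · simp

theorem nab_nab_Mom {h : E d → ℝ} (hh : PG h) {p : ℝ × E d} (hp : 0 < p.1) (i : Fin d) :
    nab i (nab i (Mom h)) p = (p.1 ^ 2)⁻¹ * (Mom (fun X => h X * X i * X i) p -
      2 * p.2 i * Mom (fun X => h X * X i) p + p.2 i ^ 2 * Mom h p) - p.1⁻¹ * Mom h p := by
  have h5 : nab i (Mom h) =ᶠ[𝓝 p]
      (Mom (fun X => h X * X i) - ⇑(pr i) * Mom h) * fun p => p.1⁻¹ := by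
    filter_upwards [isOpen_pos.mem_nhds hp] with q hq
    exact nab_Mom hh hq i
  have h1 := (Smx.diff (smx_Mom hh) hp).hasFDerivAt
  have h2 := (Smx.diff (smx_Mom (PG_mul_coord hh i)) hp).hasFDerivAt
  have h3 := (h2.sub ((pr i).hasFDerivAt.mul h1)).mul (hasFDerivAt_inv hp)
  have h6 := nab_Mom hh hp i
  have h7 := nab_Mom (PG_mul_coord hh i) hp i
  rw [nab] at h6 h7
  rw [nab, h5.fderiv_eq, h3.fderiv]
  simp [h6, h7]
  field_simp
  ring

theorem dt_Mom {h : E d → ℝ} (hh : PG h) {p : ℝ × E d} (hp : 0 < p.1) :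
    dt (Mom h) p = 1 / 2 * ∑ i, nab i (nab i (Mom h)) p := by
  simp only [nab_nab_Mom hh hp]
  rw [dt, fderiv_Mom hh hp, EuclideanSpace.real_norm_sq_eq, Finset.sum_sub_distrib]
  simp only [PiLp.zero_apply, inner_zero_right, Finset.sum_const, Finset.card_univ,
    Fintype.card_fin, nsmul_eq_mul, mul_sub, Finset.mul_sum]
  rw [eq_sub_iff_add_eq]
  have h1 : ∀ A B : ℝ, A + Mom h p * -(d / 2 * (p.1⁻¹ * 1)) - B + 1 / 2 * (d * (p.1⁻¹ * Mom h p))
      = A - B := fun A B => by ring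
  rw [← add_sub_assoc, h1]
  have h2 : Mom h p * ((p.1⁻¹ * (2 * 0) - ∑ i, (p.1 ^ 2)⁻¹ * 1 * p.2 i ^ 2) / 2) =
      -∑ i, Mom h p * ((p.1 ^ 2)⁻¹ * p.2 i ^ 2 / 2) := by
    rw [← Finset.mul_sum, ← Finset.mul_sum, ← Finset.sum_div, ← Finset.mul_sum]
    ring
  rw [h2, sub_neg_eq_add, ← Finset.sum_add_distrib]
  exact Finset.sum_congr rfl fun i _ => by ring

theorem PG_exp {δ : ℝ} {U : E d → ℝ} (hU : Pot δ U) : PG fun X => Real.exp (-U X) := by
  have := hU.smooth.continuous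
  refine ⟨by fun_prop, 1, 0, fun x => ?_⟩
  rw [abs_of_pos (Real.exp_pos _), pow_zero, mul_one, Real.exp_le_one_iff, neg_nonpos]
  exact hU.nonneg x

theorem fderiv_neg_log {Z : ℝ × E d → ℝ} {p : ℝ × E d} (hZ : DifferentiableAt ℝ Z p)
    (h0 : Z p ≠ 0) (v : ℝ × E d) :
    fderiv ℝ (fun q => -Real.log (Z q)) p v = -(fderiv ℝ Z p v * (Z p)⁻¹) := by
  rw [(hZ.hasFDerivAt.log h0).fun_neg.fderiv]
  simp [mul_comm]

end Smooth

open Smooth in
theorem smoothStmt (_hG : StmtGauss) (hB : StmtBasic) : StmtSmooth := by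
  have hsm : ∀ (d : ℕ) (δ : ℝ) (U : E d → ℝ), Pot δ U → Smx (Fx U) := by
    intro d δ U hU
    exact ((smx_Mom (PG_exp hU)).log fun p _ => (hB.Zpos d δ U hU p.1 p.2).1.ne').neg
  refine ⟨fun d h hh => ⟨smx_Mom hh, fun p hp => ⟨nab_Mom hh hp, dt_Mom hh hp⟩⟩, hsm, ?_, ?_⟩
  · intro d δ U hU p hp i
    have h1 := (Smx.diff (hsm d δ U hU) hp).hasFDerivAt
    have h2 : HasFDerivAt (fun x : E d => (p.1, x)) (ContinuousLinearMap.inr ℝ ℝ (E d)) p.2 :=
      hasFDerivAt_prodMk_right p.1 p.2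
    have h3 : HasFDerivAt (Ff U p.1) _ p.2 := HasFDerivAt.comp p.2 (g := Fx U) h1 h2
    have h4 := h3.unique (hB.grad d δ U hU p.1 p.2).hasFDerivAt
    have h5 := congrArg (fun L : E d →L[ℝ] ℝ => L (ee i)) h4
    simpa [nab, EuclideanSpace.inner_single_right] using h5
  · intro d δ U hU p hp
    set Z : ℝ × E d → ℝ := Mom fun X => Real.exp (-U X) with hZ
    have hZs : Smx Z := smx_Mom (PG_exp hU)
    have hZ0 : ∀ q : ℝ × E d, Z q ≠ 0 := fun q => (hB.Zpos d δ U hU q.1 q.2).1.ne'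
    have hF : Fx U = fun q => -Real.log (Z q) := rfl
    have h1 : ∀ i, ∀ q : ℝ × E d, 0 < q.1 → nab i (Fx U) q = -(nab i Z q * (Z q)⁻¹) :=
      fun i q hq => fderiv_neg_log (Smx.diff hZs hq) (hZ0 q) _
    have h2 : dt (Fx U) p = -(dt Z p * (Z p)⁻¹) := fderiv_neg_log (Smx.diff hZs hp) (hZ0 p) _
    have h3 : ∀ i, nab i (nab i (Fx U)) p =
        -(nab i (nab i Z) p * (Z p)⁻¹) + (nab i Z p * (Z p)⁻¹) ^ 2 := by
      intro i
      have h4 : nab i (Fx U) =ᶠ[𝓝 p] -(nab i Z * fun q => (Z q)⁻¹) := by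
        filter_upwards [isOpen_pos.mem_nhds hp] with q hq
        exact h1 i q hq
      have h5 : HasFDerivAt (fun q => (Z q)⁻¹) _ p :=
        (hasDerivAt_inv (hZ0 p)).comp_hasFDerivAt p (Smx.diff hZs hp).hasFDerivAt
      have h6 := ((Smx.diff (Smx.nab hZs i) hp).hasFDerivAt.mul h5).neg
      have h7 : fderiv ℝ Z p (0, ee i) = nab i Z p := rfl
      have h8 : fderiv ℝ (nab i Z) p (0, ee i) = nab i (nab i Z) p := rfl
      rw [nab, h4.fderiv_eq, h6.fderiv]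
      simp [h7, h8]
      ring
    rw [h2, dt_Mom (PG_exp hU) hp, ← Finset.sum_sub_distrib, ← hZ, Finset.mul_sum, Finset.mul_sum,
      Finset.sum_mul, ← Finset.sum_neg_distrib]
    refine Finset.sum_congr rfl fun i _ => ?_
    rw [h3, h1 i p hp]
    ring

end Crest.Agent.R285
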