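import Crest.Agent.R285.StepA

/-! Row 285: the two-parameter recursion realising one term, and one more depth. -/

set_option autoImplicit false

open MeasureTheory ProbabilityTheory Set
open scoped ENNReal NNReal ContDiff RealInnerProductSpace
open Crest.OracleSampling

noncomputable section

namespace Crest.Agent.R285
namespace Step

/-- parameters of one depth -/
structure Par where
  n : ℕ
  C : ℝ
  b : ℕ
  d : ℕ
  th : ℕ → ℝ
  smax : ℝ
  ρ : ℝ
  θ : ℝ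
  h : ℝ
  ξ : ℝ
  η : ℝ
  Q : ℝ
  k : ℕ
  N : ℕ
  Wm : ℕ
  Am : ℝ
  core : CoreAt n C b
  th0 : ∀ j, 0 ≤ th j
  th4 : ∀ j, 4 * th (j + 1) ≤ th j
  ρ0 : 0 < ρ
  ρC : 8 * C * ρ ≤ 1
  s0 : 0 < smax
  s2 : smax ≤ 1 / 2
  sth : 2 * smax ^ 2 ≤ th k
  th1 : th k ≤ 1
  η0 : 0 ≤ η
  Q0 : 0 ≤ Q
  θ0 : 0 < θ
  hθ : C * θ ≤ h * (th k * ρ ^ 2)
  h1 : h ≤ 1
  ξ0 : 0 ≤ ξ
  ξN : θ ^ 2 * (1 - ρ ^ 2) ^ N ≤ ξ ^ 2
  cr : CR d th smax ρ k Wm Am Q η

namespace Par

variable (p : Par)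

def M (l N' : ℕ) : ℝ := ((N' : ℝ) + 1) * (((p.b : ℝ) + 1) * ((p.N : ℝ) + 1)) ^ l
def j (l N' : ℕ) : ℕ := N' + l * (p.N + 1)
def e1 : ℝ := 8 * p.smax + 16 * p.η
def e0 : ℝ := 2 * p.ξ + 8 * p.C * p.θ * p.η + 2 * p.C * p.ρ ^ p.n
def τ (l N' : ℕ) : ℝ := p.M l N' * (1 + p.e1) ^ p.j l N' * p.e0
def Λ (l N' : ℕ) : ℝ := 1 + 64 * (p.j l N' : ℝ)
def μ : ℝ := p.th p.k * p.ρ ^ 2

theorem C1 : 1 ≤ p.C := p.core.one
theorem ρ8 : p.ρ ≤ 1 / 8 := by nlinarith [p.C1, p.ρC, p.ρ0]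
theorem M1 (l N' : ℕ) : 1 ≤ p.M l N' := by
  unfold M
  have h1 : (1 : ℝ) ≤ ((p.b : ℝ) + 1) * ((p.N : ℝ) + 1) := by
    nlinarith [Nat.cast_nonneg (α := ℝ) p.b, Nat.cast_nonneg (α := ℝ) p.N]
  have h2 := one_le_pow₀ (n := l) h1
  nlinarith [Nat.cast_nonneg (α := ℝ) N']
theorem M0 (l N' : ℕ) : 0 ≤ p.M l N' := zero_le_one.trans (p.M1 l N')
theorem M_step (l N' : ℕ) : 1 + p.M (l + 1) N' + p.b * p.M l p.N ≤ p.M (l + 1) (N' + 1) := by
  have h := p.M1 l p.N
  unfold M at *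
  push_cast
  rw [pow_succ]
  nlinarith
theorem e1_nonneg : 0 ≤ p.e1 := by unfold e1; nlinarith [p.s0, p.η0]
theorem e0_nonneg : 0 ≤ p.e0 := by
  unfold e0
  have := p.C1; have := p.ξ0; have := p.θ0; have := p.η0; have := p.ρ0
  positivity
theorem τ_nonneg (l N' : ℕ) : 0 ≤ p.τ l N' := by
  unfold τ
  have := p.M0 l N'; have := p.e1_nonneg; have := p.e0_nonneg
  positivity
theorem e0_le_τ (l N' : ℕ) : p.e0 ≤ p.τ l N' := by
  unfold τ
  have h1 := p.M1 l N'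
  have h2 : 1 ≤ (1 + p.e1) ^ p.j l N' := one_le_pow₀ (by linarith [p.e1_nonneg])
  have h3 := p.e0_nonneg
  nlinarith [one_le_mul_of_one_le_of_one_le h1 h2]
theorem Λ1 (l N' : ℕ) : 1 ≤ p.Λ l N' := by
  unfold Λ; have := Nat.cast_nonneg (α := ℝ) (p.j l N'); linarith
theorem μ0 : 0 < p.μ := by
  unfold μ
  have := p.ρ0
  have : 0 < p.th p.k := lt_of_lt_of_le (by have := p.s0; positivity) p.sth
  positivity
theorem h0 : 0 < p.h := by
  have h1 : 0 < p.h * p.μ := lt_of_lt_of_le (by have := p.C1; have := p.θ0; positivity) p.hθ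
  exact (pos_iff_pos_of_mul_pos h1).2 p.μ0
theorem θμ : p.θ ≤ p.μ := by
  have h1 : p.C * p.θ ≤ p.h * p.μ := p.hθ
  nlinarith [p.C1, p.θ0, p.h1, p.μ0]
theorem μρ : p.μ ≤ p.ρ ^ 2 := by
  unfold μ; nlinarith [p.th1, sq_nonneg p.ρ]

theorem τ_step (l N' : ℕ) :
    (p.τ (l + 1) N' + p.b * p.τ l p.N) * (1 + p.e1) + p.e0 ≤ p.τ (l + 1) (N' + 1) := by
  have hM := p.M_step l N'
  have he := p.e1_nonneg
  have h0 := p.e0_nonneg
  have hj1 : p.j (l + 1) (N' + 1) = p.j (l + 1) N' + 1 := by unfold j; ring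
  have hj2 : p.j l p.N ≤ p.j (l + 1) N' := by unfold j; nlinarith
  have hp : (1 + p.e1) ^ p.j l p.N ≤ (1 + p.e1) ^ p.j (l + 1) N' :=
    pow_le_pow_right₀ (by linarith) hj2
  have hp1 : 1 ≤ (1 + p.e1) ^ (p.j (l + 1) N' + 1) := one_le_pow₀ (by linarith)
  unfold τ
  rw [hj1]
  have := p.M0 l p.N
  have := p.M0 (l + 1) N'
  calc (p.M (l + 1) N' * (1 + p.e1) ^ p.j (l + 1) N' * p.e0 +
        p.b * (p.M l p.N * (1 + p.e1) ^ p.j l p.N * p.e0)) * (1 + p.e1) + p.e0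
      ≤ (p.M (l + 1) N' * (1 + p.e1) ^ p.j (l + 1) N' * p.e0 +
        p.b * (p.M l p.N * (1 + p.e1) ^ p.j (l + 1) N' * p.e0)) * (1 + p.e1) +
          (1 + p.e1) ^ (p.j (l + 1) N' + 1) * p.e0 := by
        gcongr
        nlinarith
    _ = (1 + p.M (l + 1) N' + p.b * p.M l p.N) * (1 + p.e1) ^ (p.j (l + 1) N' + 1) * p.e0 := by
        ring
    _ ≤ _ := by gcongr

/-- realisation of one term with `l` levels and `N'` rungs left -/
def TR (l N' : ℕ) : Prop :=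
  ∀ (X : Type) [MeasurableSpace X] (κ s : ℝ) (c : Ex p.d X) (ap : X → E p.d) (σ v : ℝ) (W : ℕ)
    (A : ℝ), c.Meas → Measurable ap → 0 < s → s ≤ p.smax → 0 < σ → σ ^ 2 * p.M l N' ≤ v →
    2 * p.b ≤ W → 1 ≤ A → 2 ^ l * W ≤ p.Wm → 3 ^ l * A ≤ p.Am → c.Good p.th p.smax p.k W A s →
    2 * |κ| * s ≤ p.θ * σ → 2 * |κ| * s * p.h ^ l ≤ p.ξ * σ →
    (2 * |κ| * s) ^ 2 * (1 - p.ρ ^ 2) ^ N' ≤ (p.ξ * σ) ^ 2 →
    Realizes (p.M l N' * (p.Q + 1)) (fun V x => gauss (κ • GF V (s ^ 2) (c.val V x)) v)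
      fun V x => σ * p.τ l N' * (Ex.tsize V s c ap x + p.Λ l N' * √p.d)

theorem tr_base (hB : StmtBasic) (hC : StmtCov) (hR : StmtReal) (l N' : ℕ) (h : l = 0 ∨ N' = 0) :
    p.TR l N' := by
  intro X _ κ s c ap σ v W A _ hap hs hsm hσ _ _ _ _ _ _ _ h2 h3
  have hξ : 2 * |κ| * s ≤ p.ξ * σ := by
    rcases h with rfl | rfl
    · simpa using h2
    · simp only [pow_zero, mul_one] at h3
      exact (pow_le_pow_iff_left₀ (by positivity) (mul_nonneg p.ξ0 hσ.le) two_ne_zero).1 h3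
  refine hR.mono _ X 1 _ _ _ _ _ ?_ (fun _ _ _ => rfl) ?_
    (hR.query p.d X ap κ v (fun V x => GF V (s ^ 2) (c.val V x)) hap)
  · nlinarith [p.M1 l N', p.Q0]
  · intro V hV x
    refine (crude_term hB hC hV κ c ap x hs (hsm.trans p.s2)).trans ?_
    have h1 := tsize_nonneg V s c ap x
    have hD : 0 ≤ √(p.d : ℝ) := Real.sqrt_nonneg _
    have h4 : 2 * p.ξ ≤ p.τ l N' := by
      refine le_trans ?_ (p.e0_le_τ l N')
      unfold e0
      have := p.C1; have := p.θ0; have := p.η0; have := p.ρ0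
      have : 0 ≤ 8 * p.C * p.θ * p.η := by positivity
      have : 0 ≤ 2 * p.C * p.ρ ^ p.n := by positivity
      linarith
    have h5 := p.Λ1 l N'
    have := p.ξ0
    calc 2 * (2 * |κ| * s) * (Ex.tsize V s c ap x + √p.d)
        ≤ 2 * (p.ξ * σ) * (Ex.tsize V s c ap x + 1 * √p.d) := by rw [one_mul]; gcongr
      _ = σ * (2 * p.ξ) * (Ex.tsize V s c ap x + 1 * √p.d) := by ring
      _ ≤ _ := by have := p.τ_nonneg l N'; gcongr

theorem Bd_nonneg {d : ℕ} {X : Type} (V : E d → ℝ) (c : Ex d X) {s : ℝ} (hs : 0 < s)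
    (x : X × E d × E d) : 0 ≤ Bd V c s x := by
  unfold Bd
  have : 0 ≤ max (c.size V x.1) ‖c.val V x.1‖ := le_max_of_le_right (norm_nonneg _)
  positivity

/-- the secondary terms -/
theorem sec (hR : StmtReal) (hT : StmtTr) (hS : StmtSize) {l : ℕ} (hsec : p.TR l p.N)
    {X : Type} [MeasurableSpace X] {s σ ν β γ : ℝ} {c : Ex p.d X} {W : ℕ} {A : ℝ} (hc : c.Meas)
    (hs : 0 < s) (hsm : s ≤ p.smax) (hσ : 0 < σ) (hW : 2 * p.b ≤ W) (hA : 1 ≤ A)
    (hWm : 2 ^ (l + 1) * W ≤ p.Wm) (hAm : 3 ^ (l + 1) * A ≤ p.Am)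
    (hg : c.Good p.th p.smax p.k W A s) (hν : ν ≤ p.θ * σ) (hν2 : ν * p.h ^ (l + 1) ≤ p.ξ * σ)
    (hβ : 0 ≤ β) (hγ : 0 ≤ γ) (hβγ : γ + 5 * β * (2 * s ^ 2) ≤ 1)
    (hβth : 3 * p.ρ * β * (2 * s ^ 2) ≤ p.th p.k)
    (base : Ex p.d (X × E p.d × E p.d)) (Qb vb : ℝ) (hvb : 0 ≤ vb)
    (eb : (E p.d → ℝ) → X × E p.d × E p.d → ℝ) (heb : ∀ V, Admissible p.d V → ∀ x, 0 ≤ eb V x)
    (hb : Realizes Qb (fun V x => gauss (base.val V x) vb) eb) :
    ∀ R : LE, R.Nodes p.b β γ p.ρ → σ * (R.abss * (2 * s ^ 2)) ≤ p.h * ν →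
      Realizes (Qb + R.width * (p.M l p.N * (p.Q + 1)))
        (fun V x => gauss ((c.tr s p.ρ R σ base).val V x) (vb + R.width * (σ ^ 2 * p.M l p.N)))
        fun V x => eb V x + R.width * (σ * p.τ l p.N * (Bd V c s x + p.Λ l p.N * √p.d)) := by
  intro R
  induction R with
  | nil => intro _ _; simpa [LE.width, Ex.tr] using hb
  | cons κ a1 a2 ey ez rest _ _ ih =>
    intro hN hab
    have hrest := rest.abss_nonneg
    have h0 := p.h0
    have hρ := p.ρ0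
    have hρ8 := p.ρ8
    simp only [LE.abss] at hab
    have hab1 : σ * (rest.abss * (2 * s ^ 2)) ≤ p.h * ν := by
      refine le_trans ?_ hab
      gcongr
      exact le_add_of_nonneg_left (abs_nonneg κ)
    have ih' := ih hN.2.2.2.2.2.2 hab1
    have ha1 := hN.1
    have ha2 := hN.2.1
    have hq : 0 < 1 - a1 ^ 2 - a2 ^ 2 := by nlinarith only [ha1.1, ha1.2, ha2.1, ha2.2, hρ8]
    have hq1 : √(1 - a1 ^ 2 - a2 ^ 2) ≤ 1 := Real.sqrt_le_one.2 (by nlinarith only [])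
    have hq0 : 0 < √(1 - a1 ^ 2 - a2 ^ 2) := Real.sqrt_pos.2 hq
    set r := s * √(1 - a1 ^ 2 - a2 ^ 2) with hr
    have hr0 : 0 < r := mul_pos hs hq0
    have hrs : r ≤ s := mul_le_of_le_one_right hs.le hq1
    have hνi : 2 * |σ * κ * s| * r ≤ p.h * ν := by
      refine le_trans ?_ hab
      rw [abs_mul, abs_mul, abs_of_pos hσ, abs_of_pos hs]
      calc 2 * (σ * |κ| * s) * r ≤ 2 * (σ * |κ| * s) * s := by gcongr
        _ = σ * (|κ| * (2 * s ^ 2)) := by ring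
        _ ≤ _ := by gcongr; exact le_add_of_nonneg_right hrest
    have hν0 : 0 ≤ ν := by
      have : 0 ≤ p.h * ν := le_trans (by positivity) hνi
      exact nonneg_of_mul_nonneg_right this h0
    have hνθ : 2 * |σ * κ * s| * r ≤ p.θ * σ := by nlinarith only [p.h1, hνi, hν, hν0]
    have hgood := (hT.good p.d X p.th p.smax p.k W p.b A s p.ρ β γ c p.th0 p.th4 hW hA hs hsm hρ hρ8
      hβth hg).1 κ a1 a2 ey ez rest hN
    have hterm := hsec (X × E p.d × E p.d) (σ * κ * s) r (c.node s p.ρ a1 a2 ey ez)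
      (fun x => x.2.1) σ (σ ^ 2 * p.M l p.N) (2 * W) (3 * A)
      ((hT.meas p.d X c s p.ρ hc).2 a1 a2 ey ez) (by fun_prop) hr0 (hrs.trans hsm) hσ le_rfl
      (by omega) (by linarith) (by rw [← mul_assoc, ← pow_succ]; exact hWm)
      (by rw [← mul_assoc, ← pow_succ]; exact hAm) hgood hνθ
      (by
        refine le_trans ?_ hν2
        calc _ ≤ p.h * ν * p.h ^ l := by gcongr
          _ = _ := by ring)
      (by
        have h1 : 0 ≤ (1 - p.ρ ^ 2) ^ p.N := pow_nonneg (by nlinarith only [hρ, hρ8]) _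
        calc _ ≤ (p.θ * σ) ^ 2 * (1 - p.ρ ^ 2) ^ p.N := by gcongr
          _ = σ ^ 2 * (p.θ ^ 2 * (1 - p.ρ ^ 2) ^ p.N) := by ring
          _ ≤ σ ^ 2 * p.ξ ^ 2 := by gcongr; exact p.ξN
          _ = _ := by ring)
    have hτ := p.τ_nonneg l p.N
    have hΛ := p.Λ1 l p.N
    have hM := p.M0 l p.N
    have hD : 0 ≤ √(p.d : ℝ) := Real.sqrt_nonneg _
    have hsum := hR.add p.d _ _ _ _ _ _ _ _ _ (by positivity) (by positivity)
      (fun V hV x => by
        have := heb V hV x; have := Bd_nonneg V c hs x; positivity)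
      (fun V hV x => by
        have := tsize_nonneg V r (c.node s p.ρ a1 a2 ey ez) (fun x => x.2.1) x; positivity)
      ih' hterm
    refine hR.mono _ _ _ _ _ _ _ _ (le_of_eq ?_) ?_ ?_ hsum
    · simp only [LE.width]; push_cast; ring
    · intro V hV x
      simp only [LE.width, Ex.tr, Ex.val, Ex.node, hr]
      congr 1
      push_cast; ring
    · intro V hV x
      have h1 := (hS p.d X c s p.ρ p.b β γ V hV hs (hsm.trans p.s2) hρ hρ8 hβ hγ hβγ x).1
        κ a1 a2 ey ez rest hN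
      simp only [LE.width]
      push_cast
      have : σ * p.τ l p.N * (Ex.tsize V r (c.node s p.ρ a1 a2 ey ez) (fun x => x.2.1) x +
          p.Λ l p.N * √p.d) ≤ σ * p.τ l p.N * (Bd V c s x + p.Λ l p.N * √p.d) := by gcongr
      linarith

theorem lam_step {x : ℝ} (hx : 1 ≤ x) : x + 48 + 16 * p.η ≤ (1 + p.e1) * (x + 64) := by
  unfold e1; nlinarith [p.s0, p.η0]

set_option maxHeartbeats 800000 in
theorem tr_step (hB : StmtBasic) (hC : StmtCov) (hR : StmtReal) (hL : StmtLE) (hT : StmtTr)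
    (hS : StmtSize) (hM : StmtMarg) {l N' : ℕ} (hsec : p.TR l p.N) (hmain : p.TR (l + 1) N') :
    p.TR (l + 1) (N' + 1) := by
  intro X _ κ s c ap σ v W A hc hap hs hsm hσ hv hW hA hWm hAm hg hν hν2 hν3
  have hρ := p.ρ0
  have hρ8 := p.ρ8
  have hC1 := p.C1
  have hθ := p.θ0
  have hη := p.η0
  have hμ := p.μ0
  have hs2 : s ≤ 1 / 2 := hsm.trans p.s2
  have hδ : 2 * s ^ 2 ≤ 1 / 2 := by nlinarith only [hs, hs2]
  have hδth : 2 * s ^ 2 ≤ p.th p.k := le_trans (by gcongr) p.sth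
  have hκδ : |κ / (s * σ)| * (2 * s ^ 2) = 2 * |κ| * s / σ := by
    rw [abs_div, abs_of_pos (mul_pos hs hσ)]; field_simp
  have hκθ : 2 * |κ| * s / σ ≤ p.θ := by rw [div_le_iff₀ hσ]; exact hν
  obtain ⟨ey, R, hey1, hey2, hR1, hR2, hR3, hcore⟩ := p.core.out p.ρ (κ / (s * σ)) p.μ (2 * s ^ 2)
    hρ p.ρC (by positivity) hδ hμ (by rw [hκδ]; exact hκθ.trans p.θμ)
    (by unfold μ; gcongr) p.μρ
  set β := p.C * p.μ / (p.ρ * (2 * s ^ 2)) with hβdef
  set γ := p.C * p.ρ with hγdef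
  have hβ : 0 ≤ β := by positivity
  have hγ : 0 ≤ γ := by positivity
  have hβδ : β * (2 * s ^ 2) = p.C * p.μ / p.ρ := by rw [hβdef]; field_simp
  have hβδ2 : β * (2 * s ^ 2) ≤ p.C * p.ρ := by
    rw [hβδ, div_le_iff₀ hρ]; nlinarith only [p.μρ, hC1]
  have hβγ : γ + 5 * β * (2 * s ^ 2) ≤ 1 := by
    nlinarith only [p.ρC, hβδ2, hγdef, hγ]
  have hβth : 3 * p.ρ * β * (2 * s ^ 2) ≤ p.th p.k := by
    have h1 : 3 * p.ρ * β * (2 * s ^ 2) = (3 * p.C * p.ρ ^ 2) * p.th p.k := by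
      rw [mul_assoc, hβδ]; unfold μ; field_simp
    have h2 : 3 * p.C * p.ρ ^ 2 ≤ 1 := by nlinarith only [p.ρC, hρ, hρ8]
    rw [h1]; nlinarith only [p.th0 p.k, h2]
  have hR4 : R.abss * (2 * s ^ 2) ≤ 2 * |κ| * s / σ * (p.C * p.θ / p.μ) := by
    refine hR2.trans ?_
    have h1 : (κ / (s * σ) * (2 * s ^ 2)) ^ 2 = (2 * |κ| * s / σ) ^ 2 := by
      rw [← hκδ, mul_pow, mul_pow |κ / (s * σ)|, sq_abs]
    rw [h1]
    calc p.C * (2 * |κ| * s / σ) ^ 2 / p.μ
        = 2 * |κ| * s / σ * (p.C * (2 * |κ| * s / σ) / p.μ) := by ring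
      _ ≤ _ := by gcongr
  have hCh : p.C * p.θ / p.μ ≤ p.h := by rw [div_le_iff₀ hμ]; exact p.hθ
  have hR5 : σ * (R.abss * (2 * s ^ 2)) ≤ p.h * (2 * |κ| * s) := by
    calc σ * (R.abss * (2 * s ^ 2)) ≤ σ * (2 * |κ| * s / σ * p.h) := by
          exact mul_le_mul_of_nonneg_left (hR4.trans (by gcongr)) hσ.le
      _ = _ := by field_simp
  have hR6 : R.abss * (2 * s ^ 2) ≤ p.C * p.θ := by
    refine hR4.trans ?_
    calc 2 * |κ| * s / σ * (p.C * p.θ / p.μ) ≤ p.μ * (p.C * p.θ / p.μ) := by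
          gcongr; exact hκθ.trans p.θμ
      _ = _ := by field_simp
  -- first stage
  have h1 := p.cr X c s ((s * p.ρ) ^ 2) hc hs (by nlinarith only [mul_pos hs hρ])
    (hT.good_mono p.d X p.th p.smax p.k W p.Wm A p.Am s c p.th0 hs.le
      (le_trans (Nat.le_mul_of_pos_left _ (by positivity)) hWm)
      (le_trans (le_mul_of_one_le_left (by linarith) (one_le_pow₀ (by norm_num))) hAm) hg)
  -- the main term
  have hq : 0 < 1 - p.ρ ^ 2 := by nlinarith only [hρ, hρ8]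
  have hq1 : √(1 - p.ρ ^ 2) ≤ 1 := Real.sqrt_le_one.2 (by nlinarith only [hρ])
  have hq2 : 1 / 2 ≤ √(1 - p.ρ ^ 2) := Real.le_sqrt_of_sq_le (by nlinarith only [hρ, hρ8])
  set r := s * √(1 - p.ρ ^ 2) with hr
  have hr0 : 0 < r := by positivity
  have hrs : r ≤ s := mul_le_of_le_one_right hs.le hq1
  have hr2 : r ^ 2 = s ^ 2 * (1 - p.ρ ^ 2) := by rw [hr, mul_pow, Real.sq_sqrt hq.le]
  have hM0 := p.M0 l p.N
  have hM1 := p.M0 (l + 1) N'
  have hwb : (R.width : ℝ) ≤ p.b := by exact_mod_cast hR1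
  set vm := v - σ ^ 2 - R.width * (σ ^ 2 * p.M l p.N) with hvm
  have hvm1 : σ ^ 2 * p.M (l + 1) N' ≤ vm := by
    have h2 := mul_le_mul_of_nonneg_left (p.M_step l N') (sq_nonneg σ)
    have h3 : (R.width : ℝ) * (σ ^ 2 * p.M l p.N) ≤ p.b * (σ ^ 2 * p.M l p.N) := by gcongr
    nlinarith only [h2, h3, hv, hvm]
  have hvm0 : 0 ≤ vm := le_trans (by positivity) hvm1
  have hgood := (hT.good p.d X p.th p.smax p.k W p.b A s p.ρ β γ c p.th0 p.th4 hW hA hs hsm hρ hρ8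
    hβth hg).2 ey (s * p.ρ) r (fun x => x.2.1) hey1 hey2 (by rw [abs_of_pos (mul_pos hs hρ)])
    (by nlinarith only [hr, hq2, hs])
  have hh0 := p.h0
  have hmainT := hmain (X × E p.d × E p.d) κ r (c.tr s p.ρ ey (s * p.ρ) (.pt fun x => x.2.1))
    (fun x => x.2.1) σ vm W A
    ((hT.meas p.d X c s p.ρ hc).1 ey _ _ (by change Measurable _; fun_prop)) (by fun_prop) hr0
    (hrs.trans hsm) hσ hvm1 hW hA hWm hAm hgood (le_trans (by gcongr) hν)
    (le_trans (by gcongr) hν2)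
    (by
      refine le_trans (le_of_eq ?_) hν3
      rw [mul_pow _ r, hr2]; ring)
  have hτ1 := p.τ_nonneg (l + 1) N'
  have hτ2 := p.τ_nonneg l p.N
  have hΛ1 := p.Λ1 (l + 1) N'
  have hΛ2 := p.Λ1 l p.N
  have hΛ3 : p.Λ l p.N ≤ p.Λ (l + 1) N' := by
    have : p.j l p.N ≤ p.j (l + 1) N' := by unfold j; nlinarith only []
    unfold Λ; gcongr
  have hΛ4 : p.Λ (l + 1) (N' + 1) = p.Λ (l + 1) N' + 64 := by unfold Λ j; push_cast; ring
  have hD : 0 ≤ √(p.d : ℝ) := Real.sqrt_nonneg _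
  have hbase := hR.add p.d _ _ _ _ _ _ _ _ _ le_rfl hvm0 (fun _ _ _ => le_rfl)
    (fun V hV x => by
      have := tsize_nonneg V r (c.tr s p.ρ ey (s * p.ρ) (.pt fun x => x.2.1)) (fun x => x.2.1) x
      positivity)
    (hR.pure p.d (X × E p.d × E p.d) (fun x => σ • x.2.2) 0 (by fun_prop)) hmainT
  have h2 := p.sec hR hT hS hsec hc hs hsm hσ hW hA hWm hAm hg hν hν2 hβ hγ hβγ hβth
    (.add (.pt fun x => σ • x.2.2) κ r (c.tr s p.ρ ey (s * p.ρ) (.pt fun x => x.2.1))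
      fun x => x.2.1) _ _ (by simpa using hvm0) _
    (fun V hV x => by
      have := tsize_nonneg V r (c.tr s p.ρ ey (s * p.ρ) (.pt fun x => x.2.1)) (fun x => x.2.1) x
      positivity) hbase R hR3 hR5
  set τ' := p.τ (l + 1) N' + p.b * p.τ l p.N with hτ'
  have hτ'0 : 0 ≤ τ' := by positivity
  have hv2 : 0 + vm + R.width * (σ ^ 2 * p.M l p.N) = v - σ ^ 2 := by rw [hvm]; ring
  rw [hv2] at h2
  have hv3 : 0 ≤ v - σ ^ 2 := by rw [← hv2]; positivity
  have h3 := hR.bind p.d X _ _ _ _ (8 * p.C * p.θ * σ / s) (σ + 8 * p.C * p.θ * σ)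
    (16 * σ * τ' / s) (16 * σ * τ') (fun V x => c.val V x)
    (fun V x => (nxt c s p.ρ κ σ ey R).val V x) _
    (fun V x => σ * τ' * ((1 + 8 * s) * Ex.tsize V s c ap x + (16 + p.Λ (l + 1) N') * √p.d)) _
    (by positivity) (by positivity) (by positivity) (by positivity)
    (fun V hV x => by have := size_nonneg V c x; positivity)
    (fun V hV x => by have := tsize_nonneg V s c ap x; positivity)
    (fun V hV x P z P' z' => lip_nxt hB hC hL hT c hV hs hs2 hρ hρ8 hσ hβ hγ hβγ hC1 hν hey1.2.1 hR6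
      hey2 hR3 x P z P' z')
    (fun V hV x P z => by
      have a1 := (hS p.d X c s p.ρ p.b β γ V hV hs hs2 hρ hρ8 hβ hγ hβγ (x, P, z)).2.2 ey hey1 hey2
      have a2 : Bd V c s (x, P, z) ≤ (1 + 8 * s) * Ex.tsize V s c ap x +
          16 * (‖P - c.val V x‖ / s + ‖z‖ + √p.d) := by
        unfold Bd
        gcongr
        exact max_le (size_le_tsize V s c ap x) (norm_le_tsize V hs c ap x)
      have a0 := Bd_nonneg V c hs (x, P, z)
      calc 0 + σ * p.τ (l + 1) N' * (Ex.tsize V r (c.tr s p.ρ ey (s * p.ρ) (.pt fun x => x.2.1))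
              (fun x => x.2.1) (x, P, z) + p.Λ (l + 1) N' * √p.d) +
            R.width * (σ * p.τ l p.N * (Bd V c s (x, P, z) + p.Λ l p.N * √p.d))
          ≤ 0 + σ * p.τ (l + 1) N' * (Bd V c s (x, P, z) + p.Λ (l + 1) N' * √p.d) +
            p.b * (σ * p.τ l p.N * (Bd V c s (x, P, z) + p.Λ (l + 1) N' * √p.d)) := by gcongr
        _ = σ * τ' * (Bd V c s (x, P, z) + p.Λ (l + 1) N' * √p.d) := by rw [hτ']; ring
        _ ≤ σ * τ' * ((1 + 8 * s) * Ex.tsize V s c ap x +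
          16 * (‖P - c.val V x‖ / s + ‖z‖ + √p.d) + p.Λ (l + 1) N' * √p.d) := by gcongr
        _ = _ := by ring)
    h1 h2
  have h4 := hR.trans p.d X _ _ (fun V x => gauss (κ • GF V (s ^ 2) (c.val V x)) v) _
    (fun V x => σ * (p.C * p.ρ ^ p.n * (√p.d + ‖GF (fun y => V (c.val V x + s • y)) 1 0‖)))
    (fun V hV x => by
      have := size_nonneg V c x; have := tsize_nonneg V s c ap x; positivity)
    (fun V hV x => by positivity)
    (fun V hV x => by
      obtain ⟨φ, hφ, hlaw, -, herr⟩ := hcore p.d (fun y => V (c.val V x + s • y))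
        (hB.scale p.d 2 V (c.val V x) s (hB.adm p.d V hV).1 hs)
      have := core_wle hB hR hT hM c (κ := κ) hV hs hρ (by linarith) hσ hv3 hey2 hR3 x φ hφ hlaw herr
      rwa [add_sub_cancel] at this)
    h3
  refine hR.mono _ _ _ _ _ _ _ _ ?_ (fun _ _ _ => rfl) ?_ h4
  · have a1 := mul_le_mul_of_nonneg_right (p.M_step l N') (by linarith [p.Q0] : 0 ≤ p.Q + 1)
    have a2 : (R.width : ℝ) * (p.M l p.N * (p.Q + 1)) ≤ p.b * (p.M l p.N * (p.Q + 1)) := by
      have := p.Q0; gcongr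
    nlinarith only [a1, a2]
  · intro V hV x
    have a1 := size_le_tsize V s c ap x
    have a2 := norm_le_tsize V hs c ap x
    have a3 : ‖GF (fun y => V (c.val V x + s • y)) 1 0‖ ≤ 2 * Ex.tsize V s c ap x + √p.d := by
      rw [hB.scaleG p.d 2 V _ s _ _ (hB.adm p.d V hV).1 hs zero_le_one, norm_smul, Real.norm_eq_abs,
        abs_of_pos hs]
      simp only [mul_one, smul_zero, add_zero]
      have b1 := hC.adm p.d V hV s (c.val V x) hs.le hs2
      have b2 := norm_nonneg (c.val V x)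
      calc s * ‖GF V (s ^ 2) (c.val V x)‖ ≤ s * (4 * ‖c.val V x‖ + 4 * s * √p.d) := by gcongr
        _ = (2 * s) * (2 * ‖c.val V x‖) + (2 * s) * (2 * s) * √p.d := by ring
        _ ≤ 1 * (2 * Ex.tsize V s c ap x) + 1 * 1 * √p.d := by
            have : 2 * s ≤ 1 := by linarith
            gcongr
        _ = _ := by ring
    have a4 := p.τ_step l N'
    rw [Real.sqrt_sq (mul_pos hs hρ).le, hΛ4]
    set S := Ex.tsize V s c ap x
    have hS0 : 0 ≤ S := tsize_nonneg V s c ap x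
    set D := √(p.d : ℝ)
    set Λ' := p.Λ (l + 1) N'
    have hξ := p.ξ0
    calc (8 * p.C * p.θ * σ / s + 16 * σ * τ' / s) * (p.η * s * (c.size V x + D)) +
          σ * τ' * ((1 + 8 * s) * S + (16 + Λ') * D) +
          (16 * σ * τ' / s * (s * p.ρ) + 16 * σ * τ') * D +
          σ * (p.C * p.ρ ^ p.n * (D + ‖GF (fun y => V (c.val V x + s • y)) 1 0‖))
        ≤ (8 * p.C * p.θ * σ / s + 16 * σ * τ' / s) * (p.η * s * (S + D)) +
          σ * τ' * ((1 + 8 * p.smax) * S + (16 + Λ') * D) +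
          (16 * σ * τ' / s * (s * 1) + 16 * σ * τ') * D +
          σ * (p.C * p.ρ ^ p.n * (D + (2 * S + D))) := by
          have : p.ρ ≤ 1 := by linarith
          gcongr
      _ = σ * (τ' * ((1 + p.e1) * S + (Λ' + 48 + 16 * p.η) * D) +
            (8 * p.C * p.θ * p.η + 2 * p.C * p.ρ ^ p.n) * (S + 1 * D)) := by
          unfold e1; field_simp; ring
      _ ≤ σ * (τ' * ((1 + p.e1) * S + ((1 + p.e1) * (Λ' + 64)) * D) +
            p.e0 * (S + (Λ' + 64) * D)) := by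
          have := p.e1_nonneg
          have := p.e0_nonneg
          have b1 := p.lam_step hΛ1
          have b2 : 8 * p.C * p.θ * p.η + 2 * p.C * p.ρ ^ p.n ≤ p.e0 := by
            unfold e0; linarith only [hξ]
          have b3 : 1 ≤ Λ' + 64 := by linarith only [hΛ1]
          gcongr
      _ = σ * (τ' * (1 + p.e1) + p.e0) * (S + (Λ' + 64) * D) := by ring
      _ ≤ _ := by gcongr

theorem tr_all (hB : StmtBasic) (hC : StmtCov) (hR : StmtReal) (hL : StmtLE) (hT : StmtTr)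
    (hS : StmtSize) (hM : StmtMarg) (l : ℕ) : ∀ N', p.TR l N' := by
  induction l with
  | zero => exact fun N' => p.tr_base hB hC hR 0 N' (Or.inl rfl)
  | succ l ih =>
    intro N'
    induction N' with
    | zero => exact p.tr_base hB hC hR _ 0 (Or.inr rfl)
    | succ N' ih' => exact p.tr_step hB hC hR hL hT hS hM (ih p.N) ih'

end Par
end Step

set_option maxHeartbeats 800000 in
open Step in
theorem stepStmt (hB : StmtBasic) (hC : StmtCov) (hR : StmtReal) (hL : StmtLE) (hT : StmtTr)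
    (hS : StmtSize) (hM : StmtMarg) : StmtStep := by
  intro n C b hcore d th smax ρ θ h ξ η Q A k W L N h1 h2 h3 h4 h5 h6 h7 h8 hbW hA h9 h10 h11 h12
    h13 h14 hL' h15 hth he hcr
  let p : Par := ⟨n, C, b, d, th, smax, ρ, θ, h, ξ, η, Q, k, N, 2 ^ (L + 1) * W, 3 ^ L * A, hcore,
    h1, h2, h3, h4, h5, h6, h7, h8, h9, h10, h11, h12, h13, h14, h15, hcr⟩
  have htr : p.TR L N := p.tr_all hB hC hR hL hT hS hM L N
  have hM1 : 1 ≤ Mc b N L := p.M1 L N
  have hρ8 : ρ ≤ 1 / 8 := p.ρ8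
  have hh0 : 0 < h := p.h0
  intro X _ e r v hm hr hv hg
  have hW0 : (0 : ℝ) ≤ W := Nat.cast_nonneg W
  have hsq : 1 ≤ √((W + 1) * Mc b N L) := Real.one_le_sqrt.2 (by nlinarith only [hW0, hM1])
  set σ := ρ * r / (2 * √((W + 1) * Mc b N L)) with hσdef
  have hσ : 0 < σ := by positivity
  have hσr : σ ≤ r := by
    rw [hσdef, div_le_iff₀ (by positivity)]; nlinarith only [hsq, hr, hρ8]
  have hσv : (W + 1) * (σ ^ 2 * Mc b N L) ≤ v := by
    refine le_trans (le_of_eq ?_) hv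
    rw [hσdef, div_pow, mul_pow 2, Real.sq_sqrt (by positivity)]
    field_simp
  have hnoise : e.noise ≤ θ * σ := by
    refine hg.2.1.trans ?_
    rw [hσdef, mul_div_assoc', le_div_iff₀ (by positivity)]
    nlinarith only [mul_le_mul_of_nonneg_right hth hr.le]
  have hτ0 := p.τ_nonneg L N
  have hΛ := p.Λ1 L N
  have hD : 0 ≤ √(d : ℝ) := Real.sqrt_nonneg _
  have key : ∀ (e : Ex d X) (v : ℝ), e.Meas → e.noise ≤ θ * σ →
      (e.Terms fun r' c => 0 < r' ∧ r' ≤ smax ∧ c.Good th smax k (2 * W) A r') →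
      e.width * (σ ^ 2 * Mc b N L) ≤ v →
      Realizes (e.width * (Mc b N L * (Q + 1))) (fun V x => gauss (e.val V x) v)
        fun V x => e.width * (σ * p.τ L N * (e.size V x + p.Λ L N * √d)) := by
    intro e
    induction e with
    | pt f => intro v hm _ _ _; simpa [Ex.width, Ex.val] using hR.pure d X f v hm
    | add rest κ r' c ap ih _ =>
      intro v hm hn ht hv
      obtain ⟨⟨hr', hrs, hgc⟩, ht'⟩ := ht
      have hn0 : ∀ e : Ex d X, 0 ≤ e.noise := by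
        intro e
        induction e with
        | pt f => simp [Ex.noise]
        | add rest κ r c ap ih _ => simp only [Ex.noise]; positivity
      simp only [Ex.noise, abs_of_pos hr'] at hn
      simp only [Ex.width] at hv
      push_cast at hv
      have hν : 2 * |κ| * r' ≤ θ * σ := by linarith [hn0 rest]
      have ih' := ih (v - σ ^ 2 * Mc b N L) hm.1
        (by have : 0 ≤ 2 * |κ| * r' := by positivity
            linarith) ht' (by linarith)
      have hterm := htr X κ r' c ap σ (σ ^ 2 * Mc b N L) (2 * W) A hm.2.1 hm.2.2 hr' hrs hσ le_rfl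
        (by change 2 * b ≤ 2 * W; omega) hA
        (by change 2 ^ L * (2 * W) ≤ 2 ^ (L + 1) * W; rw [pow_succ, mul_assoc]) le_rfl hgc hν
        (by
          change 2 * |κ| * r' * h ^ L ≤ ξ * σ
          calc _ ≤ θ * σ * h ^ L := by gcongr
            _ = θ * h ^ L * σ := by ring
            _ ≤ _ := by gcongr)
        (by
          change (2 * |κ| * r') ^ 2 * (1 - ρ ^ 2) ^ N ≤ (ξ * σ) ^ 2
          have h1 : 0 ≤ (1 - ρ ^ 2) ^ N := pow_nonneg (by nlinarith only [h3, hρ8]) _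
          calc _ ≤ (θ * σ) ^ 2 * (1 - ρ ^ 2) ^ N := by gcongr
            _ = σ ^ 2 * (θ ^ 2 * (1 - ρ ^ 2) ^ N) := by ring
            _ ≤ σ ^ 2 * ξ ^ 2 := by gcongr
            _ = _ := by ring)
      have hsum := hR.add d X _ _ _ _ _ _ _ _
        (le_trans (by positivity : 0 ≤ (rest.width : ℝ) * (σ ^ 2 * Mc b N L)) (by linarith))
        (by positivity)
        (fun V hV x => by have := size_nonneg V rest x; positivity)
        (fun V hV x => by have := tsize_nonneg V r' c ap x; positivity) ih' hterm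
      refine hR.mono _ _ _ _ _ _ _ _ (le_of_eq ?_) ?_ ?_ hsum
      · simp only [Ex.width]; push_cast; change _ + Mc b N L * (Q + 1) = _; ring
      · intro V hV x
        simp only [Ex.val, sub_add_cancel]
      · intro V hV x
        have a1 : rest.size V x ≤ (Ex.add rest κ r' c ap).size V x := le_max_left _ _
        have a2 : Ex.tsize V r' c ap x ≤ (Ex.add rest κ r' c ap).size V x := le_max_right _ _
        simp only [Ex.width]
        push_cast
        calc _ ≤ rest.width * (σ * p.τ L N * ((Ex.add rest κ r' c ap).size V x + p.Λ L N * √d)) +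
            σ * p.τ L N * ((Ex.add rest κ r' c ap).size V x + p.Λ L N * √d) := by gcongr
          _ = _ := by ring
  have hwW : (e.width : ℝ) ≤ W := by exact_mod_cast hg.1
  have hj : (p.j L N : ℝ) ≤ (L + 1) * (N + 1) := by
    change ((N + L * (N + 1) : ℕ) : ℝ) ≤ _
    push_cast; nlinarith only []
  have hexp : (1 + p.e1) ^ p.j L N ≤ 3 := by
    have e0 := p.e1_nonneg
    calc (1 + p.e1) ^ p.j L N ≤ Real.exp p.e1 ^ p.j L N := by
          gcongr; linarith [Real.add_one_le_exp p.e1]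
      _ = Real.exp (p.j L N * p.e1) := by rw [Real.exp_nat_mul]
      _ ≤ Real.exp 1 := by
          gcongr
          exact le_trans (mul_le_mul_of_nonneg_right hj e0) he
      _ ≤ 3 := by linarith [Real.exp_one_lt_d9]
  refine hR.mono _ _ _ _ _ _ _ _ ?_ (fun _ _ _ => rfl) ?_
    (key e v hm hnoise hg.2.2 (le_trans (by gcongr; linarith) hσv))
  · calc (e.width : ℝ) * (Mc b N L * (Q + 1)) ≤ W * (Mc b N L * (Q + 1)) := by gcongr
      _ = _ := by ring
  · intro V hV x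
    have a1 := size_nonneg V e x
    have a2 : p.τ L N ≤ Mc b N L * 3 * p.e0 := by
      have := p.e0_nonneg
      change Mc b N L * (1 + p.e1) ^ p.j L N * p.e0 ≤ _
      gcongr
    have a3 : p.Λ L N ≤ 1 + 64 * ((L + 1) * (N + 1)) := by unfold Par.Λ; gcongr
    have a4 := p.e0_nonneg
    calc (e.width : ℝ) * (σ * p.τ L N * (e.size V x + p.Λ L N * √d))
        ≤ W * (r * (Mc b N L * 3 * p.e0) * ((1 + 64 * ((L + 1) * (N + 1))) * e.size V x +
          (1 + 64 * ((L + 1) * (N + 1))) * √d)) := by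
          gcongr
          exact le_mul_of_one_le_left a1 (hΛ.trans a3)
      _ = _ := by unfold Par.e0; ring

end Crest.Agent.R285
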