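import Crest.Agent.R285.DefsP

/-! Row 285: one rung of the ladder (analytic part). -/

set_option autoImplicit false

open MeasureTheory ProbabilityTheory Set
open scoped ENNReal NNReal ContDiff RealInnerProductSpace
open Crest.OracleSampling

noncomputable section

namespace Crest.Agent.R285
namespace Step

variable {d : ℕ}

theorem size_nonneg {X : Type} (V : E d → ℝ) (e : Ex d X) (x : X) : 0 ≤ e.size V x := by
  induction e with
  | pt f => simp [Ex.size]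
  | add rest κ r c ap ih1 _ => exact le_max_of_le_left ih1

theorem tsize_nonneg {X : Type} (V : E d → ℝ) (r : ℝ) (c : Ex d X) (ap : X → E d) (x : X) :
    0 ≤ Ex.tsize V r c ap x := le_max_of_le_left (size_nonneg V c x)

theorem size_le_tsize {X : Type} (V : E d → ℝ) (r : ℝ) (c : Ex d X) (ap : X → E d) (x : X) :
    c.size V x ≤ Ex.tsize V r c ap x := le_max_left _ _

theorem norm_le_tsize {X : Type} (V : E d → ℝ) {r : ℝ} (hr : 0 < r) (c : Ex d X) (ap : X → E d)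
    (x : X) : ‖c.val V x‖ ≤ Ex.tsize V r c ap x :=
  le_max_of_le_right (le_add_of_nonneg_right (by positivity))

theorem crude_term (hB : StmtBasic) (hC : StmtCov) {X : Type} {V : E d → ℝ} (hV : Admissible d V)
    (κ : ℝ) {r : ℝ} (c : Ex d X) (ap : X → E d) (x : X) (hr : 0 < r) (hr2 : r ≤ 1 / 2) :
    |κ| * ‖GF V (r ^ 2) (c.val V x) - gradient V (ap x)‖ ≤
      2 * (2 * |κ| * r) * (Ex.tsize V r c ap x + √d) := by
  have h1 := hC.crude d 2 V (hB.adm d V hV).1 (r ^ 2) (c.val V x) (ap x) (by positivity)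
  have h2 := hC.adm d V hV r (c.val V x) hr.le hr2
  rw [Real.sqrt_sq hr.le] at h1
  have h3 : ‖c.val V x‖ + ‖c.val V x - ap x‖ / r ≤ Ex.tsize V r c ap x := le_max_right _ _
  have h4 : ‖c.val V x - ap x‖ = r * (‖c.val V x - ap x‖ / r) := by field_simp
  set a := ‖c.val V x‖
  set b := ‖c.val V x - ap x‖ / r
  set D := √(d : ℝ)
  have ha : 0 ≤ a := norm_nonneg _
  have hb : 0 ≤ b := by positivity
  have hD : 0 ≤ D := Real.sqrt_nonneg _
  have h5 : r ^ 2 * ‖GF V (r ^ 2) (c.val V x)‖ ≤ r * (2 * a + D) := by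
    calc r ^ 2 * ‖GF V (r ^ 2) (c.val V x)‖ ≤ r ^ 2 * (4 * a + 4 * r * D) := by gcongr
      _ = r * ((2 * r) * (2 * a) + (2 * r) * (2 * r) * D) := by ring
      _ ≤ r * (1 * (2 * a) + 1 * 1 * D) := by
        have : 2 * r ≤ 1 := by linarith
        gcongr
      _ = _ := by ring
  have h6 : ‖GF V (r ^ 2) (c.val V x) - gradient V (ap x)‖ ≤
      4 * r * (Ex.tsize V r c ap x + D) := by
    rw [h4] at h1
    nlinarith [mul_nonneg hr.le hb, mul_le_mul_of_nonneg_left h3 hr.le]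
  calc _ ≤ |κ| * (4 * r * (Ex.tsize V r c ap x + D)) := by gcongr
    _ = _ := by ring

theorem continuous_Gp (hB : StmtBasic) {δ : ℝ} {U : E d → ℝ} (hU : Pot δ U) :
    Continuous (Gp U) := by
  have := (hB.contG d δ U hU).comp (f := fun p : Ph d =>
    ((1 - p.1.1 ^ 2 - p.1.2 ^ 2, p.1.1 • p.2.1 + p.1.2 • p.2.2) : ℝ × E d)) (by fun_prop)
  exact this

theorem continuous_val (hB : StmtBasic) {δ : ℝ} {U : E d → ℝ} (hU : Pot δ U) (e : LE) :
    Continuous (e.val U) := by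
  induction e with
  | nil => exact continuous_const
  | cons k a1 a2 ey ez rest ihy ihz ih =>
    have hG := continuous_Gp hB hU
    change Continuous fun ζ : E d × E d =>
      k • Gp U ((a1, a2), (ζ.1 + ey.val U ζ, ζ.2 + ez.val U ζ)) + rest.val U ζ
    fun_prop

/-- the expression realised after one rung -/
def nxt {X : Type} (c : Ex d X) (s ρ κ σ : ℝ) (ey R : LE) : Ex d (X × E d × E d) :=
  c.tr s ρ R σ (.add (.pt fun x => σ • x.2.2) κ (s * √(1 - ρ ^ 2))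
    (c.tr s ρ ey (s * ρ) (.pt fun x => x.2.1)) fun x => x.2.1)

theorem val_nxt (hT : StmtTr) {X : Type} (c : Ex d X) {s ρ : ℝ} (κ σ : ℝ) {ey R : LE} {b : ℕ}
    {β γ : ℝ} {V : E d → ℝ} (hV : Admissible d V) (hs : 0 < s) (hρ : 0 < ρ) (hρ4 : ρ ≤ 1 / 4)
    (hey : ey.Nodes b β γ ρ) (hR : R.Nodes b β γ ρ) (x : X) (P z : E d) :
    (nxt c s ρ κ σ ey R).val V (x, P, z) = σ • z + κ • GF V (s ^ 2 * (1 - ρ ^ 2))
      (P + (s * ρ) • ey.val (fun y => V (c.val V x + s • y)) ((s * ρ)⁻¹ • (P - c.val V x), z)) +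
      σ • R.val (fun y => V (c.val V x + s • y)) ((s * ρ)⁻¹ • (P - c.val V x), z) := by
  have h := hT.val d X c s ρ b β γ V hV hs hρ hρ4 x P z
  have h1 : (s * √(1 - ρ ^ 2)) ^ 2 = s ^ 2 * (1 - ρ ^ 2) := by
    rw [mul_pow, Real.sq_sqrt (by nlinarith)]
  rw [nxt, h R σ _ hR]
  simp only [Ex.val]
  rw [h ey _ _ hey, h1]
  simp only [Ex.val]

theorem lip_nxt (hB : StmtBasic) (hC : StmtCov) (hL : StmtLE) (hT : StmtTr) {X : Type}
    (c : Ex d X) {s ρ κ σ θ C : ℝ} {ey R : LE} {b : ℕ}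
    {β γ : ℝ} {V : E d → ℝ} (hV : Admissible d V) (hs : 0 < s) (hs2 : s ≤ 1 / 2) (hρ : 0 < ρ)
    (hρ8 : ρ ≤ 1 / 8) (hσ : 0 < σ) (hβ : 0 ≤ β) (hγ : 0 ≤ γ) (hβγ : γ + 5 * β * (2 * s ^ 2) ≤ 1)
    (hC1 : 1 ≤ C) (hκ : 2 * |κ| * s ≤ θ * σ) (hey0 : ey.abss ≤ β)
    (hR0 : R.abss * (2 * s ^ 2) ≤ C * θ)
    (hey : ey.Nodes b β γ ρ) (hR : R.Nodes b β γ ρ) (x : X) (P z P' z' : E d) :
    ‖(nxt c s ρ κ σ ey R).val V (x, P, z) - (nxt c s ρ κ σ ey R).val V (x, P', z')‖ ≤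
      8 * C * θ * σ / s * ‖P - P'‖ + (σ + 8 * C * θ * σ) * ‖z - z'‖ := by
  rw [val_nxt hT c κ σ hV hs hρ (by linarith) hey hR, val_nxt hT c κ σ hV hs hρ (by linarith) hey hR]
  have hU := hB.scale d 2 V (c.val V x) s (hB.adm d V hV).1 hs
  set U := fun y => V (c.val V x + s • y)
  have hδ : 2 * s ^ 2 ≤ 1 / 2 := by nlinarith
  have hsm : 3 * ρ * (1 + γ + 5 * β * (2 * s ^ 2)) ≤ 1 := by nlinarith
  have l1 := (hL d _ U hU hδ b β γ ρ ey hβ hγ hρ.le (by linarith) hsm hey).1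
  have l2 := (hL d _ U hU hδ b β γ ρ R hβ hγ hρ.le (by linarith) hsm hR).1
  set ζ : E d × E d := ((s * ρ)⁻¹ • (P - c.val V x), z)
  set ζ' : E d × E d := ((s * ρ)⁻¹ • (P' - c.val V x), z')
  have hsρ : 0 < s * ρ := mul_pos hs hρ
  set p := ‖P - P'‖
  set w := ‖z - z'‖
  have hp : 0 ≤ p := norm_nonneg _
  have hw : 0 ≤ w := norm_nonneg _
  have hζ : ‖ζ - ζ'‖ ≤ p / (s * ρ) + w := by
    have e1 : ‖(ζ - ζ').1‖ = p / (s * ρ) := by
      simp only [ζ, ζ', Prod.fst_sub, ← smul_sub, sub_sub_sub_cancel_right, norm_smul,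
        Real.norm_eq_abs, abs_of_pos (inv_pos.2 hsρ)]
      rw [div_eq_inv_mul]
    have e2 : ‖(ζ - ζ').2‖ = w := rfl
    rw [Prod.norm_def, e1, e2]
    exact max_le (le_add_of_nonneg_right hw) (le_add_of_nonneg_left (by positivity))
  have hθ : 0 ≤ θ := by
    have : 0 ≤ θ * σ := le_trans (by positivity) hκ
    exact nonneg_of_mul_nonneg_left this hσ
  have a1 : ‖ey.val U ζ - ey.val U ζ'‖ ≤ p / (s * ρ) + w := by
    refine (l1 ζ ζ').trans ?_
    have : 6 * ρ * (2 * s ^ 2) * ey.abss ≤ 1 := by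
      have := ey.abss_nonneg
      calc 6 * ρ * (2 * s ^ 2) * ey.abss ≤ 6 * (1 / 8) * (2 * s ^ 2) * β := by gcongr
        _ ≤ 1 := by nlinarith [mul_nonneg hβ (sq_nonneg s)]
    calc _ ≤ 1 * (p / (s * ρ) + w) := by gcongr
      _ = _ := one_mul _
  have a2 : ‖R.val U ζ - R.val U ζ'‖ ≤ 6 * ρ * (C * θ) * (p / (s * ρ) + w) := by
    refine (l2 ζ ζ').trans ?_
    have := R.abss_nonneg
    calc 6 * ρ * (2 * s ^ 2) * R.abss * ‖ζ - ζ'‖ = 6 * ρ * (R.abss * (2 * s ^ 2)) * ‖ζ - ζ'‖ := by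
          ring
      _ ≤ _ := by gcongr
  have a3 : ‖GF V (s ^ 2 * (1 - ρ ^ 2)) (P + (s * ρ) • ey.val U ζ) -
      GF V (s ^ 2 * (1 - ρ ^ 2)) (P' + (s * ρ) • ey.val U ζ')‖ ≤ 2 * (2 * p + s * ρ * w) := by
    refine (hC.lip d 2 V (hB.adm d V hV).1 _ _ _).trans ?_
    gcongr
    calc ‖P + (s * ρ) • ey.val U ζ - (P' + (s * ρ) • ey.val U ζ')‖
        = ‖(P - P') + (s * ρ) • (ey.val U ζ - ey.val U ζ')‖ := by
          congr 1; rw [smul_sub]; abel
      _ ≤ p + s * ρ * (p / (s * ρ) + w) := by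
          refine (norm_add_le _ _).trans ?_
          rw [norm_smul, Real.norm_eq_abs, abs_of_pos hsρ]
          gcongr
      _ = 2 * p + s * ρ * w := by field_simp; ring
  have hκ' : 2 * |κ| ≤ θ * σ / s := by rw [le_div_iff₀ hs]; exact hκ
  calc _ = ‖σ • (z - z') + κ • (GF V (s ^ 2 * (1 - ρ ^ 2)) (P + (s * ρ) • ey.val U ζ) -
      GF V (s ^ 2 * (1 - ρ ^ 2)) (P' + (s * ρ) • ey.val U ζ')) +
        σ • (R.val U ζ - R.val U ζ')‖ := by
        congr 1; simp only [smul_sub]; abel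
    _ ≤ σ * w + |κ| * (2 * (2 * p + s * ρ * w)) + σ * (6 * ρ * (C * θ) * (p / (s * ρ) + w)) := by
        refine (norm_add_le _ _).trans (add_le_add ((norm_add_le _ _).trans (add_le_add ?_ ?_)) ?_)
        · rw [norm_smul, Real.norm_eq_abs, abs_of_pos hσ]
        · rw [norm_smul, Real.norm_eq_abs]; gcongr
        · rw [norm_smul, Real.norm_eq_abs, abs_of_pos hσ]; gcongr
    _ = σ * w + (2 * |κ|) * (2 * p) + (2 * |κ| * s) * (ρ * w) + 6 * C * θ * σ / s * p +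
          ρ * (6 * C * θ * σ * w) := by field_simp; ring
    _ ≤ σ * w + (θ * σ / s) * (2 * p) + (θ * σ) * (1 * w) + 6 * C * θ * σ / s * p +
          1 * (6 * C * θ * σ * w) := by
        have : ρ ≤ 1 := by linarith
        gcongr
    _ ≤ σ * w + (C * θ * σ / s) * (2 * p) + (C * θ * σ) * (2 * w) + 6 * C * θ * σ / s * p +
          1 * (6 * C * θ * σ * w) := by
        have h1 : θ * σ ≤ C * θ * σ := by nlinarith [mul_nonneg hθ hσ.le]
        gcongr
        linarith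
    _ = _ := by ring

/-- the core lemma transported to the potential `V` -/
theorem core_wle (hB : StmtBasic) (hR : StmtReal) (hT : StmtTr) (hM : StmtMarg) {X : Type}
    (c : Ex d X) {s ρ κ σ η v : ℝ} {ey R : LE} {b : ℕ}
    {β γ : ℝ} {V : E d → ℝ} (hV : Admissible d V) (hs : 0 < s) (hρ : 0 < ρ)
    (hρ4 : ρ ≤ 1 / 4) (hσ : 0 < σ) (hv : 0 ≤ v)
    (hey : ey.Nodes b β γ ρ) (hRn : R.Nodes b β γ ρ) (x : X)
    (φ : E d × E d → E d × E d) (hφ : Measurable φ)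
    (hlaw : ((gam d).prod (gam d)).map φ = nu (fun y => V (c.val V x + s • y)) (ρ, 0))
    (herr : ∫⁻ ζ, ‖ζ.2 + (κ / (s * σ)) • Gp (fun y => V (c.val V x + s • y))
        ((ρ, 0), (ζ.1 + ey.val (fun y => V (c.val V x + s • y)) ζ, ζ.2)) +
        R.val (fun y => V (c.val V x + s • y)) ζ -
          ((φ ζ).2 + (κ / (s * σ)) • GF (fun y => V (c.val V x + s • y)) 1 0)‖ₑ
        ∂((gam d).prod (gam d)) ≤ ENNReal.ofReal η) :
    WLe ((((gam d).prod (gam d)).prod (gam d)).map fun o =>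
        (nxt c s ρ κ σ ey R).val V (x, c.val V x + √((s * ρ) ^ 2) • o.1.1, o.1.2) + √v • o.2)
      (gauss (κ • GF V (s ^ 2) (c.val V x)) (σ ^ 2 + v)) (σ * η) := by
  have hP := (hB.adm d V hV).1
  have hU := hB.scale d 2 V (c.val V x) s hP hs
  set U := fun y => V (c.val V x + s • y) with hUdef
  have hsρ : 0 < s * ρ := mul_pos hs hρ
  have hsnd : ((gam d).prod (gam d)).map (fun ζ => (φ ζ).2) = gam d := by
    have := (hM d _ U hU ρ hρ (by linarith)).1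
    rw [← hlaw, Measure.map_map measurable_snd hφ] at this
    exact this
  rw [← hR.gsum d _ ((gam d).prod (gam d)) (fun ζ => (φ ζ).2) _ σ v (measurable_snd.comp hφ) hsnd hv]
  have hcy := continuous_val hB hU ey
  have hcR := continuous_val hB hU R
  have hcG := continuous_Gp hB hU
  -- pointwise formula
  have key : ∀ ζ : E d × E d,
      (nxt c s ρ κ σ ey R).val V (x, c.val V x + √((s * ρ) ^ 2) • ζ.1, ζ.2) =
        σ • (ζ.2 + (κ / (s * σ)) • Gp U ((ρ, 0), (ζ.1 + ey.val U ζ, ζ.2)) + R.val U ζ) := by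
    intro ζ
    rw [val_nxt hT c κ σ hV hs hρ hρ4 hey hRn, Real.sqrt_sq hsρ.le]
    have e1 : (s * ρ)⁻¹ • (c.val V x + (s * ρ) • ζ.1 - c.val V x) = ζ.1 := by
      rw [add_sub_cancel_left, smul_smul, inv_mul_cancel₀ hsρ.ne', one_smul]
    rw [e1]
    have e2 : Gp U ((ρ, 0), (ζ.1 + ey.val U ζ, ζ.2)) = s • GF V (s ^ 2 * (1 - ρ ^ 2))
        (c.val V x + (s * ρ) • ζ.1 + (s * ρ) • ey.val U ζ) := by
      unfold Gp
      rw [hUdef, hB.scaleG d 2 V _ s _ _ hP hs (by simp only; nlinarith)]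
      congr 2
      · ring
      · simp only [zero_smul, add_zero, smul_add, smul_smul, add_assoc]
    rw [e2, smul_add, smul_add, smul_smul, smul_smul]
    congr 3
    field_simp
  have hm : κ • GF V (s ^ 2) (c.val V x) = σ • (κ / (s * σ)) • GF U 1 0 := by
    rw [hUdef, hB.scaleG d 2 V _ s _ _ hP hs zero_le_one, smul_smul, smul_smul]
    simp only [mul_one, smul_zero, add_zero]
    congr 1
    field_simp
  simp only [key]
  refine hR.couple d _ _ _ _ _ (by fun_prop) (by fun_prop) ?_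
  have e3 : ∀ o : (E d × E d) × E d,
      ‖σ • (o.1.2 + (κ / (s * σ)) • Gp U ((ρ, 0), (o.1.1 + ey.val U o.1, o.1.2)) + R.val U o.1) +
        √v • o.2 - (κ • GF V (s ^ 2) (c.val V x) + σ • (φ o.1).2 + √v • o.2)‖ₑ =
      ENNReal.ofReal σ * ‖o.1.2 + (κ / (s * σ)) • Gp U ((ρ, 0), (o.1.1 + ey.val U o.1, o.1.2)) +
        R.val U o.1 - ((φ o.1).2 + (κ / (s * σ)) • GF U 1 0)‖ₑ := by
    intro o
    rw [← Real.enorm_eq_ofReal hσ.le, ← enorm_smul, hm]
    congr 1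
    simp only [smul_sub, smul_add]
    abel
  simp only [e3]
  rw [lintegral_const_mul' _ _ ENNReal.ofReal_ne_top, ENNReal.ofReal_mul hσ.le]
  gcongr
  refine le_trans (le_of_eq ?_) herr
  exact (measurePreserving_fst (μ := (gam d).prod (gam d)) (ν := gam d)).lintegral_comp
    (f := fun ζ => ‖ζ.2 + (κ / (s * σ)) • Gp U ((ρ, 0), (ζ.1 + ey.val U ζ, ζ.2)) +
        R.val U ζ - ((φ ζ).2 + (κ / (s * σ)) • GF U 1 0)‖ₑ) (by fun_prop)

end Step
end Crest.Agent.R285
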