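import Crest.Agent.R285.DefsP

/-!
# Row 285: translation of local expressions
-/

set_option autoImplicit false

open MeasureTheory ProbabilityTheory Set
open scoped ENNReal NNReal ContDiff RealInnerProductSpace
open Crest.OracleSampling

noncomputable section

namespace Crest.Agent.R285

namespace Ex

variable {d : ℕ} {X X' : Type}

theorem meas_comap [MeasurableSpace X] [MeasurableSpace X'] {π : X' → X} (hπ : Measurable π) :
    ∀ {e : Ex d X}, e.Meas → (e.comap π).Meas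
  | pt _, h => Measurable.comp h hπ
  | add _ _ _ _ _, h => ⟨meas_comap hπ h.1, meas_comap hπ h.2.1, h.2.2.comp hπ⟩

theorem meas_aff [MeasurableSpace X] [MeasurableSpace X'] {π : X' → X} (hπ : Measurable π)
    (lam : ℝ) {g : X' → E d} (hg : Measurable g) :
    ∀ {e : Ex d X}, e.Meas → (e.aff lam g π).Meas
  | pt f, h => by
    have hf : Measurable f := h
    exact ((hf.comp hπ).const_smul lam).add hg
  | add _ _ _ _ _, h => ⟨meas_aff hπ lam hg h.1, meas_comap hπ h.2.1, h.2.2.comp hπ⟩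

theorem meas_ctr [MeasurableSpace X] {c : Ex d X} (hc : c.Meas) (s ρ a1 a2 : ℝ) :
    (c.ctr s ρ a1 a2).Meas :=
  meas_aff measurable_fst _ (by fun_prop) hc

theorem meas_tr [MeasurableSpace X] {c : Ex d X} (hc : c.Meas) (s ρ : ℝ) (e : LE) :
    ∀ (lam : ℝ) (base : Ex d (X × E d × E d)), base.Meas → (c.tr s ρ e lam base).Meas := by
  induction e with
  | nil => intro _ _ h; exact h
  | cons k a1 a2 ey ez rest ihy ihz ih =>
    intro lam base h
    exact ⟨ih _ _ h, ihy _ _ (ihz _ _ (meas_ctr hc s ρ a1 a2)), by fun_prop⟩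

@[simp] theorem val_comap (V : E d → ℝ) (π : X' → X) (e : Ex d X) (x : X') :
    (e.comap π).val V x = e.val V (π x) := by
  induction e with
  | pt f => rfl
  | add rest κ r c ap ih ihc => simp [comap, val, ih, ihc]

@[simp] theorem val_aff (V : E d → ℝ) (lam : ℝ) (g : X' → E d) (π : X' → X) (e : Ex d X) (x : X') :
    (e.aff lam g π).val V x = lam • e.val V (π x) + g x := by
  induction e with
  | pt f => rfl
  | add rest κ r c ap ih _ =>
    simp only [aff, val, ih, val_comap, smul_add, mul_smul]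
    abel

@[simp] theorem width_comap (π : X' → X) (e : Ex d X) : (e.comap π).width = e.width := by
  induction e with
  | pt f => rfl
  | add rest κ r c ap ih _ => simp [comap, width, ih]

@[simp] theorem noise_comap (π : X' → X) (e : Ex d X) : (e.comap π).noise = e.noise := by
  induction e with
  | pt f => rfl
  | add rest κ r c ap ih _ => simp [comap, noise, ih]

@[simp] theorem width_aff (lam : ℝ) (g : X' → E d) (π : X' → X) (e : Ex d X) :
    (e.aff lam g π).width = e.width := by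
  induction e with
  | pt f => rfl
  | add rest κ r c ap ih _ => simp [aff, width, ih]

@[simp] theorem noise_aff (lam : ℝ) (g : X' → E d) (π : X' → X) (e : Ex d X) :
    (e.aff lam g π).noise = |lam| * e.noise := by
  induction e with
  | pt f => simp [aff, noise]
  | add rest κ r c ap ih _ =>
    simp only [aff, noise, ih, abs_mul]
    ring

theorem noise_nonneg (e : Ex d X) : 0 ≤ e.noise := by
  induction e with
  | pt f => exact le_rfl
  | add rest κ r c ap ih _ => simp only [noise]; positivity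

theorem Terms.mono {P Q : ℝ → Ex d X → Prop} (h : ∀ r c, P r c → Q r c) :
    ∀ {e : Ex d X}, e.Terms P → e.Terms Q
  | pt _, _ => trivial
  | add _ _ _ _ _, he => ⟨h _ _ he.1, Terms.mono h he.2⟩

theorem terms_comap {P : ℝ → Ex d X' → Prop} (π : X' → X) :
    ∀ {e : Ex d X}, (e.Terms fun r c => P r (c.comap π)) → (e.comap π).Terms P
  | pt _, _ => trivial
  | add _ _ _ _ _, he => ⟨he.1, terms_comap π he.2⟩

theorem terms_aff {P : ℝ → Ex d X' → Prop} (lam : ℝ) (g : X' → E d) (π : X' → X) :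
    ∀ {e : Ex d X}, (e.Terms fun r c => P r (c.comap π)) → (e.aff lam g π).Terms P
  | pt _, _ => trivial
  | add _ _ _ _ _, he => ⟨he.1, terms_aff lam g π he.2⟩

theorem Good.comap {th : ℕ → ℝ} {smax A : ℝ} (π : X' → X) (k : ℕ) :
    ∀ {W : ℕ} {r : ℝ} {e : Ex d X}, e.Good th smax k W A r → (e.comap π).Good th smax k W A r := by
  induction k with
  | zero =>
    intro W r e h
    exact ⟨by simpa using h.1, by simpa using h.2.1, terms_comap π h.2.2⟩
  | succ k ih =>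
    intro W r e h
    exact ⟨by simpa using h.1, by simpa using h.2.1,
      terms_comap π (h.2.2.mono fun r c hc => ⟨hc.1, hc.2.1, ih hc.2.2⟩)⟩

theorem Good.mono {th : ℕ → ℝ} {smax A A' : ℝ} (hth : ∀ j, 0 ≤ th j) (hA : A ≤ A') (k : ℕ) :
    ∀ {W W' : ℕ} {r : ℝ} {e : Ex d X}, 0 ≤ r → W ≤ W' → e.Good th smax k W A r →
      e.Good th smax k W' A' r := by
  induction k with
  | zero =>
    intro W W' r e hr hW h
    refine ⟨h.1.trans hW, h.2.1.trans ?_, h.2.2⟩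
    have := hth 0
    gcongr
  | succ k ih =>
    intro W W' r e hr hW h
    refine ⟨h.1.trans hW, h.2.1.trans ?_,
      h.2.2.mono fun r c hc => ⟨hc.1, hc.2.1, ih hc.1.le (by omega) hc.2.2⟩⟩
    have := hth (k + 1)
    gcongr

theorem Good.drop {th : ℕ → ℝ} {smax A : ℝ} (hth : ∀ j, th (j + 1) ≤ th j) (hA : 0 ≤ A) (k : ℕ) :
    ∀ {W : ℕ} {r : ℝ} {e : Ex d X}, 0 ≤ r → e.Good th smax (k + 1) W A r →
      e.Good th smax k W A r := by
  induction k with
  | zero =>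
    intro W r e hr h
    refine ⟨h.1, h.2.1.trans ?_, h.2.2.mono fun r c hc => ⟨hc.1, hc.2.1⟩⟩
    have := hth 0
    gcongr
  | succ k ih =>
    intro W r e hr h
    refine ⟨h.1, h.2.1.trans ?_,
      h.2.2.mono fun r c hc => ⟨hc.1, hc.2.1, ih hc.1.le hc.2.2⟩⟩
    have := hth (k + 1)
    gcongr

theorem Good.drop_le {th : ℕ → ℝ} {smax A : ℝ} (hth : ∀ j, th (j + 1) ≤ th j) (hA : 0 ≤ A)
    {j k W : ℕ} {r : ℝ} {e : Ex d X} (hjk : j ≤ k) (hr : 0 ≤ r) (h : e.Good th smax k W A r) :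
    e.Good th smax j W A r := by
  induction k, hjk using Nat.le_induction with
  | base => exact h
  | succ k _ ih => exact ih (Good.drop hth hA k hr h)

theorem Good.width_le {th : ℕ → ℝ} {smax A r : ℝ} {k W : ℕ} {e : Ex d X}
    (h : e.Good th smax k W A r) : e.width ≤ W := by
  cases k <;> exact h.1

theorem Good.noise_le {th : ℕ → ℝ} {smax A r : ℝ} {k W : ℕ} {e : Ex d X}
    (h : e.Good th smax k W A r) : e.noise ≤ A * th k * r := by
  cases k <;> exact h.2.1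

theorem Good.terms {th : ℕ → ℝ} {smax A r : ℝ} {k W : ℕ} {e : Ex d X}
    (h : e.Good th smax k W A r) : e.Terms fun r' _ => 0 < r' ∧ r' ≤ smax := by
  cases k with
  | zero => exact h.2.2
  | succ k => exact h.2.2.mono fun r c hc => ⟨hc.1, hc.2.1⟩

theorem width_tr (c : Ex d X) (s ρ : ℝ) (e : LE) (lam : ℝ) (base : Ex d (X × E d × E d)) :
    (c.tr s ρ e lam base).width = base.width + e.width := by
  induction e with
  | nil => rfl
  | cons k a1 a2 ey ez rest _ _ ih => simp only [tr, width, ih, LE.width, add_assoc]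

theorem sqrt_le_one' (a1 a2 : ℝ) : √(1 - a1 ^ 2 - a2 ^ 2) ≤ 1 :=
  Real.sqrt_le_one.2 (by nlinarith [sq_nonneg a1, sq_nonneg a2])

theorem noise_tr (c : Ex d X) (s ρ : ℝ) (e : LE) (lam : ℝ) (base : Ex d (X × E d × E d)) :
    (c.tr s ρ e lam base).noise ≤ base.noise + |lam| * e.abss * (2 * s ^ 2) := by
  induction e with
  | nil => simp [tr, LE.abss]
  | cons k a1 a2 ey ez rest _ _ ih =>
    simp only [tr, noise, LE.abss, abs_mul]
    have h1 : |√(1 - a1 ^ 2 - a2 ^ 2)| ≤ 1 := by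
      rw [abs_of_nonneg (Real.sqrt_nonneg _)]; exact sqrt_le_one' a1 a2
    have h2 : 2 * (|lam| * |k| * |s|) * (|s| * |√(1 - a1 ^ 2 - a2 ^ 2)|) ≤
        2 * (|lam| * |k| * |s|) * (|s| * 1) := by gcongr
    have h3 : 2 * (|lam| * |k| * |s|) * (|s| * 1) = |lam| * |k| * (2 * s ^ 2) := by
      rw [← sq_abs s]; ring
    nlinarith

theorem terms_tr {P : ℝ → Ex d (X × E d × E d) → Prop} (c : Ex d X) (s ρ : ℝ) {b : ℕ} {β γ : ℝ}
    (hP : ∀ κ a1 a2 ey ez rest, (LE.cons κ a1 a2 ey ez rest).Nodes b β γ ρ →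
      P (s * √(1 - a1 ^ 2 - a2 ^ 2)) (c.node s ρ a1 a2 ey ez))
    (e : LE) (he : e.Nodes b β γ ρ) (lam : ℝ) {base : Ex d (X × E d × E d)}
    (hb : base.Terms P) : (c.tr s ρ e lam base).Terms P := by
  induction e with
  | nil => exact hb
  | cons k a1 a2 ey ez rest _ _ ih => exact ⟨hP _ _ _ _ _ _ he, ih he.2.2.2.2.2.2⟩

theorem terms_node {P : ℝ → Ex d (X × E d × E d) → Prop} (c : Ex d X) (s ρ : ℝ) {b : ℕ} {β γ : ℝ}
    (hP : ∀ κ a1 a2 ey ez rest, (LE.cons κ a1 a2 ey ez rest).Nodes b β γ ρ →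
      P (s * √(1 - a1 ^ 2 - a2 ^ 2)) (c.node s ρ a1 a2 ey ez))
    (hc : c.Terms fun r c' => P r (c'.comap Prod.fst))
    {κ a1 a2 : ℝ} {ey ez rest : LE} (h : (LE.cons κ a1 a2 ey ez rest).Nodes b β γ ρ) :
    (c.node s ρ a1 a2 ey ez).Terms P :=
  terms_tr c s ρ hP ey h.2.2.2.2.1 _ (terms_tr c s ρ hP ez h.2.2.2.2.2.1 _ (terms_aff _ _ _ hc))

theorem rad_bounds {s ρ a1 a2 : ℝ} (hs : 0 < s) (hρ : ρ ≤ 1 / 8) (h1 : a1 ∈ Icc 0 (2 * ρ))
    (h2 : a2 ∈ Icc 0 ρ) :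
    2 / 3 * s ≤ s * √(1 - a1 ^ 2 - a2 ^ 2) ∧ s * √(1 - a1 ^ 2 - a2 ^ 2) ≤ s := by
  obtain ⟨h10, h11⟩ := h1
  obtain ⟨h20, h21⟩ := h2
  have h3 : 2 / 3 ≤ √(1 - a1 ^ 2 - a2 ^ 2) := Real.le_sqrt_of_sq_le (by nlinarith)
  have h4 := sqrt_le_one' a1 a2
  constructor <;> nlinarith

theorem width_node {c : Ex d X} {s ρ : ℝ} {b : ℕ} {β γ κ a1 a2 : ℝ} {ey ez rest : LE}
    (h : (LE.cons κ a1 a2 ey ez rest).Nodes b β γ ρ) :
    (c.node s ρ a1 a2 ey ez).width ≤ c.width + 2 * b := by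
  have h1 : ey.width ≤ b := h.2.2.1.1
  have h2 : ez.width ≤ b := h.2.2.2.1.1
  simp only [node, width_tr, ctr, width_aff]
  omega

theorem noise_node {c : Ex d X} {s ρ : ℝ} {b : ℕ} {β γ κ a1 a2 : ℝ} {ey ez rest : LE}
    (hs : 0 < s) (hρ : 0 < ρ) (h : (LE.cons κ a1 a2 ey ez rest).Nodes b β γ ρ) :
    (c.node s ρ a1 a2 ey ez).noise ≤ c.noise + s * (3 * ρ * β * (2 * s ^ 2)) := by
  obtain ⟨⟨h10, h11⟩, ⟨h20, h21⟩, hy, hz, -⟩ := h
  have hy' : ey.abss ≤ β := hy.2.1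
  have hz' : ez.abss ≤ β := hz.2.1
  have hy0 := ey.abss_nonneg
  have hz0 := ez.abss_nonneg
  have e1 := noise_tr c s ρ ey (s * a1) (tr c s ρ ez (s * a2) (ctr c s ρ a1 a2))
  have e2 := noise_tr c s ρ ez (s * a2) (ctr c s ρ a1 a2)
  have e3 : (ctr c s ρ a1 a2).noise ≤ c.noise := by
    rw [ctr, noise_aff]
    have : |1 - a1 / ρ| ≤ 1 := by
      have h0 : 0 ≤ a1 / ρ := by positivity
      have h2 : a1 / ρ ≤ 2 := by rwa [div_le_iff₀ hρ]
      rw [abs_le]; constructor <;> linarith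
    have := c.noise_nonneg
    nlinarith
  rw [abs_of_nonneg (by positivity)] at e1 e2
  have e4 : s * a1 * ey.abss * (2 * s ^ 2) ≤ s * (2 * ρ) * β * (2 * s ^ 2) := by gcongr
  have e5 : s * a2 * ez.abss * (2 * s ^ 2) ≤ s * ρ * β * (2 * s ^ 2) := by gcongr
  unfold node
  nlinarith

section good

variable {th : ℕ → ℝ} {smax : ℝ} {k W b : ℕ} {A s ρ β γ : ℝ} {c : Ex d X}

theorem noise_node' (hth : ∀ j, 0 ≤ th j) (hA : 1 ≤ A) (hs : 0 < s) (hρ : 0 < ρ)
    (hβ : 3 * ρ * β * (2 * s ^ 2) ≤ th k) (hc : c.Good th smax k W A s)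
    {κ a1 a2 : ℝ} {ey ez rest : LE} (h : (LE.cons κ a1 a2 ey ez rest).Nodes b β γ ρ) :
    (c.node s ρ a1 a2 ey ez).noise ≤ 2 * A * th k * s := by
  have h1 := noise_node (c := c) hs hρ h
  have h2 := hc.noise_le
  have h3 : s * (3 * ρ * β * (2 * s ^ 2)) ≤ s * th k := by gcongr
  have h4 : 0 ≤ s * th k := mul_nonneg hs.le (hth k)
  nlinarith

/-- every node is good at every smaller depth -/
theorem good_node_lt (hth : ∀ j, 0 ≤ th j) (hth4 : ∀ j, 4 * th (j + 1) ≤ th j) (hW : 2 * b ≤ W)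
    (hA : 1 ≤ A) (hs : 0 < s) (hs' : s ≤ smax) (hρ : 0 < ρ) (hρ' : ρ ≤ 1 / 8)
    (hβ : 3 * ρ * β * (2 * s ^ 2) ≤ th k) (hc : c.Good th smax k W A s) (j : ℕ) :
    j < k → ∀ W', 2 * W ≤ W' → ∀ κ a1 a2 ey ez rest, (LE.cons κ a1 a2 ey ez rest).Nodes b β γ ρ →
      (c.node s ρ a1 a2 ey ez).Good th smax j W' A (s * √(1 - a1 ^ 2 - a2 ^ 2)) := by
  have hdec : ∀ j, th (j + 1) ≤ th j := fun j => by linarith [hth4 j, hth (j + 1)]
  have hanti : Antitone th := antitone_nat_of_succ_le hdec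
  have hrad : ∀ κ a1 a2 ey ez rest, (LE.cons κ a1 a2 ey ez rest).Nodes b β γ ρ →
      0 < s * √(1 - a1 ^ 2 - a2 ^ 2) ∧ s * √(1 - a1 ^ 2 - a2 ^ 2) ≤ smax := by
    intro κ a1 a2 ey ez rest h
    have := rad_bounds hs hρ' h.1 h.2.1
    constructor <;> linarith [this.1, this.2]
  have hwn : ∀ j, j < k → ∀ W', 2 * W ≤ W' → ∀ κ a1 a2 ey ez rest,
      (LE.cons κ a1 a2 ey ez rest).Nodes b β γ ρ → (c.node s ρ a1 a2 ey ez).width ≤ W' ∧
      (c.node s ρ a1 a2 ey ez).noise ≤ A * th j * (s * √(1 - a1 ^ 2 - a2 ^ 2)) := by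
    intro j hj W' hW' κ a1 a2 ey ez rest h
    refine ⟨(width_node h).trans ?_, (noise_node' hth hA hs hρ hβ hc h).trans ?_⟩
    · have := hc.width_le
      omega
    · have h1 : 4 * th k ≤ th j := by linarith [hth4 j, hanti (show j + 1 ≤ k from hj)]
      have h2 := (rad_bounds hs hρ' h.1 h.2.1).1
      have h3 := hth j
      have h4 := hth k
      calc 2 * A * th k * s = A * (4 * th k) * (1 / 2 * s) := by ring
        _ ≤ A * th j * (s * √(1 - a1 ^ 2 - a2 ^ 2)) :=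
          mul_le_mul (by gcongr) (by linarith) (by positivity) (by positivity)
  induction j with
  | zero =>
    intro hj W' hW' κ a1 a2 ey ez rest h
    exact ⟨(hwn 0 hj W' hW' _ _ _ _ _ _ h).1, (hwn 0 hj W' hW' _ _ _ _ _ _ h).2,
      terms_node c s ρ hrad hc.terms h⟩
  | succ i ih =>
    intro hj W' hW' κ a1 a2 ey ez rest h
    refine ⟨(hwn _ hj W' hW' _ _ _ _ _ _ h).1, (hwn _ hj W' hW' _ _ _ _ _ _ h).2,
      terms_node c s ρ (fun κ a1 a2 ey ez rest h => ⟨(hrad _ _ _ _ _ _ h).1, (hrad _ _ _ _ _ _ h).2,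
        ih (by omega) _ (by omega) _ _ _ _ _ _ h⟩) ?_ h⟩
    have hc' : c.Good th smax (i + 1) W A s := hc.drop_le hdec (by linarith) hj.le hs.le
    exact hc'.2.2.mono fun r c' h' => ⟨h'.1, h'.2.1,
      Good.comap _ _ (Good.mono hth le_rfl _ h'.1.le (by omega) h'.2.2)⟩

theorem good_node (hth : ∀ j, 0 ≤ th j) (hth4 : ∀ j, 4 * th (j + 1) ≤ th j) (hW : 2 * b ≤ W)
    (hA : 1 ≤ A) (hs : 0 < s) (hs' : s ≤ smax) (hρ : 0 < ρ) (hρ' : ρ ≤ 1 / 8)
    (hβ : 3 * ρ * β * (2 * s ^ 2) ≤ th k) (hc : c.Good th smax k W A s)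
    {κ a1 a2 : ℝ} {ey ez rest : LE} (h : (LE.cons κ a1 a2 ey ez rest).Nodes b β γ ρ) :
    (c.node s ρ a1 a2 ey ez).Good th smax k (2 * W) (3 * A) (s * √(1 - a1 ^ 2 - a2 ^ 2)) := by
  have hrad : ∀ κ a1 a2 ey ez rest, (LE.cons κ a1 a2 ey ez rest).Nodes b β γ ρ →
      0 < s * √(1 - a1 ^ 2 - a2 ^ 2) ∧ s * √(1 - a1 ^ 2 - a2 ^ 2) ≤ smax := by
    intro κ a1 a2 ey ez rest h
    have := rad_bounds hs hρ' h.1 h.2.1
    constructor <;> linarith [this.1, this.2]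
  have hw : (c.node s ρ a1 a2 ey ez).width ≤ 2 * W := by
    have := hc.width_le
    have := width_node (c := c) (s := s) h
    omega
  have hn : (c.node s ρ a1 a2 ey ez).noise ≤ 3 * A * th k * (s * √(1 - a1 ^ 2 - a2 ^ 2)) := by
    refine (noise_node' hth hA hs hρ hβ hc h).trans ?_
    have h2 := (rad_bounds hs hρ' h.1 h.2.1).1
    have h4 := hth k
    calc 2 * A * th k * s = 3 * A * th k * (2 / 3 * s) := by ring
      _ ≤ _ := by gcongr
  cases k with
  | zero => exact ⟨hw, hn, terms_node c s ρ hrad hc.terms h⟩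
  | succ j =>
    have hA3 : A ≤ 3 * A := by linarith
    refine ⟨hw, hn, terms_node c s ρ (fun κ a1 a2 ey ez rest h =>
      ⟨(hrad _ _ _ _ _ _ h).1, (hrad _ _ _ _ _ _ h).2, Good.mono hth hA3 _
        (hrad _ _ _ _ _ _ h).1.le le_rfl (good_node_lt hth hth4 hW hA hs hs' hρ hρ' hβ hc j
          (by omega) (2 * (2 * W)) (by omega) _ _ _ _ _ _ h)⟩) ?_ h⟩
    exact hc.2.2.mono fun r c' h' => ⟨h'.1, h'.2.1,
      Good.comap _ _ (Good.mono hth hA3 _ h'.1.le (by omega) h'.2.2)⟩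

theorem good_tr (hth : ∀ j, 0 ≤ th j) (hth4 : ∀ j, 4 * th (j + 1) ≤ th j) (hW : 2 * b ≤ W)
    (hA : 1 ≤ A) (hs : 0 < s) (hs' : s ≤ smax) (hρ : 0 < ρ) (hρ' : ρ ≤ 1 / 8)
    (hβ : 3 * ρ * β * (2 * s ^ 2) ≤ th k) (hc : c.Good th smax k W A s)
    (e : LE) (lam r : ℝ) (f : X × E d × E d → E d) (he : e.Small b β γ) (hn : e.Nodes b β γ ρ)
    (hl : |lam| ≤ s * ρ) (hr : s / 2 ≤ r) : (c.tr s ρ e lam (.pt f)).Good th smax k W A r := by
  have hrad : ∀ κ a1 a2 ey ez rest, (LE.cons κ a1 a2 ey ez rest).Nodes b β γ ρ →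
      0 < s * √(1 - a1 ^ 2 - a2 ^ 2) ∧ s * √(1 - a1 ^ 2 - a2 ^ 2) ≤ smax := by
    intro κ a1 a2 ey ez rest h
    have := rad_bounds hs hρ' h.1 h.2.1
    constructor <;> linarith [this.1, this.2]
  have hw : (c.tr s ρ e lam (.pt f)).width ≤ W := by
    have := he.1
    simp only [width_tr, width]
    omega
  have hno : (c.tr s ρ e lam (.pt f)).noise ≤ A * th k * r := by
    refine (noise_tr c s ρ e lam _).trans ?_
    have h0 := e.abss_nonneg
    have h1 := he.2.1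
    have h4 := hth k
    have h2 : |lam| * e.abss * (2 * s ^ 2) ≤ s * ρ * β * (2 * s ^ 2) := by gcongr
    have h3 : s / 3 * (3 * ρ * β * (2 * s ^ 2)) ≤ s / 3 * th k := by gcongr
    have h5 : 1 * th k * (s / 2) ≤ A * th k * r := by gcongr
    simp only [noise]
    nlinarith [mul_nonneg hs.le h4]
  cases k with
  | zero => exact ⟨hw, hno, terms_tr c s ρ hrad e hn lam trivial⟩
  | succ j =>
    exact ⟨hw, hno, terms_tr c s ρ (fun κ a1 a2 ey ez rest h =>
      ⟨(hrad _ _ _ _ _ _ h).1, (hrad _ _ _ _ _ _ h).2,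
        good_node_lt hth hth4 hW hA hs hs' hρ hρ' hβ hc j (by omega) _ le_rfl _ _ _ _ _ _ h⟩)
      e hn lam trivial⟩

end good

theorem val_tr (hB : StmtBasic) (c : Ex d X) {s ρ : ℝ} {b : ℕ} {β γ : ℝ} {V : E d → ℝ}
    (hV : Admissible d V) (hs : 0 < s) (hρ : 0 < ρ) (hρ' : ρ ≤ 1 / 4) (x : X) (P z : E d) (e : LE) :
    ∀ (lam : ℝ) (base : Ex d (X × E d × E d)), e.Nodes b β γ ρ →
      (c.tr s ρ e lam base).val V (x, P, z) = base.val V (x, P, z) +
        lam • e.val (fun y => V (c.val V x + s • y)) ((s * ρ)⁻¹ • (P - c.val V x), z) := by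
  induction e with
  | nil => intro lam base _; simp [tr, LE.val]
  | cons k a1 a2 ey ez rest ihy ihz ih =>
    intro lam base h
    obtain ⟨⟨h10, h11⟩, ⟨h20, h21⟩, -, -, hy, hz, hr⟩ := h
    have ht : 0 ≤ 1 - a1 ^ 2 - a2 ^ 2 := by nlinarith
    simp only [tr, val, LE.val, ih _ _ hr, ihy _ _ hy, ihz _ _ hz, Gp, ctr, val_aff]
    rw [hB.scaleG d 2 V _ s _ _ (hB.adm d V hV).1 hs ht, mul_pow, Real.sq_sqrt ht]
    set u := c.val V x
    set vy := ey.val (fun y => V (u + s • y)) ((s * ρ)⁻¹ • (P - u), z)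
    set vz := ez.val (fun y => V (u + s • y)) ((s * ρ)⁻¹ • (P - u), z)
    have e1 : (1 - a1 / ρ) • u + ((a1 / ρ) • P + (s * a2) • z) + (s * a2) • vz + (s * a1) • vy =
        u + s • (a1 • ((s * ρ)⁻¹ • (P - u) + vy) + a2 • (z + vz)) := by
      have : a1 / ρ = s * (a1 * (s * ρ)⁻¹) := by field_simp
      rw [this]
      module
    rw [e1]
    module

end Ex

theorem trStmt (hB : StmtBasic) : StmtTr where
  meas _ _ _ _ s ρ hc := ⟨fun e lam base hb => Ex.meas_tr hc s ρ e lam base hb,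
    fun a1 a2 ey ez => Ex.meas_tr hc s ρ ey _ _ (Ex.meas_tr hc s ρ ez _ _ (Ex.meas_ctr hc s ρ a1 a2))⟩
  val _ _ c _ _ _ _ _ _ hV hs hρ hρ' x P z e lam base he :=
    Ex.val_tr hB c hV hs hρ hρ' x P z e lam base he
  good_mono _ _ _ _ k _ _ _ _ _ _ hth hr hW hA h := Ex.Good.mono hth hA k hr hW h
  good _ _ _ _ _ _ _ _ _ _ _ _ _ hth hth4 hW hA hs hs' hρ hρ' hβ hc :=
    ⟨fun _ _ _ _ _ _ h => Ex.good_node hth hth4 hW hA hs hs' hρ hρ' hβ hc h,
      fun e lam r f he hn hl hr => Ex.good_tr hth hth4 hW hA hs hs' hρ hρ' hβ hc e lam r f he hn hl hr⟩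

end Crest.Agent.R285
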