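import Mathlib
import Crest.Agent.Lib.SmoothFlow

/-!
# Row 285: smooth flows of Lipschitz fields (any constant), Jacobi's formula, Liouville's formula
-/

set_option autoImplicit false

open Set Filter
open scoped Topology ContDiff NNReal

noncomputable section

namespace Crest.Agent.R285.Trans

section Flow

variable {E : Type} [NormedAddCommGroup E] [NormedSpace ℝ E]

/-- a jointly smooth flow on `(-T, T)` -/
structure IsLF (X : E → E) (T : ℝ) (φ : ℝ × E → E) : Prop where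
  smooth : ∀ p : ℝ × E, |p.1| < T → ContDiffAt ℝ ∞ φ p
  zero : ∀ z, φ (0, z) = z
  ode : ∀ z, ∀ t : ℝ, |t| < T → HasDerivAt (fun s => φ (s, z)) (X (φ (t, z))) t

theorem IsLF.group {X : E → E} {K : ℝ≥0} (hK : LipschitzWith K X) {T : ℝ} {φ : ℝ × E → E}
    (h : IsLF X T φ) (z : E) {s t : ℝ} (hs : |s| < T) (ht : |t| < T) (hst : |s + t| < T) :
    φ (s, φ (t, z)) = φ (s + t, z) := by
  have hs' := abs_lt.1 hs
  have ht' := abs_lt.1 ht
  have hst' := abs_lt.1 hst
  have key := ODE_solution_unique_of_mem_Ioo (v := fun _ => X) (s := fun _ => univ) (K := K)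
    (f := fun r => φ (r, φ (t, z))) (g := fun r => φ (r + t, z)) (t₀ := 0)
    (a := max (-T) (-T - t)) (b := min T (T - t))
    (fun _ _ => hK.lipschitzOnWith)
    ⟨max_lt (by linarith) (by linarith), lt_min (by linarith) (by linarith)⟩
    (fun r hr => ⟨h.ode _ r (abs_lt.2 ⟨(le_max_left _ _).trans_lt hr.1,
      hr.2.trans_le (min_le_left _ _)⟩), mem_univ _⟩)
    (fun r hr => ⟨by
      have h1 : |r + t| < T := abs_lt.2
        ⟨by linarith [(le_max_right _ _).trans_lt hr.1], by linarith [hr.2.trans_le (min_le_right _ _)]⟩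
      exact HasDerivAt.comp_add_const r t (h.ode z (r + t) h1), mem_univ _⟩)
    (by simp [h.zero])
  exact key ⟨max_lt (by linarith) (by linarith), lt_min (by linarith) (by linarith)⟩

theorem IsLF.double {X : E → E} {K : ℝ≥0} (hK : LipschitzWith K X) {T : ℝ} {φ : ℝ × E → E}
    (h : IsLF X T φ) : IsLF X (2 * T) fun p => φ (p.1 / 2, φ (p.1 / 2, p.2)) := by
  have half : ∀ t : ℝ, |t| < 2 * T → |t / 2| < T := by
    intro t ht
    rw [abs_div, abs_two]
    linarith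
  refine ⟨fun p hp => ?_, fun z => by simp [h.zero], fun z t ht => ?_⟩
  · have h1 : ContDiffAt ℝ ∞ (fun p : ℝ × E => φ (p.1 / 2, p.2)) p :=
      (h.smooth (p.1 / 2, p.2) (half _ hp)).comp p
        ((contDiffAt_fst.div_const 2).prodMk contDiffAt_snd)
    exact (h.smooth (p.1 / 2, φ (p.1 / 2, p.2)) (half _ hp)).comp p
      ((contDiffAt_fst.div_const 2).prodMk h1)
  · have ht2 := half t ht
    have hT : 0 < T := (abs_nonneg _).trans_lt ht2
    have e1 : ∀ᶠ r : ℝ in 𝓝 t, |r / 2| < T :=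
      ContinuousAt.eventually_lt (by fun_prop) continuousAt_const ht2
    have e2 : ∀ᶠ r : ℝ in 𝓝 t, |(r - t) / 2| < T :=
      ContinuousAt.eventually_lt (by fun_prop) continuousAt_const (by simpa using hT)
    have e3 : ∀ᶠ r : ℝ in 𝓝 t, |r - t / 2| < T :=
      ContinuousAt.eventually_lt (by fun_prop) continuousAt_const
        (by rwa [show t - t / 2 = t / 2 by ring])
    have hev : (fun r => φ (r / 2, φ (r / 2, z))) =ᶠ[𝓝 t]
        fun r => φ (r - t / 2, φ (t / 2, z)) := by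
      filter_upwards [e1, e2, e3] with r h1 h2 h3
      have a1 : φ (r / 2, z) = φ ((r - t) / 2, φ (t / 2, z)) := by
        rw [h.group hK z h2 ht2 (by rwa [show (r - t) / 2 + t / 2 = r / 2 by ring])]
        congr 2
        ring
      rw [a1, h.group hK _ h1 h2 (by rwa [show r / 2 + (r - t) / 2 = r - t / 2 by ring])]
      congr 2
      ring
    refine HasDerivAt.congr_of_eventuallyEq ?_ hev
    have h4 := h.ode (φ (t / 2, z)) (t - t / 2) (by rwa [show t - t / 2 = t / 2 by ring])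
    have h5 := HasDerivAt.comp_sub_const t (t / 2) h4
    simpa only [show t - t / 2 = t / 2 by ring] using h5

theorem exists_isLF [CompleteSpace E] (X : E → E) (hX : ContDiff ℝ ∞ X) {K : ℝ≥0}
    (hK : LipschitzWith K X) : ∃ φ, IsLF X 2 φ := by
  obtain ⟨n, hn⟩ : ∃ n : ℕ, 2 * (K : ℝ) < 2 ^ n := pow_unbounded_of_one_lt _ one_lt_two
  have hc : (0 : ℝ) < 2 ^ n := by positivity
  let c : ℝ≥0 := ⟨(2 ^ n)⁻¹, by positivity⟩
  have hlip : LipschitzWith (c * K) fun z => ((2 : ℝ) ^ n)⁻¹ • X z := by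
    refine LipschitzWith.of_dist_le_mul fun x y => ?_
    rw [dist_smul₀, Real.norm_eq_abs, abs_of_pos (inv_pos.2 hc)]
    refine (mul_le_mul_of_nonneg_left (hK.dist_le_mul x y) (inv_pos.2 hc).le).trans ?_
    rw [← mul_assoc]
    rfl
  obtain ⟨φ, h1, h2, h3⟩ := SmoothFlow.exists_smooth_flow _ (hX.const_smul _) hlip (by
    rw [← NNReal.coe_lt_coe]
    change 2 * (((2 : ℝ) ^ n)⁻¹ * K) < 1
    rw [mul_left_comm, inv_mul_lt_iff₀ hc]
    linarith)
  have base : IsLF X (2 / 2 ^ n) fun p => φ (2 ^ n * p.1, p.2) := by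
    have hm : ∀ t : ℝ, |t| < 2 / 2 ^ n → |2 ^ n * t| < 2 := by
      intro t ht
      rw [abs_mul, abs_of_pos hc]
      rwa [lt_div_iff₀' hc] at ht
    refine ⟨fun p hp => ?_, fun z => by simp [h2], fun z t ht => ?_⟩
    · exact (h1 (2 ^ n * p.1, p.2) (hm _ hp)).comp p
        ((contDiffAt_const.mul contDiffAt_fst).prodMk contDiffAt_snd)
    · have h4 := (h3 z _ (hm t ht)).scomp t ((hasDerivAt_id t).const_mul ((2 : ℝ) ^ n))
      refine HasDerivAt.congr_deriv h4 ?_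
      rw [smul_smul, mul_one, mul_inv_cancel₀ hc.ne', one_smul]
  have ind : ∀ k : ℕ, ∃ ψ, IsLF X (2 ^ k * (2 / 2 ^ n)) ψ := by
    intro k
    induction k with
    | zero => exact ⟨_, by simpa using base⟩
    | succ k ih =>
      obtain ⟨ψ, hψ⟩ := ih
      have := hψ.double hK
      rw [← mul_assoc, ← pow_succ'] at this
      exact ⟨_, this⟩
  obtain ⟨ψ, hψ⟩ := ind n
  refine ⟨ψ, ?_⟩
  rwa [mul_div_cancel₀ _ hc.ne'] at hψ

end Flow

/-- Jacobi's formula -/
theorem hasDerivAt_det {ι : Type} [Fintype ι] [DecidableEq ι] (M : ℝ → Matrix ι ι ℝ)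
    (B : Matrix ι ι ℝ) (t : ℝ) (h : ∀ i j, HasDerivAt (fun s => M s i j) ((B * M t) i j) t) :
    HasDerivAt (fun s => (M s).det) (B.trace * (M t).det) t := by
  have h1 : ∀ σ : Equiv.Perm ι, HasDerivAt (fun s => ∏ i, M s i (σ i))
      (∑ i, (∏ j ∈ Finset.univ.erase i, M t j (σ j)) • (B * M t) i (σ i)) t := fun σ =>
    HasDerivAt.fun_finsetProd (u := Finset.univ) fun i _ => h i (σ i)
  have h2 := HasDerivAt.fun_sum (u := Finset.univ) fun (σ : Equiv.Perm ι) _ =>
    (h1 σ).const_mul ((Equiv.Perm.sign σ : ℤ) : ℝ)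
  have e : ∀ N : Matrix ι ι ℝ, N.det = ∑ σ : Equiv.Perm ι,
      ((Equiv.Perm.sign σ : ℤ) : ℝ) * ∏ i, N i (σ i) := by
    intro N
    rw [← Matrix.det_transpose, Matrix.det_apply']
    rfl
  simp_rw [e]
  refine HasDerivAt.congr_deriv h2 ?_
  rw [← e]
  simp_rw [Finset.mul_sum]
  rw [Finset.sum_comm, Matrix.trace, Finset.sum_mul]
  refine Finset.sum_congr rfl fun i _ => ?_
  have h3 := Matrix.det_updateRow_sum (M t) i (B i)
  rw [smul_eq_mul] at h3
  rw [Matrix.diag_apply, ← h3, e]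
  refine Finset.sum_congr rfl fun σ _ => ?_
  congr 1
  rw [← Finset.mul_prod_erase _ _ (Finset.mem_univ i), smul_eq_mul, mul_comm]
  congr 1
  · simp [Matrix.mul_apply, Finset.sum_apply]
  · refine Finset.prod_congr rfl fun j hj => ?_
    rw [Matrix.updateRow_ne (Finset.ne_of_mem_erase hj)]

/-- Jacobi's formula for endomorphisms -/
theorem hasDerivAt_det_clm {H : Type} [NormedAddCommGroup H] [NormedSpace ℝ H]
    [FiniteDimensional ℝ H] (A : ℝ → H →L[ℝ] H) (B : H →L[ℝ] H) (t : ℝ)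
    (h : ∀ v, HasDerivAt (fun s => A s v) (B (A t v)) t) :
    HasDerivAt (fun s => (A s).det) (LinearMap.trace ℝ H (B : H →ₗ[ℝ] H) * (A t).det) t := by
  classical
  let b := Module.finBasis ℝ H
  have h1 := hasDerivAt_det (fun s => LinearMap.toMatrix b b (A s : H →ₗ[ℝ] H))
    (LinearMap.toMatrix b b (B : H →ₗ[ℝ] H)) t (by
      intro i j
      rw [← LinearMap.toMatrix_comp]
      simp only [LinearMap.toMatrix_apply]
      exact (LinearMap.toContinuousLinearMap (b.coord i)).hasFDerivAt.comp_hasDerivAt t (h (b j)))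
  simp only [LinearMap.det_toMatrix] at h1
  rw [← LinearMap.trace_eq_matrix_trace] at h1
  exact h1

/-- Liouville's formula -/
theorem liouville {H : Type} [NormedAddCommGroup H] [NormedSpace ℝ H] [FiniteDimensional ℝ H]
    (Y : ℝ × H → H) (hY : ContDiff ℝ ∞ Y) (ψ : ℝ × H → H)
    (hs : ∀ p : ℝ × H, |p.1| < 2 → ContDiffAt ℝ ∞ ψ p)
    (ho : ∀ z, ∀ t : ℝ, |t| < 2 → HasDerivAt (fun s => ψ (s, z)) (Y (t, ψ (t, z))) t)
    (x : H) (t : ℝ) (ht : |t| < 2) :
    HasDerivAt (fun s => (fderiv ℝ (fun y => ψ (s, y)) x).det)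
      (LinearMap.trace ℝ H (fderiv ℝ (fun y => Y (t, y)) (ψ (t, x)) : H →ₗ[ℝ] H) *
        (fderiv ℝ (fun y => ψ (t, y)) x).det) t := by
  refine hasDerivAt_det_clm _ _ t fun v => ?_
  have hd : ∀ p : ℝ × H, |p.1| < 2 → HasFDerivAt ψ (fderiv ℝ ψ p) p := fun p hp =>
    ((hs p hp).differentiableAt (by simp)).hasFDerivAt
  have hA : ∀ (s : ℝ) (y : H), |s| < 2 →
      HasFDerivAt (fun y => ψ (s, y)) ((fderiv ℝ ψ (s, y)).comp (ContinuousLinearMap.inr ℝ ℝ H)) y :=
    fun s y h => (hd (s, y) h).comp y (hasFDerivAt_prodMk_right s y)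
  have hT : ∀ (s : ℝ) (y : H), |s| < 2 → fderiv ℝ ψ (s, y) (1, 0) = Y (s, ψ (s, y)) := by
    intro s y h
    have h1 : HasDerivAt (fun r : ℝ => ((r, y) : ℝ × H)) (1, 0) s :=
      (hasDerivAt_id s).prodMk (hasDerivAt_const s y)
    exact ((hd (s, y) h).comp_hasDerivAt s h1).unique (ho y s h)
  have hD : HasFDerivAt (fderiv ℝ ψ) (fderiv ℝ (fderiv ℝ ψ) (t, x)) (t, x) :=
    (((hs (t, x) ht).fderiv_right (m := 1) (by norm_cast)).differentiableAt one_ne_zero).hasFDerivAt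
  have hsym : IsSymmSndFDerivAt ℝ ψ (t, x) := (hs (t, x) ht).isSymmSndFDerivAt (by
    simp only [minSmoothness_of_isRCLikeNormedField]; norm_cast)
  have ev : ∀ᶠ s : ℝ in 𝓝 t, |s| < 2 :=
    continuous_abs.continuousAt.eventually_lt continuousAt_const ht
  have e1 : (fun s => fderiv ℝ (fun y => ψ (s, y)) x v) =ᶠ[𝓝 t]
      fun s => fderiv ℝ ψ (s, x) (0, v) := by
    filter_upwards [ev] with s h
    rw [(hA s x h).fderiv]
    rfl
  refine HasDerivAt.congr_of_eventuallyEq ?_ e1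
  obtain ⟨D2, hD2⟩ : ∃ D2, D2 = fderiv ℝ (fderiv ℝ ψ) (t, x) := ⟨_, rfl⟩
  have hsym' : D2 (1, 0) (0, v) = D2 (0, v) (1, 0) := by
    rw [hD2]
    exact hsym.eq _ _
  rw [← hD2] at hD
  have h1 : HasDerivAt (fun r : ℝ => ((r, x) : ℝ × H)) (1, 0) t :=
    (hasDerivAt_id t).prodMk (hasDerivAt_const t x)
  have h2 : HasDerivAt (fun s => fderiv ℝ ψ (s, x)) (D2 (1, 0)) t := hD.comp_hasDerivAt t h1
  have h2' : HasDerivAt (fun s => fderiv ℝ ψ (s, x) (0, v)) (D2 (1, 0) (0, v)) t :=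
    (ContinuousLinearMap.apply ℝ H ((0, v) : ℝ × H)).hasFDerivAt.comp_hasDerivAt t h2
  refine HasDerivAt.congr_deriv h2' ?_
  rw [hsym']
  have h3 : HasFDerivAt (fun y => Y (t, ψ (t, y)))
      ((fderiv ℝ (fun y => Y (t, y)) (ψ (t, x))).comp (fderiv ℝ (fun y => ψ (t, y)) x)) x := by
    have h4 : DifferentiableAt ℝ (fun y => Y (t, y)) (ψ (t, x)) :=
      (hY.differentiable (by simp) _).comp _ (hasFDerivAt_prodMk_right t _).differentiableAt
    exact h4.hasFDerivAt.comp x (hA t x ht).differentiableAt.hasFDerivAt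
  have h5 : HasFDerivAt (fun y => fderiv ℝ ψ (t, y)) (D2.comp (ContinuousLinearMap.inr ℝ ℝ H)) x :=
    hD.comp x (hasFDerivAt_prodMk_right t x)
  have h6 : HasFDerivAt (fun y => fderiv ℝ ψ (t, y) (1, 0))
      ((ContinuousLinearMap.apply ℝ H ((1, 0) : ℝ × H)).comp
        (D2.comp (ContinuousLinearMap.inr ℝ ℝ H))) x :=
    (ContinuousLinearMap.apply ℝ H ((1, 0) : ℝ × H)).hasFDerivAt.comp x h5
  have h7 : (fun y => fderiv ℝ ψ (t, y) (1, 0)) = fun y => Y (t, ψ (t, y)) :=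
    funext fun y => hT t y ht
  rw [h7] at h6
  exact congrArg (fun L : H →L[ℝ] H => L v) (h6.unique h3)

end Crest.Agent.R285.Trans
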