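import Crest.Agent.R285.Defs
import Crest.Agent.R285.TransA

/-!
# Row 285: transport of densities by flows (`StmtTransport`)
-/

set_option autoImplicit false

open MeasureTheory Set Filter
open scoped Topology ContDiff NNReal ENNReal

noncomputable section

namespace Crest.Agent.R285.Trans

variable {H : Type} [NormedAddCommGroup H] [NormedSpace ℝ H]

/-- the flow from time `0` of a time-dependent field -/
structure CF (Y : ℝ × H → H) (ψ : ℝ × H → H) : Prop where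
  smooth : ∀ p : ℝ × H, |p.1| < 2 → ContDiffAt ℝ ∞ ψ p
  zero : ∀ z, ψ (0, z) = z
  ode : ∀ z, ∀ t : ℝ, |t| < 2 → HasDerivAt (fun s => ψ (s, z)) (Y (t, ψ (t, z))) t
  bij : ∀ t : ℝ, |t| < 2 → Function.Bijective fun z => ψ (t, z)

theorem exists_CF [CompleteSpace H] (Y : ℝ × H → H) (hY : ContDiff ℝ ∞ Y) {K : ℝ≥0}
    (hK : LipschitzWith K Y) : ∃ ψ, CF Y ψ := by
  have hX : LipschitzWith (max 0 K) fun p : ℝ × H => (((1 : ℝ), Y p) : ℝ × H) :=
    (LipschitzWith.const (1 : ℝ)).prodMk hK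
  obtain ⟨φ, hφ⟩ := exists_isLF _ (contDiff_const.prodMk hY) hX
  have h1 : ∀ (p : ℝ × H) (t : ℝ), |t| < 2 → (φ (t, p)).1 = p.1 + t := by
    intro p t ht
    have key := ODE_solution_unique_of_mem_Ioo (v := fun _ _ => (1 : ℝ)) (s := fun _ => univ)
      (K := 0) (f := fun r => (φ (r, p)).1) (g := fun r => p.1 + r) (t₀ := 0) (a := -2) (b := 2)
      (fun _ _ => (LipschitzWith.const (1 : ℝ)).lipschitzOnWith) (by norm_num)
      (fun r hr => ⟨(ContinuousLinearMap.fst ℝ ℝ H).hasFDerivAt.comp_hasDerivAt r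
        (hφ.ode p r (abs_lt.2 hr)), mem_univ _⟩)
      (fun r _ => ⟨(hasDerivAt_id r).const_add p.1, mem_univ _⟩) (by simp [hφ.zero])
    exact key (abs_lt.1 ht)
  have h2 : ∀ (z : H) (t : ℝ), |t| < 2 → φ (t, (0, z)) = (t, (φ (t, (0, z))).2) := by
    intro z t ht
    ext
    · simpa using h1 (0, z) t ht
    · rfl
  refine ⟨fun p => (φ (p.1, (0, p.2))).2, fun p hp => ?_, fun z => by simp [hφ.zero],
    fun z t ht => ?_, fun t ht => ?_⟩
  · exact ((hφ.smooth (p.1, (0, p.2)) hp).comp p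
      (contDiffAt_fst.prodMk (contDiffAt_const.prodMk contDiffAt_snd))).snd
  · have h3 := (ContinuousLinearMap.snd ℝ ℝ H).hasFDerivAt.comp_hasDerivAt t (hφ.ode (0, z) t ht)
    refine HasDerivAt.congr_deriv h3 ?_
    change Y (φ (t, (0, z))) = _
    rw [h2 z t ht]
  · have ht' : |-t| < 2 := by rwa [abs_neg]
    refine Function.bijective_iff_has_inverse.2 ⟨fun y => (φ (-t, (t, y))).2, fun z => ?_, fun y => ?_⟩
    · change (φ (-t, (t, (φ (t, (0, z))).2))).2 = z
      rw [← h2 z t ht, hφ.group hX _ ht' ht (by simp)]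
      simp [hφ.zero]
    · have h4 : ((0, (φ (-t, (t, y))).2) : ℝ × H) = φ (-t, (t, y)) := by
        ext
        · simpa using (h1 (t, y) (-t) ht').symm
        · rfl
      change (φ (t, (0, (φ (-t, (t, y))).2))).2 = y
      rw [h4, hφ.group hX _ ht ht' (by simp)]
      simp [hφ.zero]

theorem growth_fwd {K : ℝ} (hK : 0 < K) (γ γ' : ℝ → H) {τ : ℝ} (hτ : τ ∈ Icc (0 : ℝ) 1)
    (hd : ∀ s ∈ Icc (0 : ℝ) τ, HasDerivAt γ (γ' s) s)
    (hb : ∀ s ∈ Icc (0 : ℝ) τ, ‖γ' s‖ ≤ K * (1 + ‖γ s‖)) :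
    1 + ‖γ τ‖ ≤ Real.exp K * (1 + ‖γ 0‖) := by
  have h := norm_le_gronwallBound_of_norm_deriv_right_le (f := γ) (f' := γ') (δ := ‖γ 0‖) (K := K)
    (ε := K) (a := 0) (b := τ) (fun s hs => (hd s hs).continuousAt.continuousWithinAt)
    (fun s hs => (hd s (Ico_subset_Icc_self hs)).hasDerivWithinAt) le_rfl
    (fun s hs => by linarith [hb s (Ico_subset_Icc_self hs)]) τ ⟨hτ.1, le_rfl⟩
  rw [gronwallBound_of_K_ne_0 hK.ne', div_self hK.ne', sub_zero] at h
  have h1 : Real.exp (K * τ) ≤ Real.exp K :=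
    Real.exp_le_exp.2 (mul_le_of_le_one_right hK.le hτ.2)
  have h2 : Real.exp (K * τ) * (1 + ‖γ 0‖) ≤ Real.exp K * (1 + ‖γ 0‖) :=
    mul_le_mul_of_nonneg_right h1 (by positivity)
  simp only at h
  linarith

theorem growth_bwd {K : ℝ} (hK : 0 < K) (γ γ' : ℝ → H) {τ : ℝ} (hτ : τ ∈ Icc (0 : ℝ) 1)
    (hd : ∀ s ∈ Icc (0 : ℝ) τ, HasDerivAt γ (γ' s) s)
    (hb : ∀ s ∈ Icc (0 : ℝ) τ, ‖γ' s‖ ≤ K * (1 + ‖γ s‖)) :
    1 + ‖γ 0‖ ≤ Real.exp K * (1 + ‖γ τ‖) := by
  have hm : ∀ s ∈ Icc (0 : ℝ) τ, τ - s ∈ Icc (0 : ℝ) τ := fun s hs =>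
    ⟨by linarith [hs.2], by linarith [hs.1]⟩
  have h := growth_fwd hK (fun s => γ (τ - s)) (fun s => -γ' (τ - s)) hτ
    (fun s hs => HasDerivAt.comp_const_sub τ s (hd _ (hm s hs)))
    (fun s hs => by rw [norm_neg]; exact hb _ (hm s hs))
  simpa using h

/-- the cut-off fields -/
theorem exists_cut [FiniteDimensional ℝ H] (W : ℝ × H → H) {η : ℝ} (hη : 0 < η)
    (hW : ContDiffOn ℝ ∞ W (Ioo (-η) (1 + η) ×ˢ univ)) (n : ℕ) :
    ∃ (Y : ℝ × H → H) (L : ℝ≥0), ContDiff ℝ ∞ Y ∧ LipschitzWith L Y ∧ (∀ p, ‖Y p‖ ≤ ‖W p‖) ∧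
      ∀ τ ∈ Icc (0 : ℝ) 1, ∀ x : H, ‖x‖ ≤ n + 1 → Y (τ, x) = W (τ, x) := by
  let b : ContDiffBump (1 / 2 : ℝ) := ⟨1 / 2, 1 / 2 + η / 2, by norm_num, by linarith⟩
  let c : ContDiffBump (0 : H) := ⟨n + 1, n + 2, by positivity, by linarith⟩
  have hs : ContDiff ℝ ∞ fun p : ℝ × H => (b p.1 * c p.2) • W p := by
    refine contDiff_iff_contDiffAt.2 fun p => ?_
    by_cases hp : p.1 ∈ Ioo (-η) (1 + η)
    · refine ((b.contDiff.comp contDiff_fst).mul (c.contDiff.comp contDiff_snd)).contDiffAt.smul ?_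
      exact hW.contDiffAt ((isOpen_Ioo.prod isOpen_univ).mem_nhds ⟨hp, mem_univ _⟩)
    · have h1 : 1 / 2 + η / 2 < |p.1 - 1 / 2| := by
        rw [mem_Ioo, not_and_or, not_lt, not_lt] at hp
        rw [lt_abs]
        rcases hp with hp | hp
        · right; linarith
        · left; linarith
      have h2 : ∀ᶠ q : ℝ × H in 𝓝 p, 1 / 2 + η / 2 < |q.1 - 1 / 2| :=
        ContinuousAt.eventually_lt continuousAt_const (by fun_prop) h1
      refine (contDiffAt_const (c := (0 : H))).congr_of_eventuallyEq ?_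
      filter_upwards [h2] with q hq
      rw [b.zero_of_le_dist (by rw [Real.dist_eq]; exact hq.le), zero_mul, zero_smul]
  have hc : HasCompactSupport fun p : ℝ × H => (b p.1 * c p.2) • W p := by
    refine HasCompactSupport.intro
      ((isCompact_closedBall (1 / 2 : ℝ) b.rOut).prod (isCompact_closedBall (0 : H) c.rOut))
      fun p hp => ?_
    rw [mem_prod, not_and_or, Metric.mem_closedBall, Metric.mem_closedBall, not_le, not_le] at hp
    rcases hp with hp | hp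
    · rw [b.zero_of_le_dist hp.le, zero_mul, zero_smul]
    · rw [c.zero_of_le_dist hp.le, mul_zero, zero_smul]
  obtain ⟨L, hL⟩ := hs.lipschitzWith_of_hasCompactSupport hc (by simp)
  refine ⟨_, L, hs, hL, fun p => ?_, fun τ hτ x hx => ?_⟩
  · rw [norm_smul, Real.norm_eq_abs, abs_of_nonneg (mul_nonneg b.nonneg c.nonneg)]
    exact mul_le_of_le_one_left (norm_nonneg _) (mul_le_one₀ b.le_one c.nonneg c.le_one)
  · have h1 : b τ = 1 := b.one_of_mem_closedBall (by
      rw [Metric.mem_closedBall, Real.dist_eq, abs_le]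
      change -(1 / 2 : ℝ) ≤ _ ∧ _ ≤ (1 / 2 : ℝ)
      constructor <;> linarith [hτ.1, hτ.2])
    have h2 : c x = 1 := c.one_of_mem_closedBall (by simpa using hx)
    simp only [h1, h2, mul_one, one_smul]

theorem abs_lt_two {t : ℝ} (ht : t ∈ Icc (0 : ℝ) 1) : |t| < 2 :=
  abs_lt.2 ⟨by linarith [ht.1], by linarith [ht.2]⟩

end Crest.Agent.R285.Trans

namespace Crest.Agent.R285

open _root_.Crest.Agent.R285.Trans

theorem transportStmt : StmtTransport := by
  intro H _ _ _ _ _ μ _ Φ W η K₀ hη hΦ hW hK₀ hdiv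
  have : CompleteSpace H := FiniteDimensional.complete ℝ H
  obtain ⟨K, hK, hKW⟩ : ∃ K : ℝ, 0 < K ∧ ∀ τ ∈ Icc (0 : ℝ) 1, ∀ x, ‖W (τ, x)‖ ≤ K * (1 + ‖x‖) :=
    ⟨|K₀| + 1, by positivity, fun τ hτ x => (hK₀ τ hτ x).trans
      (mul_le_mul_of_nonneg_right (by linarith [le_abs_self K₀]) (by positivity))⟩
  choose Y L hY hL hYW hYeq using exists_cut W hη hW
  choose ψ hψ using fun n => exists_CF (Y n) (hY n) (hL n)
  have hb : ∀ (n : ℕ) (x : H) (s : ℝ), s ∈ Icc (0 : ℝ) 1 →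
      ‖Y n (s, ψ n (s, x))‖ ≤ K * (1 + ‖ψ n (s, x)‖) :=
    fun n x s hs => (hYW n _).trans (hKW s hs _)
  have fwd : ∀ (n : ℕ) (x : H), ∀ τ ∈ Icc (0 : ℝ) 1,
      1 + ‖ψ n (τ, x)‖ ≤ Real.exp K * (1 + ‖x‖) := by
    intro n x τ hτ
    have h := growth_fwd hK (fun s => ψ n (s, x)) (fun s => Y n (s, ψ n (s, x))) hτ
      (fun s hs => (hψ n).ode x s (abs_lt_two ⟨hs.1, hs.2.trans hτ.2⟩))
      (fun s hs => hb n x s ⟨hs.1, hs.2.trans hτ.2⟩)
    simpa only [(hψ n).zero] using h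
  have bwd : ∀ (n : ℕ) (x : H), ∀ τ ∈ Icc (0 : ℝ) 1,
      1 + ‖x‖ ≤ Real.exp K * (1 + ‖ψ n (τ, x)‖) := by
    intro n x τ hτ
    have h := growth_bwd hK (fun s => ψ n (s, x)) (fun s => Y n (s, ψ n (s, x))) hτ
      (fun s hs => (hψ n).ode x s (abs_lt_two ⟨hs.1, hs.2.trans hτ.2⟩))
      (fun s hs => hb n x s ⟨hs.1, hs.2.trans hτ.2⟩)
    simpa only [(hψ n).zero] using h
  have small : ∀ (n m : ℕ) (x : H), Real.exp K * (1 + ‖x‖) ≤ m → ∀ τ ∈ Icc (0 : ℝ) 1,
      ‖ψ n (τ, x)‖ < m + 1 := by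
    intro n m x hx τ hτ
    linarith [fwd n x τ hτ]
  have agree : ∀ (n m : ℕ) (x : H), Real.exp K * (1 + ‖x‖) ≤ n → Real.exp K * (1 + ‖x‖) ≤ m →
      ∀ τ ∈ Icc (0 : ℝ) 1, ψ n (τ, x) = ψ m (τ, x) := by
    intro n m x hn hm
    refine ODE_solution_unique (v := fun t y => Y m (t, y)) (K := L m)
      (f := fun s => ψ n (s, x)) (g := fun s => ψ m (s, x)) (a := 0) (b := 1)
      (fun t => by simpa [Function.comp_def] using (hL m).comp (LipschitzWith.prodMk_left t))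
      (fun s hs => ((hψ n).ode x s (abs_lt_two hs)).continuousAt.continuousWithinAt)
      (fun s hs => ?_)
      (fun s hs => ((hψ m).ode x s (abs_lt_two hs)).continuousAt.continuousWithinAt)
      (fun s hs => ((hψ m).ode x s (abs_lt_two (Ico_subset_Icc_self hs))).hasDerivWithinAt)
      (by simp only [(hψ n).zero, (hψ m).zero])
    have hs' := Ico_subset_Icc_self hs
    have h1 := ((hψ n).ode x s (abs_lt_two hs')).hasDerivWithinAt (s := Ici s)
    rwa [hYeq n s hs' _ (small n n x hn s hs').le, ← hYeq m s hs' _ (small n m x hm s hs').le] at h1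
  let N : H → ℕ := fun x => ⌈Real.exp K * (1 + ‖x‖)⌉₊
  have hN : ∀ x, Real.exp K * (1 + ‖x‖) ≤ N x := fun x => Nat.le_ceil _
  let pr : ℝ → ℝ := fun t => projIcc (0 : ℝ) 1 zero_le_one t
  have hpr : ∀ t, pr t ∈ Icc (0 : ℝ) 1 := fun t => (projIcc (0 : ℝ) 1 zero_le_one t).2
  have hpr' : ∀ t ∈ Icc (0 : ℝ) 1, pr t = t := fun t ht => by simp only [pr, projIcc_of_mem _ ht]
  have hprc : Continuous pr := continuous_subtype_val.comp continuous_projIcc
  let φ : ℝ → H → H := fun t x => ψ (N x) (pr t, x)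
  have hφ : ∀ (m : ℕ) (x : H), Real.exp K * (1 + ‖x‖) ≤ m → ∀ t, φ t x = ψ m (pr t, x) :=
    fun m x hm t => agree _ _ x (hN x) hm _ (hpr t)
  have loc : ∀ x₀ : H, ∃ m : ℕ, ∀ᶠ x in 𝓝 x₀, Real.exp K * (1 + ‖x‖) ≤ m := by
    intro x₀
    obtain ⟨m, hm⟩ := exists_nat_gt (Real.exp K * (1 + ‖x₀‖))
    refine ⟨m, ?_⟩
    have : ∀ᶠ x in 𝓝 x₀, Real.exp K * (1 + ‖x‖) < m :=
      ContinuousAt.eventually_lt (by fun_prop) continuousAt_const hm
    exact this.mono fun x hx => hx.le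
  have hcont : Continuous (Function.uncurry φ) := by
    refine continuous_iff_continuousAt.2 fun p => ?_
    obtain ⟨m, hm⟩ := loc p.2
    have h1 : ContinuousAt (fun q : ℝ × H => ψ m (pr q.1, q.2)) p :=
      ContinuousAt.comp (f := fun q : ℝ × H => (pr q.1, q.2))
        ((hψ m).smooth (pr p.1, p.2) (abs_lt_two (hpr _))).continuousAt
        ((hprc.comp continuous_fst).prodMk continuous_snd).continuousAt
    refine h1.congr ?_
    filter_upwards [continuous_snd.continuousAt.eventually hm] with q hq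
    exact (hφ m q.2 hq q.1).symm
  refine ⟨φ, hcont.measurable, fun x => ?_, fun x τ hτ => ?_, fun τ hτ => ?_⟩
  · simp only [φ, hpr' 0 ⟨le_rfl, zero_le_one⟩, (hψ _).zero]
  · have h1 := ((hψ (N x)).ode x τ (abs_lt_two hτ)).hasDerivWithinAt (s := Icc (0 : ℝ) 1)
    rw [hYeq _ τ hτ _ (small _ _ x (hN x) τ hτ).le] at h1
    have h2 : φ τ x = ψ (N x) (τ, x) := by simp only [φ, hpr' τ hτ]
    rw [h2]
    exact h1.congr (fun s hs => by simp only [φ, hpr' s hs]) h2
  · have hτ2 := abs_lt_two hτ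
    have hφτ : ∀ (m : ℕ) (x : H), Real.exp K * (1 + ‖x‖) ≤ m → φ τ x = ψ m (τ, x) :=
      fun m x hm => by rw [hφ m x hm, hpr' τ hτ]
    have hmeas : Measurable (φ τ) := (hcont.comp (Continuous.prodMk_right τ)).measurable
    have hinj : Function.Injective (φ τ) := by
      intro x y hxy
      rw [hφτ (max (N x) (N y)) x ((hN x).trans (by exact_mod_cast le_max_left _ _)),
        hφτ (max (N x) (N y)) y ((hN y).trans (by exact_mod_cast le_max_right _ _))] at hxy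
      exact ((hψ _).bij τ hτ2).1 hxy
    have hsurj : Function.Surjective (φ τ) := by
      intro y
      obtain ⟨m, hm⟩ := exists_nat_ge (Real.exp K * (Real.exp K * (1 + ‖y‖)))
      obtain ⟨x, hx⟩ := ((hψ m).bij τ hτ2).2 y
      have hx' : ψ m (τ, x) = y := hx
      refine ⟨x, ?_⟩
      rw [hφτ m x ?_, hx']
      have h1 := bwd m x τ hτ
      rw [hx'] at h1
      exact (mul_le_mul_of_nonneg_left h1 (Real.exp_pos K).le).trans hm
    have hder : ∀ x, HasFDerivAt (φ τ) (fderiv ℝ (φ τ) x) x ∧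
        Real.exp (-Φ (τ, φ τ x)) * (fderiv ℝ (φ τ) x).det = Real.exp (-Φ (0, x)) := by
      intro x
      obtain ⟨m, hm⟩ := loc x
      have hev : φ τ =ᶠ[𝓝 x] fun y => ψ m (τ, y) := hm.mono fun y hy => hφτ m y hy
      have hd : DifferentiableAt ℝ (fun y => ψ m (τ, y)) x :=
        (((hψ m).smooth (τ, x) hτ2).differentiableAt (by simp)).comp x
          (hasFDerivAt_prodMk_right τ x).differentiableAt
      refine ⟨(hd.congr_of_eventuallyEq hev).hasFDerivAt, ?_⟩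
      rw [hev.fderiv_eq, hev.eq_of_nhds]
      have hx := hm.self_of_nhds
      have hg : ∀ s ∈ Icc (0 : ℝ) 1, HasDerivAt
          (fun s => Real.exp (-Φ (s, ψ m (s, x))) * (fderiv ℝ (fun y => ψ m (s, y)) x).det) 0 s := by
        intro s hs
        have hs2 := abs_lt_two hs
        have h1 := liouville (Y m) (hY m) (ψ m) (hψ m).smooth (hψ m).ode x s hs2
        have h2 : (fun y => Y m (s, y)) =ᶠ[𝓝 (ψ m (s, x))] fun y => W (s, y) := by
          have : ∀ᶠ y in 𝓝 (ψ m (s, x)), ‖y‖ < m + 1 :=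
            ContinuousAt.eventually_lt (by fun_prop) continuousAt_const (small m m x hx s hs)
          exact this.mono fun y hy => hYeq m s hs y hy.le
        rw [h2.fderiv_eq, ← hdiv s hs] at h1
        have h3 := (hψ m).ode x s hs2
        rw [hYeq m s hs _ (small m m x hx s hs).le] at h3
        have h4 : DifferentiableAt ℝ Φ (s, ψ m (s, x)) :=
          (hΦ.contDiffAt ((isOpen_Ioo.prod isOpen_univ).mem_nhds
            ⟨⟨by linarith [hs.1], by linarith [hs.2]⟩, mem_univ _⟩)).differentiableAt (by simp)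
        have h5 : HasDerivAt (fun s => Φ (s, ψ m (s, x)))
            (fderiv ℝ Φ (s, ψ m (s, x)) (1, W (s, ψ m (s, x)))) s :=
          h4.hasFDerivAt.comp_hasDerivAt s ((hasDerivAt_id s).prodMk h3)
        refine HasDerivAt.congr_deriv (h5.fun_neg.exp.fun_mul h1) ?_
        ring
      have h6 := constant_of_has_deriv_right_zero
        (fun s hs => (hg s hs).continuousAt.continuousWithinAt)
        (fun s hs => (hg s (Ico_subset_Icc_self hs)).hasDerivWithinAt) τ hτ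
      have h7 : (fun y => ψ m (0, y)) = id := funext fun y => (hψ m).zero y
      rw [h6, h7, fderiv_id, (hψ m).zero]
      have : (ContinuousLinearMap.id ℝ H).det = 1 := LinearMap.det_id
      rw [this, mul_one]
    ext B hB
    rw [Measure.map_apply hmeas hB, withDensity_apply _ (hmeas hB), withDensity_apply _ hB]
    have h1 := lintegral_image_eq_lintegral_abs_det_fderiv_mul μ (hmeas hB)
      (fun x _ => (hder x).1.hasFDerivWithinAt) hinj.injOn
      (fun y => ENNReal.ofReal (Real.exp (-Φ (τ, y))))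
    rw [image_preimage_eq B hsurj] at h1
    rw [h1]
    refine lintegral_congr fun x => ?_
    have h2 := (hder x).2
    have h3 : 0 < (fderiv ℝ (φ τ) x).det :=
      (mul_pos_iff_of_pos_left (Real.exp_pos _)).1 (h2 ▸ Real.exp_pos _)
    rw [← ENNReal.ofReal_mul (abs_nonneg _), abs_of_pos h3, mul_comm, h2]

end Crest.Agent.R285
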