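import Crest.Agent.R285.DefsT

/-!
# Row 285: norm bounds on the tensor classes `MM`, `HH` (`StmtXB`)
-/

set_option autoImplicit false

open Set
open Crest.OracleSampling

noncomputable section

namespace Crest.Agent.R285.XB

/-- bilinear bound for a kernel -/
def Bnd {X Y : Type} [Fintype X] [Fintype Y] (k : X → Y → ℝ) (C : ℝ) : Prop :=
  ∀ (α : X → ℝ) (β : Y → ℝ),
    |∑ x, ∑ y, k x y * α x * β y| ≤ C * √(∑ x, α x ^ 2) * √(∑ y, β y ^ 2)

section Kernel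

variable {X Y X' Y' : Type} [Fintype X] [Fintype Y] [Fintype X'] [Fintype Y']

theorem Bnd.equiv {k : X → Y → ℝ} {k' : X' → Y' → ℝ} {C : ℝ} (h : Bnd k' C) (eX : X ≃ X')
    (eY : Y ≃ Y') (hk : ∀ x y, k x y = k' (eX x) (eY y)) : Bnd k C := by
  intro α β
  have h1 := h (α ∘ eX.symm) (β ∘ eY.symm)
  rw [← eX.sum_comp, ← eX.sum_comp (fun x => (α ∘ eX.symm) x ^ 2),
    ← eY.sum_comp (fun y => (β ∘ eY.symm) y ^ 2)] at h1
  simp_rw [← eY.sum_comp] at h1
  simpa [hk] using h1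

theorem Bnd.swap {k : X → Y → ℝ} {C : ℝ} (h : Bnd k C) : Bnd (fun y x => k x y) C := by
  intro β α
  have h1 := h α β
  rw [Finset.sum_comm] at h1
  rw [mul_right_comm C]
  simpa only [mul_right_comm _ (α _)] using h1

theorem Bnd.op {k : X → Y → ℝ} {C : ℝ} (h : Bnd k C) (α : X → ℝ) :
    ∑ y, (∑ x, k x y * α x) ^ 2 ≤ C ^ 2 * ∑ x, α x ^ 2 := by
  have h1 := h α fun y => ∑ x, k x y * α x
  have h2 : ∑ x, ∑ y, k x y * α x * ∑ x, k x y * α x = ∑ y, (∑ x, k x y * α x) ^ 2 := by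
    rw [Finset.sum_comm]
    refine Finset.sum_congr rfl fun y _ => ?_
    rw [← Finset.sum_mul, sq]
  rw [h2] at h1
  have hs : 0 ≤ ∑ y, (∑ x, k x y * α x) ^ 2 := Finset.sum_nonneg fun _ _ => sq_nonneg _
  have ha : 0 ≤ ∑ x, α x ^ 2 := Finset.sum_nonneg fun _ _ => sq_nonneg _
  generalize ∑ y, (∑ x, k x y * α x) ^ 2 = s at h1 hs ⊢
  generalize ∑ x, α x ^ 2 = a at h1 ha ⊢
  rw [abs_of_nonneg hs] at h1
  have e1 := Real.sq_sqrt hs
  have e2 := Real.sq_sqrt ha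
  nlinarith [sq_nonneg (C * √a - √s)]

theorem abs_sum_le (f g : X → ℝ) : |∑ x, f x * g x| ≤ √(∑ x, f x ^ 2) * √(∑ x, g x ^ 2) := by
  rw [← Real.sqrt_mul (Finset.sum_nonneg fun _ _ => sq_nonneg _)]
  exact Real.abs_le_sqrt (Finset.sum_mul_sq_le_sq_mul_sq _ _ _)

theorem Bnd.hs {k : X → Y → ℝ} {C : ℝ} (h : Bnd k C) :
    ∑ x, ∑ y, k x y ^ 2 ≤ Fintype.card X * C ^ 2 := by
  classical
  have h1 : ∀ x, ∑ y, k x y ^ 2 ≤ C ^ 2 := by
    intro x
    simpa [Pi.single_apply] using h.op (Pi.single x 1)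
  simpa using Finset.sum_le_card_nsmul Finset.univ _ _ fun x _ => h1 x

theorem sqrt_le_mul {s a C : ℝ} (hC : 0 ≤ C) (h : s ≤ C ^ 2 * a) : √s ≤ C * √a := by
  refine (Real.sqrt_le_sqrt h).trans_eq ?_
  rw [Real.sqrt_mul (sq_nonneg _), Real.sqrt_sq hC]

theorem Bnd.core {X1 X2 Z Y1 Y2 : Type} [Fintype X1] [Fintype X2] [Fintype Z] [Fintype Y1]
    [Fintype Y2] {m : X1 → X2 × Z → ℝ} {n : Z × Y1 → Y2 → ℝ} {C1 C2 : ℝ} (h1 : 0 ≤ C1)
    (h2 : 0 ≤ C2) (hm : Bnd m C1) (hn : Bnd n C2) :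
    Bnd (fun (p : X1 × Y1) (q : X2 × Y2) => ∑ z, m p.1 (q.1, z) * n (z, p.2) q.2) (C1 * C2) := by
  intro α β
  let P : X2 × Z × Y1 → ℝ := fun r => ∑ x1, m x1 (r.1, r.2.1) * α (x1, r.2.2)
  let Q : X2 × Z × Y1 → ℝ := fun r => ∑ y2, n r.2 y2 * β (r.1, y2)
  have e : ∑ p : X1 × Y1, ∑ q : X2 × Y2, (∑ z, m p.1 (q.1, z) * n (z, p.2) q.2) * α p * β q =
      ∑ r, P r * Q r := by
    simp only [P, Q, Fintype.sum_prod_type, Finset.sum_mul, Finset.mul_sum]
    calc ∑ x1, ∑ y1, ∑ x2, ∑ y2, ∑ z, m x1 (x2, z) * n (z, y1) y2 * α (x1, y1) * β (x2, y2)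
        = ∑ r : X1 × Y1 × X2 × Y2 × Z, m r.1 (r.2.2.1, r.2.2.2.2) * n (r.2.2.2.2, r.2.1) r.2.2.2.1 *
            α (r.1, r.2.1) * β (r.2.2.1, r.2.2.2.1) := by simp only [Fintype.sum_prod_type]
      _ = ∑ r : X2 × Z × Y1 × Y2 × X1, m r.2.2.2.2 (r.1, r.2.1) * α (r.2.2.2.2, r.2.2.1) *
            (n (r.2.1, r.2.2.1) r.2.2.2.1 * β (r.1, r.2.2.2.1)) :=
          Fintype.sum_equiv
            ⟨fun r => (r.2.2.1, r.2.2.2.2, r.2.1, r.2.2.2.1, r.1),
              fun r => (r.2.2.2.2, r.2.2.1, r.1, r.2.2.2.1, r.2.1), fun _ => rfl, fun _ => rfl⟩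
            _ _ fun r => by simp only [Equiv.coe_fn_mk]; ring
      _ = _ := by simp only [Fintype.sum_prod_type]
  have hP : ∑ r, P r ^ 2 ≤ C1 ^ 2 * ∑ p, α p ^ 2 := by
    have : ∑ r, P r ^ 2 = ∑ y1, ∑ t : X2 × Z, (∑ x1, m x1 t * α (x1, y1)) ^ 2 := by
      rw [Finset.sum_comm]
      simp only [P, Fintype.sum_prod_type]
    rw [this, Fintype.sum_prod_type_right, Finset.mul_sum]
    exact Finset.sum_le_sum fun y1 _ => hm.op _
  have hQ : ∑ r, Q r ^ 2 ≤ C2 ^ 2 * ∑ q, β q ^ 2 := by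
    rw [Fintype.sum_prod_type, Fintype.sum_prod_type, Finset.mul_sum]
    exact Finset.sum_le_sum fun x2 _ => hn.swap.op fun y2 => β (x2, y2)
  rw [e]
  refine (abs_sum_le P Q).trans ?_
  calc _ ≤ C1 * √(∑ p, α p ^ 2) * (C2 * √(∑ q, β q ^ 2)) :=
        mul_le_mul (sqrt_le_mul h1 hP) (sqrt_le_mul h2 hQ) (Real.sqrt_nonneg _) (by positivity)
    _ = _ := by ring

end Kernel

variable {d : ℕ}

theorem fb_iff {S : Type} (T : (S → Fin d) → ℝ) (C : ℝ) : FB T C ↔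
    ∀ (A B : Type) [Fintype A] [DecidableEq A] [Fintype B] [DecidableEq B] [Nonempty A]
      [Nonempty B] (e : S ≃ A ⊕ B),
      Bnd (fun (u : A → Fin d) (v : B → Fin d) => T (Sum.elim u v ∘ e)) C := Iff.rfl

/-- the part of `A ⊕ B` sent to the left summand -/
theorem exists_left {A B A' B' : Type} (e : A ⊕ B ≃ A' ⊕ B') :
    ∃ f : {a // (e (.inl a)).isLeft} ⊕ {b // (e (.inr b)).isLeft} ≃ A',
      (∀ a, Sum.inl (f (.inl a)) = e (.inl a.1)) ∧ ∀ b, Sum.inl (f (.inr b)) = e (.inr b.1) := by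
  let g : {a // (e (.inl a)).isLeft} ⊕ {b // (e (.inr b)).isLeft} → A' :=
    Sum.elim (fun a => (e (.inl a.1)).getLeft a.2) fun b => (e (.inr b.1)).getLeft b.2
  have hg : ∀ x, Sum.inl (g x) = e (Sum.map Subtype.val Subtype.val x) := by
    rintro (a | b) <;> simp [g]
  refine ⟨Equiv.ofBijective g ⟨fun x y h => ?_, fun a' => ?_⟩, fun a => hg (.inl a),
    fun b => hg (.inr b)⟩
  · have h1 := (hg x).symm.trans ((congrArg Sum.inl h).trans (hg y))
    exact (Subtype.val_injective.sumMap Subtype.val_injective) (e.injective h1)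
  · rcases h : e.symm (.inl a') with a | b
    · have h1 : e (.inl a) = .inl a' := by rw [← h, Equiv.apply_symm_apply]
      exact ⟨.inl ⟨a, by simp [h1]⟩, Sum.inl_injective ((hg _).trans h1)⟩
    · have h1 : e (.inr b) = .inl a' := by rw [← h, Equiv.apply_symm_apply]
      exact ⟨.inr ⟨b, by simp [h1]⟩, Sum.inl_injective ((hg _).trans h1)⟩

/-- the part of `A ⊕ B` sent to the right summand -/
theorem exists_right {A B A' B' : Type} (e : A ⊕ B ≃ A' ⊕ B') :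
    ∃ f : {a // ¬ (e (.inl a)).isLeft} ⊕ {b // ¬ (e (.inr b)).isLeft} ≃ B',
      (∀ a, Sum.inr (f (.inl a)) = e (.inl a.1)) ∧ ∀ b, Sum.inr (f (.inr b)) = e (.inr b.1) := by
  let g : {a // ¬ (e (.inl a)).isLeft} ⊕ {b // ¬ (e (.inr b)).isLeft} → B' :=
    Sum.elim (fun a => (e (.inl a.1)).getRight (Sum.not_isLeft.1 a.2))
      fun b => (e (.inr b.1)).getRight (Sum.not_isLeft.1 b.2)
  have hg : ∀ x, Sum.inr (g x) = e (Sum.map Subtype.val Subtype.val x) := by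
    rintro (a | b) <;> simp [g]
  refine ⟨Equiv.ofBijective g ⟨fun x y h => ?_, fun a' => ?_⟩, fun a => hg (.inl a),
    fun b => hg (.inr b)⟩
  · have h1 := (hg x).symm.trans ((congrArg Sum.inr h).trans (hg y))
    exact (Subtype.val_injective.sumMap Subtype.val_injective) (e.injective h1)
  · rcases h : e.symm (.inr a') with a | b
    · have h1 : e (.inl a) = .inr a' := by rw [← h, Equiv.apply_symm_apply]
      exact ⟨.inl ⟨a, by simp [h1]⟩, Sum.inr_injective ((hg _).trans h1)⟩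
    · have h1 : e (.inr b) = .inr a' := by rw [← h, Equiv.apply_symm_apply]
      exact ⟨.inr ⟨b, by simp [h1]⟩, Sum.inr_injective ((hg _).trans h1)⟩

theorem star_case {A C B A' B' : Type} [Fintype A] [Fintype C] [DecidableEq C] [Fintype B]
    [Nonempty C] [Fintype A'] [DecidableEq A'] [Fintype B'] [DecidableEq B']
    {M : (A ⊕ C → Fin d) → ℝ} {N : (C ⊕ B → Fin d) → ℝ} {C1 C2 : ℝ} (h1 : 0 ≤ C1) (h2 : 0 ≤ C2)
    (hM : FB M C1) (hN : FB N C2) (e : A ⊕ B ≃ A' ⊕ B') (ha : ∃ a, (e (.inl a)).isLeft)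
    (hb : ∃ b, ¬ (e (.inr b)).isLeft) :
    Bnd (fun (u : A' → Fin d) (v : B' → Fin d) => ∑ w : C → Fin d,
      M (Sum.elim ((Sum.elim u v ∘ e) ∘ Sum.inl) w) * N (Sum.elim w ((Sum.elim u v ∘ e) ∘ Sum.inr)))
      (C1 * C2) := by
  classical
  obtain ⟨f, hf1, hf2⟩ := exists_left e
  obtain ⟨g, hg1, hg2⟩ := exists_right e
  have : Nonempty {a // (e (.inl a)).isLeft} := let ⟨a, h⟩ := ha; ⟨⟨a, h⟩⟩
  have : Nonempty {b // ¬ (e (.inr b)).isLeft} := let ⟨b, h⟩ := hb; ⟨⟨b, h⟩⟩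
  let eA := Equiv.sumCompl fun a => (e (.inl a)).isLeft
  let eB := Equiv.sumCompl fun b => (e (.inr b)).isLeft
  let eM := (Equiv.sumCongr eA.symm (Equiv.refl C)).trans (Equiv.sumAssoc _ _ _)
  let eN := (Equiv.sumCongr (Equiv.refl C) eB.symm).trans (Equiv.sumAssoc _ _ _).symm
  have hm := ((fb_iff M C1).1 hM _ _ eM).equiv (Equiv.refl _)
    (Equiv.sumArrowEquivProdArrow _ _ (Fin d)).symm fun _ _ => rfl
  have hn := ((fb_iff N C2).1 hN _ _ eN).equiv (Equiv.sumArrowEquivProdArrow _ _ (Fin d)).symm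
    (Equiv.refl _) fun _ _ => rfl
  refine (Bnd.core h1 h2 hm hn).equiv
    ((Equiv.arrowCongr f.symm (Equiv.refl _)).trans (Equiv.sumArrowEquivProdArrow _ _ (Fin d)))
    ((Equiv.arrowCongr g.symm (Equiv.refl _)).trans (Equiv.sumArrowEquivProdArrow _ _ (Fin d)))
    fun u v => ?_
  refine Finset.sum_congr rfl fun w _ => ?_
  congr 2
  · funext s
    rcases s with a | c
    · obtain ⟨a, rfl⟩ := eA.surjective a
      rcases a with a | a
      · have h3 : eM (.inl (eA (.inl a))) = .inl a := by simp [eM]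
        have h4 : e (.inl (eA (.inl a))) = .inl (f (.inl a)) := (hf1 a).symm
        simp only [Function.comp_apply, Sum.elim_inl, h3, h4]
        rfl
      · have h3 : eM (.inl (eA (.inr a))) = .inr (.inl a) := by simp [eM]
        have h4 : e (.inl (eA (.inr a))) = .inr (g (.inl a)) := (hg1 a).symm
        simp only [Function.comp_apply, Sum.elim_inl, Sum.elim_inr, h3, h4]
        rfl
    · rfl
  · funext s
    rcases s with c | b
    · rfl
    · obtain ⟨b, rfl⟩ := eB.surjective b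
      rcases b with b | b
      · have h3 : eN (.inr (eB (.inl b))) = .inl (.inr b) := by simp [eN]
        have h4 : e (.inr (eB (.inl b))) = .inl (f (.inr b)) := (hf2 b).symm
        simp only [Function.comp_apply, Sum.elim_inl, Sum.elim_inr, h3, h4]
        rfl
      · have h3 : eN (.inr (eB (.inr b))) = .inr b := by simp [eN]
        have h4 : e (.inr (eB (.inr b))) = .inr (g (.inr b)) := (hg2 b).symm
        simp only [Function.comp_apply, Sum.elim_inr, h3, h4]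
        rfl

theorem fb_star {A C B : Type} [Fintype A] [Fintype C] [DecidableEq C] [Fintype B] [Nonempty A]
    [Nonempty C] [Nonempty B] {M : (A ⊕ C → Fin d) → ℝ} {N : (C ⊕ B → Fin d) → ℝ} {C1 C2 : ℝ}
    (h1 : 0 ≤ C1) (h2 : 0 ≤ C2) (hM : FB M C1) (hN : FB N C2) :
    FB (fun u : A ⊕ B → Fin d => ∑ w : C → Fin d,
      M (Sum.elim (u ∘ Sum.inl) w) * N (Sum.elim w (u ∘ Sum.inr))) (C1 * C2) := by
  rw [fb_iff]
  intro A' B' _ _ _ _ _ _ e
  by_cases hc : (∃ a, (e (.inl a)).isLeft) ∧ ∃ b, ¬ (e (.inr b)).isLeft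
  · exact star_case h1 h2 hM hN e hc.1 hc.2
  · have key : (∃ a, ¬ (e (.inl a)).isLeft) ∧ ∃ b, (e (.inr b)).isLeft := by
      rw [not_and_or, not_exists, not_exists] at hc
      rcases hc with hc | hc
      · refine ⟨⟨Classical.arbitrary A, hc _⟩, ?_⟩
        rcases h : e.symm (.inl (Classical.arbitrary A')) with a | b
        · exact absurd (by rw [← h]; simp) (hc a)
        · exact ⟨b, by rw [← h]; simp⟩
      · refine ⟨?_, ⟨Classical.arbitrary B, not_not.1 (hc _)⟩⟩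
        rcases h : e.symm (.inr (Classical.arbitrary B')) with a | b
        · exact ⟨a, by rw [← h]; simp⟩
        · exact absurd (by rw [← h]; simp) (hc b)
    obtain ⟨⟨a, ha⟩, ⟨b, hb⟩⟩ := key
    have h3 := (star_case h1 h2 hM hN (e.trans (Equiv.sumComm _ _)) ⟨a, by simpa using ha⟩
      ⟨b, by simpa using hb⟩).swap
    refine h3.equiv (Equiv.refl _) (Equiv.refl _) fun u v => ?_
    have h4 : Sum.elim v u ∘ (e.trans (Equiv.sumComm _ _)) = Sum.elim u v ∘ e := by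
      funext s
      simp only [Function.comp_apply, Equiv.trans_apply]
      rcases e s with x | x <;> rfl
    simp only [Equiv.refl_apply, h4]

theorem fb_smul {S : Type} {T : (S → Fin d) → ℝ} {C c c' : ℝ} (h : FB T C)
    (hc : |c| ≤ c') : FB (fun u => c * T u) (c' * C) := by
  intro A B _ _ _ _ _ _ e α β
  have h1 := h A B e α β
  simp_rw [mul_assoc c, ← Finset.mul_sum]
  rw [abs_mul, mul_assoc c', mul_assoc c']
  exact mul_le_mul hc h1 (abs_nonneg _) ((abs_nonneg _).trans hc)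

theorem mm (hF : StmtFB) (S : Type) (T : XT S) (h : MM S T) : ∃ C : ℝ, 0 ≤ C ∧
    ∀ (I : Inst) (p : ℝ × E I.d), p.1 ∈ Icc (1 / 2 : ℝ) 1 → FB (fun u => T I u p) C := by
  induction h with
  | base k =>
    obtain ⟨C, hC⟩ := hF k
    refine ⟨|C|, abs_nonneg _, fun I p hp => ?_⟩
    have hδ := I.pot.pos
    have h1 : FB (fun u : Fin (k + 2) → Fin I.d => iterN (List.ofFn u) (Fx I.U) p) (|C| * I.δ) := by
      intro A B _ _ _ _ _ _ e α β
      refine (hC I.d I.δ I.U I.pot I.hδ p hp A B e α β).trans ?_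
      gcongr
      exact le_abs_self C
    have h2 := fb_smul (c := I.δ⁻¹) h1 (abs_of_pos (inv_pos.2 hδ)).le
    rwa [mul_comm |C|, inv_mul_cancel_left₀ hδ.ne'] at h2
  | add _ _ ih1 ih2 =>
    obtain ⟨C1, h1, H1⟩ := ih1
    obtain ⟨C2, h2, H2⟩ := ih2
    refine ⟨C1 + C2, add_nonneg h1 h2, fun I p hp A B _ _ _ _ _ _ e α β => ?_⟩
    simp only [add_mul, Finset.sum_add_distrib]
    exact (abs_add_le _ _).trans (add_le_add (H1 I p hp A B e α β) (H2 I p hp A B e α β))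
  | smul c C hc _ ih =>
    obtain ⟨C1, h1, H1⟩ := ih
    exact ⟨|C| * C1, by positivity, fun I p hp =>
      fb_smul (H1 I p hp) ((hc I).trans (le_abs_self C))⟩
  | star _ _ ih1 ih2 =>
    obtain ⟨C1, h1, H1⟩ := ih1
    obtain ⟨C2, h2, H2⟩ := ih2
    refine ⟨C1 * C2, mul_nonneg h1 h2, fun I p hp => ?_⟩
    have h3 := fb_star h1 h2 (H1 I p hp) (H2 I p hp)
    simpa only [star] using h3
  | congr e _ he ih =>
    obtain ⟨C1, h1, H1⟩ := ih
    refine ⟨C1, h1, fun I p hp A B _ _ _ _ _ _ e' α β => ?_⟩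
    have hp0 : 0 < p.1 := lt_of_lt_of_le (by norm_num) hp.1
    simp only [he I _ p hp0]
    exact H1 I p hp A B (e.trans e') α β

theorem sum_split {X Y Z : Type} [Fintype X] [Fintype Y] [Fintype Z] (e : X × Y ≃ Z) (f : Z → ℝ) :
    ∑ z, f z = ∑ x, ∑ y, f (e (x, y)) := by
  rw [← e.sum_comp, Fintype.sum_prod_type]

theorem hh (hF : StmtFB) (S : Type) (T : XT S) (h : HH S T) : ∀ [Fintype S] [DecidableEq S],
    ∃ C : ℝ, 0 ≤ C ∧ ∀ (I : Inst) (p : ℝ × E I.d), p.1 ∈ Icc (1 / 2 : ℝ) 1 →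
      ∑ u, T I u p ^ 2 ≤ C * I.d := by
  induction h with
  | @ofM S _ T hM =>
    intro _ _
    obtain ⟨C, hC, H⟩ := mm hF S T hM
    refine ⟨C ^ 2, sq_nonneg _, fun I p hp => ?_⟩
    obtain ⟨s, s', hs⟩ := exists_pair_ne S
    have : Nonempty {x // ¬ x = s} := ⟨⟨s', hs.symm⟩⟩
    let e := Equiv.sumCompl fun x => x = s
    have h1 := ((fb_iff _ _).1 (H I p hp) _ _ e.symm).hs
    rw [sum_split ((Equiv.sumArrowEquivProdArrow _ _ (Fin I.d)).symm.trans
      (Equiv.arrowCongr e (Equiv.refl _)))]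
    rw [mul_comm]
    have h2 : (Fintype.card ({x // x = s} → Fin I.d) : ℝ) = I.d := by simp
    rw [h2] at h1
    exact h1
  | add _ _ ih1 ih2 =>
    intro _ _
    obtain ⟨C1, h1, H1⟩ := ih1
    obtain ⟨C2, h2, H2⟩ := ih2
    refine ⟨2 * C1 + 2 * C2, by positivity, fun I p hp => ?_⟩
    have a1 := H1 I p hp
    have a2 := H2 I p hp
    refine le_trans (Finset.sum_le_sum fun u _ => add_sq_le) ?_
    rw [← Finset.mul_sum, Finset.sum_add_distrib]
    linarith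
  | smul c C hc _ ih =>
    intro _ _
    obtain ⟨C1, h1, H1⟩ := ih
    refine ⟨C ^ 2 * C1, by positivity, fun I p hp => ?_⟩
    simp only [mul_pow, ← Finset.mul_sum]
    rw [mul_assoc]
    exact mul_le_mul (sq_le_sq' (abs_le.1 (hc I)).1 (abs_le.1 (hc I)).2) (H1 I p hp)
      (Finset.sum_nonneg fun _ _ => sq_nonneg _) (sq_nonneg _)
  | @star A C B _ _ _ _ _ _ M N hM _ ih =>
    intro _ _
    classical
    obtain ⟨C1, h1, H1⟩ := mm hF _ M hM
    obtain ⟨C2, h2, H2⟩ := ih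
    refine ⟨C1 ^ 2 * C2, by positivity, fun I p hp => ?_⟩
    have a1 := ((fb_iff _ _).1 (H1 I p hp) A C (Equiv.refl _)).swap
    have a2 := H2 I p hp
    rw [sum_split (Equiv.sumArrowEquivProdArrow _ _ (Fin I.d)).symm, Finset.sum_comm] at a2 ⊢
    rw [mul_assoc]
    refine le_trans ?_ (mul_le_mul_of_nonneg_left a2 (sq_nonneg C1))
    rw [Finset.mul_sum]
    exact Finset.sum_le_sum fun v _ => a1.op fun w => N I (Sum.elim w v) p
  | @congr S S' e T T' _ he ih =>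
    intro _ _
    classical
    have : Fintype S := Fintype.ofEquiv S' e.symm
    obtain ⟨C1, h1, H1⟩ := ih
    refine ⟨C1, h1, fun I p hp => ?_⟩
    have hp0 : 0 < p.1 := lt_of_lt_of_le (by norm_num) hp.1
    simp only [he I _ p hp0]
    refine le_trans (le_of_eq ?_) (H1 I p hp)
    exact Fintype.sum_equiv (Equiv.arrowCongr e.symm (Equiv.refl _)) _ _ fun u => rfl

end Crest.Agent.R285.XB

namespace Crest.Agent.R285

theorem xbStmt (hF : StmtFB) : StmtXB := ⟨XB.mm hF, XB.hh hF⟩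

end Crest.Agent.R285
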