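import Crest.Agent.R285.DefsT

/-!
# Row 285 (S0430): closure of `MM`, `HH` under `∇` and `q` (`xcStmt`)
-/

set_option autoImplicit false

open MeasureTheory ProbabilityTheory Set Filter Topology
open scoped ENNReal NNReal ContDiff RealInnerProductSpace
open Crest.OracleSampling

noncomputable section

namespace Crest.Agent.R285

namespace XC

variable {d : ℕ}

/-! ### scalar calculus -/

/-- directional derivative -/
def dv (v : ℝ × E d) (φ : ℝ × E d → ℝ) (p : ℝ × E d) : ℝ := fderiv ℝ φ p v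

theorem isOpen_pos : IsOpen {p : ℝ × E d | 0 < p.1} := isOpen_lt continuous_const continuous_fst

theorem at_of {φ : ℝ × E d → ℝ} (h : Smx φ) {p : ℝ × E d} (hp : 0 < p.1) : ContDiffAt ℝ ∞ φ p :=
  ContDiffOn.contDiffAt h (isOpen_pos.mem_nhds hp)

theorem diff_of {φ : ℝ × E d → ℝ} (h : Smx φ) {p : ℝ × E d} (hp : 0 < p.1) :
    DifferentiableAt ℝ φ p := (at_of h hp).differentiableAt (by simp)

theorem smx_dv (v : ℝ × E d) {φ : ℝ × E d → ℝ} (h : Smx φ) : Smx (dv v φ) :=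
  (ContDiffOn.fderiv_of_isOpen h isOpen_pos (m := ∞) (by simp)).clm_apply contDiffOn_const

theorem smx_congr {φ ψ : ℝ × E d → ℝ} (h : Smx φ) (e : ∀ p : ℝ × E d, 0 < p.1 → ψ p = φ p) :
    Smx ψ := ContDiffOn.congr h e

theorem smx_add {φ ψ : ℝ × E d → ℝ} (h : Smx φ) (h' : Smx ψ) : Smx fun p => φ p + ψ p :=
  ContDiffOn.add h h'

theorem smx_mul {φ ψ : ℝ × E d → ℝ} (h : Smx φ) (h' : Smx ψ) : Smx fun p => φ p * ψ p :=
  ContDiffOn.mul h h'

theorem smx_cmul (c : ℝ) {φ : ℝ × E d → ℝ} (h : Smx φ) : Smx fun p => c * φ p :=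
  ContDiffOn.mul contDiffOn_const h

theorem smx_sum {κ : Type} [Fintype κ] {φ : κ → ℝ × E d → ℝ} (h : ∀ i, Smx (φ i)) :
    Smx fun p => ∑ i, φ i p := ContDiffOn.sum fun i _ => h i

theorem dv_congr (v : ℝ × E d) {φ ψ : ℝ × E d → ℝ} (e : ∀ p : ℝ × E d, 0 < p.1 → ψ p = φ p)
    {p : ℝ × E d} (hp : 0 < p.1) : dv v ψ p = dv v φ p := by
  have : ψ =ᶠ[𝓝 p] φ := by
    filter_upwards [isOpen_pos.mem_nhds hp] with q hq using e q hq
  rw [dv, dv, this.fderiv_eq]

theorem dv_add (v : ℝ × E d) {φ ψ : ℝ × E d → ℝ} (h : Smx φ) (h' : Smx ψ) {p : ℝ × E d}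
    (hp : 0 < p.1) : dv v (fun p => φ p + ψ p) p = dv v φ p + dv v ψ p := by
  rw [dv, fderiv_fun_add (diff_of h hp) (diff_of h' hp)]
  rfl

theorem dv_mul (v : ℝ × E d) {φ ψ : ℝ × E d → ℝ} (h : Smx φ) (h' : Smx ψ) {p : ℝ × E d}
    (hp : 0 < p.1) : dv v (fun p => φ p * ψ p) p = dv v φ p * ψ p + φ p * dv v ψ p := by
  rw [dv, fderiv_fun_mul (diff_of h hp) (diff_of h' hp)]
  simp only [ContinuousLinearMap.add_apply, ContinuousLinearMap.smul_apply, smul_eq_mul, dv]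
  ring

theorem dv_cmul (v : ℝ × E d) (c : ℝ) {φ : ℝ × E d → ℝ} (h : Smx φ) {p : ℝ × E d}
    (hp : 0 < p.1) : dv v (fun p => c * φ p) p = c * dv v φ p := by
  rw [dv, fderiv_const_mul (diff_of h hp)]
  rfl

theorem dv_sum (v : ℝ × E d) {κ : Type} [Fintype κ] {φ : κ → ℝ × E d → ℝ} (h : ∀ i, Smx (φ i))
    {p : ℝ × E d} (hp : 0 < p.1) : dv v (fun p => ∑ i, φ i p) p = ∑ i, dv v (φ i) p := by
  rw [dv, fderiv_fun_sum fun i _ => diff_of (h i) hp]
  simp only [ContinuousLinearMap.sum_apply, dv]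

theorem dv_comm (v w : ℝ × E d) {φ : ℝ × E d → ℝ} (h : Smx φ) {p : ℝ × E d} (hp : 0 < p.1) :
    dv v (dv w φ) p = dv w (dv v φ) p := by
  have h1 : DifferentiableAt ℝ (fderiv ℝ φ) p :=
    ((at_of h hp).fderiv_right (m := 1) (by norm_cast)).differentiableAt (by simp)
  have h2 : ∀ v w, dv v (dv w φ) p = fderiv ℝ (fderiv ℝ φ) p v w := by
    intro v w
    unfold dv
    rw [fderiv_clm_apply h1 (differentiableAt_const _)]
    simp
  rw [h2, h2]
  exact ((at_of h hp).isSymmSndFDerivAt (by simp; norm_cast)).eq v w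

theorem nab_eq (i : Fin d) : nab i = dv (0, ee i) := rfl

theorem dt_eq : (dt : (ℝ × E d → ℝ) → _) = dv (1, 0) := rfl

theorem smx_nab (i : Fin d) {φ : ℝ × E d → ℝ} (h : Smx φ) : Smx (nab i φ) := smx_dv _ h

theorem smx_iterN (l : List (Fin d)) {φ : ℝ × E d → ℝ} (h : Smx φ) : Smx (iterN l φ) := by
  induction l with
  | nil => exact h
  | cons i l ih => exact smx_nab i ih

variable {U : E d → ℝ}

theorem qq_eq (φ : ℝ × E d → ℝ) : qq U φ = fun p => (-2) * dt φ p + ∑ l, nab l (nab l φ) p +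
    (-2) * ∑ l, nab l (Fx U) p * nab l φ p := by
  funext p
  rw [qq]
  ring

theorem smx_qq (hF : Smx (Fx U)) {φ : ℝ × E d → ℝ} (h : Smx φ) : Smx (qq U φ) := by
  rw [qq_eq]
  exact smx_add (smx_add (smx_cmul _ (smx_dv _ h)) (smx_sum fun l => smx_nab l (smx_nab l h)))
    (smx_cmul _ (smx_sum fun l => smx_mul (smx_nab l hF) (smx_nab l h)))

theorem qq_congr {φ ψ : ℝ × E d → ℝ} (e : ∀ p : ℝ × E d, 0 < p.1 → ψ p = φ p)
    {p : ℝ × E d} (hp : 0 < p.1) : qq U ψ p = qq U φ p := by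
  simp only [qq, nab_eq, dt_eq, dv_congr _ e hp,
    dv_congr _ (fun q hq => dv_congr _ e (p := q) hq) hp]

theorem qq_add {φ ψ : ℝ × E d → ℝ} (h : Smx φ) (h' : Smx ψ) {p : ℝ × E d} (hp : 0 < p.1) :
    qq U (fun p => φ p + ψ p) p = qq U φ p + qq U ψ p := by
  simp only [qq, nab_eq, dt_eq, dv_add _ h h' hp,
    dv_congr _ (fun q hq => dv_add _ h h' (p := q) hq) hp,
    dv_add _ (smx_dv _ h) (smx_dv _ h') hp, mul_add, Finset.sum_add_distrib]
  ring

theorem qq_cmul (c : ℝ) {φ : ℝ × E d → ℝ} (h : Smx φ) {p : ℝ × E d} (hp : 0 < p.1) :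
    qq U (fun p => c * φ p) p = c * qq U φ p := by
  simp only [qq, nab_eq, dt_eq, dv_cmul _ c h hp,
    dv_congr _ (fun q hq => dv_cmul _ c h (p := q) hq) hp, dv_cmul _ c (smx_dv _ h) hp,
    mul_left_comm _ c, ← Finset.mul_sum]
  ring

theorem qq_sum {κ : Type} [Fintype κ] {φ : κ → ℝ × E d → ℝ} (h : ∀ i, Smx (φ i))
    {p : ℝ × E d} (hp : 0 < p.1) : qq U (fun p => ∑ i, φ i p) p = ∑ i, qq U (φ i) p := by
  simp only [qq, nab_eq, dt_eq, dv_sum _ h hp,
    dv_congr _ (fun q hq => dv_sum _ h (p := q) hq) hp, dv_sum _ (fun i => smx_dv _ (h i)) hp,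
    Finset.sum_add_distrib, Finset.sum_sub_distrib, Finset.mul_sum]
  rw [Finset.sum_comm, Finset.sum_comm (s := (Finset.univ : Finset (Fin d)))]

theorem qq_mul {φ ψ : ℝ × E d → ℝ} (h : Smx φ) (h' : Smx ψ) {p : ℝ × E d} (hp : 0 < p.1) :
    qq U (fun p => φ p * ψ p) p =
      qq U φ p * ψ p + φ p * qq U ψ p + 2 * ∑ l, nab l φ p * nab l ψ p := by
  simp only [qq, nab_eq, dt_eq, dv_mul _ h h' hp,
    dv_congr _ (fun q hq => dv_mul _ h h' (p := q) hq) hp,
    dv_add _ (smx_mul (smx_dv _ h) h') (smx_mul h (smx_dv _ h')) hp,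
    dv_mul _ (smx_dv _ h) h' hp, dv_mul _ h (smx_dv _ h') hp, mul_add, add_mul, sub_mul, mul_sub,
    Finset.sum_add_distrib, Finset.mul_sum, Finset.sum_mul, two_mul]
  simp only [mul_assoc, mul_left_comm (φ p)]
  ring

theorem qq_nab (hF : Smx (Fx U)) (i : Fin d) {φ : ℝ × E d → ℝ} (h : Smx φ) {p : ℝ × E d}
    (hp : 0 < p.1) :
    qq U (nab i φ) p = nab i (qq U φ) p + 2 * ∑ l, Jx U i l p * nab l φ p := by
  have e1 : ∀ l, nab l (nab l (nab i φ)) p = nab i (nab l (nab l φ)) p := fun l => by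
    rw [nab_eq, nab_eq, dv_congr _ (fun q hq => dv_comm _ _ h (p := q) hq) hp,
      dv_comm _ _ (smx_dv _ h) hp]
  rw [qq_eq φ, nab_eq i, dt_eq, dv_add _ (smx_add (smx_cmul _ (smx_dv _ h))
      (smx_sum fun l => smx_nab l (smx_nab l h)))
      (smx_cmul _ (smx_sum fun l => smx_mul (smx_nab l hF) (smx_nab l h))) hp,
    dv_add _ (smx_cmul _ (smx_dv _ h)) (smx_sum fun l => smx_nab l (smx_nab l h)) hp,
    dv_cmul _ _ (smx_dv _ h) hp, dv_sum _ (fun l => smx_nab l (smx_nab l h)) hp,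
    dv_cmul _ _ (smx_sum fun l => smx_mul (smx_nab l hF) (smx_nab l h)) hp,
    dv_sum _ (fun l => smx_mul (smx_nab l hF) (smx_nab l h)) hp, ← nab_eq, qq]
  simp only [e1]
  simp only [nab_eq, dt_eq, Jx, dv_mul _ (smx_dv _ hF) (smx_dv _ h) hp, dv_comm (0, ee i) _ h hp,
    Finset.sum_add_distrib]
  ring

theorem qq_grad (hS : StmtSmooth) {δ : ℝ} (hU : Pot δ U) (i : Fin d) {p : ℝ × E d}
    (hp : 0 < p.1) : qq U (nab i (Fx U)) p = 0 := by
  have hF := hS.smooth d δ U hU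
  have e : ∀ p : ℝ × E d, 0 < p.1 →
      qq U (Fx U) p = (-1) * ∑ l, nab l (Fx U) p * nab l (Fx U) p := fun p hp => by
    rw [qq, hS.pde d δ U hU p hp]
    simp only [sq]
    ring
  rw [qq_nab hF i hF hp, nab_eq i, dv_congr _ e hp,
    dv_cmul _ _ (smx_sum fun l => smx_mul (smx_nab l hF) (smx_nab l hF)) hp,
    dv_sum _ (fun l => smx_mul (smx_nab l hF) (smx_nab l hF)) hp]
  simp only [nab_eq, Jx, dv_mul _ (smx_dv _ hF) (smx_dv _ hF) hp, Finset.sum_add_distrib,
    mul_comm (dv _ (Fx U) p)]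
  ring

/-! ### tensors -/

/-- the gradient of a tensor -/
def NT {S : Type} (T : (S → Fin d) → ℝ × E d → ℝ) (u : Option S → Fin d) : ℝ × E d → ℝ :=
  nab (u none) (T (u ∘ some))

def oL (A B : Type) : Option (A ⊕ B) ≃ Option A ⊕ B where
  toFun o := o.elim (.inl none) (Sum.map some id)
  invFun := Sum.elim (fun o => o.map .inl) fun b => some (.inr b)
  left_inv := by rintro (_ | _ | _) <;> rfl
  right_inv := by rintro ((_ | _) | _) <;> rfl

def oR (A B : Type) : Option (A ⊕ B) ≃ A ⊕ Option B where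
  toFun o := o.elim (.inr none) (Sum.map id some)
  invFun := Sum.elim (fun a => some (.inl a)) fun o => o.map .inr
  left_inv := by rintro (_ | _ | _) <;> rfl
  right_inv := by rintro (_ | _ | _) <;> rfl

def oU (S : Type) : Option S ≃ Unit ⊕ S where
  toFun o := o.elim (.inl ()) .inr
  invFun := Sum.elim (fun _ => none) some
  left_inv := by rintro (_ | _) <;> rfl
  right_inv := by rintro (_ | _) <;> rfl

def e2 : Fin 2 ≃ Unit ⊕ Unit where
  toFun := ![.inl (), .inr ()]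
  invFun := Sum.elim (fun _ => 0) fun _ => 1
  left_inv := by intro i; fin_cases i <;> rfl
  right_inv := by rintro (_ | _) <;> rfl

section star

variable {A C B : Type} [Fintype C] [DecidableEq C] {M : (A ⊕ C → Fin d) → ℝ × E d → ℝ}
  {N : (C ⊕ B → Fin d) → ℝ × E d → ℝ}

theorem star_eq (u : A ⊕ B → Fin d) : star M N u =
    fun y => ∑ w : C → Fin d, M (Sum.elim (u ∘ Sum.inl) w) y * N (Sum.elim w (u ∘ Sum.inr)) y :=
  rfl

theorem smx_star (hM : ∀ u, Smx (M u)) (hN : ∀ u, Smx (N u)) (u : A ⊕ B → Fin d) :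
    Smx (star M N u) := smx_sum fun _ => smx_mul (hM _) (hN _)

theorem NT_star (hM : ∀ u, Smx (M u)) (hN : ∀ u, Smx (N u)) (u : Option (A ⊕ B) → Fin d)
    {p : ℝ × E d} (hp : 0 < p.1) :
    NT (star M N) u p = star (fun v => NT M (v ∘ oL A C)) N (u ∘ (oL A B).symm) p +
      star M (fun v => NT N (v ∘ oR C B)) (u ∘ (oR A B).symm) p := by
  rw [NT, star_eq, nab_eq, dv_sum _ (fun _ => smx_mul (hM _) (hN _)) hp, star, star,
    ← Finset.sum_add_distrib]
  refine Finset.sum_congr rfl fun w _ => ?_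
  rw [dv_mul _ (hM _) (hN _) hp]
  have e1 : (Sum.elim ((u ∘ (oL A B).symm) ∘ Sum.inl) w ∘ oL A C) ∘ some =
      Sum.elim ((u ∘ some) ∘ Sum.inl) w := by
    funext x; cases x <;> rfl
  have e2 : (Sum.elim w ((u ∘ (oR A B).symm) ∘ Sum.inr) ∘ oR C B) ∘ some =
      Sum.elim w ((u ∘ some) ∘ Sum.inr) := by
    funext x; cases x <;> rfl
  rw [NT, NT, e1, e2]
  rfl

theorem qq_star (hM : ∀ u, Smx (M u)) (hN : ∀ u, Smx (N u)) (u : A ⊕ B → Fin d)
    {p : ℝ × E d} (hp : 0 < p.1) :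
    qq U (star M N u) p = star (fun v => qq U (M v)) N u p + star M (fun v => qq U (N v)) u p +
      2 * star (fun v => NT M (v ∘ oR A C)) (fun v => NT N (v ∘ oL C B)) u p := by
  rw [star_eq, qq_sum (fun _ => smx_mul (hM _) (hN _)) hp, star, star, star,
    ← (Equiv.piOptionEquivProd (β := fun _ : Option C => Fin d)).symm.sum_comp,
    Fintype.sum_prod_type, Finset.sum_comm (s := (Finset.univ : Finset (Fin d))), Finset.mul_sum,
    ← Finset.sum_add_distrib, ← Finset.sum_add_distrib]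
  refine Finset.sum_congr rfl fun w _ => ?_
  rw [qq_mul (hM _) (hN _) hp]
  congr 2
  refine Finset.sum_congr rfl fun l _ => ?_
  have e1 : (Sum.elim (u ∘ Sum.inl) ((Equiv.piOptionEquivProd
      (β := fun _ : Option C => Fin d)).symm (l, w)) ∘ oR A C) ∘ some =
      Sum.elim (u ∘ Sum.inl) w := by
    funext x; cases x <;> rfl
  have e2 : (Sum.elim ((Equiv.piOptionEquivProd (β := fun _ : Option C => Fin d)).symm (l, w))
      (u ∘ Sum.inr) ∘ oL C B) ∘ some = Sum.elim w (u ∘ Sum.inr) := by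
    funext x; cases x <;> rfl
  rw [NT, NT, e1, e2]
  rfl

end star

theorem mm_re {S S' : Type} (e : S ≃ S') {T : XT S} (h : MM S T) :
    MM S' fun I u => T I (u ∘ e) := MM.congr e h fun _ _ _ _ => rfl

theorem hh_re {S S' : Type} (e : S ≃ S') {T : XT S} (h : HH S T) :
    HH S' fun I u => T I (u ∘ e) := HH.congr e h fun _ _ _ _ => rfl

theorem mm_eq {S : Type} {T T' : XT S} (h : MM S T)
    (e : ∀ I u p, 0 < p.1 → T' I u p = T I u p) : MM S T' := MM.congr (Equiv.refl S) h e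

theorem hh_eq {S : Type} {T T' : XT S} (h : HH S T)
    (e : ∀ I u p, 0 < p.1 → T' I u p = T I u p) : HH S T' := HH.congr (Equiv.refl S) h e

theorem mm_smx (hS : StmtSmooth) {S : Type} {T : XT S} (h : MM S T) :
    Finite S ∧ ∀ I u, Smx (T I u) := by
  induction h with
  | base k => exact ⟨inferInstance, fun I u => smx_cmul _ (smx_iterN _ (hS.smooth _ _ _ I.pot))⟩
  | add _ _ ih ih' => exact ⟨ih.1, fun I u => smx_add (ih.2 I u) (ih'.2 I u)⟩
  | smul c C hc _ ih => exact ⟨ih.1, fun I u => smx_cmul _ (ih.2 I u)⟩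
  | star _ _ ih ih' => exact ⟨inferInstance, fun I u => smx_star (ih.2 I) (ih'.2 I) u⟩
  | congr e _ he ih =>
    have := ih.1
    exact ⟨Finite.of_equiv _ e, fun I u => smx_congr (ih.2 I _) (he I u)⟩

theorem hh_smx (hS : StmtSmooth) {S : Type} {T : XT S} (h : HH S T) :
    Finite S ∧ ∀ I u, Smx (T I u) := by
  induction h with
  | ofM h => exact mm_smx hS h
  | add _ _ ih ih' => exact ⟨ih.1, fun I u => smx_add (ih.2 I u) (ih'.2 I u)⟩
  | smul c C hc _ ih => exact ⟨ih.1, fun I u => smx_cmul _ (ih.2 I u)⟩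
  | star hM _ ih' => exact ⟨inferInstance, fun I u => smx_star ((mm_smx hS hM).2 I) (ih'.2 I) u⟩
  | congr e _ he ih =>
    have := ih.1
    exact ⟨Finite.of_equiv _ e, fun I u => smx_congr (ih.2 I _) (he I u)⟩

theorem ofFn_opt {k : ℕ} (u : Option (Fin k) → Fin d) :
    List.ofFn (u ∘ finSuccEquiv k) = u none :: List.ofFn (u ∘ some) := by
  rw [List.ofFn_succ]
  simp [Function.comp_def]

theorem NT_congr {S S' : Type} (e : S ≃ S') {T : (S → Fin d) → ℝ × E d → ℝ}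
    {T' : (S' → Fin d) → ℝ × E d → ℝ} (he : ∀ u p, 0 < p.1 → T' u p = T (u ∘ e) p)
    (u : Option S' → Fin d) {p : ℝ × E d} (hp : 0 < p.1) :
    NT T' u p = NT T (u ∘ e.optionCongr) p := dv_congr _ (he _) hp

theorem mm_N (hS : StmtSmooth) {S : Type} {T : XT S} (h : MM S T) :
    MM (Option S) fun I => NT (T I) := by
  induction h with
  | base k =>
    refine MM.congr (finSuccEquiv (k + 2)) (MM.base (k + 1)) fun I u p hp => ?_
    rw [ofFn_opt]
    exact dv_cmul _ _ (smx_iterN _ (hS.smooth _ _ _ I.pot)) hp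
  | add h h' ih ih' =>
    exact mm_eq (ih.add ih') fun I u p hp =>
      dv_add _ ((mm_smx hS h).2 I _) ((mm_smx hS h').2 I _) hp
  | smul c C hc h ih =>
    exact mm_eq (ih.smul c C hc) fun I u p hp => dv_cmul _ _ ((mm_smx hS h).2 I _) hp
  | @star A C B _ _ _ _ _ _ _ M N h h' ih ih' =>
    exact mm_eq ((mm_re (oL A B).symm ((mm_re (oL A C) ih).star h')).add
      (mm_re (oR A B).symm (h.star (mm_re (oR C B) ih')))) fun I u p hp =>
      NT_star ((mm_smx hS h).2 I) ((mm_smx hS h').2 I) u hp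
  | congr e _ he ih =>
    exact MM.congr e.optionCongr ih fun I u p hp => NT_congr e (he I) u hp

theorem hh_N (hS : StmtSmooth) {S : Type} {T : XT S} (h : HH S T) :
    HH (Option S) fun I => NT (T I) := by
  induction h with
  | ofM h => exact HH.ofM (mm_N hS h)
  | add h h' ih ih' =>
    exact hh_eq (ih.add ih') fun I u p hp =>
      dv_add _ ((hh_smx hS h).2 I _) ((hh_smx hS h').2 I _) hp
  | smul c C hc h ih =>
    exact hh_eq (ih.smul c C hc) fun I u p hp => dv_cmul _ _ ((hh_smx hS h).2 I _) hp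
  | @star A C B _ _ _ _ _ _ M N h h' ih' =>
    exact hh_eq ((hh_re (oL A B).symm (HH.star (mm_re (oL A C) (mm_N hS h)) h')).add
      (hh_re (oR A B).symm (HH.star h (hh_re (oR C B) ih')))) fun I u p hp =>
      NT_star ((mm_smx hS h).2 I) ((hh_smx hS h').2 I) u hp
  | congr e _ he ih =>
    exact HH.congr e.optionCongr ih fun I u p hp => NT_congr e (he I) u hp

theorem mm_jmul {S : Type} [Fintype S] [Nonempty S] {T : XT (Option S)} (h : MM (Option S) T) :
    MM (Option S) fun I u p => ∑ m, I.δ⁻¹ * Jx I.U (u none) m p *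
      T I (fun o => o.elim m (u ∘ some)) p := by
  refine MM.congr (oU S).symm ((mm_re e2 (MM.base 0)).star (mm_re (oU S) h)) fun I u p _ => ?_
  rw [star, ← (Equiv.funUnique Unit (Fin I.d)).symm.sum_comp]
  refine Finset.sum_congr rfl fun m _ => ?_
  have e1 : (Sum.elim ((Equiv.funUnique Unit (Fin I.d)).symm m) ((u ∘ (oU S).symm) ∘ Sum.inr) ∘
      oU S) = fun o => o.elim m (u ∘ some) := by
    funext o; cases o <;> rfl
  rw [e1]
  rfl

theorem two_delta (I : Inst) : |2 * I.δ| ≤ 1 := by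
  have := I.pot.pos
  have := I.hδ
  rw [abs_le]
  constructor <;> linarith

theorem qq_iter (hS : StmtSmooth) (I : Inst) {k : ℕ} (u : Option (Fin k) → Fin I.d)
    {p : ℝ × E I.d} (hp : 0 < p.1) :
    qq I.U (fun p => I.δ⁻¹ * iterN (List.ofFn (u ∘ finSuccEquiv k)) (Fx I.U) p) p =
      nab (u none) (qq I.U fun p => I.δ⁻¹ * iterN (List.ofFn (u ∘ some)) (Fx I.U) p) p +
      2 * I.δ * ∑ m, I.δ⁻¹ * Jx I.U (u none) m p * (I.δ⁻¹ *
        iterN (List.ofFn ((fun o => o.elim m (u ∘ some)) ∘ finSuccEquiv k)) (Fx I.U) p) := by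
  have hF := hS.smooth _ _ _ I.pot
  have h1 := smx_iterN (List.ofFn (u ∘ some)) hF
  have hδ := I.pot.pos.ne'
  rw [qq_cmul _ (smx_iterN _ hF) hp, nab_eq, dv_congr _ (fun q hq => qq_cmul _ h1 (p := q) hq) hp,
    dv_cmul _ _ (smx_qq hF h1) hp, ofFn_opt]
  simp only [ofFn_opt]
  rw [show iterN (u none :: List.ofFn (u ∘ some)) (Fx I.U) =
    nab (u none) (iterN (List.ofFn (u ∘ some)) (Fx I.U)) from rfl, qq_nab hF _ h1 hp, mul_add,
    Finset.mul_sum, Finset.mul_sum, Finset.mul_sum]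
  congr 1
  refine Finset.sum_congr rfl fun m _ => ?_
  change _ = 2 * I.δ * (I.δ⁻¹ * Jx I.U (u none) m p *
    (I.δ⁻¹ * nab m (iterN (List.ofFn (u ∘ some)) (Fx I.U)) p))
  field_simp

theorem mm_Q_base (hS : StmtSmooth) (k : ℕ) : MM (Fin (k + 2))
    fun I u => qq I.U fun p => I.δ⁻¹ * iterN (List.ofFn u) (Fx I.U) p := by
  have key : ∀ k : ℕ, MM (Option (Fin (k + 1))) (fun I u =>
      nab (u none) (qq I.U fun p => I.δ⁻¹ * iterN (List.ofFn (u ∘ some)) (Fx I.U) p)) →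
      MM (Fin (k + 2)) fun I u => qq I.U fun p => I.δ⁻¹ * iterN (List.ofFn u) (Fx I.U) p := by
    intro k h
    refine MM.congr (finSuccEquiv (k + 1)).symm (h.add ((mm_jmul
      (mm_re (finSuccEquiv (k + 1)) (MM.base k))).smul (fun I => 2 * I.δ) 1 two_delta))
      fun I u p hp => ?_
    rw [← qq_iter hS I _ hp, Function.comp_assoc, Equiv.symm_comp_self, Function.comp_id]
  induction k with
  | zero =>
    refine key 0 (mm_eq ((mm_re (finSuccEquiv 1) (MM.base 0)).smul (fun _ => 0) 0 (by simp))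
      fun I u p hp => ?_)
    have hF := hS.smooth _ _ _ I.pot
    have e : ∀ q : ℝ × E I.d, 0 < q.1 →
        qq I.U (fun p => I.δ⁻¹ * iterN (List.ofFn (u ∘ some)) (Fx I.U) p) q = 0 := fun q hq => by
      rw [qq_cmul _ (smx_iterN _ hF) hq, List.ofFn_succ, List.ofFn_zero]
      exact mul_eq_zero_of_right _ (qq_grad hS I.pot _ hq)
    rw [nab_eq, dv_congr _ e hp, zero_mul]
    simp [dv]
  | succ k ih => exact key (k + 1) (mm_N hS ih)

theorem mm_Q (hS : StmtSmooth) {S : Type} {T : XT S} (h : MM S T) :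
    MM S fun I u => qq I.U (T I u) := by
  induction h with
  | base k => exact mm_Q_base hS k
  | add h h' ih ih' =>
    exact mm_eq (ih.add ih') fun I u p hp => qq_add ((mm_smx hS h).2 I _) ((mm_smx hS h').2 I _) hp
  | smul c C hc h ih =>
    exact mm_eq (ih.smul c C hc) fun I u p hp => qq_cmul _ ((mm_smx hS h).2 I _) hp
  | @star A C B _ _ _ _ _ _ _ M N h h' ih ih' =>
    exact mm_eq (((ih.star h').add (h.star ih')).add
      (((mm_re (oR A C) (mm_N hS h)).star (mm_re (oL C B) (mm_N hS h'))).smul (fun _ => 2) 2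
        (by simp))) fun I u p hp => qq_star ((mm_smx hS h).2 I) ((mm_smx hS h').2 I) u hp
  | congr e _ he ih => exact MM.congr e ih fun I u p hp => qq_congr (he I u) hp

theorem hh_Q (hS : StmtSmooth) {S : Type} {T : XT S} (h : HH S T) :
    HH S fun I u => qq I.U (T I u) := by
  induction h with
  | ofM h => exact HH.ofM (mm_Q hS h)
  | add h h' ih ih' =>
    exact hh_eq (ih.add ih') fun I u p hp => qq_add ((hh_smx hS h).2 I _) ((hh_smx hS h').2 I _) hp
  | smul c C hc h ih =>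
    exact hh_eq (ih.smul c C hc) fun I u p hp => qq_cmul _ ((hh_smx hS h).2 I _) hp
  | @star A C B _ _ _ _ _ _ M N h h' ih' =>
    exact hh_eq (((HH.star (mm_Q hS h) h').add (HH.star h ih')).add
      ((HH.star (mm_re (oR A C) (mm_N hS h)) (hh_re (oL C B) (hh_N hS h'))).smul (fun _ => 2) 2
        (by simp))) fun I u p hp => qq_star ((mm_smx hS h).2 I) ((hh_smx hS h').2 I) u hp
  | congr e _ he ih => exact HH.congr e ih fun I u p hp => qq_congr (he I u) hp

end XC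

theorem xcStmt (hS : StmtSmooth) : StmtXC where
  mm _ _ h := ⟨(XC.mm_smx hS h).1, (XC.mm_smx hS h).2, XC.mm_N hS h, XC.mm_Q hS h⟩
  hh _ _ h := ⟨(XC.hh_smx hS h).1, (XC.hh_smx hS h).2, XC.hh_N hS h, XC.hh_Q hS h⟩

end Crest.Agent.R285
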